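import Vale.Agent.P315.OT.Setup

/-!
P315, one-scale track, block OT-3: proof of `StmtCur` (pathwise facts about the curves of the
comparison path), and the passage from the machine inequality in the rounds of a region to the
inequality in the static index.
-/

set_option autoImplicit false

namespace Vale.Agent.P315.OT

open Finset Vale.Agent.P315.Q976

variable {I : Inst} {X : Sched} {J : ℕ}

/-! ### The comparison path -/

theorem div_child {M t i : ℕ} (hi : i < M) : (M * t + i) / M = t := by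
  rw [Nat.mul_add_div (by omega), Nat.div_eq_of_lt hi, Nat.add_zero]

theorem mod_child {M t i : ℕ} (hi : i < M) : (M * t + i) % M = i := by
  rw [Nat.mul_add_mod, Nat.mod_eq_of_lt hi]

theorem depth {n j : ℕ} (hj : j < n) : n - j = (n - (j + 1)) + 1 := by omega

theorem depth' {n j : ℕ} (hj : j < n) : n - (n - (j + 1)) - 1 = j := by omega

theorem lin_child {M n j t i : ℕ} {xi : ℕ → ℕ → ℕ} (hj : j < n) (hi : i < M) :
    lin M n xi (n - j) (M * t + i) = lin M n xi (n - (j + 1)) t + xi j (t * M + i) := by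
  rw [depth hj, lin, div_child hi, depth' hj, mul_comm M t]

theorem lin_le {M J : ℕ} {xi : ℕ → ℕ → ℕ} (h : ∀ j s, xi j s ≤ J) (n d t : ℕ) :
    lin M n xi d t ≤ J * d := by
  induction d generalizing t with
  | zero => simp [lin]
  | succ d ih =>
    have h1 := ih (t / M)
    have h2 := h (n - d - 1) t
    have h3 : J * (d + 1) = J * d + J := by ring
    simp only [lin]
    omega

/-- The comparison path below a node. -/
theorem Inst.pst_child {n Y l0 j t i u v : ℕ} (hj : j < n) (hi : i < I.M)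
    (h : I.pst n Y l0 (n - (j + 1)) t = .inl (u, v)) :
    I.pst n Y l0 (n - j) (I.M * t + i) =
      if I.opt j t u v (i + 1) - I.opt j t u v i ≤ I.w then
        .inl (I.opt j t u v i, I.opt j t u v (i + 1))
      else .inr (((I.opt j t u v (i + 1) - I.opt j t u v i : ℕ) : ℝ) * I.g j /
        (I.M ^ j * l0)) := by
  rw [depth hj, Inst.pst, div_child hi, mod_child hi, depth' hj, h]

/-- The comparison path below a jump. -/
theorem Inst.pst_child_dead {n Y l0 j t i : ℕ} {r : ℝ} (hj : j < n) (hi : i < I.M)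
    (h : I.pst n Y l0 (n - (j + 1)) t = .inr r) :
    I.pst n Y l0 (n - j) (I.M * t + i) = .inr r := by
  rw [depth hj, Inst.pst, div_child hi, mod_child hi, h]

/-- The nodes of the comparison path are nodes, and short if the root is short. -/
theorem Inst.pst_ok (hM : 1 ≤ I.M) (n Y l0 : ℕ) (hY : Y ≤ I.w) : ∀ d t u v,
    I.pst n Y l0 d t = .inl (u, v) → u ≤ v ∧ v ≤ u + I.w := by
  intro d
  induction d with
  | zero =>
    intro t u v h
    simp only [Inst.pst, Sum.inl.injEq, Prod.mk.injEq] at h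
    omega
  | succ d ih =>
    intro t u v h
    rw [Inst.pst] at h
    rcases hs : I.pst n Y l0 d (t / I.M) with ⟨a, b⟩ | r
    · rw [hs] at h
      dsimp only at h
      have hab := (ih _ _ _ hs).1
      have hch := (Inst.opt_spec (I := I) hM (n - d - 1) (t / I.M) hab).1
      split_ifs at h with hw
      simp only [Sum.inl.injEq, Prod.mk.injEq] at h
      obtain ⟨rfl, rfl⟩ := h
      have := hch.mono _ (Nat.mod_lt t (by omega : 0 < I.M))
      omega
    · rw [hs] at h
      simp at h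

/-! ### The curves -/

/-- The true cost per unit of time of the comparison path in the slab `(j, t)`. -/
noncomputable def Inst.dcur (I : Inst) (n Y l0 j t : ℕ) : ℝ :=
  match I.pst n Y l0 (n - j) t with
  | .inr x => x
  | .inl (u, v) => (I.D I.hid j t u v : ℝ) / (I.M ^ j * l0)

theorem Inst.cur_live {n Y l0 j t u v : ℕ} (β : ℕ) (h : I.pst n Y l0 (n - j) t = .inl (u, v)) :
    I.cur X n Y l0 j t β =
      (I.c X j t u v (β - lin I.M n X.xi (n - j) t) : ℝ) / (I.M ^ j * l0) := by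
  unfold Inst.cur; rw [h]

theorem Inst.cur_dead {n Y l0 j t : ℕ} {r : ℝ} (β : ℕ) (h : I.pst n Y l0 (n - j) t = .inr r) :
    I.cur X n Y l0 j t β = r := by
  unfold Inst.cur; rw [h]

theorem Inst.dcur_live {n Y l0 j t u v : ℕ} (h : I.pst n Y l0 (n - j) t = .inl (u, v)) :
    I.dcur n Y l0 j t = (I.D I.hid j t u v : ℝ) / (I.M ^ j * l0) := by
  unfold Inst.dcur; rw [h]

theorem Inst.dcur_dead {n Y l0 j t : ℕ} {r : ℝ} (h : I.pst n Y l0 (n - j) t = .inr r) :
    I.dcur n Y l0 j t = r := by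
  unfold Inst.dcur; rw [h]

theorem Inst.dcur_zero (n Y l0 r : ℕ) : I.dcur n Y l0 0 r = I.dl n Y l0 r := by
  unfold Inst.dcur Inst.dl
  rw [Nat.sub_zero]
  rcases I.pst n Y l0 n r with ⟨u, v⟩ | x
  · simp [Inst.D]
  · rfl

/-- The curve of a child of a node of the comparison path = the cost of its edge in the own round
of the node. -/
theorem Inst.cur_kid {n Y l0 j t u v i : ℕ} (β : ℕ) (hj : j < n) (hi : i < I.M)
    (h : I.pst n Y l0 (n - (j + 1)) t = .inl (u, v)) :
    I.cur X n Y l0 j (I.M * t + i) β =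
      (I.e X j t (β - lin I.M n X.xi (n - (j + 1)) t) i (I.opt j t u v i)
        (I.opt j t u v (i + 1)) : ℝ) / (I.M ^ j * l0) := by
  have h1 := Inst.pst_child hj hi h
  rw [Inst.e_def]
  unfold Inst.edge
  split_ifs at h1 ⊢ with hw
  · rw [Inst.cur_live β h1, lin_child hj hi, ← Nat.sub_sub, mul_comm I.M t]
  · rw [Inst.cur_dead β h1]
    push_cast
    rfl

theorem Inst.cur_kid_dead {n Y l0 j t i : ℕ} {r : ℝ} (β : ℕ) (hj : j < n) (hi : i < I.M)
    (h : I.pst n Y l0 (n - (j + 1)) t = .inr r) : I.cur X n Y l0 j (I.M * t + i) β = r :=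
  Inst.cur_dead β (Inst.pst_child_dead hj hi h)

theorem Inst.dcur_kid {n Y l0 j t u v i : ℕ} (hj : j < n) (hi : i < I.M)
    (h : I.pst n Y l0 (n - (j + 1)) t = .inl (u, v)) :
    I.dcur n Y l0 j (I.M * t + i) =
      (I.edge j (I.D I.hid j (t * I.M + i)) (I.opt j t u v i)
        (I.opt j t u v (i + 1)) : ℝ) / (I.M ^ j * l0) := by
  have h1 := Inst.pst_child hj hi h
  unfold Inst.edge
  split_ifs at h1 ⊢ with hw
  · rw [Inst.dcur_live h1, mul_comm I.M t]
  · rw [Inst.dcur_dead h1]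
    push_cast
    rfl

theorem Inst.dcur_kid_dead {n Y l0 j t i : ℕ} {r : ℝ} (hj : j < n) (hi : i < I.M)
    (h : I.pst n Y l0 (n - (j + 1)) t = .inr r) : I.dcur n Y l0 j (I.M * t + i) = r :=
  Inst.dcur_dead (Inst.pst_child_dead hj hi h)

/-! ### Averages over the children -/

theorem isKerU {M : ℕ} (hM : 0 < M) (n : ℕ) : Ker.IsKer M n (uW M n) (uP M) := by
  have h := H866.isKer_unif hM n
  have h1 : uW M n = fun j _ => ((M : ℝ) ^ (n - j))⁻¹ := by
    unfold uW; funext j t; rw [one_div]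
  have h2 : uP M = fun _ _ _ => (M : ℝ)⁻¹ := by
    unfold uP; funext j t i; rw [one_div]
  rw [h1, h2]; exact h

theorem ch_const {M : ℕ} (hM : 0 < M) {j t : ℕ} {f : ℕ → ℝ} {r : ℝ}
    (h : ∀ i < M, f (M * t + i) = r) : Ker.ch M (uP M) j f t = r := by
  have hM' : (M : ℝ) ≠ 0 := by positivity
  have h1 : ∀ i ∈ range M, uP M j t i * f (M * t + i) = 1 / (M : ℝ) * r := fun i hi => by
    rw [h i (Finset.mem_range.1 hi)]; rfl
  unfold Ker.ch
  rw [Finset.sum_congr rfl h1, Finset.sum_const, Finset.card_range, nsmul_eq_mul]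
  field_simp

/-- Average over the children of natural edge costs. -/
theorem ch_edge {M : ℕ} {j t : ℕ} {f : ℕ → ℝ} {g : ℕ → ℝ} {l : ℝ}
    (h : ∀ i < M, f (M * t + i) = g i / ((M : ℝ) ^ j * l)) :
    Ker.ch M (uP M) j f t = (∑ i ∈ range M, g i) / ((M : ℝ) ^ (j + 1) * l) := by
  unfold Ker.ch
  rw [Finset.sum_div]
  refine Finset.sum_congr rfl fun i hi => ?_
  rw [h i (Finset.mem_range.1 hi)]
  unfold uP
  rw [one_div, inv_mul_eq_div, div_div]
  congr 1
  ring

/-- Cost of the comparison chain of the node in round `k`. -/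
noncomputable def Inst.V (I : Inst) (X : Sched) (j t u v k : ℕ) : ℕ :=
  chainCost (I.e X j t k) I.M (I.opt j t u v)

theorem Inst.ch_live {n Y l0 j t u v : ℕ} (β : ℕ) (hj : j < n)
    (h : I.pst n Y l0 (n - (j + 1)) t = .inl (u, v)) :
    Ker.ch I.M (uP I.M) j (fun s => I.cur X n Y l0 j s β) t =
      (I.V X j t u v (β - lin I.M n X.xi (n - (j + 1)) t) : ℝ) / (I.M ^ (j + 1) * l0) := by
  rw [ch_edge (l := l0) (g := fun i => (I.e X j t (β - lin I.M n X.xi (n - (j + 1)) t) i
    (I.opt j t u v i) (I.opt j t u v (i + 1)) : ℝ)) fun i hi => Inst.cur_kid β hj hi h]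
  unfold Inst.V chainCost
  push_cast
  rfl

theorem Inst.ch_dead (hM : 0 < I.M) {n Y l0 j t : ℕ} {r : ℝ} (β : ℕ) (hj : j < n)
    (h : I.pst n Y l0 (n - (j + 1)) t = .inr r) :
    Ker.ch I.M (uP I.M) j (fun s => I.cur X n Y l0 j s β) t = r :=
  ch_const hM fun _ hi => Inst.cur_kid_dead β hj hi h

/-- The gain of a live region. -/
theorem Inst.gain_live {n Y l0 j t u v : ℕ} (β : ℕ) (hj : j < n)
    (h : I.pst n Y l0 (n - (j + 1)) t = .inl (u, v)) :
    Ker.gain I.M (uP I.M) (I.cur X n Y l0) j t β =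
      ((I.V X j t u v (β - lin I.M n X.xi (n - (j + 1)) t) : ℝ) -
        I.c X (j + 1) t u v (β - lin I.M n X.xi (n - (j + 1)) t)) / (I.M ^ (j + 1) * l0) := by
  unfold Ker.gain
  rw [Inst.ch_live β hj h, Inst.cur_live β h, sub_div]

theorem Inst.ch_dcur (hM : 1 ≤ I.M) {n Y l0 j t : ℕ} (hY : Y ≤ I.w) (hj : j < n) :
    Ker.ch I.M (uP I.M) j (fun s => I.dcur n Y l0 j s) t = I.dcur n Y l0 (j + 1) t := by
  rcases hs : I.pst n Y l0 (n - (j + 1)) t with ⟨u, v⟩ | r
  · have huv := (Inst.pst_ok (I := I) hM n Y l0 hY _ _ _ _ hs).1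
    rw [Inst.dcur_live hs, ← (Inst.opt_spec hM j t huv).2,
      ch_edge (l := l0) (g := fun i => (I.edge j (I.D I.hid j (t * I.M + i)) (I.opt j t u v i)
        (I.opt j t u v (i + 1)) : ℝ)) fun i hi => Inst.dcur_kid hj hi hs]
    unfold chainCost
    push_cast
    rfl
  · rw [Inst.dcur_dead hs]
    exact ch_const hM fun _ hi => Inst.dcur_kid_dead hj hi hs

/-- The average of the true costs of the leaves is the full value of the root. -/
theorem Inst.av_dcur (hM : 1 ≤ I.M) (n Y l0 : ℕ) (hY : Y ≤ I.w) :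
    Ker.av I.M n (uW I.M n) 0 (I.dl n Y l0) = (I.D I.hid n 0 0 Y : ℝ) / (I.M ^ n * l0) := by
  have hk := isKerU hM n
  have h : ∀ j ≤ n, Ker.av I.M n (uW I.M n) 0 (I.dl n Y l0) =
      Ker.av I.M n (uW I.M n) j (fun t => I.dcur n Y l0 j t) := by
    intro j
    induction j with
    | zero =>
      intro _
      congr 1
      funext t
      rw [Inst.dcur_zero]
    | succ j ih =>
      intro hj
      rw [ih (by omega), Ker.av_succ hk (by omega)]
      congr 1
      funext t
      exact Inst.ch_dcur hM hY (by omega)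
  have h0 : I.pst n Y l0 (n - n) 0 = .inl (0, Y) := by
    rw [Nat.sub_self]; rfl
  rw [h n le_rfl, Ker.av_top hk, Inst.dcur_live h0]

/-! ### The facts about the curves -/

theorem len_pos (hM : 1 ≤ I.M) {l0 : ℕ} (hl : 1 ≤ l0) (j : ℕ) :
    (0 : ℝ) < (I.M : ℝ) ^ j * l0 := by
  have h1 : (0 : ℝ) < I.M := by exact_mod_cast hM
  have h2 : (0 : ℝ) < l0 := by exact_mod_cast hl
  positivity

theorem Inst.gain_nonneg (hM : 1 ≤ I.M) {n Y l0 j t : ℕ} (hl : 1 ≤ l0) (hY : Y ≤ I.w)
    (hj : j < n) (β : ℕ) : 0 ≤ Ker.gain I.M (uP I.M) (I.cur X n Y l0) j t β := by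
  have hT := len_pos hM hl (j + 1)
  unfold Ker.gain
  rw [sub_nonneg]
  rcases hs : I.pst n Y l0 (n - (j + 1)) t with ⟨u, v⟩ | r
  · have huv := (Inst.pst_ok (I := I) hM n Y l0 hY _ _ _ _ hs).1
    rw [Inst.ch_live β hj hs, Inst.cur_live β hs]
    refine div_le_div_of_nonneg_right ?_ hT.le
    exact_mod_cast (Inst.c_le_dp (I := I) (X := X) j t u v _).trans
      (best_le (Inst.opt_spec hM j t huv).1)
  · rw [Inst.ch_dead hM β hj hs, Inst.cur_dead β hs]

theorem Inst.cur_antitone (hI : I.Ok) (hX : X.Ok I.M J) {n Y l0 : ℕ} (hl : 1 ≤ l0)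
    (hY : Y ≤ I.w) (j t : ℕ) {β β' : ℕ} (h : β ≤ β') :
    I.cur X n Y l0 j t β' ≤ I.cur X n Y l0 j t β := by
  have hM : 1 ≤ I.M := by have := hI.M_two; omega
  have hT := len_pos hM hl j
  rcases hs : I.pst n Y l0 (n - j) t with ⟨u, v⟩ | r
  · have huv := (Inst.pst_ok (I := I) hM n Y l0 hY _ _ _ _ hs).1
    rw [Inst.cur_live β hs, Inst.cur_live β' hs]
    refine div_le_div_of_nonneg_right ?_ hT.le
    exact_mod_cast Inst.c_antitone hI hX huv (Nat.sub_le_sub_right h _)
  · rw [Inst.cur_dead β hs, Inst.cur_dead β' hs]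

theorem Inst.dcur_le (hI : I.Ok) (hX : X.Ok I.M J) {n Y l0 : ℕ} (hl : 1 ≤ l0) (hY : Y ≤ I.w)
    (j t β : ℕ) : I.dcur n Y l0 j t ≤ I.cur X n Y l0 j t β := by
  have hM : 1 ≤ I.M := by have := hI.M_two; omega
  have hT := len_pos hM hl j
  rcases hs : I.pst n Y l0 (n - j) t with ⟨u, v⟩ | r
  · have huv := (Inst.pst_ok (I := I) hM n Y l0 hY _ _ _ _ hs).1
    rw [Inst.cur_live β hs, Inst.dcur_live hs]
    refine div_le_div_of_nonneg_right ?_ hT.le
    exact_mod_cast Inst.D_le_c hI hX j t u v _ huv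
  · rw [Inst.cur_dead β hs, Inst.dcur_dead hs]

/-- The leaves: read from the static index `Ξ + 2` on. -/
theorem Inst.leaf_le {n Y l0 : ℕ} (hl : 1 ≤ l0)
    (hvis : ∀ s u v, I.vis s u v ≤ I.hid s u v + l0) (r β : ℕ) :
    I.cur X n Y l0 0 r β ≤ I.dl n Y l0 r +
      if β < lin I.M n X.xi n r + 2 then 1 else 0 := by
  have hl' : (0 : ℝ) < l0 := by exact_mod_cast hl
  rw [← Inst.dcur_zero]
  rcases hs : I.pst n Y l0 (n - 0) r with ⟨u, v⟩ | x
  · rw [Inst.cur_live β hs, Inst.dcur_live hs, Inst.c_zero, pow_zero, one_mul, Nat.sub_zero]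
    have hD : I.D I.hid 0 r u v = I.hid r u v := rfl
    rw [hD]
    split_ifs with h2 h3 h3
    · linarith [div_nonneg (Nat.cast_nonneg (α := ℝ) (I.hid r u v)) hl'.le]
    · rw [add_zero]
    · rw [div_le_iff₀ hl', add_mul, div_mul_cancel₀ _ hl'.ne', one_mul]
      exact_mod_cast hvis r u v
    · omega
  · rw [Inst.cur_dead β hs, Inst.dcur_dead hs]
    split_ifs <;> linarith

/-- On every level the certified cost exceeds the true cost by at most `1`. -/
theorem Inst.cur_le_dcur (hM : 1 ≤ I.M) {n Y l0 : ℕ} (hl : 1 ≤ l0) (hY : Y ≤ I.w)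
    (hvis : ∀ s u v, I.vis s u v ≤ I.hid s u v + l0) : ∀ j ≤ n, ∀ t < I.M ^ (n - j), ∀ β,
    I.cur X n Y l0 j t β ≤ I.dcur n Y l0 j t + 1 := by
  intro j
  induction j with
  | zero =>
    intro _ t _ β
    have h := Inst.leaf_le (X := X) hl hvis (n := n) (Y := Y) t β
    rw [← Inst.dcur_zero] at h
    split_ifs at h <;> linarith
  | succ j ih =>
    intro hj t ht β
    have hk := isKerU hM n
    have h1 := Inst.gain_nonneg (X := X) hM hl hY (by omega : j < n) (t := t) β
    unfold Ker.gain at h1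
    have h2 : Ker.ch I.M (uP I.M) j (fun s => I.cur X n Y l0 j s β) t ≤
        Ker.ch I.M (uP I.M) j (fun s => I.dcur n Y l0 j s + 1) t := by
      unfold Ker.ch
      refine Finset.sum_le_sum fun i hi => mul_le_mul_of_nonneg_left ?_ ?_
      · exact ih (by omega) _ (Ker.child_lt (by omega) ht (Finset.mem_range.1 hi)) β
      · exact hk.p0 j (by omega) t ht i (Finset.mem_range.1 hi)
    have h3 : Ker.ch I.M (uP I.M) j (fun s => I.dcur n Y l0 j s + 1) t =
        I.dcur n Y l0 (j + 1) t + 1 := by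
      rw [← Inst.ch_dcur hM hY (by omega : j < n)]
      have h4 : (1 : ℝ) = Ker.ch I.M (uP I.M) j (fun _ => (1 : ℝ)) t :=
        (ch_const hM fun _ _ => rfl).symm
      conv_rhs => rw [h4]
      unfold Ker.ch
      rw [← Finset.sum_add_distrib]
      exact Finset.sum_congr rfl fun i _ => mul_add _ _ _
    linarith

/-- **OT-3.** -/
theorem stmtCur : StmtCur := by
  intro I X n Y l0 J hI hX hl hvis hY
  have hM : 1 ≤ I.M := by have := hI.M_two; omega
  have hroot := Inst.av_dcur hM n Y l0 hY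
  have h0 : I.pst n Y l0 (n - n) 0 = .inl (0, Y) := by
    rw [Nat.sub_self]; rfl
  have htop : ∀ β, I.cur X n Y l0 n 0 β = (I.c X n 0 0 Y β : ℝ) / (I.M ^ n * l0) := by
    intro β
    rw [Inst.cur_live β h0, Nat.sub_self]
    rfl
  refine ⟨isKerU hM n, fun j hj t _ β => Inst.gain_nonneg hM hl hY hj β, ?_,
    fun r _ β => Inst.leaf_le hl hvis r β, ?_, hroot, htop, ?_⟩
  · intro j _ t _ β
    unfold Ker.nu
    rw [sub_nonneg]
    exact Inst.cur_antitone hI hX hl hY j t (Nat.le_succ β)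
  · intro β
    rw [hroot, htop]
    refine div_le_div_of_nonneg_right ?_ (len_pos hM hl n).le
    exact_mod_cast Inst.D_le_c hI hX n 0 0 Y β (Nat.zero_le _)
  · intro j hj t ht β β' _
    have h1 := Inst.cur_le_dcur (X := X) hM hl hY hvis j hj t ht β
    have h2 := Inst.dcur_le hI hX hl hY j t β' (n := n)
    linarith

/-! ### From the rounds of a region to the static index -/

/-- Drop of the comparison edge `i` of the node `(j + 1, t, u, v)` in round `k`. -/
noncomputable def Inst.dr (I : Inst) (X : Sched) (j t u v k i : ℕ) : ℕ :=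
  I.e X j t k i (I.opt j t u v i) (I.opt j t u v (i + 1)) -
    I.e X j t (k + 1) i (I.opt j t u v i) (I.opt j t u v (i + 1))

/-- Shift of a sum over the static index to the rounds. -/
theorem sum_rounds (f : ℕ → ℝ) (β0 x B : ℕ) :
    ∑ β ∈ range B, (if x ≤ β0 + β then f (β0 + β - x) else 0) =
      ∑ k ∈ Ico (β0 - x) (β0 + B - x), f k := by
  rw [← Finset.sum_filter]
  refine Finset.sum_nbij' (fun β => β0 + β - x) (fun k => k + x - β0) ?_ ?_ ?_ ?_ ?_
  · intro β hβ
    simp only [Finset.mem_filter, Finset.mem_range, Finset.mem_Ico] at hβ ⊢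
    omega
  · intro k hk
    simp only [Finset.mem_filter, Finset.mem_range, Finset.mem_Ico] at hk ⊢
    omega
  · intro β hβ
    simp only [Finset.mem_filter, Finset.mem_range] at hβ
    omega
  · intro k hk
    simp only [Finset.mem_Ico] at hk
    omega
  · intro β _
    rfl

/-- The drop of a child curve = the drop of its edge in the own round. -/
theorem Inst.nu_kid (hI : I.Ok) (hX : X.Ok I.M J) {n Y l0 j t u v i : ℕ} (hY : Y ≤ I.w)
    (β : ℕ) (hj : j < n) (hi : i < I.M) (h : I.pst n Y l0 (n - (j + 1)) t = .inl (u, v)) :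
    Ker.nu (I.cur X n Y l0) j (I.M * t + i) β =
      if lin I.M n X.xi (n - (j + 1)) t ≤ β then
        (I.dr X j t u v (β - lin I.M n X.xi (n - (j + 1)) t) i : ℝ) / (I.M ^ j * l0) else 0 := by
  have hM : 1 ≤ I.M := by have := hI.M_two; omega
  have huv := (Inst.pst_ok (I := I) hM n Y l0 hY _ _ _ _ h).1
  unfold Ker.nu
  rw [Inst.cur_kid β hj hi h, Inst.cur_kid (β + 1) hj hi h]
  split_ifs with hx
  · rw [← sub_div, show β + 1 - lin I.M n X.xi (n - (j + 1)) t =
      (β - lin I.M n X.xi (n - (j + 1)) t) + 1 by omega]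
    unfold Inst.dr
    rw [Nat.cast_sub (Inst.e_antitone hI hX
      ((Inst.opt_spec hM j t huv).1.mono i hi) (Nat.le_succ _))]
  · rw [show β + 1 - lin I.M n X.xi (n - (j + 1)) t = 0 by omega,
      show β - lin I.M n X.xi (n - (j + 1)) t = 0 by omega, sub_self]

theorem Inst.nu_kid_dead {n Y l0 j t i : ℕ} {r : ℝ} (β : ℕ) (hj : j < n) (hi : i < I.M)
    (h : I.pst n Y l0 (n - (j + 1)) t = .inr r) :
    Ker.nu (I.cur X n Y l0) j (I.M * t + i) β = 0 := by
  unfold Ker.nu
  rw [Inst.cur_kid_dead β hj hi h, Inst.cur_kid_dead (β + 1) hj hi h, sub_self]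

/-- The capped mass of the children of a live region, in the rounds of the region. `C` = the cap
in natural costs, `cap` = the cap per unit of time. -/
theorem Inst.mass_rounds (hI : I.Ok) (hX : X.Ok I.M J) {n Y l0 j t u v C : ℕ} {cap : ℝ}
    (hl : 1 ≤ l0) (hY : Y ≤ I.w) (hcap : 0 ≤ cap) (hC : (C : ℝ) = cap * (I.M ^ j * l0))
    (hj : j < n) (h : I.pst n Y l0 (n - (j + 1)) t = .inl (u, v)) (β0 B : ℕ) :
    ∑ β ∈ range B, Ker.ch I.M (uP I.M) j
        (fun s => min (Ker.nu (I.cur X n Y l0) j s (β0 + β)) cap) t =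
      (∑ k ∈ Ico (β0 - lin I.M n X.xi (n - (j + 1)) t)
          (β0 + B - lin I.M n X.xi (n - (j + 1)) t),
        ∑ i ∈ range I.M, ((min (I.dr X j t u v k i) C : ℕ) : ℝ)) / (I.M ^ (j + 1) * l0) := by
  have hM : 1 ≤ I.M := by have := hI.M_two; omega
  have hT := len_pos hM hl j
  rw [← sum_rounds, Finset.sum_div]
  refine Finset.sum_congr rfl fun β _ => ?_
  have h1 : ∀ i < I.M, (fun s => min (Ker.nu (I.cur X n Y l0) j s (β0 + β)) cap) (I.M * t + i) =
      (if lin I.M n X.xi (n - (j + 1)) t ≤ β0 + β then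
        ((min (I.dr X j t u v (β0 + β - lin I.M n X.xi (n - (j + 1)) t) i) C : ℕ) : ℝ) else 0) /
        (I.M ^ j * l0) := by
    intro i hi
    dsimp only
    rw [Inst.nu_kid hI hX hY _ hj hi h]
    split_ifs with hx
    · rw [Nat.cast_min, hC, ← min_div_div_right hT.le, mul_div_cancel_right₀ _ hT.ne']
    · rw [zero_div, min_eq_left hcap]
  rw [ch_edge h1]
  split_ifs with hx
  · rfl
  · simp

/-- The gains of a live region dominate the gains in its rounds. -/
theorem Inst.gain_rounds (hM : 1 ≤ I.M) {n Y l0 j t u v : ℕ} (hl : 1 ≤ l0) (hY : Y ≤ I.w)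
    (hj : j < n) (h : I.pst n Y l0 (n - (j + 1)) t = .inl (u, v)) (β0 B : ℕ) :
    (∑ k ∈ Ico (β0 - lin I.M n X.xi (n - (j + 1)) t)
          (β0 + B - lin I.M n X.xi (n - (j + 1)) t),
        ((I.V X j t u v k : ℝ) - I.c X (j + 1) t u v k)) / (I.M ^ (j + 1) * l0) ≤
      ∑ β ∈ range B, Ker.gain I.M (uP I.M) (I.cur X n Y l0) j t (β0 + β) := by
  rw [← sum_rounds, Finset.sum_div]
  refine Finset.sum_le_sum fun β _ => ?_
  split_ifs with hx
  · rw [Inst.gain_live _ hj h]
  · rw [zero_div]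
    exact Inst.gain_nonneg hM hl hY hj _

/-- A dead region has no mass. -/
theorem Inst.mass_dead {n Y l0 j t : ℕ} {r cap : ℝ} (hcap : 0 ≤ cap) (hj : j < n)
    (h : I.pst n Y l0 (n - (j + 1)) t = .inr r) (β0 B : ℕ) :
    ∑ β ∈ range B, Ker.ch I.M (uP I.M) j
        (fun s => min (Ker.nu (I.cur X n Y l0) j s (β0 + β)) cap) t = 0 := by
  refine Finset.sum_eq_zero fun β _ => Finset.sum_eq_zero fun i hi => ?_
  dsimp only
  rw [Inst.nu_kid_dead _ hj (Finset.mem_range.1 hi) h, min_eq_left hcap, mul_zero]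

/-- **The machine inequality of one region in its rounds implies the one in the static
index.** -/
theorem Inst.star_rounds (hI : I.Ok) (hX : X.Ok I.M J) {n Y l0 j t C : ℕ} {cap er : ℝ}
    (hl : 1 ≤ l0) (hY : Y ≤ I.w) (hcap : 0 ≤ cap) (her : 0 ≤ er)
    (hC : (C : ℝ) = cap * (I.M ^ j * l0)) (hj : j < n) (β0 B : ℕ)
    (hst : ∀ u v, I.pst n Y l0 (n - (j + 1)) t = .inl (u, v) →
      ∑ k ∈ Ico (β0 - lin I.M n X.xi (n - (j + 1)) t)
          (β0 + B - lin I.M n X.xi (n - (j + 1)) t),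
          ∑ i ∈ range I.M, ((min (I.dr X j t u v k i) C : ℕ) : ℝ) ≤
        2 * ∑ k ∈ Ico (β0 - lin I.M n X.xi (n - (j + 1)) t)
            (β0 + (B + 1) - lin I.M n X.xi (n - (j + 1)) t),
          ((I.V X j t u v k : ℝ) - I.c X (j + 1) t u v k) + er * (I.M ^ (j + 1) * l0)) :
    ∑ β ∈ range B, Ker.ch I.M (uP I.M) j
        (fun s => min (Ker.nu (I.cur X n Y l0) j s (β0 + β)) cap) t ≤
      2 * ∑ β ∈ range (B + 1), Ker.gain I.M (uP I.M) (I.cur X n Y l0) j t (β0 + β) + er := by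
  have hM : 1 ≤ I.M := by have := hI.M_two; omega
  have hT := len_pos hM hl (j + 1)
  rcases hs : I.pst n Y l0 (n - (j + 1)) t with ⟨u, v⟩ | r
  · rw [Inst.mass_rounds hI hX hl hY hcap hC hj hs β0 B]
    have h2 := Inst.gain_rounds (X := X) hM hl hY hj hs β0 (B + 1)
    have h4 := div_le_div_of_nonneg_right (hst u v hs) hT.le
    rw [add_div, mul_div_assoc, mul_div_assoc er, div_self hT.ne', mul_one] at h4
    linarith
  · rw [Inst.mass_dead hcap hj hs]
    have h2 : 0 ≤ ∑ β ∈ range (B + 1), Ker.gain I.M (uP I.M) (I.cur X n Y l0) j t (β0 + β) :=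
      Finset.sum_nonneg fun β _ => Inst.gain_nonneg hM hl hY hj _
    linarith

end Vale.Agent.P315.OT
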