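import Vale.Agent.P315.OT.Setup
import Vale.Agent.P315.Lev

/-!
P315, one-scale track, OT-2: edit distance and the full values `D` of the instance
`hid i u v = ED (row i of x) (y[u g0, v g0))`.
-/

set_option autoImplicit false

namespace Vale.Agent.P315.OT

open Finset

/-! ### Factors -/

theorem factor_append (y : List ℕ) {a b c : ℕ} (hab : a ≤ b) (hbc : b ≤ c) :
    factor y a c = factor y a b ++ factor y b c := by
  unfold factor
  have h1 : c - a = (b - a) + (c - b) := by omega
  rw [h1, List.take_add, List.drop_drop, show a + (b - a) = b by omega]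

theorem factor_length (y : List ℕ) (a b : ℕ) :
    (factor y a b).length = min (b - a) (y.length - a) := by
  unfold factor; rw [List.length_take, List.length_drop]

theorem factor_length_le (y : List ℕ) (a b : ℕ) : (factor y a b).length ≤ b - a := by
  rw [factor_length]; exact min_le_left _ _

theorem factor_all (y : List ℕ) {b : ℕ} (h : y.length ≤ b) : factor y 0 b = y := by
  unfold factor; rw [List.drop_zero, Nat.sub_zero, List.take_of_length_le h]

theorem lev_le_max (xs ys : List ℕ) : lev xs ys ≤ max xs.length ys.length := by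
  induction xs generalizing ys with
  | nil => rw [lev_nil_left]; exact le_max_right _ _
  | cons x xs ih =>
    cases ys with
    | nil => rw [lev_nil_right]; simp
    | cons y ys =>
      have h := lev_sub_le x y xs ys
      have h2 := ih ys
      simp only [List.length_cons]
      have h3 : (if x = y then 0 else 1) ≤ 1 := by split_ifs <;> omega
      omega

/-- Every alignment of `xs ++ xs'` splits. -/
theorem exists_split (xs xs' ys : List ℕ) : ∃ ys1 ys2, ys = ys1 ++ ys2 ∧
    lev xs ys1 + lev xs' ys2 ≤ lev (xs ++ xs') ys := by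
  have h := (script_lev (xs ++ xs') ys).symm
  obtain ⟨y1, y2, c1, c2, h1, h2, h3, h4⟩ := h.split xs xs' rfl
  refine ⟨y1, y2, h1, ?_⟩
  rw [h2]
  exact Nat.add_le_add h3.symm.lev_le h4.symm.lev_le

/-- The same for factors, with positions. -/
theorem exists_split_pos (xs xs' y : List ℕ) {p q : ℕ} (hpq : p ≤ q) : ∃ r, p ≤ r ∧ r ≤ q ∧
    lev xs (factor y p r) + lev xs' (factor y r q) ≤ lev (xs ++ xs') (factor y p q) := by
  obtain ⟨y1, y2, h1, h2⟩ := exists_split xs xs' (factor y p q)
  have hlen : y1.length ≤ q - p := by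
    have := congrArg List.length h1
    rw [List.length_append] at this
    have h3 := factor_length_le y p q
    omega
  refine ⟨p + y1.length, by omega, by omega, ?_⟩
  have h4 := factor_append y (a := p) (b := p + y1.length) (c := q) (by omega) (by omega)
  have hA : (factor y p q).take y1.length = y1 := by rw [h1]; simp
  have hB : (factor y p q).drop y1.length = y2 := by rw [h1]; simp
  have hC : factor y p (p + y1.length) = y1 := by
    have : factor y p (p + y1.length) = (factor y p q).take y1.length := by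
      unfold factor
      rw [List.take_take]
      congr 1
      omega
    rw [this, hA]
  have hD : factor y (p + y1.length) q = y2 := by
    have : factor y (p + y1.length) q = (factor y p q).drop y1.length := by
      unfold factor
      rw [List.drop_take, List.drop_drop]
      congr 1
      omega
    rw [this, hB]
  rw [hC, hD]
  exact h2

/-- Chains of splits: `x` is cut at the positions `a 0 ≤ … ≤ a M`. -/
theorem exists_chain_split (x y : List ℕ) (a : ℕ → ℕ) (ha : Monotone a) (M : ℕ) {p q : ℕ}
    (hM : 1 ≤ M) (hpq : p ≤ q) : ∃ f, IsChain M p q f ∧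
      ∑ i ∈ range M, lev (factor x (a i) (a (i + 1))) (factor y (f i) (f (i + 1))) ≤
        lev (factor x (a 0) (a M)) (factor y p q) := by
  induction M, hM using Nat.le_induction generalizing q with
  | base =>
    refine ⟨fun i => if i = 0 then p else q, ⟨by simp, by simp, ?_⟩, by simp⟩
    intro i hi
    have : i = 0 := by omega
    subst this; simpa using hpq
  | succ M hM ih =>
    have h1 := factor_append x (ha (Nat.zero_le M)) (ha (Nat.le_succ M))
    rw [h1]
    obtain ⟨r, hr1, hr2, hr3⟩ := exists_split_pos (factor x (a 0) (a M))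
      (factor x (a M) (a (M + 1))) y hpq
    obtain ⟨f, hf, hfs⟩ := ih hr1
    refine ⟨fun i => if i ≤ M then f i else q, ⟨?_, ?_, ?_⟩, ?_⟩
    · simp only [Nat.zero_le, if_true]; exact hf.start
    · simp
    · intro i hi
      rcases Nat.lt_or_ge i M with h | h
      · simp only [if_pos h.le, if_pos (show i + 1 ≤ M by omega)]
        exact hf.mono i h
      · have : i = M := by omega
        subst this
        simp only [le_refl, if_true, Nat.not_succ_le_self, if_false]
        rw [hf.finish]; exact hr2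
    · rw [Finset.sum_range_succ]
      refine le_trans (Nat.add_le_add ?_ ?_) hr3
      · refine le_trans (le_of_eq ?_) hfs
        apply Finset.sum_congr rfl
        intro i hi
        have hi' := Finset.mem_range.mp hi
        show lev _ (factor y (if i ≤ M then f i else q) (if i + 1 ≤ M then f (i + 1) else q)) = _
        rw [if_pos (show i ≤ M by omega), if_pos (show i + 1 ≤ M by omega)]
      · simp only [le_refl, if_true, Nat.not_succ_le_self, if_false]
        rw [hf.finish]

/-- Concatenation of a chain. -/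
theorem lev_chain_le (x y : List ℕ) (a : ℕ → ℕ) (ha : Monotone a) (f : ℕ → ℕ) (M : ℕ)
    (hf : ∀ i < M, f i ≤ f (i + 1)) :
    lev (factor x (a 0) (a M)) (factor y (f 0) (f M)) ≤
      ∑ i ∈ range M, lev (factor x (a i) (a (i + 1))) (factor y (f i) (f (i + 1))) := by
  induction M with
  | zero => simp [factor, lev_nil_left]
  | succ M ih =>
    have h0 : f 0 ≤ f M := by
      have : ∀ k ≤ M, f 0 ≤ f k := by
        intro k
        induction k with
        | zero => intro _; exact le_rfl
        | succ k ihk => intro hk; exact (ihk (by omega)).trans (hf k (by omega))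
      exact this M le_rfl
    rw [factor_append x (ha (Nat.zero_le M)) (ha (Nat.le_succ M)),
      factor_append y h0 (hf M (by omega)), Finset.sum_range_succ]
    refine (lev_append_le _ _ _ _).trans (Nat.add_le_add_right (ih fun i hi => hf i (by omega)) _)

/-- Moving the ends of the window down. -/
theorem lev_shift (X y : List ℕ) {p q p' q' : ℕ} (hp : p' ≤ p) (hq : q' ≤ q) (hpq : p ≤ q)
    (hpq' : p' ≤ q') :
    lev X (factor y p' q') ≤ lev X (factor y p q) + (p - p') + (q - q') := by
  have h1 : factor y p' q = factor y p' p ++ factor y p q := factor_append y hp hpq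
  have h2 : factor y p' q = factor y p' q' ++ factor y q' q := factor_append y hpq' hq
  have h3 := lev_add_left X (factor y p q) (factor y p' p)
  have h4 := lev_drop_right X (factor y p' q') (factor y q' q)
  rw [← h1] at h3
  rw [← h2] at h4
  have h5 := factor_length_le y p' p
  have h6 := factor_length_le y q' q
  omega

/-! ### The instance -/

/-- Row `i` of `x` (rows of length `l`). -/
def row (x : List ℕ) (l i : ℕ) : List ℕ := factor x (i * l) ((i + 1) * l)

/-- Hidden cost of the leaf `(i, u, v)`. -/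
def hidc (Q : Prm) (x y : List ℕ) (i u v : ℕ) : ℕ :=
  lev (factor x (i * Q.l0) ((i + 1) * Q.l0)) (factor y (u * Q.g0) (v * Q.g0))

/-- Visible cost of the leaf `(i, u, v)`. -/
def visc (Q : Prm) (x y : List ℕ) (i u v : ℕ) : ℕ :=
  max (factor x (i * Q.l0) ((i + 1) * Q.l0)).length (factor y (u * Q.g0) (v * Q.g0)).length

theorem hidc_le_visc (Q : Prm) (x y : List ℕ) (i u v : ℕ) : hidc Q x y i u v ≤ visc Q x y i u v :=
  lev_le_max _ _

theorem visc_le (Q : Prm) (x y : List ℕ) (i u v : ℕ) :
    visc Q x y i u v ≤ hidc Q x y i u v + Q.l0 := by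
  unfold visc hidc
  have h1 := (length_le_lev (factor x (i * Q.l0) ((i + 1) * Q.l0))
    (factor y (u * Q.g0) (v * Q.g0))).1
  have h2 := factor_length_le x (i * Q.l0) ((i + 1) * Q.l0)
  have h3 : (i + 1) * Q.l0 - i * Q.l0 = Q.l0 := by rw [Nat.add_mul]; omega
  omega

/-- The edit distance of the slab `s` of level `j` and the window `[u g_j, v g_j)`. -/
def tru (Q : Prm) (x y : List ℕ) (j s u v : ℕ) : ℕ :=
  lev (factor x (s * Q.len j) ((s + 1) * Q.len j))
    (factor y (u * (Q.M ^ j * Q.g0)) (v * (Q.M ^ j * Q.g0)))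

/-- The number of positions of the window beyond the end of `y`. -/
def gexc (Q : Prm) (y : List ℕ) (j u v : ℕ) : ℕ :=
  v * (Q.M ^ j * Q.g0) - max y.length (u * (Q.M ^ j * Q.g0))

theorem Prm.len_succ (Q : Prm) (j : ℕ) : Q.len (j + 1) = Q.M * Q.len j := by
  unfold Prm.len; rw [pow_succ]; ring

theorem Prm.len_zero (Q : Prm) : Q.len 0 = Q.l0 := by unfold Prm.len; simp

/-- The cuts of the slab `s` of level `j + 1` into its children. -/
theorem tru_le_sum (Q : Prm) (x y : List ℕ) (j s : ℕ) {u v : ℕ} {z : ℕ → ℕ}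
    (hz : IsChain Q.M (u * Q.M) (v * Q.M) z) :
    tru Q x y (j + 1) s u v ≤ ∑ i ∈ range Q.M, tru Q x y j (s * Q.M + i) (z i) (z (i + 1)) := by
  have h := lev_chain_le x y (fun i => (s * Q.M + i) * Q.len j)
    (fun a b hab => Nat.mul_le_mul_right _ (by omega)) (fun i => z i * (Q.M ^ j * Q.g0)) Q.M
    (fun i hi => Nat.mul_le_mul_right _ (hz.mono i hi))
  unfold tru
  simp only [hz.start, hz.finish, Nat.add_zero] at h
  have e1 : s * Q.len (j + 1) = s * Q.M * Q.len j := by rw [Q.len_succ]; ring
  have e2 : (s + 1) * Q.len (j + 1) = (s * Q.M + Q.M) * Q.len j := by rw [Q.len_succ]; ring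
  have e3 : u * (Q.M ^ (j + 1) * Q.g0) = u * Q.M * (Q.M ^ j * Q.g0) := by rw [pow_succ]; ring
  have e4 : v * (Q.M ^ (j + 1) * Q.g0) = v * Q.M * (Q.M ^ j * Q.g0) := by rw [pow_succ]; ring
  rw [e1, e2, e3, e4]
  exact h

/-- A jump costs at least the edit distance. -/
theorem tru_le_jump (Q : Prm) (hw : Q.m ≤ Q.w) (x y : List ℕ) (j s : ℕ) {u v : ℕ}
    (h : Q.w < v - u) : tru Q x y j s u v ≤ (v - u) * (Q.M ^ j * Q.g0) := by
  unfold tru
  refine (lev_le_max _ _).trans ?_
  have h1 := factor_length_le x (s * Q.len j) ((s + 1) * Q.len j)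
  have h2 := factor_length_le y (u * (Q.M ^ j * Q.g0)) (v * (Q.M ^ j * Q.g0))
  have h3 : (s + 1) * Q.len j - s * Q.len j = Q.len j := by rw [Nat.add_mul]; omega
  rw [← Nat.sub_mul] at h2
  have h4 : Q.len j ≤ (v - u) * (Q.M ^ j * Q.g0) := by
    have : Q.len j = Q.m * (Q.M ^ j * Q.g0) := by unfold Prm.len Prm.l0; ring
    rw [this]
    exact Nat.mul_le_mul_right _ (by omega)
  omega

/-- **The full values are certified.** -/
theorem tru_le_D (Q : Prm) (hM : 1 ≤ Q.M) (hw : Q.m ≤ Q.w) (x y : List ℕ)
    (vis : ℕ → ℕ → ℕ → ℕ) : ∀ j s u v, u ≤ v →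
    tru Q x y j s u v ≤ (Q.inst (hidc Q x y) vis).D (hidc Q x y) j s u v := by
  intro j
  induction j with
  | zero =>
    intro s u v _
    unfold tru
    rw [Q.len_zero, pow_zero, one_mul]
    exact le_rfl
  | succ j ih =>
    intro s u v huv
    rw [Inst.D]
    refine le_best hM (Nat.mul_le_mul_right _ huv) fun z hz => ?_
    refine (tru_le_sum Q x y j s hz).trans (Finset.sum_le_sum fun i hi => ?_)
    have hi' := Finset.mem_range.mp hi
    show _ ≤ (Q.inst (hidc Q x y) vis).edge j _ (z i) (z (i + 1))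
    unfold Inst.edge
    split_ifs with h
    · exact ih _ _ _ (hz.mono i hi')
    · exact tru_le_jump Q hw x y j _ (not_le.mp h)

/-- **Upper bound of the full values.** -/
theorem D_le (Q : Prm) (hM : 1 ≤ Q.M) (hw : Q.m < Q.w) (x y : List ℕ)
    (vis : ℕ → ℕ → ℕ → ℕ) : ∀ j s u v, u ≤ v →
    ((Q.w : ℝ) - Q.m) * ((Q.inst (hidc Q x y) vis).D (hidc Q x y) j s u v : ℝ) ≤
      Q.w * (tru Q x y j s u v + gexc Q y j u v + 2 * j * (Q.M ^ j * Q.g0)) := by
  have hmw : (0 : ℝ) < (Q.w : ℝ) - Q.m := by
    have : (Q.m : ℝ) < Q.w := by exact_mod_cast hw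
    linarith
  have hm0 : (0 : ℝ) ≤ Q.m := Nat.cast_nonneg _
  intro j
  induction j with
  | zero =>
    intro s u v _
    have e : tru Q x y 0 s u v = hidc Q x y s u v := by
      unfold tru hidc; rw [Q.len_zero, pow_zero, one_mul]
    rw [Inst.D, e]
    have h1 : (0 : ℝ) ≤ hidc Q x y s u v := Nat.cast_nonneg _
    have h2 : (0 : ℝ) ≤ gexc Q y 0 u v := Nat.cast_nonneg _
    have h3 : (0 : ℝ) ≤ Q.w := Nat.cast_nonneg _
    have h4 : ((Q.w : ℝ) - Q.m) * hidc Q x y s u v ≤ Q.w * hidc Q x y s u v :=
      mul_le_mul_of_nonneg_right (by linarith) h1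
    have h5 : 0 ≤ (Q.w : ℝ) * gexc Q y 0 u v := mul_nonneg h3 h2
    simp only [Nat.cast_zero, mul_zero, zero_mul, add_zero]
    linarith
  | succ j ih =>
    intro s u v huv
    set g := Q.M ^ j * Q.g0 with hg
    have hgs : Q.M ^ (j + 1) * Q.g0 = Q.M * g := by rw [hg, pow_succ]; ring
    -- the optimal alignment
    obtain ⟨f, hf, hfs⟩ := exists_chain_split x y (fun i => (s * Q.M + i) * Q.len j)
      (fun a b hab => Nat.mul_le_mul_right _ (by omega)) Q.M
      (p := u * (Q.M * g)) (q := v * (Q.M * g)) hM (Nat.mul_le_mul_right _ huv)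
    have e1 : tru Q x y (j + 1) s u v =
        lev (factor x ((s * Q.M + 0) * Q.len j) ((s * Q.M + Q.M) * Q.len j))
          (factor y (u * (Q.M * g)) (v * (Q.M * g))) := by
      unfold tru
      rw [hgs, Q.len_succ]
      congr 2 <;> ring
    rw [← e1] at hfs
    rcases Nat.eq_zero_or_pos g with hg0 | hg0
    · -- degenerate unit
      obtain ⟨z, hz⟩ := exists_chain hM (Nat.mul_le_mul_right Q.M huv)
      have hD : (Q.inst (hidc Q x y) vis).D (hidc Q x y) (j + 1) s u v ≤
          chainCost (fun i => (Q.inst (hidc Q x y) vis).edge j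
            ((Q.inst (hidc Q x y) vis).D (hidc Q x y) j (s * Q.M + i))) Q.M z := by
        rw [Inst.D]; exact best_le hz
      have hedge : ∀ i ∈ range Q.M, ((Q.w : ℝ) - Q.m) *
          ((Q.inst (hidc Q x y) vis).edge j
            ((Q.inst (hidc Q x y) vis).D (hidc Q x y) j (s * Q.M + i)) (z i) (z (i + 1)) : ℝ) ≤
          Q.w * lev (factor x ((s * Q.M + i) * Q.len j) ((s * Q.M + (i + 1)) * Q.len j))
            (factor y (f i) (f (i + 1))) := by
        intro i hi
        have hi' := Finset.mem_range.mp hi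
        have hf0 : ∀ k ≤ Q.M, f k = 0 := by
          intro k hk
          have h1 := hf.le hk
          rw [hg0] at h1
          simpa using h1
        unfold Inst.edge
        split_ifs with h
        · refine (ih _ _ _ (hz.mono i hi')).trans (le_of_eq ?_)
          unfold tru gexc
          rw [← hg, hg0, hf0 i (by omega), hf0 (i + 1) (by omega)]
          simp only [Nat.zero_sub, Nat.cast_zero, mul_zero, add_zero]
          have : ((Q.M : ℝ) ^ j * Q.g0) = 0 := by exact_mod_cast hg0
          rw [this]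
          simp [Nat.add_assoc]
        · have : ((z (i + 1) - z i : ℕ) : ℝ) * ((Q.inst (hidc Q x y) vis).g j : ℕ) = 0 := by
            show ((z (i + 1) - z i : ℕ) : ℝ) * ((g : ℕ) : ℝ) = 0
            rw [hg0]; simp
          push_cast
          rw [this, mul_zero]
          positivity
      have h2 : ((Q.w : ℝ) - Q.m) * ((Q.inst (hidc Q x y) vis).D (hidc Q x y) (j + 1) s u v : ℝ) ≤
          Q.w * (tru Q x y (j + 1) s u v : ℝ) := by
        calc _ ≤ ((Q.w : ℝ) - Q.m) * (chainCost (fun i => (Q.inst (hidc Q x y) vis).edge j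
            ((Q.inst (hidc Q x y) vis).D (hidc Q x y) j (s * Q.M + i))) Q.M z : ℝ) :=
              mul_le_mul_of_nonneg_left (by exact_mod_cast hD) hmw.le
          _ ≤ ∑ i ∈ range Q.M, (Q.w : ℝ) * lev (factor x ((s * Q.M + i) * Q.len j)
            ((s * Q.M + (i + 1)) * Q.len j)) (factor y (f i) (f (i + 1))) := by
              unfold chainCost
              push_cast
              rw [Finset.mul_sum]
              exact Finset.sum_le_sum hedge
          _ ≤ _ := by
              rw [← Finset.mul_sum]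
              exact mul_le_mul_of_nonneg_left (by exact_mod_cast hfs) (Nat.cast_nonneg _)
      refine h2.trans (mul_le_mul_of_nonneg_left ?_ (Nat.cast_nonneg _))
      have h5 : (0 : ℝ) ≤ gexc Q y (j + 1) u v := Nat.cast_nonneg _
      have h6 : (0 : ℝ) ≤ 2 * ((j + 1 : ℕ) : ℝ) * ((Q.M : ℝ) ^ (j + 1) * Q.g0) := by positivity
      linarith
    · -- rounding
      set z : ℕ → ℕ := fun i => f i / g with hzdef
      have hz : IsChain Q.M (u * Q.M) (v * Q.M) z := by
        refine ⟨?_, ?_, fun i hi => Nat.div_le_div_right (hf.mono i hi)⟩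
        · show f 0 / g = _
          rw [hf.start, ← mul_assoc, Nat.mul_div_cancel _ hg0]
        · show f Q.M / g = _
          rw [hf.finish, ← mul_assoc, Nat.mul_div_cancel _ hg0]
      have hD : (Q.inst (hidc Q x y) vis).D (hidc Q x y) (j + 1) s u v ≤
          chainCost (fun i => (Q.inst (hidc Q x y) vis).edge j
            ((Q.inst (hidc Q x y) vis).D (hidc Q x y) j (s * Q.M + i))) Q.M z := by
        rw [Inst.D]; exact best_le hz
      -- one edge
      have hedge : ∀ i ∈ range Q.M, ((Q.w : ℝ) - Q.m) *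
          ((Q.inst (hidc Q x y) vis).edge j
            ((Q.inst (hidc Q x y) vis).D (hidc Q x y) j (s * Q.M + i)) (z i) (z (i + 1)) : ℝ) ≤
          Q.w * ((tru Q x y j (s * Q.M + i) (z i) (z (i + 1)) : ℝ) + gexc Q y j (z i) (z (i + 1)) +
            2 * j * (Q.M ^ j * Q.g0)) := by
        intro i hi
        have hi' := Finset.mem_range.mp hi
        unfold Inst.edge
        split_ifs with h
        · exact ih _ _ _ (hz.mono i hi')
        · have hlong : Q.w < z (i + 1) - z i := not_le.mp h
          have h1 : ((z (i + 1) - z i) * g : ℕ) ≤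
              tru Q x y j (s * Q.M + i) (z i) (z (i + 1)) + gexc Q y j (z i) (z (i + 1)) +
                Q.m * g := by
            unfold tru gexc
            rw [← hg]
            have h2 := (length_le_lev (factor x ((s * Q.M + i) * Q.len j)
              ((s * Q.M + i + 1) * Q.len j)) (factor y (z i * g) (z (i + 1) * g))).1
            have h3 := factor_length_le x ((s * Q.M + i) * Q.len j) ((s * Q.M + i + 1) * Q.len j)
            have h4 : (s * Q.M + i + 1) * Q.len j - (s * Q.M + i) * Q.len j = Q.len j := by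
              rw [Nat.add_mul (s * Q.M + i) 1]; omega
            have h5 : Q.len j = Q.m * g := by unfold Prm.len Prm.l0; rw [hg]; ring
            rw [factor_length] at h2
            have h6 : z i * g ≤ z (i + 1) * g := Nat.mul_le_mul_right _ (hz.mono i hi')
            rw [Nat.sub_mul]
            omega
          have h2 : (((z (i + 1) - z i) * g : ℕ) : ℝ) ≤
              (tru Q x y j (s * Q.M + i) (z i) (z (i + 1)) : ℝ) + gexc Q y j (z i) (z (i + 1)) +
                Q.m * g := by exact_mod_cast h1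
          have h3 : (Q.w : ℝ) * g ≤ (((z (i + 1) - z i) * g : ℕ) : ℝ) := by
            exact_mod_cast Nat.mul_le_mul_right g hlong.le
          show ((Q.w : ℝ) - Q.m) * (((z (i + 1) - z i) * g : ℕ) : ℝ) ≤ _
          have h4 : (0 : ℝ) ≤ 2 * (j : ℝ) * ((Q.M : ℝ) ^ j * Q.g0) := by positivity
          have hw0 : (0 : ℝ) < Q.w := by
            have : 0 < Q.w := by omega
            exact_mod_cast this
          set Z : ℝ := (((z (i + 1) - z i) * g : ℕ) : ℝ)
          set TT : ℝ := (tru Q x y j (s * Q.M + i) (z i) (z (i + 1)) : ℝ) +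
            gexc Q y j (z i) (z (i + 1))
          have h5 : (Q.w : ℝ) * Z ≤ Q.w * (TT + Q.m * g) := mul_le_mul_of_nonneg_left h2 hw0.le
          have h6 : (Q.m : ℝ) * (Q.w * g) ≤ Q.m * Z := mul_le_mul_of_nonneg_left h3 hm0
          have h7 : (0 : ℝ) ≤ Q.w * (2 * (j : ℝ) * ((Q.M : ℝ) ^ j * Q.g0)) :=
            mul_nonneg hw0.le h4
          nlinarith
      -- rounding costs
      have hround : ∀ i ∈ range Q.M, tru Q x y j (s * Q.M + i) (z i) (z (i + 1)) ≤
          lev (factor x ((s * Q.M + i) * Q.len j) ((s * Q.M + (i + 1)) * Q.len j))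
            (factor y (f i) (f (i + 1))) + 2 * g := by
        intro i hi
        have hi' := Finset.mem_range.mp hi
        unfold tru
        rw [← hg]
        have h1 : z i * g ≤ f i := Nat.div_mul_le_self _ _
        have h2 : z (i + 1) * g ≤ f (i + 1) := Nat.div_mul_le_self _ _
        have h3 : f i < z i * g + g := Nat.lt_div_mul_add hg0
        have h4 : f (i + 1) < z (i + 1) * g + g := Nat.lt_div_mul_add hg0
        have h5 := lev_shift (factor x ((s * Q.M + i) * Q.len j) ((s * Q.M + i + 1) * Q.len j)) y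
          h1 h2 (hf.mono i hi') (Nat.mul_le_mul_right _ (hz.mono i hi'))
        rw [← Nat.add_assoc]
        omega
      have hexc : ∑ i ∈ range Q.M, gexc Q y j (z i) (z (i + 1)) ≤ gexc Q y (j + 1) u v := by
        have key : ∀ k ≤ Q.M, ∑ i ∈ range k, gexc Q y j (z i) (z (i + 1)) ≤
            z k * g - max y.length (z 0 * g) := by
          intro k
          induction k with
          | zero => intro _; simp
          | succ k ihk =>
            intro hk
            rw [Finset.sum_range_succ]
            have h1 := ihk (by omega)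
            have h2 : z k * g ≤ z (k + 1) * g := Nat.mul_le_mul_right _ (hz.mono k (by omega))
            have h3 : z 0 * g ≤ z k * g := Nat.mul_le_mul_right _ (by
              have := hz.ge (i := k) (by omega); rw [hz.start]; exact this)
            have h4 : gexc Q y j (z k) (z (k + 1)) = z (k + 1) * g - max y.length (z k * g) := rfl
            omega
        have h := key Q.M le_rfl
        rw [hz.start, hz.finish] at h
        unfold gexc
        rw [hgs]
        rw [mul_assoc, mul_assoc] at h
        exact h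
      have h2 : ((Q.w : ℝ) - Q.m) * ((Q.inst (hidc Q x y) vis).D (hidc Q x y) (j + 1) s u v : ℝ) ≤
          ∑ i ∈ range Q.M, Q.w * ((tru Q x y j (s * Q.M + i) (z i) (z (i + 1)) : ℝ) +
            gexc Q y j (z i) (z (i + 1)) + 2 * j * (Q.M ^ j * Q.g0)) := by
        calc _ ≤ ((Q.w : ℝ) - Q.m) * (chainCost (fun i => (Q.inst (hidc Q x y) vis).edge j
            ((Q.inst (hidc Q x y) vis).D (hidc Q x y) j (s * Q.M + i))) Q.M z : ℝ) :=
              mul_le_mul_of_nonneg_left (by exact_mod_cast hD) hmw.le
          _ ≤ _ := by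
              unfold chainCost
              push_cast
              rw [Finset.mul_sum]
              exact Finset.sum_le_sum hedge
      refine h2.trans ?_
      rw [← Finset.mul_sum]
      refine mul_le_mul_of_nonneg_left ?_ (Nat.cast_nonneg _)
      rw [Finset.sum_add_distrib, Finset.sum_add_distrib, Finset.sum_const, Finset.card_range,
        nsmul_eq_mul]
      have h3 : (∑ i ∈ range Q.M, (tru Q x y j (s * Q.M + i) (z i) (z (i + 1)) : ℝ)) ≤
          tru Q x y (j + 1) s u v + Q.M * (2 * g) := by
        have h4 := Finset.sum_le_sum hround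
        rw [Finset.sum_add_distrib, Finset.sum_const, Finset.card_range, smul_eq_mul] at h4
        have h5 := h4.trans (Nat.add_le_add_right hfs _)
        exact_mod_cast h5
      have h4 : (∑ i ∈ range Q.M, (gexc Q y j (z i) (z (i + 1)) : ℝ)) ≤ gexc Q y (j + 1) u v := by
        exact_mod_cast hexc
      have hgr : (g : ℝ) = (Q.M : ℝ) ^ j * Q.g0 := by rw [hg]; push_cast; ring
      have h5 : (2 : ℝ) * ((j + 1 : ℕ) : ℝ) * ((Q.M : ℝ) ^ (j + 1) * Q.g0) =
          Q.M * (2 * j * (Q.M ^ j * Q.g0)) + Q.M * (2 * g) := by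
        rw [hgr, pow_succ]; push_cast; ring
      rw [h5]
      linarith

/-! ### The root -/

/-- The end of the root node `(n, 0, 0, Y)`. -/
def Prm.Y (Q : Prm) (y : List ℕ) : ℕ := y.length / (Q.M ^ Q.n * Q.g0) + 1

theorem Prm.Y_le (Q : Prm) (hg : 0 < Q.M ^ Q.n * Q.g0) (hw : Q.m < Q.w) {y : List ℕ}
    (hy : y.length ≤ Q.len Q.n) : Q.Y y ≤ Q.w := by
  unfold Prm.Y
  have h1 : Q.len Q.n = Q.m * (Q.M ^ Q.n * Q.g0) := by unfold Prm.len Prm.l0; ring
  have h2 : y.length / (Q.M ^ Q.n * Q.g0) ≤ Q.m := by
    rw [Nat.div_le_iff_le_mul hg]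
    rw [h1] at hy
    omega
  omega

theorem tru_root (Q : Prm) (hg : 0 < Q.M ^ Q.n * Q.g0) {x y : List ℕ}
    (hx : x.length ≤ Q.len Q.n) : tru Q x y Q.n 0 0 (Q.Y y) = ED x y := by
  unfold tru
  rw [ED_eq_lev, Nat.zero_mul, Nat.zero_mul, Nat.zero_add, Nat.one_mul, factor_all x hx,
    factor_all y]
  unfold Prm.Y
  exact (Nat.lt_mul_of_div_lt (Nat.lt_succ_self _) hg).le

theorem gexc_root (Q : Prm) (y : List ℕ) :
    gexc Q y Q.n 0 (Q.Y y) ≤ Q.M ^ Q.n * Q.g0 := by
  unfold gexc Prm.Y
  have h1 := Nat.div_mul_le_self y.length (Q.M ^ Q.n * Q.g0)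
  rw [Nat.add_mul, Nat.one_mul]
  omega

/-- **OT-2, lower bound.** Every certified cost of the root is at least the edit distance. -/
theorem ED_le_c {Q : Prm} (hQ : Q.Ok) (hw : Q.m < Q.w) {X : Sched} {J : ℕ} (hX : X.Ok Q.M J)
    {x y : List ℕ} (hx : x.length ≤ Q.len Q.n) (b : ℕ) :
    ED x y ≤ (Q.inst (hidc Q x y) (visc Q x y)).c X Q.n 0 0 (Q.Y y) b := by
  have hM : 1 ≤ Q.M := by have := hQ.M_two; omega
  have hg : 0 < Q.M ^ Q.n * Q.g0 := Nat.mul_pos (Nat.pow_pos hM) hQ.g0_pos
  have hI : (Q.inst (hidc Q x y) (visc Q x y)).Ok := ⟨hQ.M_two, fun s u v => hidc_le_visc Q x y s u v⟩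
  rw [← tru_root Q hg hx (y := y)]
  exact (tru_le_D Q hM hw.le x y (visc Q x y) Q.n 0 0 (Q.Y y) (Nat.zero_le _)).trans
    (Inst.D_le_c hI hX Q.n 0 0 (Q.Y y) b (Nat.zero_le _))

/-- **OT-2, upper bound.** The full value of the root. -/
theorem D_root_le {Q : Prm} (hQ : Q.Ok) (hw : Q.m < Q.w) {x y : List ℕ}
    (hx : x.length ≤ Q.len Q.n) :
    ((Q.w : ℝ) - Q.m) *
        ((Q.inst (hidc Q x y) (visc Q x y)).D (hidc Q x y) Q.n 0 0 (Q.Y y) : ℝ) ≤
      Q.w * (ED x y + (2 * Q.n + 1) * (Q.M ^ Q.n * Q.g0)) := by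
  have hM : 1 ≤ Q.M := by have := hQ.M_two; omega
  have hg : 0 < Q.M ^ Q.n * Q.g0 := Nat.mul_pos (Nat.pow_pos hM) hQ.g0_pos
  have h := D_le Q hM hw x y (visc Q x y) Q.n 0 0 (Q.Y y) (Nat.zero_le _)
  rw [tru_root Q hg hx (y := y)] at h
  have h2 : (gexc Q y Q.n 0 (Q.Y y) : ℝ) ≤ (Q.M : ℝ) ^ Q.n * Q.g0 := by
    exact_mod_cast gexc_root Q y
  refine h.trans (mul_le_mul_of_nonneg_left ?_ (Nat.cast_nonneg _))
  linarith

end Vale.Agent.P315.OT
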