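import Vale.Agent.P315.OT.Setup

/-!
P315, one-scale track (helper453): the standard places of the coins, the code of a cell, the
history as a list, and the list form of a picker.
-/

set_option autoImplicit false

namespace Vale.Agent.P315.OT

/-! ### Places of the coins -/

/-- The standard places of the coins; all arguments below `P`. -/
def stdCode (P : ℕ) : Code where
  cx := fun j s => j * P + s
  cl := fun j s u v b q => P ^ 2 + (((((j * P + s) * P + u) * P + v) * P + b) * P + q)

theorem mix_lt {P a A b : ℕ} (ha : a < A) (hb : b < P) : a * P + b < A * P := by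
  calc a * P + b < a * P + P := by omega
    _ = (a + 1) * P := by ring
    _ ≤ A * P := Nat.mul_le_mul_right _ ha

theorem mix_inj {P a b a' b' : ℕ} (hb : b < P) (hb' : b' < P) (h : a * P + b = a' * P + b') :
    a = a' ∧ b = b' := by
  have hP : 0 < P := by omega
  have h1 : (a * P + b) / P = a := by
    rw [mul_comm, Nat.mul_add_div hP, Nat.div_eq_of_lt hb, add_zero]
  have h2 : (a' * P + b') / P = a' := by
    rw [mul_comm, Nat.mul_add_div hP, Nat.div_eq_of_lt hb', add_zero]
  have h3 : a = a' := by rw [← h1, ← h2, h]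
  subst h3
  exact ⟨rfl, by omega⟩

theorem stdCode_ok (P : ℕ) : Code.Ok (stdCode P) P (P ^ 2 + P ^ 6) where
  cx_lt := by
    intro j s hj hs
    have := mix_lt hj hs
    show j * P + s < P ^ 2 + P ^ 6
    rw [pow_two]
    omega
  cl_lt := by
    intro j s u v b q hj hs hu hv hb hq
    have h1 := mix_lt hj hs
    have h2 := mix_lt h1 hu
    have h3 := mix_lt h2 hv
    have h4 := mix_lt h3 hb
    have h5 := mix_lt h4 hq
    show P ^ 2 + (((((j * P + s) * P + u) * P + v) * P + b) * P + q) < P ^ 2 + P ^ 6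
    have h6 : P * P * P * P * P * P = P ^ 6 := by ring
    rw [h6] at h5
    omega
  cx_inj := by
    intro j s j' s' _ hs _ hs' h
    exact mix_inj hs hs' h
  cl_inj := by
    intro j s u v b q j' s' u' v' b' q' _ hs hu hv hb hq _ hs' hu' hv' hb' hq' h
    have h0 : ((((j * P + s) * P + u) * P + v) * P + b) * P + q =
        ((((j' * P + s') * P + u') * P + v') * P + b') * P + q' := by
      have : P ^ 2 + (((((j * P + s) * P + u) * P + v) * P + b) * P + q) =
        P ^ 2 + (((((j' * P + s') * P + u') * P + v') * P + b') * P + q') := h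
      omega
    obtain ⟨h1, e1⟩ := mix_inj hq hq' h0
    obtain ⟨h2, e2⟩ := mix_inj hb hb' h1
    obtain ⟨h3, e3⟩ := mix_inj hv hv' h2
    obtain ⟨h4, e4⟩ := mix_inj hu hu' h3
    obtain ⟨h5, e5⟩ := mix_inj hs hs' h4
    exact ⟨h5, e5, e4, e3, e2, e1⟩
  disj := by
    intro j s j' s' u v b q hj hs _ _ _ _ _ _ h
    have h1 := mix_lt hj hs
    have h2 : j * P + s = P ^ 2 + (((((j' * P + s') * P + u) * P + v) * P + b) * P + q) := h
    rw [pow_two] at h2
    omega

/-! ### Code of a cell -/

/-- The query code of the cell `(s, u, v)`. -/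
def cellCode (D s u v : ℕ) : ℕ := (s * D + u) * D + v

theorem cellCode_inj {D s u v s' u' v' : ℕ} (hu : u < D) (hv : v < D) (hu' : u' < D) (hv' : v' < D)
    (h : cellCode D s u v = cellCode D s' u' v') : s = s' ∧ u = u' ∧ v = v' := by
  obtain ⟨h1, e1⟩ := mix_inj hv hv' h
  obtain ⟨h2, e2⟩ := mix_inj hu hu' h1
  exact ⟨h2, e2, e1⟩

theorem cellCode_div {D s u v : ℕ} (hu : u < D) (hv : v < D) :
    cellCode D s u v / D / D = s ∧ cellCode D s u v / D % D = u ∧ cellCode D s u v % D = v := by
  have hD : 0 < D := by omega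
  have h1 : cellCode D s u v / D = s * D + u := by
    unfold cellCode
    rw [mul_comm, Nat.mul_add_div hD, Nat.div_eq_of_lt hv, add_zero]
  refine ⟨?_, ?_, ?_⟩
  · rw [h1, mul_comm, Nat.mul_add_div hD, Nat.div_eq_of_lt hu, add_zero]
  · rw [h1, Nat.mul_add_mod' s D u, Nat.mod_eq_of_lt hu]
  · unfold cellCode
    rw [Nat.mul_add_mod' _ D v, Nat.mod_eq_of_lt hv]

theorem cellCode_lt {D s u v K : ℕ} (hs : s < K) (hu : u < D) (hv : v < D) :
    cellCode D s u v < K * D * D := mix_lt (mix_lt hs hu) hv

/-! ### Histories and chains as lists -/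

/-- The history `f` of the rounds `0, …, k`: rows `i < M`, positions `a + r`, `r ≤ p`. -/
def histL (M a p k : ℕ) (f : ℕ → ℕ → ℕ → ℕ → ℕ) : List (List (List (List ℕ))) :=
  (List.range (k + 1)).map fun k' => (List.range M).map fun i =>
    (List.range (p + 1)).map fun r => (List.range (p + 1)).map fun r' =>
      if r ≤ r' then f k' i (a + r) (a + r') else 0

/-- Entry of a history list. -/
def hget (H : List (List (List (List ℕ)))) (k i r r' : ℕ) : ℕ :=
  (((H.getD k []).getD i []).getD r []).getD r' 0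

theorem getD_map_range {β : Type*} (n : ℕ) (f : ℕ → β) (d : β) {i : ℕ} (h : i < n) :
    ((List.range n).map f).getD i d = f i := by
  rw [List.getD_eq_getElem?_getD]
  simp [h]

theorem hget_histL (M a p k : ℕ) (f : ℕ → ℕ → ℕ → ℕ → ℕ) {k' i r r' : ℕ} (hk : k' ≤ k) (hi : i < M)
    (hr : r ≤ p) (hr' : r' ≤ p) :
    hget (histL M a p k f) k' i r r' = if r ≤ r' then f k' i (a + r) (a + r') else 0 := by
  unfold hget histL
  rw [getD_map_range _ _ _ (by omega), getD_map_range _ _ _ hi, getD_map_range _ _ _ (by omega),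
    getD_map_range _ _ _ (by omega)]

theorem histL_congr {M a p k : ℕ} {f f' : ℕ → ℕ → ℕ → ℕ → ℕ}
    (h : ∀ k' ≤ k, ∀ i < M, ∀ u v, a ≤ u → u ≤ v → v ≤ a + p → f k' i u v = f' k' i u v) :
    histL M a p k f = histL M a p k f' := by
  unfold histL
  refine List.map_congr_left fun k' hk => List.map_congr_left fun i hi =>
    List.map_congr_left fun r hr => List.map_congr_left fun r' hr' => ?_
  have h1 := List.mem_range.mp hk
  have h2 := List.mem_range.mp hi
  have h3 := List.mem_range.mp hr
  have h4 := List.mem_range.mp hr'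
  split_ifs with hrr
  · exact h k' (by omega) i h2 _ _ (by omega) (by omega) (by omega)
  · rfl

/-- The default chain: one jump in the first row. -/
def dfl (M p : ℕ) : List ℕ := 0 :: List.replicate M p

/-- The list is a monotone chain of `M` steps from `0` to `p`. -/
def okL (M p : ℕ) (l : List ℕ) : Bool :=
  decide (l.getD 0 0 = 0) && (decide (l.getD M 0 = p) &&
    (List.range M).all fun i => decide (l.getD i 0 ≤ l.getD (i + 1) 0))

/-- Replace a list which is no chain by the default chain. -/
def fixL (M p : ℕ) (l : List ℕ) : List ℕ := if okL M p l = true then l else dfl M p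

theorem dfl_getD (M p i : ℕ) (hi : i ≤ M) : (dfl M p).getD i 0 = if i = 0 then 0 else p := by
  unfold dfl
  cases i with
  | zero => simp
  | succ i =>
    have : i < M := by omega
    simp [List.getD_eq_getElem?_getD, this]

theorem fixL_chain (M p : ℕ) (hM : 1 ≤ M) (l : List ℕ) :
    (fixL M p l).getD 0 0 = 0 ∧ (fixL M p l).getD M 0 = p ∧
      ∀ i < M, (fixL M p l).getD i 0 ≤ (fixL M p l).getD (i + 1) 0 := by
  unfold fixL
  split_ifs with h
  · unfold okL at h
    simp only [Bool.and_eq_true, decide_eq_true_eq, List.all_eq_true, List.mem_range] at h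
    exact ⟨h.1, h.2.1, h.2.2⟩
  · refine ⟨?_, ?_, ?_⟩
    · rw [dfl_getD _ _ _ (by omega)]; simp
    · rw [dfl_getD _ _ _ le_rfl, if_neg (by omega)]
    · intro i hi
      rw [dfl_getD _ _ _ (by omega), dfl_getD _ _ _ (by omega), if_neg (Nat.succ_ne_zero i)]
      split_ifs <;> omega

theorem fixL_of_chain {M p : ℕ} {l : List ℕ} (h0 : l.getD 0 0 = 0) (hp : l.getD M 0 = p)
    (h : ∀ i < M, l.getD i 0 ≤ l.getD (i + 1) 0) : fixL M p l = l := by
  unfold fixL
  rw [if_pos]
  unfold okL
  simp only [Bool.and_eq_true, decide_eq_true_eq, List.all_eq_true, List.mem_range]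
  exact ⟨h0, hp, h⟩

/-- The chain of a list, shifted to `a`. -/
def chainOf (M a p : ℕ) (l : List ℕ) : ℕ → ℕ := fun i => a + (fixL M p l).getD i 0

theorem chainOf_isChain {M a c : ℕ} (hM : 1 ≤ M) (hac : a ≤ c) (l : List ℕ) :
    IsChain M a c (chainOf M a (c - a) l) := by
  obtain ⟨h1, h2, h3⟩ := fixL_chain M (c - a) hM l
  refine ⟨?_, ?_, fun i hi => ?_⟩
  · unfold chainOf; rw [h1]; rfl
  · unfold chainOf; rw [h2]; omega
  · unfold chainOf; exact Nat.add_le_add_left (h3 i hi) _

/-- The picker of a list function: `pl M p C q k H t` proposes a list of `M + 1` nodes. -/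
def listPicker (T : ℕ) (pl : ℕ → ℕ → ℕ → ℕ → ℕ → List (List (List (List ℕ))) → ℕ → List ℕ) :
    Picker where
  T := T
  pk := fun M a c C q k f t => chainOf M a (c - a) (pl M (c - a) C q k (histL M a (c - a) k f) t)

end Vale.Agent.P315.OT
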