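import Vale.Agent.P315.OT.Machine
import Vale.Agent.P315.OT.StdCode

/-!
P315, one-scale track, block OT-4a: the concrete picker (greedy solver of helper763 on the table of
the cumulated edge costs), its regret inequality and locality.
-/

set_option autoImplicit false

namespace Vale.Agent.P315.OT

open Finset

/-- The list function of the machine: path number `t % T` of the greedy solver. -/
def pkL (S T M p C q k : ℕ) (H : List (List (List (List ℕ)))) (t : ℕ) : List ℕ :=
  (H763.picks S C 0 p T (liTab S C T M (p + 1) q k 0 (hget H))).getD (t % T) []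

/-- The picker with `T` paths and harmonic numbers rounded at `1/S`. -/
def stdPicker (S T : ℕ) : Picker := listPicker T (pkL S T)

/-- The history relative to the start `a`. -/
def frel (a : ℕ) (f : ℕ → ℕ → ℕ → ℕ → ℕ) : ℕ → ℕ → ℕ → ℕ → ℕ :=
  fun k i r r' => if r ≤ r' then f k i (a + r) (a + r') else 0

theorem linX_congr {C q b : ℕ} {g g' : ℕ → ℕ} (h : ∀ k ≤ b, g k = g' k) :
    linX C q b g = linX C q b g' := by
  unfold linX
  have h1 : ∑ k ∈ range (b + 1 - q), g (q + k) = ∑ k ∈ range (b + 1 - q), g' (q + k) :=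
    Finset.sum_congr rfl fun k hk => h _ (by have := Finset.mem_range.1 hk; omega)
  have h2 : ∑ k ∈ range (b - q), min (g (q + k) - g (q + k + 1)) C =
      ∑ k ∈ range (b - q), min (g' (q + k) - g' (q + k + 1)) C :=
    Finset.sum_congr rfl fun k hk => by
      have := Finset.mem_range.1 hk
      rw [h (q + k) (by omega), h (q + k + 1) (by omega)]
  rw [h1, h2]

theorem liTab_congr {S C T M p q b o o' : ℕ} {f f' : ℕ → ℕ → ℕ → ℕ → ℕ}
    (h : ∀ k ≤ b, ∀ i < M, ∀ r < p, ∀ r' < p, f k i (o + r) (o + r') = f' k i (o' + r) (o' + r')) :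
    liTab S C T M p q b o f = liTab S C T M p q b o' f' := by
  have h1 : ∀ i < M, ∀ r < p, ∀ r' < p, linE S C q b o f i r r' = linE S C q b o' f' i r r' := by
    intro i hi r hr r' hr'
    unfold linE
    rw [linX_congr fun k hk => h k hk i hi r hr r' hr']
  have h2 : bigE S C T M p q b o f = bigE S C T M p q b o' f' := by
    unfold bigE
    congr 1
    exact Finset.sum_congr rfl fun i hi => Finset.sum_congr rfl fun r hr =>
      Finset.sum_congr rfl fun r' hr' =>
        h1 i (Finset.mem_range.1 hi) r (Finset.mem_range.1 hr) r' (Finset.mem_range.1 hr')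
  unfold liTab
  refine List.map_congr_left fun i hi => List.map_congr_left fun r hr =>
    List.map_congr_left fun r' hr' => ?_
  rw [h1 i (List.mem_range.1 hi) r (List.mem_range.1 hr) r' (List.mem_range.1 hr'), h2]

theorem pkL_histL (S T M p C q k a : ℕ) (f : ℕ → ℕ → ℕ → ℕ → ℕ) (t : ℕ) :
    pkL S T M p C q k (histL M a p k f) t =
      (H763.picks S C 0 p T (liTab S C T M (p + 1) q k 0 (frel a f))).getD (t % T) [] := by
  unfold pkL
  congr 2
  refine liTab_congr fun k' hk i hi r hr r' hr' => ?_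
  rw [hget_histL M a p k f hk hi (by omega) (by omega)]
  simp [frel]

/-- The proposals of the picker are the lanes of the relative history. -/
theorem stdPicker_pk {S T M : ℕ} (hM : 0 < M) (hT : 0 < T) (a c C q k : ℕ)
    (f : ℕ → ℕ → ℕ → ℕ → ℕ) (t : ℕ) {i : ℕ} :
    (stdPicker S T).pk M a c C q k f t i = a + laneP S C T M 0 (c - a) q k (frel a f) t i := by
  obtain ⟨g, hg, g0, gM, gp, gm⟩ := picks_mono (S := S) (cap := C) (T := T) (M := M)
    (p := c - a + 1) (q := q) (b := k) (o := 0) (f := frel a f) hM (Nat.succ_pos _)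
    (Nat.mod_lt t hT)
  have e1 : c - a + 1 - 1 = c - a := Nat.add_sub_cancel _ _
  rw [e1] at hg gM
  have hval : ∀ i ≤ M, ((List.range (M + 1)).map g).getD i 0 = g i := fun i hi =>
    getD_map_range _ _ _ (by omega)
  show chainOf M a (c - a) (pkL S T M (c - a) C q k (histL M a (c - a) k f) t) i = _
  rw [pkL_histL]
  unfold chainOf
  rw [fixL_of_chain (by rw [hg, hval 0 (Nat.zero_le _), g0]) (by rw [hg, hval M le_rfl, gM])
    (fun i hi => by rw [hg, hval i hi.le, hval (i + 1) hi]; exact gm i hi)]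
  unfold laneP greedyPaths wid
  rw [Nat.sub_zero, e1, Nat.zero_add]

theorem frel_cut (a k : ℕ) (f : ℕ → ℕ → ℕ → ℕ → ℕ) {k' : ℕ} (hk : k' ≤ k) :
    frel a (cut k f) k' = frel a f k' := by
  funext i r r'
  unfold frel cut
  rw [if_pos hk]

/-- Locality: the picker reads only the rounds `≤ k` and the increasing edges in its range. -/
theorem stdPicker_loc {S T M a c C q k : ℕ} {f f' : ℕ → ℕ → ℕ → ℕ → ℕ} (hac : a ≤ c)
    (h : ∀ k' ≤ k, ∀ i < M, ∀ u v, a ≤ u → u ≤ v → v ≤ c → f k' i u v = f' k' i u v) (t : ℕ) :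
    (stdPicker S T).pk M a c C q k f t = (stdPicker S T).pk M a c C q k f' t := by
  show chainOf M a (c - a) (pkL S T M (c - a) C q k (histL M a (c - a) k f) t) =
    chainOf M a (c - a) (pkL S T M (c - a) C q k (histL M a (c - a) k f') t)
  rw [histL_congr fun k' hk i hi u v h1 h2 h3 => h k' hk i hi u v h1 h2 (by omega)]

/-- Locality without `a ≤ c`. -/
theorem stdPicker_loc' {S T M a c C q k : ℕ} {f f' : ℕ → ℕ → ℕ → ℕ → ℕ} (hM : 0 < M) (hT : 0 < T)
    (h : ∀ k' ≤ k, ∀ i < M, ∀ u v, a ≤ u → u ≤ v → v ≤ c → f k' i u v = f' k' i u v) (t : ℕ) :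
    (stdPicker S T).pk M a c C q k f t = (stdPicker S T).pk M a c C q k f' t := by
  rcases Nat.lt_or_ge c a with hac | hac
  · have h0 : ∀ F : ℕ → ℕ → ℕ → ℕ → ℕ, ∀ i, laneP S C T M 0 0 q k F t i = 0 := by
      intro F i
      obtain ⟨g, hg, g0, gM, gp, gm⟩ := picks_mono (S := S) (cap := C) (T := T) (M := M)
        (p := 1) (q := q) (b := k) (o := 0) (f := F) hM Nat.one_pos (Nat.mod_lt t hT)
      have e1 : (laneP S C T M 0 0 q k F t i) = 0 + ((H763.picks S C 0 (1 - 1) T
          (liTab S C T M 1 q k 0 F)).getD (t % T) []).getD i 0 := rfl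
      rw [e1, hg, Nat.zero_add]
      rcases Nat.lt_or_ge i (M + 1) with hi | hi
      · rw [getD_map_range _ _ _ hi]
        have := gp i (by omega)
        omega
      · rw [List.getD_eq_default _ _ (by simpa using hi)]
    have hca : c - a = 0 := by omega
    funext i
    rw [stdPicker_pk hM hT, stdPicker_pk hM hT, hca, h0, h0]
  · exact stdPicker_loc hac h t

theorem stdPicker_cut {S T M a c C q k : ℕ} {f : ℕ → ℕ → ℕ → ℕ → ℕ} (hac : a ≤ c) (t : ℕ) :
    (stdPicker S T).pk M a c C q k (cut k f) t = (stdPicker S T).pk M a c C q k f t := by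
  refine stdPicker_loc hac (fun k' hk i _ u v _ _ _ => ?_) t
  unfold cut
  rw [if_pos hk]

theorem chainCost_frel {M a : ℕ} {f : ℕ → ℕ → ℕ → ℕ → ℕ} {k : ℕ} {g : ℕ → ℕ}
    (hg : ∀ i < M, g i ≤ g (i + 1)) :
    chainCost (frel a f k) M g = chainCost (f k) M (fun i => a + g i) := by
  unfold chainCost
  refine Finset.sum_congr rfl fun i hi => ?_
  unfold frel
  rw [if_pos (hg i (Finset.mem_range.1 hi))]

theorem err1_mono {m m' T : ℕ} (hm : 1 ≤ m) (hmm : m ≤ m') (ζ : ℝ) :
    H782.err1 m T ζ ≤ m' / T * (1 + Real.log (1 + T)) + ζ := by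
  unfold H782.err1
  have hm0 : (0 : ℝ) < m := by exact_mod_cast hm
  have hm1 : (1 : ℝ) ≤ m := by exact_mod_cast hm
  have h1 : ((T : ℝ) + m) / m ≤ 1 + T := by
    rw [div_le_iff₀ hm0]
    have : (0 : ℝ) ≤ T := Nat.cast_nonneg _
    nlinarith
  have h2 : Real.log (((T : ℝ) + m) / m) ≤ Real.log (1 + T) :=
    Real.log_le_log (by positivity) h1
  have h3 : (0 : ℝ) ≤ 1 + Real.log (1 + T) := by
    have := Real.log_nonneg (show (1 : ℝ) ≤ 1 + T by
      have : (0 : ℝ) ≤ T := Nat.cast_nonneg _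
      linarith)
    linarith
  have h4 : (m : ℝ) / T ≤ m' / T := by
    have : (m : ℝ) ≤ m' := by exact_mod_cast hmm
    gcongr
  have h5 : (0 : ℝ) ≤ (m : ℝ) / T := by positivity
  calc (m : ℝ) / T * (1 + Real.log (((T : ℝ) + m) / m)) + ζ
      ≤ (m : ℝ) / T * (1 + Real.log (1 + T)) + ζ := by gcongr
    _ ≤ (m' : ℝ) / T * (1 + Real.log (1 + T)) + ζ := by gcongr

/-- **OT-4a**: the concrete picker satisfies the regret inequality. -/
theorem stdPicker_ok {S T M : ℕ} (hM : 0 < M) (hS : 0 < S) (hT : 0 < T) (W R : ℕ) {th : ℝ}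
    (hth0 : 0 < th) (hth1 : th ≤ 1 / 2) :
    (stdPicker S T).Ok M W R (2 * Real.log (W + 1))
      (4 * th + (((W + 1) ^ 2 : ℕ) / T * (1 + Real.log (1 + T)) + T / S) / th) := by
  have hlogT : (0 : ℝ) ≤ Real.log (1 + T) := Real.log_nonneg (by
    have : (0 : ℝ) ≤ T := Nat.cast_nonneg _
    linarith)
  have hlogW : (0 : ℝ) ≤ 2 * Real.log (W + 1) := by
    have := Real.log_nonneg (show (1 : ℝ) ≤ W + 1 by
      have : (0 : ℝ) ≤ W := Nat.cast_nonneg _
      linarith)
    linarith
  have he3 : (0 : ℝ) ≤ 4 * th + (((W + 1) ^ 2 : ℕ) / T * (1 + Real.log (1 + T)) + T / S) / th := by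
    positivity
  refine ⟨hT, he3, hlogW, ?_, fun a c C q k f f' t h => stdPicker_loc' hM hT h t, ?_⟩
  · intro a c C q k f t hac ht
    exact chainOf_isChain hM hac _
  · intro a c C q B f z hac hcW hC hqB hBR hf hz
    have hzc : IsChain M 0 (c - a) (fun i => z i - a) := by
      refine ⟨?_, ?_, ?_⟩
      · simp [hz.start]
      · simp [hz.finish]
      · intro i hi
        exact Nat.sub_le_sub_right (hz.mono i hi) a
    have hza : ∀ i ≤ M, a + (z i - a) = z i := fun i hi => by
      have := hz.ge hi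
      omega
    have h := lane_regret (S := S) (cap := C) (T := T) (M := M) (o := 0) (c := c - a) (q := q)
      (f := frel a f) hS hC hT hM (Nat.zero_le _)
      (fun k _ i _ r r' _ hr _ => by
        unfold frel
        rw [if_pos hr, if_pos hr]
        exact hf k i _ _ (by omega)) hzc hth0 hth1 (B - q)
    -- costs
    have hcost : ∀ k, (chainCost (frel a f k) M fun i => z i - a) = chainCost (f k) M z := by
      intro k
      rw [chainCost_frel (fun i hi => hzc.mono i hi)]
      unfold chainCost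
      refine Finset.sum_congr rfl fun i hi => ?_
      have hi' := Finset.mem_range.1 hi
      show f k i (a + (z i - a)) (a + (z (i + 1) - a)) = _
      rw [hza i hi'.le, hza (i + 1) hi']
    have hmean : ∀ k, (stdPicker S T).mean M a c C q k f = (∑ κ ∈ range T,
        (chainCost (frel a f (k + 1)) M (laneP S C T M 0 (c - a) q k (frel a f) κ) : ℝ)) / T := by
      intro k
      unfold Picker.mean
      show (∑ t ∈ range T, _) / (T : ℝ) = _
      congr 1
      refine Finset.sum_congr rfl fun t _ => ?_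
      rw [stdPicker_cut hac]
      have h1 : (stdPicker S T).pk M a c C q k f t =
          fun i => a + laneP S C T M 0 (c - a) q k (frel a f) t i := by
        funext i
        exact stdPicker_pk hM hT a c C q k f t
      rw [h1, chainCost_frel (fun i hi => (laneP_chain hM hT (Nat.zero_le _)).mono i hi)]
    have hl : ∑ k ∈ Ico q B, ∑ i ∈ range M,
        ((min (f k i (z i) (z (i + 1)) - f (k + 1) i (z i) (z (i + 1))) C : ℕ) : ℝ) =
        ∑ k ∈ range (B - q), ∑ i ∈ range M,
          min ((frel a f (q + k) i (z i - a) (z (i + 1) - a) : ℝ) -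
            frel a f (q + k + 1) i (z i - a) (z (i + 1) - a)) C := by
      rw [Finset.sum_Ico_eq_sum_range]
      refine Finset.sum_congr rfl fun k _ => Finset.sum_congr rfl fun i hi => ?_
      have hi' := Finset.mem_range.1 hi
      have hm := hz.mono i hi'
      unfold frel
      rw [if_pos (Nat.sub_le_sub_right hm a), if_pos (Nat.sub_le_sub_right hm a), hza i hi'.le,
        hza (i + 1) hi', Nat.cast_min, Nat.cast_sub (hf _ _ _ _ hm)]
    rw [hl]
    refine h.trans ?_
    have hs : ∑ k ∈ range (B - q), ((chainCost (frel a f (q + k)) M (fun i => z i - a) : ℝ) -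
        (∑ κ ∈ range T, (chainCost (frel a f (q + k + 1)) M
          (laneP S C T M 0 (c - a) q (q + k) (frel a f) κ) : ℝ)) / T) =
        ∑ k ∈ Ico q B, ((chainCost (f k) M z : ℝ) - (stdPicker S T).mean M a c C q k f) := by
      rw [Finset.sum_Ico_eq_sum_range]
      refine Finset.sum_congr rfl fun k _ => ?_
      rw [hcost, hmean]
    rw [hs]
    set p' := wid 0 (c - a) with hp'
    have hp1 : 1 ≤ p' := Nat.succ_pos _
    have hpW : p' ≤ W + 1 := by
      rw [hp']
      unfold wid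
      omega
    have hp1R : (1 : ℝ) ≤ p' := by exact_mod_cast hp1
    have hpWR : (p' : ℝ) ≤ W + 1 := by exact_mod_cast hpW
    have hlog : Real.log p' ≤ Real.log (W + 1) := Real.log_le_log (by linarith) hpWR
    have herr : H782.err1 (p' * p') T (T / S) ≤
        ((W + 1) ^ 2 : ℕ) / T * (1 + Real.log (1 + T)) + T / S :=
      err1_mono (Nat.mul_pos hp1 hp1) (by rw [pow_two]; exact Nat.mul_le_mul hpW hpW) _
    have hNR : ((B - q : ℕ) : ℝ) ≤ R := by
      have : B - q ≤ R := by omega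
      exact_mod_cast this
    have hCM : (0 : ℝ) ≤ (C : ℝ) * M := by positivity
    have h5 : (4 * th + H782.err1 (p' * p') T (T / S) / th) ≤
        4 * th + (((W + 1) ^ 2 : ℕ) / T * (1 + Real.log (1 + T)) + T / S) / th := by
      gcongr
    have h6 : ((B - q : ℕ) : ℝ) * (4 * th + H782.err1 (p' * p') T (T / S) / th) ≤
        R * (4 * th + (((W + 1) ^ 2 : ℕ) / T * (1 + Real.log (1 + T)) + T / S) / th) :=
      (mul_le_mul_of_nonneg_left h5 (Nat.cast_nonneg _)).trans
        (mul_le_mul_of_nonneg_right hNR he3)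
    have h7 : (C : ℝ) * M * (2 * Real.log p' +
        ((B - q : ℕ) : ℝ) * (4 * th + H782.err1 (p' * p') T (T / S) / th)) ≤
        (C : ℝ) * M * (2 * Real.log (W + 1) +
          R * (4 * th + (((W + 1) ^ 2 : ℕ) / T * (1 + Real.log (1 + T)) + T / S) / th)) := by
      refine mul_le_mul_of_nonneg_left ?_ hCM
      linarith
    nlinarith [h7]

/-- Larger errors. -/
theorem Picker.Ok.mono {P : Picker} {M W R : ℕ} {Lg e3 Lg' e3' : ℝ} (h : P.Ok M W R Lg e3)
    (hL : Lg ≤ Lg') (he : e3 ≤ e3') : P.Ok M W R Lg' e3' where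
  T_pos := h.T_pos
  e3_nonneg := h.e3_nonneg.trans he
  Lg_nonneg := h.Lg_nonneg.trans hL
  chain := h.chain
  loc := h.loc
  regret := by
    intro a c C q B f z h1 h2 h3 h4 h5 h6 h7
    refine (h.regret a c C q B f z h1 h2 h3 h4 h5 h6 h7).trans ?_
    gcongr

theorem one_add_log_le {T : ℕ} (hT : 1 ≤ T) : 1 + Real.log (1 + T) ≤ 3 * Real.sqrt T := by
  have hT' : (1 : ℝ) ≤ T := by exact_mod_cast hT
  have h0 : (0 : ℝ) < 1 + T := by linarith
  have h1 : Real.log (1 + T) = 2 * Real.log (Real.sqrt (1 + T)) := by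
    rw [Real.log_sqrt h0.le]
    ring
  have h2 : Real.log (Real.sqrt (1 + T)) ≤ Real.sqrt (1 + T) - 1 :=
    Real.log_le_sub_one_of_pos (Real.sqrt_pos.2 h0)
  have h3 : Real.sqrt (1 + T) ≤ 1 + Real.sqrt T := by
    have hs := Real.sq_sqrt (show (0 : ℝ) ≤ T by linarith)
    have hs0 := Real.sqrt_nonneg (T : ℝ)
    refine Real.sqrt_le_iff.2 ⟨by linarith, by nlinarith⟩
  have h4 : 1 ≤ Real.sqrt T := Real.one_le_sqrt.2 hT'
  rw [h1]
  linarith

/-- **OT-4a, numbers**: with `T ≥ ((W + 1) G)^4` paths and `S ≥ T G^2` the error per round and row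
is `8 / G` caps. -/
theorem stdPicker_ok' {S T M : ℕ} (hM : 0 < M) (W R : ℕ) {G : ℕ} (hG : 2 ≤ G)
    (hT : ((W + 1) * G) ^ 4 ≤ T) (hS : T * G ^ 2 ≤ S) :
    (stdPicker S T).Ok M W R (2 * Real.log (W + 1)) (8 / G) := by
  have hG0 : 0 < G := by omega
  have hK : 0 < (W + 1) * G := Nat.mul_pos (Nat.succ_pos _) hG0
  have hT0 : 0 < T := lt_of_lt_of_le (Nat.pow_pos hK) hT
  have hS0 : 0 < S := lt_of_lt_of_le (Nat.mul_pos hT0 (Nat.pow_pos hG0)) hS
  have hGR : (2 : ℝ) ≤ G := by exact_mod_cast hG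
  have hG' : (0 : ℝ) < G := by linarith
  refine (stdPicker_ok (S := S) (T := T) hM hS0 hT0 W R (th := 1 / G) (by positivity)
    (by rw [div_le_div_iff₀ hG' (by norm_num)]; linarith)).mono le_rfl ?_
  have hTR : (0 : ℝ) < T := by exact_mod_cast hT0
  have hSR : (0 : ℝ) < S := by exact_mod_cast hS0
  have hW : (0 : ℝ) < (W : ℝ) + 1 := by positivity
  have h1 := one_add_log_le hT0
  have h2 : (((W : ℝ) + 1) * G) ^ 2 ≤ Real.sqrt T := by
    refine Real.le_sqrt_of_sq_le ?_
    have : ((((W + 1) * G) ^ 4 : ℕ) : ℝ) ≤ (T : ℝ) := by exact_mod_cast hT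
    push_cast at this
    calc ((((W : ℝ) + 1) * G) ^ 2) ^ 2 = (((W : ℝ) + 1) * G) ^ 4 := by ring
      _ ≤ (T : ℝ) := this
  have hr0 : 0 < Real.sqrt T := Real.sqrt_pos.2 hTR
  have hrr : Real.sqrt T * Real.sqrt T = T := Real.mul_self_sqrt hTR.le
  have h3 : (((W + 1) ^ 2 : ℕ) : ℝ) / T * (1 + Real.log (1 + T)) ≤ 3 / G ^ 2 := by
    push_cast
    rw [div_mul_eq_mul_div, div_le_div_iff₀ hTR (by positivity)]
    calc ((W : ℝ) + 1) ^ 2 * (1 + Real.log (1 + T)) * G ^ 2
        ≤ ((W : ℝ) + 1) ^ 2 * (3 * Real.sqrt T) * G ^ 2 := by gcongr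
      _ = 3 * ((((W : ℝ) + 1) * G) ^ 2 * Real.sqrt T) := by ring
      _ ≤ 3 * (Real.sqrt T * Real.sqrt T) := by gcongr
      _ = 3 * T := by rw [hrr]
  have h4 : (T : ℝ) / S ≤ 1 / G ^ 2 := by
    rw [div_le_div_iff₀ hSR (by positivity)]
    have : ((T * G ^ 2 : ℕ) : ℝ) ≤ (S : ℝ) := by exact_mod_cast hS
    push_cast at this
    linarith
  have h5 : ((((W + 1) ^ 2 : ℕ) : ℝ) / T * (1 + Real.log (1 + T)) + T / S) / (1 / G) ≤ 4 / G := by
    rw [div_div_eq_mul_div, div_one]
    calc ((((W + 1) ^ 2 : ℕ) : ℝ) / T * (1 + Real.log (1 + T)) + T / S) * G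
        ≤ (3 / G ^ 2 + 1 / G ^ 2) * G := by gcongr
      _ = 4 / G := by field_simp; ring
  have h6 : (4 : ℝ) * (1 / G) = 4 / G := by ring
  have h7 : (8 : ℝ) / G = 4 / G + 4 / G := by ring
  rw [h6, h7]
  linarith

end Vale.Agent.P315.OT
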