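import Vale.Agent.P315.OT.NumTime
import Vale.Agent.P315.OT.Picker
import Vale.Agent.P315.OT.Geo

/-!
P315, one-scale track, OT-9: the parameters satisfy all the assumptions of the value and the area
(`root_seeds`), for large `N`.
-/

set_option autoImplicit false

namespace Vale.Agent.P315.OT.Num

open Vale.Agent.P315.H738

/-- number of picks of the solver -/
def sT (N : ℕ) : ℕ := 2 ^ (44 * ll N)

/-- scale of the solver -/
def sS (N : ℕ) : ℕ := 2 ^ (52 * ll N)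

/-- number of values of a seed, a power of two -/
def pEe (e N : ℕ) : ℕ := 2 ^ (Nat.log 2 (16384 * e ^ 2 * ll N) + 1 + 44 * ll N)

/-- number of seeds -/
def pR (e N n : ℕ) : ℕ := pP e N n ^ 2 + pP e N n ^ 6

theorem pEe_pos (e N : ℕ) : 0 < pEe e N := by unfold pEe; positivity

theorem dJ (e N n : ℕ) : (prm e N n).J + 1 ∣ pEe e N := by
  show pJ e N + 1 ∣ pEe e N
  rw [pJ_add]
  unfold pJ1 pEe
  exact pow_dvd_pow 2 (by omega)

theorem dT (e N : ℕ) : (stdPicker (sS N) (sT N)).T ∣ pEe e N := by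
  show sT N ∣ pEe e N
  unfold sT pEe
  exact pow_dvd_pow 2 (by omega)

/-- the regime, with the error of the solver and the logarithm of the number of picks -/
structure Reg2 (e g N : ℕ) : Prop where
  reg : Reg e g N
  err : 8 * (pRd e N (lvl g 4 N) + 1) ≤ bra 4 N

theorem ev_reg2 (e g : ℕ) (he : 1 ≤ e) (hg : 2 ≤ g) : ∃ N0, ∀ N, N0 ≤ N → Reg2 e g N := by
  obtain ⟨N1, h1⟩ := ev_reg e g he hg
  obtain ⟨N2, h2⟩ := ev_bra 4 (8 * (65540 * e ^ 2 * 4 + 1)) 2 0 (by norm_num)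
  refine ⟨max N1 N2, fun N hN => ⟨h1 N ((le_max_left _ _).trans hN), ?_⟩⟩
  refine le_trans ?_ (h2 N ((le_max_right _ _).trans hN))
  have h3 := pRd_le (N := N) he (lvl_le g 4 N)
  have h4 := one_le_lg N
  rw [pow_zero, mul_one, mul_assoc]
  apply Nat.mul_le_mul_left
  have h5 : (lg N + 1) ^ 2 ≤ 4 * lg N ^ 2 := by nlinarith
  have h6 : 1 ≤ lg N ^ 2 := Nat.one_le_pow _ _ h4
  calc pRd e N (lvl g 4 N) + 1 ≤ 65540 * e ^ 2 * (4 * lg N ^ 2) + 1 * lg N ^ 2 :=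
        Nat.add_le_add (h3.trans (Nat.mul_le_mul_left _ h5)) (by omega)
    _ = (65540 * e ^ 2 * 4 + 1) * lg N ^ 2 := by ring

section

variable {e g N : ℕ}

theorem pow_aux1 (N : ℕ) : (2 ^ (7 * ll N) * 2 ^ (4 * ll N)) ^ 4 = sT N := by
  unfold sT
  rw [← pow_add, ← pow_mul]
  congr 1
  ring

theorem pow_aux2 (N : ℕ) : sT N * bra 4 N ^ 2 = sS N := by
  unfold sS sT bra
  rw [← pow_mul, ← pow_add]
  congr 1
  ring

theorem log_aux (W : ℕ) : 2 * Real.log ((W : ℝ) + 1) ≤ Real.log (((W + 2 : ℕ) : ℝ) ^ 2) := by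
  have h1 : Real.log ((W : ℝ) + 1) ≤ Real.log ((W + 2 : ℕ) : ℝ) := by
    apply Real.log_le_log (by positivity)
    push_cast
    linarith
  rw [Real.log_pow]
  push_cast at h1 ⊢
  linarith

/-- **The picker.** -/
theorem picker_ok (h : Reg2 e g N) (n : ℕ) :
    (stdPicker (sS N) (sT N)).Ok (prm e N n).M ((prm e N n).w * (prm e N n).M)
      ((prm e N n).Rd + 1) (14 * ll N) (8 / (bra 4 N : ℕ)) := by
  have hW := h.reg.W
  have hM := bra_ge N
  have h1 : pw e N * bra 4 N + 1 ≤ 2 ^ (7 * ll N) := by omega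
  have hG : bra 4 N = 2 ^ (4 * ll N) := rfl
  have key := stdPicker_ok' (S := sS N) (T := sT N) (M := (prm e N n).M)
    (show 0 < bra 4 N by omega) ((prm e N n).w * (prm e N n).M) ((prm e N n).Rd + 1)
    (G := bra 4 N) hM ?_ ?_
  · refine key.mono ?_ le_rfl
    exact (log_aux (pw e N * bra 4 N)).trans (log_edges_le h.reg)
  · show ((pw e N * bra 4 N + 1) * bra 4 N) ^ 4 ≤ sT N
    exact (Nat.pow_le_pow_left (Nat.mul_le_mul h1 (le_of_eq hG)) 4).trans (le_of_eq (pow_aux1 _))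
  · exact le_of_eq (pow_aux2 N)

theorem err_le (h : Reg2 e g N) :
    ((pRd e N (lvl g 4 N) : ℝ) + 1) * (8 / (bra 4 N : ℕ)) ≤ 1 := by
  have hM0 : (0 : ℝ) < (bra 4 N : ℕ) := by
    have := bra_ge N
    exact_mod_cast (by omega : 0 < bra 4 N)
  have h1 : (8 : ℝ) * (pRd e N (lvl g 4 N) + 1) ≤ (bra 4 N : ℕ) := by exact_mod_cast h.err
  rw [mul_div_assoc', div_le_one hM0]
  linarith

/-- the length is at most twice the length of the strings -/
theorem len_le_two (he : 1 ≤ e) (h : Reg e g N) :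
    pK N (lvl g 4 N) * pm e N * pg e N (lvl g 4 N) ≤ 2 * N := by
  have h1 := @len_le e N (lvl g 4 N)
  have h2 := h.rows
  have h3 : rws g 4 N = pK N (lvl g 4 N) := rfl
  rw [h3] at h2
  have h4 : 1 * (pK N (lvl g 4 N) * pm e N) ≤ 16 * e * (pK N (lvl g 4 N) * pm e N) :=
    Nat.mul_le_mul_right _ (by omega)
  omega

/-- the rounding -/
theorem round_le (he : 1 ≤ e) (h : Reg e g N) :
    256 * e * ((2 * lvl g 4 N + 1) * (pK N (lvl g 4 N) * pg e N (lvl g 4 N))) ≤ 6 * N := by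
  have h1 := len_le_two he h
  have h2 : 1 ≤ lvl g 4 N := by
    have := h.lev1
    omega
  have h3 : 256 * e * lvl g 4 N ≤ pm e N := by
    unfold pm pA
    calc 256 * e * lvl g 4 N = 256 * e * 1 * lvl g 4 N := by ring
      _ ≤ 256 * e * ll N * lg N :=
        Nat.mul_le_mul (Nat.mul_le_mul_left _ (one_le_ll N)) (lvl_le g 4 N)
  calc 256 * e * ((2 * lvl g 4 N + 1) * (pK N (lvl g 4 N) * pg e N (lvl g 4 N)))
      ≤ 256 * e * ((3 * lvl g 4 N) * (pK N (lvl g 4 N) * pg e N (lvl g 4 N))) :=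
        Nat.mul_le_mul_left _ (Nat.mul_le_mul_right _ (by omega))
    _ = 3 * ((256 * e * lvl g 4 N) * (pK N (lvl g 4 N) * pg e N (lvl g 4 N))) := by ring
    _ ≤ 3 * (pm e N * (pK N (lvl g 4 N) * pg e N (lvl g 4 N))) :=
        Nat.mul_le_mul_left _ (Nat.mul_le_mul_right _ h3)
    _ = 3 * (pK N (lvl g 4 N) * pm e N * pg e N (lvl g 4 N)) := by ring
    _ ≤ 3 * (2 * N) := Nat.mul_le_mul_left _ h1
    _ = 6 * N := by ring

theorem round_real (he : 1 ≤ e) (h : Reg e g N) :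
    2 * ((2 * ((lvl g 4 N : ℕ) : ℝ) + 1) * ((bra 4 N : ℕ) ^ (lvl g 4 N) * (pg e N (lvl g 4 N) : ℕ)))
      ≤ (N : ℝ) / (16 * e) := by
  have h1 := round_le he h
  have h2 : (256 : ℝ) * e * ((2 * (lvl g 4 N : ℕ) + 1) *
      ((bra 4 N : ℕ) ^ (lvl g 4 N) * (pg e N (lvl g 4 N) : ℕ))) ≤ 6 * N := by
    unfold pK at h1
    exact_mod_cast h1
  have he0 : (1 : ℝ) ≤ e := by exact_mod_cast he
  have h0 : (0 : ℝ) ≤ N := Nat.cast_nonneg N
  rw [le_div_iff₀ (by positivity)]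
  nlinarith

/-- **The value** in the form of `root_seeds`; `V` = the right side of `StmtValue`. -/
theorem hval_num (he : 1 ≤ e) (h : Reg e g N) {V ε : ℝ}
    (hV : V ≤ (lvl g 4 N : ℕ) * (1 / (2 * e))) (hε : 7 / (e : ℝ) ≤ ε) :
    6 * (V * (prm e N (lvl g 4 N)).len (prm e N (lvl g 4 N)).n) + (prm e N (lvl g 4 N)).n *
      ((N : ℝ) / (16 * e : ℕ) +
      2 * ((2 * (prm e N (lvl g 4 N)).n + 1) *
        (((prm e N (lvl g 4 N)).M : ℝ) ^ (prm e N (lvl g 4 N)).n * (prm e N (lvl g 4 N)).g0))) ≤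
      (prm e N (lvl g 4 N)).n * (ε * (N : ℝ)) := by
  show 6 * (V * ((prm e N (lvl g 4 N)).len (lvl g 4 N) : ℕ)) + ((lvl g 4 N : ℕ) : ℝ) *
      ((N : ℝ) / (16 * e : ℕ) +
      2 * ((2 * ((lvl g 4 N : ℕ) : ℝ) + 1) *
        (((bra 4 N : ℕ) : ℝ) ^ (lvl g 4 N) * (pg e N (lvl g 4 N) : ℕ)))) ≤
      ((lvl g 4 N : ℕ) : ℝ) * (ε * (N : ℝ))
  rw [prm_len_n]
  set n : ℕ := lvl g 4 N with hn
  have he0 : (1 : ℝ) ≤ e := by exact_mod_cast he
  have hepos : (0 : ℝ) < e := by linarith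
  have hN0 : (0 : ℝ) ≤ N := Nat.cast_nonneg N
  have hn0 : (0 : ℝ) ≤ (n : ℝ) := Nat.cast_nonneg n
  have h1 : ((pK N n * pm e N * pg e N n : ℕ) : ℝ) ≤ 2 * N := by exact_mod_cast len_le_two he h
  have h2 := round_real he h
  rw [← hn] at h2
  have h3 : V * ((pK N n * pm e N * pg e N n : ℕ) : ℝ) ≤ (n : ℝ) * (N / e) := by
    have a1 : V * ((pK N n * pm e N * pg e N n : ℕ) : ℝ) ≤
        ((n : ℝ) * (1 / (2 * e))) * ((pK N n * pm e N * pg e N n : ℕ) : ℝ) :=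
      mul_le_mul_of_nonneg_right hV (Nat.cast_nonneg _)
    have a2 : ((n : ℝ) * (1 / (2 * e))) * ((pK N n * pm e N * pg e N n : ℕ) : ℝ) ≤
        ((n : ℝ) * (1 / (2 * e))) * (2 * N) := mul_le_mul_of_nonneg_left h1 (by positivity)
    have a3 : ((n : ℝ) * (1 / (2 * e))) * (2 * N) = (n : ℝ) * (N / e) := by field_simp
    linarith
  have h4 : (N : ℝ) / (16 * e : ℕ) = (N / e) / 16 := by push_cast; field_simp
  have h5 : (N : ℝ) / (16 * e) = (N / e) / 16 := by field_simp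
  rw [h5] at h2
  rw [h4]
  have h6 : (0 : ℝ) ≤ N / e := by positivity
  have h7 : 7 * ((N : ℝ) / e) ≤ ε * N := by
    calc 7 * ((N : ℝ) / e) = 7 / e * N := by ring
      _ ≤ ε * N := mul_le_mul_of_nonneg_right hε hN0
  have h8 : (n : ℝ) * (N / e / 16 + 2 * ((2 * (n : ℝ) + 1) *
      (((bra 4 N : ℕ) : ℝ) ^ n * (pg e N n : ℕ)))) ≤ n * (N / e / 16 + N / e / 16) :=
    mul_le_mul_of_nonneg_left (by linarith) hn0
  have h9 : 6 * ((n : ℝ) * (N / e)) + n * (N / e / 16 + N / e / 16) ≤ n * (7 * (N / e)) := by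
    have : 0 ≤ (n : ℝ) * (N / e) := mul_nonneg hn0 h6
    nlinarith
  have h10 : (n : ℝ) * (7 * (N / e)) ≤ n * (ε * N) := mul_le_mul_of_nonneg_left h7 hn0
  linarith

/-- the rounding is below the error -/
theorem heps_num (he : 1 ≤ e) (h : Reg e g N) (hN : 1 ≤ N) {ε : ℝ} (hε : 7 / (e : ℝ) ≤ ε) :
    (N : ℝ) / (16 * e : ℕ) +
      2 * ((2 * (prm e N (lvl g 4 N)).n + 1) *
        (((prm e N (lvl g 4 N)).M : ℝ) ^ (prm e N (lvl g 4 N)).n * (prm e N (lvl g 4 N)).g0)) <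
      ε * (N : ℝ) := by
  show (N : ℝ) / (16 * e : ℕ) +
      2 * ((2 * ((lvl g 4 N : ℕ) : ℝ) + 1) *
        (((bra 4 N : ℕ) : ℝ) ^ (lvl g 4 N) * (pg e N (lvl g 4 N) : ℕ))) < ε * (N : ℝ)
  have he0 : (1 : ℝ) ≤ e := by exact_mod_cast he
  have hepos : (0 : ℝ) < e := by linarith
  have hN0 : (1 : ℝ) ≤ N := by exact_mod_cast hN
  have h2 := round_real he h
  have h4 : (N : ℝ) / (16 * e : ℕ) = (N / e) / 16 := by push_cast; field_simp
  have h5 : (N : ℝ) / (16 * e) = (N / e) / 16 := by field_simp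
  rw [h5] at h2
  rw [h4]
  have h6 : (0 : ℝ) < N / e := by positivity
  have h7 : 7 * ((N : ℝ) / e) ≤ ε * N := by
    calc 7 * ((N : ℝ) / e) = 7 / e * N := by ring
      _ ≤ ε * N := mul_le_mul_of_nonneg_right hε (by linarith)
  linarith

/-! ### Positions -/

theorem M_le_K {n : ℕ} (hn : 1 ≤ n) : bra 4 N ≤ pK N n := by
  unfold pK
  exact Nat.le_self_pow (by omega) _

theorem K_le_P (e N n : ℕ) : pK N n ≤ pP e N n := (b2 e N n).le

theorem w_le_P (he : 1 ≤ e) (h : Reg e g N) {n : ℕ} (hn : 1 ≤ n) : pw e N ≤ pP e N n := by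
  have h1 := h.M1
  have h2 := M_le_K (N := N) hn
  have h3 := pA_pos (N := N) he
  have h4 : 16 * e + 1 ≤ pK N n := by
    have : 64 * e * 1 ≤ 64 * e * pA e N := Nat.mul_le_mul_left _ h3
    omega
  unfold pw pP
  have h5 : (16 * e + 1) * pm e N ≤ pK N n * pm e N := Nat.mul_le_mul_right _ h4
  have h6 : (pm e N + 2) * pK N n = pK N n * pm e N + 2 * pK N n := by ring
  omega

theorem N_le_P (e N n : ℕ) : pN e N n ≤ pP e N n := by
  unfold pP pRd
  omega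

theorem T_le_K {n : ℕ} (hn : 11 ≤ n) : sT N ≤ pK N n := by
  unfold sT pK bra
  rw [← pow_mul]
  apply Nat.pow_le_pow_right (by norm_num)
  calc 44 * ll N = 4 * ll N * 11 := by ring
    _ ≤ 4 * ll N * n := Nat.mul_le_mul_left _ hn

theorem Y_le' (he : 1 ≤ e) (n : ℕ) {y : List ℕ} (hy : y.length ≤ N) :
    (prm e N n).Y y ≤ pm e N + 1 := by
  unfold Prm.Y
  apply Nat.succ_le_succ
  show y.length / (bra 4 N ^ n * pg e N n) ≤ pm e N
  have h0 : 0 < bra 4 N ^ n * pg e N n := Nat.mul_pos (pK_pos N n) (pg_pos e N n)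
  rw [Nat.div_le_iff_le_mul h0]
  have h1 := len_ge (n := n) (N := N) he
  have h2 : pK N n * pm e N * pg e N n = pm e N * (bra 4 N ^ n * pg e N n) := by
    unfold pK; ring
  omega

theorem Y_mul_lt (he : 1 ≤ e) (n : ℕ) {y : List ℕ} (hy : y.length ≤ N) :
    (prm e N n).Y y * bra 4 N ^ n < pP e N n := by
  have h1 := Y_le' he n hy
  have h2 : (prm e N n).Y y * pK N n ≤ (pm e N + 1) * pK N n := Nat.mul_le_mul_right _ h1
  have h3 := pK_pos N n
  change (prm e N n).Y y * pK N n < _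
  unfold pP
  have h4 : (pm e N + 2) * pK N n = (pm e N + 1) * pK N n + pK N n := by ring
  omega

theorem Y_le_w (he : 1 ≤ e) (n : ℕ) {y : List ℕ} (hy : y.length ≤ N) :
    (prm e N n).Y y ≤ (prm e N n).w := by
  have h1 := Y_le' he n hy
  have h2 := pm_pos (N := N) he
  show _ ≤ pw e N
  unfold pw
  have h3 : 2 * pm e N ≤ (16 * e + 1) * pm e N := Nat.mul_le_mul_right _ (by omega)
  omega

theorem P_le_R (e N n : ℕ) : pP e N n ≤ pR e N n := by
  unfold pR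
  have : pP e N n ≤ pP e N n ^ 2 := Nat.le_self_pow (by norm_num) _
  omega

/-- **The feed is long enough** (hypotheses of `fits_preF`). -/
theorem feed_ok (he : 1 ≤ e) (h : Reg e g N) {y : List ℕ} (hy : y.length ≤ N) {R : ℕ}
    (hR : pP e N (lvl g 4 N) ≤ R) :
    (prm e N (lvl g 4 N)).M ≤ R ∧ (prm e N (lvl g 4 N)).n ≤ R ∧ (prm e N (lvl g 4 N)).w ≤ R ∧
      (prm e N (lvl g 4 N)).N ≤ R ∧ sT N ≤ R ∧
      (prm e N (lvl g 4 N)).M ^ (prm e N (lvl g 4 N)).n ≤ R ∧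
      (prm e N (lvl g 4 N)).Y y * (prm e N (lvl g 4 N)).M ^ (prm e N (lvl g 4 N)).n ≤ R := by
  have hn : 11 ≤ lvl g 4 N := by
    have := h.lev1
    omega
  have hK := K_le_P e N (lvl g 4 N)
  refine ⟨?_, ?_, ?_, ?_, ?_, ?_, ?_⟩
  · exact ((M_le_K (by omega)).trans hK).trans hR
  · exact (b1 e N _).le.trans hR
  · exact (w_le_P he h (by omega)).trans hR
  · exact (N_le_P e N _).trans hR
  · exact ((T_le_K hn).trans hK).trans hR
  · exact hK.trans hR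
  · exact (Y_mul_lt he _ hy).le.trans hR

end

end Vale.Agent.P315.OT.Num
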