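import Vale.Agent.P315.OT.Setup

/-!
P315, one-scale track, OT-6a: the expected value at the root, from the curves (OT-3), the machine
inequality (OT-4) and the atoms (OT-5).
-/

set_option autoImplicit false

namespace Vale.Agent.P315.OT

open Finset

namespace Val

/-! ### Jitters of a lineage -/

theorem lin_eq (M n : ℕ) (xi : ℕ → ℕ → ℕ) : ∀ d ≤ n, ∀ t,
    lin M n xi d t = ∑ i ∈ range d, xi (n - d + i) (t / M ^ i) := by
  intro d
  induction d with
  | zero => intro _ t; simp [lin]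
  | succ d ih =>
    intro hd t
    rw [lin, ih (by omega), Finset.sum_range_succ']
    congr 1
    · refine Finset.sum_congr rfl fun i _ => ?_
      rw [show n - (d + 1) + (i + 1) = n - d + i by omega, pow_succ, mul_comm (M ^ i) M,
        Nat.div_div_eq_div_mul]
    · rw [pow_zero, Nat.div_one, Nat.add_zero, Nat.sub_sub]

theorem lin_full (M n : ℕ) (xi : ℕ → ℕ → ℕ) (t : ℕ) :
    lin M n xi n t = ∑ i ∈ range n, xi i (t / M ^ i) := by
  rw [lin_eq M n xi n le_rfl]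
  refine Finset.sum_congr rfl fun i _ => ?_
  rw [Nat.sub_self, Nat.zero_add]

/-! ### A uniform coin read modulo a divisor -/

theorem sum_mod (J q : ℕ) (g : ℕ → ℝ) :
    ∑ x ∈ range ((J + 1) * q), g (x % (J + 1)) = q * ∑ y ∈ range (J + 1), g y := by
  induction q with
  | zero => simp
  | succ q ih =>
    rw [Nat.mul_succ, Finset.sum_range_add, ih]
    have : ∑ y ∈ range (J + 1), g (((J + 1) * q + y) % (J + 1)) = ∑ y ∈ range (J + 1), g y := by
      refine Finset.sum_congr rfl fun y hy => ?_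
      rw [Nat.mul_add_mod, Nat.mod_eq_of_lt (Finset.mem_range.1 hy)]
    rw [this]
    push_cast
    ring

theorem av_mod {J E : ℕ} (hE : 0 < E) (dJ : (J + 1) ∣ E) (g : ℕ → ℝ) :
    H731.av (fun x : Fin E => g ((x : ℕ) % (J + 1))) =
      (∑ y ∈ range (J + 1), g y) / ((J : ℝ) + 1) := by
  obtain ⟨q, rfl⟩ := dJ
  have hq : 0 < q := by
    rcases Nat.eq_zero_or_pos q with h | h
    · simp [h] at hE
    · exact h
  unfold H731.av
  rw [Fin.sum_univ_eq_sum_range (fun x => g (x % (J + 1))) ((J + 1) * q), sum_mod,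
    Fintype.card_fin]
  have : (q : ℝ) ≠ 0 := by exact_mod_cast hq.ne'
  have h2 : ((J : ℝ) + 1) ≠ 0 := by positivity
  push_cast
  field_simp

theorem sum_id (m : ℕ) : ∑ i ∈ range (m + 1), (i : ℝ) = m * (m + 1) / 2 := by
  induction m with
  | zero => simp
  | succ m ih => rw [Finset.sum_range_succ, ih]; push_cast; ring

theorem av_mod_centred {J E : ℕ} (hE : 0 < E) (dJ : (J + 1) ∣ E) :
    H731.av (fun x : Fin E => (((x : ℕ) % (J + 1) : ℕ) : ℝ) - J / 2) = 0 := by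
  rw [av_mod hE dJ (fun y => (y : ℝ) - J / 2), Finset.sum_sub_distrib, sum_id,
    Finset.sum_const, Finset.card_range, nsmul_eq_mul]
  push_cast
  ring_nf

/-! ### Lateness of a leaf -/

theorem late_seed {R E J n : ℕ} (hE : 0 < E) (dJ : (J + 1) ∣ E) (idx : Fin n → Fin R)
    (hinj : Function.Injective idx) (hn : 1 ≤ n) (N : ℕ) (hN : 2 * N ≤ J * n) :
    H731.av (fun ω : Seed R E =>
      ((((∑ j, (ω (idx j) : ℕ) % (J + 1)) + 2 - N : ℕ)) : ℝ)) ≤
      (J * n : ℝ) / 2 - N + J * Real.sqrt n + 2 := by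
  have : Nonempty (Fin E) := ⟨⟨0, hE⟩⟩
  set μ : ℝ := (J * n : ℝ) / 2 with hμ
  have hNμ : (N : ℝ) ≤ μ := by
    have : (2 * N : ℝ) ≤ J * n := by exact_mod_cast hN
    rw [hμ]; linarith
  have hn' : (1 : ℝ) ≤ n := by exact_mod_cast hn
  have hs1 : (1 : ℝ) ≤ Real.sqrt n := by
    rw [show (1 : ℝ) = Real.sqrt 1 by simp]
    exact Real.sqrt_le_sqrt hn'
  have hs2 : Real.sqrt n * Real.sqrt n = n := Real.mul_self_sqrt (by linarith)
  set y : Seed R E → ℝ := fun ω => ∑ j, ((((ω (idx j) : ℕ) % (J + 1) : ℕ) : ℝ) - J / 2) with hy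
  have hyeq : ∀ ω : Seed R E, (((∑ j, (ω (idx j) : ℕ) % (J + 1) : ℕ)) : ℝ) = y ω + μ := by
    intro ω
    rw [hy]
    simp only
    rw [Finset.sum_sub_distrib, Finset.sum_const, Finset.card_univ, Fintype.card_fin,
      nsmul_eq_mul]
    push_cast
    rw [hμ]
    ring
  rcases Nat.eq_zero_or_pos J with hJ | hJ
  · -- no jitter
    subst hJ
    have hN0 : N = 0 := by omega
    subst hN0
    have : ∀ ω : Seed R E, ((((∑ j, (ω (idx j) : ℕ) % (0 + 1)) + 2 - 0 : ℕ)) : ℝ) = 2 := by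
      intro ω
      simp [Nat.mod_one]
    rw [H731.av_congr this, H731.av_const]
    simp [hμ]
  have hJ' : (1 : ℝ) ≤ J := by exact_mod_cast hJ
  set δ : ℝ := 1 / (J * Real.sqrt n) with hδ
  have hJs : 0 < J * Real.sqrt n := by positivity
  have hδ0 : 0 < δ := by positivity
  have hpt : ∀ ω : Seed R E, ((((∑ j, (ω (idx j) : ℕ) % (J + 1)) + 2 - N : ℕ)) : ℝ) ≤
      (μ - N + 2) + (δ / 2 * (y ω) ^ 2 + 1 / (2 * δ)) := by
    intro ω
    have h2 : y ω ≤ δ / 2 * (y ω) ^ 2 + 1 / (2 * δ) := by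
      have : δ / 2 * (y ω) ^ 2 + 1 / (2 * δ) - y ω = (δ * y ω - 1) ^ 2 / (2 * δ) := by
        field_simp
        ring
      have h3 : 0 ≤ (δ * y ω - 1) ^ 2 / (2 * δ) := by positivity
      linarith
    have h5 : 0 ≤ δ / 2 * (y ω) ^ 2 + 1 / (2 * δ) := by positivity
    rcases Nat.le_total ((∑ j, (ω (idx j) : ℕ) % (J + 1)) + 2) N with hle | hle
    · rw [Nat.sub_eq_zero_of_le hle]
      push_cast
      linarith
    · rw [Nat.cast_sub hle]
      push_cast
      have := hyeq ω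
      push_cast at this
      linarith
  refine (H731.av_mono hpt).trans ?_
  -- the second moment
  have hsq : H731.av (fun ω : Seed R E => (y ω) ^ 2) ≤ n * ((J : ℝ) / 2) ^ 2 := by
    have e1 : ∀ ω : Seed R E, (y ω) ^ 2 = ∑ i, ∑ j,
        ((((ω (idx i) : ℕ) % (J + 1) : ℕ) : ℝ) - J / 2) *
          ((((ω (idx j) : ℕ) % (J + 1) : ℕ) : ℝ) - J / 2) := by
      intro ω
      rw [hy]
      simp only
      rw [sq, Finset.sum_mul_sum]
    rw [H731.av_congr e1, H731.av_sum]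
    have e2 : ∀ i : Fin n, H731.av (fun ω : Seed R E => ∑ j,
        ((((ω (idx i) : ℕ) % (J + 1) : ℕ) : ℝ) - J / 2) *
          ((((ω (idx j) : ℕ) % (J + 1) : ℕ) : ℝ) - J / 2)) ≤ ((J : ℝ) / 2) ^ 2 := by
      intro i
      rw [H731.av_sum]
      rw [Finset.sum_eq_single i]
      · have hb : ∀ ω : Seed R E, ((((ω (idx i) : ℕ) % (J + 1) : ℕ) : ℝ) - J / 2) *
          ((((ω (idx i) : ℕ) % (J + 1) : ℕ) : ℝ) - J / 2) ≤ ((J : ℝ) / 2) ^ 2 := by
          intro ω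
          have hx : (((ω (idx i) : ℕ) % (J + 1) : ℕ) : ℝ) ≤ J := by
            exact_mod_cast Nat.lt_succ_iff.1 (Nat.mod_lt _ (Nat.succ_pos J))
          have hx0 : (0 : ℝ) ≤ (((ω (idx i) : ℕ) % (J + 1) : ℕ) : ℝ) := Nat.cast_nonneg _
          rw [← sq]
          exact sq_le_sq' (by linarith) (by linarith)
        exact H731.av_le hb
      · intro j _ hij
        have hne : idx i ≠ idx j := fun h => hij (hinj h).symm
        have h := H731.av_eval₂ (ι := Fin R) (A := fun _ => Fin E) hne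
          (fun x z => ((((x : ℕ) % (J + 1) : ℕ) : ℝ) - J / 2) *
            ((((z : ℕ) % (J + 1) : ℕ) : ℝ) - J / 2))
        rw [h]
        have h0 := av_mod_centred hE dJ
        have : ∀ x : Fin E, H731.av (fun z : Fin E =>
            ((((x : ℕ) % (J + 1) : ℕ) : ℝ) - J / 2) *
              ((((z : ℕ) % (J + 1) : ℕ) : ℝ) - J / 2)) = 0 := by
          intro x
          rw [H731.av_const_mul, h0, mul_zero]
        rw [H731.av_congr this, H731.av_zero]
      · intro h; exact absurd (Finset.mem_univ i) h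
    calc ∑ i : Fin n, H731.av (fun ω : Seed R E => ∑ j,
        ((((ω (idx i) : ℕ) % (J + 1) : ℕ) : ℝ) - J / 2) *
          ((((ω (idx j) : ℕ) % (J + 1) : ℕ) : ℝ) - J / 2))
        ≤ ∑ _i : Fin n, ((J : ℝ) / 2) ^ 2 := Finset.sum_le_sum fun i _ => e2 i
      _ = n * ((J : ℝ) / 2) ^ 2 := by
          rw [Finset.sum_const, Finset.card_univ, Fintype.card_fin, nsmul_eq_mul]
  rw [H731.av_add (fun _ : Seed R E => μ - N + 2), H731.av_const,
    H731.av_add (fun ω : Seed R E => δ / 2 * (y ω) ^ 2) (fun _ => 1 / (2 * δ)),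
    H731.av_const, H731.av_const_mul]
  have h6 : δ / 2 * H731.av (fun ω : Seed R E => (y ω) ^ 2) ≤ δ / 2 * (n * ((J : ℝ) / 2) ^ 2) :=
    mul_le_mul_of_nonneg_left hsq (by positivity)
  have h7 : δ / 2 * (n * ((J : ℝ) / 2) ^ 2) = J * Real.sqrt n / 8 := by
    rw [hδ]
    field_simp
    nlinarith [hs2]
  have h8 : 1 / (2 * δ) = J * Real.sqrt n / 2 := by
    rw [hδ]
    field_simp
  linarith

/-! ### The schedule and the instance -/

theorem inst_ok {Q : Prm} (hQ : Q.Ok) {hid vis : ℕ → ℕ → ℕ → ℕ}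
    (hle : ∀ s u v, hid s u v ≤ vis s u v) : (Q.inst hid vis).Ok :=
  ⟨hQ.M_two, hle⟩

theorem sch_ok {Q : Prm} {Cd : Code} {P : Picker} {W Rr : ℕ} {Lg e3 : ℝ}
    (hP : P.Ok Q.M W Rr Lg e3) (ω : ℕ → ℕ) : (Q.sch Cd P ω).Ok Q.M Q.J where
  xi_le := fun _ _ => Nat.lt_succ_iff.1 (Nat.mod_lt _ (Nat.succ_pos _))
  chain := fun _ _ _ _ _ _ _ huv => hP.chain _ _ _ _ _ _ _ (Nat.mul_le_mul_right _ huv)
    (Nat.mod_lt _ hP.T_pos)

end Val

/-! ### OT-6a -/

open Val in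
open Q976.Ker in
theorem stmtValue (hCur : StmtCur) (hStar : StmtStar) (hAt : StmtAtoms) : StmtValue := by
  intro Q Cd P hid vis Y R E Pb Lg e3 hS hN
  have : Nonempty (Fin E) := ⟨⟨0, hS.hE⟩⟩
  have hQ := hS.hQ
  have hM1 : 1 ≤ Q.M := by have := hQ.M_two; omega
  have hM' : (0 : ℝ) < Q.M := by exact_mod_cast hM1
  have hl0 : 1 ≤ Q.l0 := Nat.mul_pos hQ.m_pos hQ.g0_pos
  have hI := inst_ok (vis := vis) hQ hS.hle
  have hcur : ∀ ω : Seed R E, CurOk (Q.inst hid vis) (Q.sch Cd P (sd ω)) Q.n Y Q.l0 Q.J := fun ω =>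
    hCur _ _ _ _ _ _ hI (sch_ok hS.hP (sd ω)) hl0 hS.hvis hS.hY
  have hA : (0 : ℝ) < Q.A := by exact_mod_cast hQ.A_pos
  set cap : ℝ := 1 / Q.A with hcap
  have hcap0 : 0 < cap := by positivity
  set B : ℕ := Q.J * Q.n + 2 with hB
  -- the errors
  set err : Seed R E → ℕ → ℕ → ℝ := fun ω j t =>
    ∑ β ∈ range B, ch Q.M (uP Q.M) j
        (fun s => min (nu (Q.crv Cd P hid vis Y ω) j s (Q.N + β)) cap) t -
      2 * ∑ β ∈ range (B + 1), gain Q.M (uP Q.M) (Q.crv Cd P hid vis Y ω) j t (Q.N + β) with herr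
  set atm : Seed R E → ℕ → ℕ → ℝ := fun ω j t =>
    ∑ β ∈ range B, (if cap / 2 ≤
        ch Q.M (uP Q.M) j (fun s => nu (Q.crv Cd P hid vis Y ω) j s (Q.N + β)) t
        then ch Q.M (uP Q.M) j (fun s => nu (Q.crv Cd P hid vis Y ω) j s (Q.N + β)) t else 0)
      with hatm
  set S : Seed R E → ℕ → ℕ := fun ω r =>
    lin Q.M Q.n (Q.sch Cd P (sd ω)).xi Q.n r + 2 with hSdef
  have hker : IsKer Q.M Q.n (uW Q.M Q.n) (uP Q.M) := by
    have : Seed R E := fun _ => ⟨0, hS.hE⟩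
    exact (hcur this).ker
  -- pathwise
  have hpath : ∀ ω : Seed R E,
      (Q.n : ℝ) * (((Q.inst hid vis).c (Q.sch Cd P (sd ω)) Q.n 0 0 Y Q.N : ℝ) /
          ((Q.M : ℝ) ^ Q.n * Q.l0) - ((Q.inst hid vis).D hid Q.n 0 0 Y : ℝ) /
          ((Q.M : ℝ) ^ Q.n * Q.l0)) ≤
        4 * av Q.M Q.n (uW Q.M Q.n) 0 (fun r => ((S ω r - Q.N : ℕ) : ℝ))
          + ∑ j ∈ range Q.n, av Q.M Q.n (uW Q.M Q.n) (j + 1) (err ω j)
          + 2 * ∑ j ∈ range (Q.n - 1), av Q.M Q.n (uW Q.M Q.n) (j + 1) (atm ω j) + 1 := by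
    intro ω
    have hC := hcur ω
    have key := H866.one_pass (M := Q.M) (n := Q.n) hC.ker
      (c := (Q.inst hid vis).cur (Q.sch Cd P (sd ω)) Q.n Y Q.l0) (cap := cap) hcap0.le
      (D := (Q.inst hid vis).dl Q.n Y Q.l0) (S := S ω) (η := 0) (β0 := Q.N) (B := B)
      (fun j hj t ht β _ => hC.gain0 j hj t ht β)
      (fun j hj t ht β _ => hC.nu0 j hj.le t ht β)
      (fun t ht => hC.drop 0 (Nat.zero_le _) t ht _ _ (Nat.le_add_right _ _))
      (fun r hr β _ => by rw [add_zero]; exact hC.leaf r hr β)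
      (fun β _ => hC.low β)
      (fun r _ => by
        have h1 : lin Q.M Q.n (Q.sch Cd P (sd ω)).xi Q.n r ≤ Q.J * Q.n := by
          rw [lin_full]
          calc ∑ i ∈ range Q.n, (Q.sch Cd P (sd ω)).xi i (r / Q.M ^ i)
              ≤ ∑ _i ∈ range Q.n, Q.J :=
                Finset.sum_le_sum fun i _ => (sch_ok hS.hP (sd ω)).xi_le _ _
            _ = Q.J * Q.n := by
                rw [Finset.sum_const, Finset.card_range, smul_eq_mul, mul_comm]
        show lin Q.M Q.n (Q.sch Cd P (sd ω)).xi Q.n r + 2 ≤ Q.N + B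
        omega)
      (err := err ω) (atm := atm ω)
      (fun j hj t ht => by
        show ∑ β ∈ range B, ch Q.M (uP Q.M) j
          (fun s => min (nu (Q.crv Cd P hid vis Y ω) j s (Q.N + β)) cap) t ≤
          2 * ∑ β ∈ range (B + 1), gain Q.M (uP Q.M) (Q.crv Cd P hid vis Y ω) j t (Q.N + β)
            + err ω j t
        rw [herr]
        simp only
        linarith)
      (fun j hj t ht => le_rfl)
    have htop : (Q.inst hid vis).cur (Q.sch Cd P (sd ω)) Q.n Y Q.l0 Q.n 0 Q.N =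
        ((Q.inst hid vis).c (Q.sch Cd P (sd ω)) Q.n 0 0 Y Q.N : ℝ) /
          ((Q.M : ℝ) ^ Q.n * Q.l0) := hC.top Q.N
    have hroot : av Q.M Q.n (uW Q.M Q.n) 0 ((Q.inst hid vis).dl Q.n Y Q.l0) =
        ((Q.inst hid vis).D hid Q.n 0 0 Y : ℝ) / ((Q.M : ℝ) ^ Q.n * Q.l0) := hC.root
    rw [← htop, ← hroot]
    have key' : (Q.n : ℝ) * ((Q.inst hid vis).cur (Q.sch Cd P (sd ω)) Q.n Y Q.l0 Q.n 0 Q.N -
        av Q.M Q.n (uW Q.M Q.n) 0 ((Q.inst hid vis).dl Q.n Y Q.l0) - 0) ≤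
        4 * (av Q.M Q.n (uW Q.M Q.n) 0 (fun r => ((S ω r - Q.N : ℕ) : ℝ)) + ((B : ℝ) + 1) * 0)
          + ∑ j ∈ range Q.n, av Q.M Q.n (uW Q.M Q.n) (j + 1) (err ω j)
          + 2 * ∑ j ∈ range (Q.n - 1), av Q.M Q.n (uW Q.M Q.n) (j + 1) (atm ω j) + 1 := key
    rw [sub_zero, mul_zero, add_zero] at key'
    exact key'
  -- expectation of the right-hand side
  have hlate : H731.av (fun ω : Seed R E =>
      av Q.M Q.n (uW Q.M Q.n) 0 (fun r => ((S ω r - Q.N : ℕ) : ℝ))) ≤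
      (Q.J * Q.n : ℝ) / 2 - Q.N + Q.J * Real.sqrt Q.n + 2 := by
    have e1 : H731.av (fun ω : Seed R E =>
        av Q.M Q.n (uW Q.M Q.n) 0 (fun r => ((S ω r - Q.N : ℕ) : ℝ))) =
        av Q.M Q.n (uW Q.M Q.n) 0
          (fun r => H731.av (fun ω : Seed R E => ((S ω r - Q.N : ℕ) : ℝ))) := by
      unfold av
      rw [H731.av_sum]
      refine Finset.sum_congr rfl fun r _ => ?_
      rw [H731.av_const_mul]
    rw [e1]
    refine (av_mono hker (Nat.zero_le _) (g := fun _ =>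
      (Q.J * Q.n : ℝ) / 2 - Q.N + Q.J * Real.sqrt Q.n + 2) fun r hr => ?_).trans
      (le_of_eq (av_const hker (Nat.zero_le _) _))
    have hr' : r < Q.M ^ Q.n := by simpa using hr
    -- the coins of the lineage
    have hlt : ∀ i : Fin Q.n, Cd.cx (i : ℕ) (r / Q.M ^ (i : ℕ)) < R := fun i =>
      hS.hCd.cx_lt _ _ (lt_trans i.2 hS.b1)
        (lt_of_le_of_lt (Nat.div_le_self _ _) (lt_trans hr' hS.b2))
    have hinj : Function.Injective (fun i : Fin Q.n =>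
        (⟨Cd.cx (i : ℕ) (r / Q.M ^ (i : ℕ)), hlt i⟩ : Fin R)) := by
      intro i k hik
      have h1 : Cd.cx (i : ℕ) (r / Q.M ^ (i : ℕ)) = Cd.cx (k : ℕ) (r / Q.M ^ (k : ℕ)) :=
        congrArg Fin.val hik
      have h2 := hS.hCd.cx_inj _ _ _ _ (lt_trans i.2 hS.b1)
        (lt_of_le_of_lt (Nat.div_le_self _ _) (lt_trans hr' hS.b2)) (lt_trans k.2 hS.b1)
        (lt_of_le_of_lt (Nat.div_le_self _ _) (lt_trans hr' hS.b2)) h1
      exact Fin.ext h2.1
    have h3 := late_seed (R := R) (E := E) hS.hE hS.dJ _ hinj hQ.n_pos Q.N hN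
    refine le_trans (le_of_eq ?_) h3
    refine H731.av_congr fun ω => ?_
    congr 2
    show lin Q.M Q.n (Q.sch Cd P (sd ω)).xi Q.n r + 2 = _
    rw [lin_full, ← Fin.sum_univ_eq_sum_range
      (fun i => (Q.sch Cd P (sd ω)).xi i (r / Q.M ^ i)) Q.n]
    congr 1
    refine Finset.sum_congr rfl fun i _ => ?_
    show sd ω (Cd.cx (i : ℕ) (r / Q.M ^ (i : ℕ))) % (Q.J + 1) = _
    unfold sd
    rw [dif_pos (hlt i)]
  have hE1 : ∀ j ∈ range Q.n, H731.av (fun ω : Seed R E =>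
      av Q.M Q.n (uW Q.M Q.n) (j + 1) (err ω j)) ≤ 1 / Q.A * (Lg + (Q.Rd + 1) * e3 + 1) := by
    intro j hj
    have hj' := Finset.mem_range.1 hj
    have e1 : H731.av (fun ω : Seed R E => av Q.M Q.n (uW Q.M Q.n) (j + 1) (err ω j)) =
        av Q.M Q.n (uW Q.M Q.n) (j + 1) (fun t => H731.av (fun ω : Seed R E => err ω j t)) := by
      unfold av
      rw [H731.av_sum]
      refine Finset.sum_congr rfl fun r _ => ?_
      rw [H731.av_const_mul]
    rw [e1]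
    exact (av_mono hker (by omega) (g := fun _ => 1 / Q.A * (Lg + (Q.Rd + 1) * e3 + 1))
      fun t ht => hStar Q Cd P hid vis Y R E Pb Lg e3 hS B (by omega) j hj' t ht).trans
      (le_of_eq (av_const hker (by omega) _))
  have hE2 : ∀ j ∈ range (Q.n - 1), H731.av (fun ω : Seed R E =>
      av Q.M Q.n (uW Q.M Q.n) (j + 1) (atm ω j)) ≤
      2 * Q.A * (1 / (Q.M : ℝ) + 1 / (Q.J + 1)) := by
    intro j hj
    have hj' := Finset.mem_range.1 hj
    have e1 : H731.av (fun ω : Seed R E => av Q.M Q.n (uW Q.M Q.n) (j + 1) (atm ω j)) =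
        av Q.M Q.n (uW Q.M Q.n) (j + 1) (fun t => H731.av (fun ω : Seed R E => atm ω j t)) := by
      unfold av
      rw [H731.av_sum]
      refine Finset.sum_congr rfl fun r _ => ?_
      rw [H731.av_const_mul]
    rw [e1]
    exact (av_mono hker (by omega) (g := fun _ => 2 * Q.A * (1 / (Q.M : ℝ) + 1 / (Q.J + 1)))
      fun t ht => hAt Q Cd P hid vis Y R E Pb Lg e3 hS B j (by omega) t ht).trans
      (le_of_eq (av_const hker (by omega) _))
  have hav := H731.av_mono hpath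
  -- the left-hand side
  have hlen : ((Q.len Q.n : ℕ) : ℝ) = (Q.M : ℝ) ^ Q.n * Q.l0 := by
    unfold Prm.len; push_cast; ring
  have hL : H731.av (fun ω : Seed R E =>
      (Q.n : ℝ) * (((Q.inst hid vis).c (Q.sch Cd P (sd ω)) Q.n 0 0 Y Q.N : ℝ) /
          ((Q.M : ℝ) ^ Q.n * Q.l0) - ((Q.inst hid vis).D hid Q.n 0 0 Y : ℝ) /
          ((Q.M : ℝ) ^ Q.n * Q.l0))) =
      (Q.n : ℝ) * (H731.av (fun ω : Seed R E =>
      ((Q.inst hid vis).c (Q.sch Cd P (sd ω)) Q.n 0 0 Y Q.N : ℝ)) -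
        (Q.inst hid vis).D hid Q.n 0 0 Y) / Q.len Q.n := by
    rw [H731.av_const_mul, H731.av_sub, H731.av_const, H731.av_div_const, hlen]
    ring
  rw [← hL]
  refine hav.trans ?_
  rw [H731.av_add (fun ω : Seed R E =>
      4 * av Q.M Q.n (uW Q.M Q.n) 0 (fun r => ((S ω r - Q.N : ℕ) : ℝ))
        + ∑ j ∈ range Q.n, av Q.M Q.n (uW Q.M Q.n) (j + 1) (err ω j)
        + 2 * ∑ j ∈ range (Q.n - 1), av Q.M Q.n (uW Q.M Q.n) (j + 1) (atm ω j)) (fun _ => 1),
    H731.av_const,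
    H731.av_add (fun ω : Seed R E =>
      4 * av Q.M Q.n (uW Q.M Q.n) 0 (fun r => ((S ω r - Q.N : ℕ) : ℝ))
        + ∑ j ∈ range Q.n, av Q.M Q.n (uW Q.M Q.n) (j + 1) (err ω j)),
    H731.av_add (fun ω : Seed R E =>
      4 * av Q.M Q.n (uW Q.M Q.n) 0 (fun r => ((S ω r - Q.N : ℕ) : ℝ))),
    H731.av_const_mul, H731.av_const_mul, H731.av_sum, H731.av_sum]
  have h1 := Finset.sum_le_sum hE1
  have h2 := Finset.sum_le_sum hE2
  rw [Finset.sum_const, Finset.card_range, nsmul_eq_mul] at h1 h2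
  have hpos : 0 ≤ 2 * (Q.A : ℝ) * (1 / (Q.M : ℝ) + 1 / (Q.J + 1)) := by positivity
  have h3 : ((Q.n - 1 : ℕ) : ℝ) * (2 * Q.A * (1 / (Q.M : ℝ) + 1 / (Q.J + 1))) ≤
      Q.n * (2 * Q.A * (1 / (Q.M : ℝ) + 1 / (Q.J + 1))) :=
    mul_le_mul_of_nonneg_right (by exact_mod_cast Nat.sub_le _ _) hpos
  nlinarith [h1, h2, h3, hlate]

end Vale.Agent.P315.OT
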