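import Vale.Agent.P315.OT.Good
import Vale.Agent.P315.OT.Geo
import Vale.Agent.P315.OT.Value
import Vale.Agent.P315.H167.Area

/-!
P315, one-scale track, OT-10 part 2: the output is good for two thirds of the seeds, for the
concrete instance of two strings.
-/

set_option autoImplicit false

namespace Vale.Agent.P315.OT

open Finset Vale.Agent.P315.H731

/-- The number of leaves of the read set of the root. -/
noncomputable def Prm.reads (Q : Prm) (Cd : Code) (P : Picker) (x y : List ℕ) (ω : ℕ → ℕ) : ℕ :=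
  ((Q.inst (hidc Q x y) (visc Q x y)).S (Q.sch Cd P ω) Q.n 0 0 (Q.Y y) Q.N).card

/-- The certified cost of the root. -/
noncomputable def Prm.cert (Q : Prm) (Cd : Code) (P : Picker) (x y : List ℕ) (ω : ℕ → ℕ) : ℕ :=
  (Q.inst (hidc Q x y) (visc Q x y)).c (Q.sch Cd P ω) Q.n 0 0 (Q.Y y) Q.N

/-- What the run of `q` rounds delivers (OT-7). -/
def RunOk (Q : Prm) (Cd : Code) (P : Picker) (x y : List ℕ) (q : ℕ) (ω : ℕ → ℕ) (out : ℕ) : Prop :=
  out = Q.cert Cd P x y ω ∨ (q < Q.reads Cd P x y ω ∧ out = x.length + y.length)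

theorem Prm.Ok.len_pos {Q : Prm} (hQ : Q.Ok) (j : ℕ) : 0 < Q.len j := by
  have h1 := hQ.M_two
  unfold Prm.len Prm.l0
  exact Nat.mul_pos (Nat.pow_pos (by omega)) (Nat.mul_pos hQ.m_pos hQ.g0_pos)

/-- The full value of the root is at most the edit distance up to a small relative error and the
rounding. -/
theorem D_root_le' {Q : Prm} (hQ : Q.Ok) {k : ℕ} (hk : 1 ≤ k) (hw : (k + 1) * Q.m ≤ Q.w)
    {x y : List ℕ} (hx : x.length ≤ Q.len Q.n) :
    ((Q.inst (hidc Q x y) (visc Q x y)).D (hidc Q x y) Q.n 0 0 (Q.Y y) : ℝ) ≤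
      ED x y + ((max x.length y.length : ℕ) : ℝ) / k + 2 * ((2 * Q.n + 1) * (Q.M ^ Q.n * Q.g0)) := by
  have hm : 0 < Q.m := hQ.m_pos
  have hmw : Q.m < Q.w := by nlinarith
  have h := D_root_le hQ hmw hx (y := y)
  set D : ℝ := ((Q.inst (hidc Q x y) (visc Q x y)).D (hidc Q x y) Q.n 0 0 (Q.Y y) : ℝ)
  set r : ℝ := (2 * (Q.n : ℝ) + 1) * ((Q.M : ℝ) ^ Q.n * Q.g0) with hr
  have hr0 : 0 ≤ r := by positivity
  have hk0 : (0 : ℝ) < k := by exact_mod_cast hk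
  have hk1 : (1 : ℝ) ≤ k := by exact_mod_cast hk
  have hm' : (0 : ℝ) < Q.m := by exact_mod_cast hm
  have hw' : ((k : ℝ) + 1) * Q.m ≤ Q.w := by exact_mod_cast hw
  have hED : (ED x y : ℝ) ≤ ((max x.length y.length : ℕ) : ℝ) := by
    have : ED x y ≤ max x.length y.length := by
      rw [ED_eq_lev]
      exact lev_le_max x y
    exact_mod_cast this
  have hED0 : (0 : ℝ) ≤ ED x y := Nat.cast_nonneg _
  have hwm : 0 < (Q.w : ℝ) - Q.m := by
    have : (Q.m : ℝ) < Q.w := by exact_mod_cast hmw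
    linarith
  -- w ≤ (1 + 1/k) (w - m)
  have h1 : (Q.w : ℝ) ≤ (1 + 1 / k) * ((Q.w : ℝ) - Q.m) := by
    have e : (1 + 1 / (k : ℝ)) * ((Q.w : ℝ) - Q.m) - Q.w =
        ((Q.w : ℝ) - ((k : ℝ) + 1) * Q.m) / k := by
      field_simp
      ring
    have e2 : 0 ≤ ((Q.w : ℝ) - ((k : ℝ) + 1) * Q.m) / k := div_nonneg (by linarith) hk0.le
    linarith
  have h2 : ((Q.w : ℝ) - Q.m) * D ≤ ((Q.w : ℝ) - Q.m) * ((1 + 1 / k) * (ED x y + r)) := by
    calc ((Q.w : ℝ) - Q.m) * D ≤ Q.w * (ED x y + r) := h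
      _ ≤ (1 + 1 / k) * ((Q.w : ℝ) - Q.m) * (ED x y + r) :=
          mul_le_mul_of_nonneg_right h1 (by linarith)
      _ = _ := by ring
  have h3 : D ≤ (1 + 1 / k) * (ED x y + r) := le_of_mul_le_mul_left h2 hwm
  have h4 : (1 : ℝ) / k ≤ 1 := by rw [div_le_one hk0]; exact hk1
  have h5 : (1 + 1 / (k : ℝ)) * (ED x y + r) = ED x y + ED x y / k + (1 + 1 / k) * r := by ring
  have h6 : (ED x y : ℝ) / k ≤ ((max x.length y.length : ℕ) : ℝ) / k :=
    div_le_div_of_nonneg_right hED hk0.le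
  have h7 : (1 + 1 / (k : ℝ)) * r ≤ 2 * r := mul_le_mul_of_nonneg_right (by linarith) hr0
  linarith

/-- **Two thirds of the seeds are good.** -/
theorem root_seeds (hVal : StmtValue) {Q : Prm} {Cd : Code} {P : Picker}
    {x y : List ℕ} {R E Pb : ℕ} {Lg e3 : ℝ} (hQ : Q.Ok) {k : ℕ} (hk : 1 ≤ k)
    (hw : (k + 1) * Q.m ≤ Q.w) (hx : x.length ≤ Q.len Q.n) (hy : y.length ≤ Q.len Q.n)
    (hE : 0 < E) (dJ : (Q.J + 1) ∣ E) (dT : P.T ∣ E)
    (hP : P.Ok Q.M (Q.w * Q.M) (Q.Rd + 1) Lg e3) (hCd : Cd.Ok Pb R)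
    (b1 : Q.n < Pb) (b2 : Q.M ^ Q.n < Pb) (b3 : Q.Y y * Q.M ^ Q.n < Pb) (b4 : 2 * Q.Rd + 2 < Pb)
    (h2N : 2 * Q.N ≤ Q.J * Q.n) {lam : ℝ} (hlam : 0 ≤ lam) (Out : Seed R E → ℕ) (q : ℕ)
    (hrun : ∀ ω, RunOk Q Cd P x y q (sd ω) (Out ω)) {ε : ℝ}
    (hval : 6 * (valErr Q Lg e3 * Q.len Q.n) + Q.n * (((max x.length y.length : ℕ) : ℝ) / k +
      2 * ((2 * Q.n + 1) * (Q.M ^ Q.n * Q.g0))) ≤ Q.n * (ε * ((max x.length y.length : ℕ) : ℝ)))
    (hε : (((max x.length y.length : ℕ) : ℝ) / k +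
      2 * ((2 * Q.n + 1) * (Q.M ^ Q.n * Q.g0))) < ε * ((max x.length y.length : ℕ) : ℝ))
    (hq : 0 < q) (harea : 6 * areaBd Q lam ≤ q) :
    2 * Nat.card (Seed R E) ≤
      3 * Nat.card {ω : Seed R E // ED x y ≤ Out ω ∧
        (Out ω : ℝ) ≤ ED x y + ε * ((max x.length y.length : ℕ) : ℝ)} := by
  have hm : 0 < Q.m := hQ.m_pos
  have hmw : Q.m < Q.w := by nlinarith
  have hM : 1 ≤ Q.M := by have := hQ.M_two; omega
  have hg : 0 < Q.M ^ Q.n * Q.g0 := Nat.mul_pos (Nat.pow_pos hM) hQ.g0_pos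
  have hs : Std Q Cd P (hidc Q x y) (visc Q x y) (Q.Y y) R E Pb Lg e3 :=
    { hQ := hQ
      hle := fun s u v => hidc_le_visc Q x y s u v
      hvis := fun s u v => visc_le Q x y s u v
      hY := Q.Y_le hg hmw hy
      hE := hE
      dJ := dJ
      dT := dT
      hP := hP
      hCd := hCd
      b1 := b1
      b2 := b2
      b3 := b3
      b4 := b4 }
  have hI : (Q.inst (hidc Q x y) (visc Q x y)).Ok :=
    ⟨hQ.M_two, fun s u v => hidc_le_visc Q x y s u v⟩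
  set b : ℝ := ((max x.length y.length : ℕ) : ℝ) / k +
      2 * ((2 * Q.n + 1) * (Q.M ^ Q.n * Q.g0)) with hb
  set a : ℝ := ε * ((max x.length y.length : ℕ) : ℝ) - b with ha
  have hn : 0 < (Q.n : ℝ) := by exact_mod_cast hQ.n_pos
  have key := good_seeds hVal stmtArea hs h2N hlam Out q (ED x y) a b (by rw [ha]; linarith)
    (fun ω => ?_) (fun ω hω => ?_) ?_ (fun ω => ?_) ?_ hq harea
  · have e : a + b = ε * ((max x.length y.length : ℕ) : ℝ) := by rw [ha]; ring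
    rw [e] at key
    exact key
  · rcases hrun ω with h | ⟨-, h⟩
    · rw [h]
      exact ED_le_c hQ hmw (Val.sch_ok hP (sd ω)) hx Q.N
    · rw [h, ED_eq_lev]
      exact lev_le_length x y
  · rcases hrun ω with h | ⟨h, -⟩
    · exact h.le
    · exact absurd hω (not_le.mpr h)
  · have := D_root_le' hQ hk hw hx (y := y)
    rw [hb]
    linarith
  · exact Inst.D_le_c hI (Val.sch_ok hP (sd ω)) Q.n 0 0 (Q.Y y) Q.N (Nat.zero_le _)
  · have e : a * Q.n = Q.n * (ε * ((max x.length y.length : ℕ) : ℝ)) - Q.n * b := by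
      rw [ha]; ring
    rw [e]
    linarith

end Vale.Agent.P315.OT
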