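import Vale.Agent.P315.OT.Sizes

/-!
P315, one-scale track: the parameters of `Num.lean` are polynomially bounded.
-/

set_option autoImplicit false

namespace Vale.Agent.P315.OT

open Vale.Agent.P315.H738 Num
open Vale.Agent.Lib.PolyTime (esize esize_nat_le_self esize_list_cons esize_list_nil)

namespace Pol2

theorem lg' : Pol2 fun lx ly => lg (Max.max lx ly) :=
  (max'.add (const 1)).of_le fun _ _ => lg_le _

theorem ll' : Pol2 fun lx ly => ll (Max.max lx ly) := lg'.of_le fun _ _ => ll_le_lg _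

theorem two_pow_ll (c : ℕ) : Pol2 fun lx ly => 2 ^ (c * ll (Max.max lx ly)) := by
  refine (((const 2).mul lg').pow c).of_le fun lx ly => ?_
  rw [mul_comm c, pow_mul]
  exact Nat.pow_le_pow_left (pow_ll_le _) c

theorem bra' : Pol2 fun lx ly => bra 4 (Max.max lx ly) := two_pow_ll 4

theorem lvl' (g : ℕ) : Pol2 fun lx ly => lvl g 4 (Max.max lx ly) := lg'.of_le fun _ _ => lvl_le _ _ _

theorem pA' (e : ℕ) : Pol2 fun lx ly => Num.pA e (Max.max lx ly) := (const (256 * e)).mul ll'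

theorem pm' (e : ℕ) : Pol2 fun lx ly => Num.pm e (Max.max lx ly) := (pA' e).mul lg'

theorem pw' (e : ℕ) : Pol2 fun lx ly => Num.pw e (Max.max lx ly) := (const (16 * e + 1)).mul (pm' e)

theorem pJ1' {e : ℕ} (he : 1 ≤ e) : Pol2 fun lx ly => Num.pJ1 e (Max.max lx ly) :=
  ((const (32768 * e ^ 2)).mul ll').of_le fun _ _ => pJ1_le he

theorem pJ' {e : ℕ} (he : 1 ≤ e) : Pol2 fun lx ly => Num.pJ e (Max.max lx ly) := (pJ1' he).sub

theorem pK' {g : ℕ} (hg : 1 ≤ g) :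
    Pol2 fun lx ly => Num.pK (Max.max lx ly) (lvl g 4 (Max.max lx ly)) :=
  (max'.add (const 2)).of_le fun _ _ => rws_le g 4 _ hg

theorem pN' {e : ℕ} (g : ℕ) (he : 1 ≤ e) :
    Pol2 fun lx ly => Num.pN e (Max.max lx ly) (lvl g 4 (Max.max lx ly)) :=
  ((pJ' he).mul (lvl' g)).of_le fun _ _ => pN_le _ _ _

theorem pRd' {e : ℕ} (g : ℕ) (he : 1 ≤ e) :
    Pol2 fun lx ly => Num.pRd e (Max.max lx ly) (lvl g 4 (Max.max lx ly)) :=
  ((pN' g he).add ((pJ' he).mul (lvl' g))).add (const 4)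

theorem pg' (e g : ℕ) : Pol2 fun lx ly => Num.pg e (Max.max lx ly) (lvl g 4 (Max.max lx ly)) :=
  max'.div.add (const 1)

theorem pQ' {e g : ℕ} (hg : 1 ≤ g) :
    Pol2 fun lx ly => Num.pQ e (Max.max lx ly) (lvl g 4 (Max.max lx ly)) :=
  ((const 20).mul (((((const 2).mul (pw' e)).add (const 1)).mul ((pw' e).add (const 1))).mul
    ((pK' hg).pow 2))).div.add (const 1)

theorem pP' {e g : ℕ} (he : 1 ≤ e) (hg : 1 ≤ g) :
    Pol2 fun lx ly => Num.pP e (Max.max lx ly) (lvl g 4 (Max.max lx ly)) :=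
  (((((pm' e).add (const 2)).mul (pK' hg)).add ((const 2).mul (pRd' g he))).add (lvl' g)).add
    (const 4)

theorem esize_nat {f : ℕ → ℕ → ℕ} (h : Pol2 f) : Pol2 fun lx ly => esize (f lx ly) :=
  h.of_le fun _ _ => esize_nat_le_self _

end Pol2

theorem esize_preF_le (lx ly : ℕ) (Q : Prm) (D Y Tn Sn : ℕ) :
    esize (preF lx ly Q D Y Tn Sn) ≤
      2 * (lx + ly + Q.M + Q.n + Q.m + Q.w + Q.g0 + Q.J + Q.N + Q.A + D + Y + Tn + Sn) + 16 := by
  have h : ∀ v : ℕ, esize v ≤ v := esize_nat_le_self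
  unfold preF
  simp only [esize_list_cons, esize_list_nil]
  have h1 := h lx
  have h2 := h ly
  have h3 := h Q.M
  have h4 := h Q.n
  have h5 := h Q.m
  have h6 := h Q.w
  have h7 := h Q.g0
  have h8 := h Q.J
  have h9 := h Q.N
  have h10 := h Q.A
  have h11 := h D
  have h12 := h Y
  have h13 := h Tn
  have h14 := h Sn
  have h15 := h 0
  omega

/-- The numerical conditions, for `N = max lx ly` and `n = lvl g 4 N` (`e`, `g` constants), with
the exponent `cc`. -/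
structure SizesOk (e g cc lx ly : ℕ) : Prop where
  l_le : Num.pm e (max lx ly) * Num.pg e (max lx ly) (lvl g 4 (max lx ly)) ≤ (max lx ly + 2) ^ cc
  g_le : Num.pg e (max lx ly) (lvl g 4 (max lx ly)) ≤ (max lx ly + 2) ^ cc
  D_le : Num.pP e (max lx ly) (lvl g 4 (max lx ly)) ≤ (max lx ly + 2) ^ cc
  Q_le : Num.pQ e (max lx ly) (lvl g 4 (max lx ly)) ≤ (max lx ly + 2) ^ cc
  e_le : 2 ^ (44 * ll (max lx ly)) * Num.pJ1 e (max lx ly) ≤ (max lx ly + 2) ^ cc
  N_le : Num.pP e (max lx ly) (lvl g 4 (max lx ly)) ^ 2 +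
    Num.pP e (max lx ly) (lvl g 4 (max lx ly)) ^ 6 ≤ (max lx ly + 2) ^ cc
  KD_le : Num.pK (max lx ly) (lvl g 4 (max lx ly)) *
    Num.pP e (max lx ly) (lvl g 4 (max lx ly)) *
    Num.pP e (max lx ly) (lvl g 4 (max lx ly)) ≤ (max lx ly + 2) ^ cc
  Kl_le : Num.pK (max lx ly) (lvl g 4 (max lx ly)) *
    (Num.pm e (max lx ly) * Num.pg e (max lx ly) (lvl g 4 (max lx ly))) ≤ (max lx ly + 2) ^ cc
  lw_le : Num.pm e (max lx ly) * Num.pg e (max lx ly) (lvl g 4 (max lx ly)) +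
    Num.pw e (max lx ly) * Num.pg e (max lx ly) (lvl g 4 (max lx ly)) + 1 ≤
    (max lx ly + 2) ^ cc
  pre_le : ∀ Y ≤ max lx ly + 1, esize (preF lx ly (Num.prm e (max lx ly) (lvl g 4 (max lx ly)))
    (Num.pP e (max lx ly) (lvl g 4 (max lx ly))) Y (2 ^ (44 * ll (max lx ly)))
    (2 ^ (52 * ll (max lx ly)))) ≤ (max lx ly + 2) ^ cc
  /-- the size bound of the states, for a prefix of size `ep` -/
  S_le : ∀ Y ≤ max lx ly + 1, 2 * (esize (preF lx ly
      (Num.prm e (max lx ly) (lvl g 4 (max lx ly)))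
      (Num.pP e (max lx ly) (lvl g 4 (max lx ly))) Y (2 ^ (44 * ll (max lx ly)))
      (2 ^ (52 * ll (max lx ly)))) +
      (Num.pP e (max lx ly) (lvl g 4 (max lx ly)) ^ 2 +
        Num.pP e (max lx ly) (lvl g 4 (max lx ly)) ^ 6) *
      (2 * esize (2 ^ (44 * ll (max lx ly)) * Num.pJ1 e (max lx ly)) + 1)) +
    Num.pQ e (max lx ly) (lvl g 4 (max lx ly)) * (2 * (2 * esize (5 *
      (Num.pK (max lx ly) (lvl g 4 (max lx ly)) *
        Num.pP e (max lx ly) (lvl g 4 (max lx ly)) *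
        Num.pP e (max lx ly) (lvl g 4 (max lx ly)))) +
      esize (Num.pm e (max lx ly) * Num.pg e (max lx ly) (lvl g 4 (max lx ly)) +
        Num.pw e (max lx ly) * Num.pg e (max lx ly) (lvl g 4 (max lx ly)) + 1) + 1) + 1) + 1 ≤
    (max lx ly + 2) ^ cc
  out_le : Num.pK (max lx ly) (lvl g 4 (max lx ly)) * ((Num.pm e (max lx ly) +
      Num.pw e (max lx ly) + lvl g 4 (max lx ly) * Num.pw e (max lx ly)) *
      Num.pg e (max lx ly) (lvl g 4 (max lx ly))) +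
    (Num.pm e (max lx ly) * Num.pg e (max lx ly) (lvl g 4 (max lx ly)) +
      Num.pw e (max lx ly) * Num.pg e (max lx ly) (lvl g 4 (max lx ly)) + 1) +
    2 * (lx + ly) ≤ (max lx ly + 2) ^ cc

/-- **One exponent for all sizes.** -/
theorem sizes_ok {e g : ℕ} (he : 1 ≤ e) (hg : 1 ≤ g) :
    ∃ cc, 1 ≤ cc ∧ ∀ lx ly, SizesOk e g cc lx ly := by
  have hl := (Pol2.pm' e).mul (Pol2.pg' e g)
  have hD := Pol2.pP' he hg
  have hKDD := ((Pol2.pK' hg).mul hD).mul hD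
  have hV := (hl.add ((Pol2.pw' e).mul (Pol2.pg' e g))).add (Pol2.const 1)
  have hE := (Pol2.two_pow_ll 44).mul (Pol2.pJ1' he)
  have hN := (hD.pow 2).add (hD.pow 6)
  have hY : Pol2 fun lx ly => Max.max lx ly + 1 := Pol2.max'.add (Pol2.const 1)
  have hpre := ((Pol2.const 2).mul (((((((((((((Pol2.fst.add Pol2.snd).add Pol2.bra').add
    (Pol2.lvl' g)).add (Pol2.pm' e)).add (Pol2.pw' e)).add (Pol2.pg' e g)).add
    (Pol2.pJ' he)).add (Pol2.pN' g he)).add (Pol2.pA' e)).add hD).add hY).add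
    (Pol2.two_pow_ll 44)).add (Pol2.two_pow_ll 52))).add (Pol2.const 16)
  have hS := (((Pol2.const 2).mul (hpre.add (hN.mul (((Pol2.const 2).mul hE.esize_nat).add
    (Pol2.const 1))))).add ((Pol2.pQ' (e := e) hg).mul (((Pol2.const 2).mul
    ((((Pol2.const 2).mul ((Pol2.const 5).mul hKDD).esize_nat).add hV.esize_nat).add
    (Pol2.const 1))).add (Pol2.const 1)))).add (Pol2.const 1)
  have hO := (((Pol2.pK' hg).mul ((((Pol2.pm' e).add (Pol2.pw' e)).add
    ((Pol2.lvl' g).mul (Pol2.pw' e))).mul (Pol2.pg' e g))).add hV).add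
    ((Pol2.const 2).mul (Pol2.fst.add Pol2.snd))
  obtain ⟨c1, h1⟩ := hl
  obtain ⟨c2, h2⟩ := Pol2.pg' e g
  obtain ⟨c3, h3⟩ := hD
  obtain ⟨c4, h4⟩ := Pol2.pQ' (e := e) hg
  obtain ⟨c5, h5⟩ := hE
  obtain ⟨c6, h6⟩ := hN
  obtain ⟨c7, h7⟩ := hKDD
  obtain ⟨c8, h8⟩ := (Pol2.pK' hg).mul ((Pol2.pm' e).mul (Pol2.pg' e g))
  obtain ⟨c9, h9⟩ := hV
  obtain ⟨c10, h10⟩ := hpre
  obtain ⟨c11, h11⟩ := hS
  obtain ⟨c12, h12⟩ := hO
  have key : ∀ {c a b : ℕ}, a ≤ (b + 2) ^ c → c ≤ c1 + c2 + c3 + c4 + c5 + c6 + c7 + c8 + c9 +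
      c10 + c11 + c12 + 1 → a ≤ (b + 2) ^ (c1 + c2 + c3 + c4 + c5 + c6 + c7 + c8 + c9 +
      c10 + c11 + c12 + 1) := fun h hc => h.trans (Nat.pow_le_pow_right (by omega) hc)
  refine ⟨c1 + c2 + c3 + c4 + c5 + c6 + c7 + c8 + c9 + c10 + c11 + c12 + 1, by omega,
    fun lx ly => ?_⟩
  have hpre' : ∀ Y ≤ max lx ly + 1, esize (preF lx ly
      (Num.prm e (max lx ly) (lvl g 4 (max lx ly)))
      (Num.pP e (max lx ly) (lvl g 4 (max lx ly))) Y (2 ^ (44 * ll (max lx ly)))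
      (2 ^ (52 * ll (max lx ly)))) ≤ 2 * (lx + ly + bra 4 (max lx ly) + lvl g 4 (max lx ly) +
        Num.pm e (max lx ly) + Num.pw e (max lx ly) +
        Num.pg e (max lx ly) (lvl g 4 (max lx ly)) + Num.pJ e (max lx ly) +
        Num.pN e (max lx ly) (lvl g 4 (max lx ly)) + Num.pA e (max lx ly) +
        Num.pP e (max lx ly) (lvl g 4 (max lx ly)) + (max lx ly + 1) +
        2 ^ (44 * ll (max lx ly)) + 2 ^ (52 * ll (max lx ly))) + 16 := by
    intro Y hY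
    refine (esize_preF_le _ _ _ _ _ _ _).trans ?_
    show 2 * (lx + ly + bra 4 (max lx ly) + lvl g 4 (max lx ly) +
        Num.pm e (max lx ly) + Num.pw e (max lx ly) +
        Num.pg e (max lx ly) (lvl g 4 (max lx ly)) + Num.pJ e (max lx ly) +
        Num.pN e (max lx ly) (lvl g 4 (max lx ly)) + Num.pA e (max lx ly) +
        Num.pP e (max lx ly) (lvl g 4 (max lx ly)) + Y +
        2 ^ (44 * ll (max lx ly)) + 2 ^ (52 * ll (max lx ly))) + 16 ≤ _
    omega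
  refine ⟨key (h1 lx ly) (by omega), key (h2 lx ly) (by omega), key (h3 lx ly) (by omega),
    key (h4 lx ly) (by omega), key (h5 lx ly) (by omega), key (h6 lx ly) (by omega),
    key (h7 lx ly) (by omega), key (h8 lx ly) (by omega), key (h9 lx ly) (by omega),
    fun Y hY => (hpre' Y hY).trans (key (h10 lx ly) (by omega)),
    fun Y hY => ?_, key (h12 lx ly) (by omega)⟩
  refine le_trans ?_ (key (h11 lx ly) (by omega))
  have := hpre' Y hY
  refine Nat.add_le_add_right (Nat.add_le_add_right (Nat.mul_le_mul_left _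
    (Nat.add_le_add_right this _)) _) _

end Vale.Agent.P315.OT
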