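import Vale.Agent.P315.OT.H71.Local
import Vale.Agent.P315.OT.CurOk

/-!
P315, one-scale track, OT-4b: the machine inequality in expectation.
-/

set_option autoImplicit false

namespace Vale.Agent.P315.OT

open Finset

/-! ### One coin -/

theorem star_sum_mod (T k : ℕ) (g : ℕ → ℝ) :
    ∑ x ∈ range (T * k), g (x % T) = k * ∑ t ∈ range T, g t := by
  induction k with
  | zero => simp
  | succ k ih =>
    rw [Nat.mul_succ, Finset.sum_range_add, ih]
    have : ∀ x ∈ range T, g ((T * k + x) % T) = g x := by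
      intro x hx
      rw [Nat.mul_add_mod, Nat.mod_eq_of_lt (mem_range.mp hx)]
    rw [Finset.sum_congr rfl this]
    push_cast
    ring

/-- A residue of a uniform number is uniform. -/
theorem star_av_mod {E T : ℕ} (hE : 0 < E) (hT : T ∣ E) (g : ℕ → ℝ) :
    H731.av (fun x : Fin E => g ((x : ℕ) % T)) = (∑ t ∈ range T, g t) / T := by
  obtain ⟨k, rfl⟩ := hT
  have hT0 : 0 < T := Nat.pos_of_mul_pos_right hE
  have hk0 : 0 < k := Nat.pos_of_mul_pos_left hE
  unfold H731.av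
  rw [Fin.sum_univ_eq_sum_range (fun x => g (x % T)) (T * k), star_sum_mod, Fintype.card_fin]
  push_cast
  have h1 : (k : ℝ) ≠ 0 := by positivity
  have h2 : (T : ℝ) ≠ 0 := by positivity
  field_simp

theorem sd_update {R E : ℕ} (ω : Seed R E) (p : Fin R) (x : Fin E) (i : ℕ) :
    sd (Function.update ω p x) i = if i = p then (x : ℕ) else sd ω i := by
  unfold sd
  by_cases hi : i < R
  · rw [dif_pos hi, dif_pos hi]
    by_cases h : i = p
    · rw [if_pos h]
      have : (⟨i, hi⟩ : Fin R) = p := Fin.ext h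
      rw [this, Function.update_self]
    · rw [if_neg h, Function.update_of_ne]
      intro h'
      exact h (congrArg Fin.val h')
  · have h : i ≠ p := fun h => hi (h ▸ p.2)
    rw [dif_neg hi, dif_neg hi, if_neg h]

/-- Range conditions for the places of the coins. -/
structure Rng (Q : Prm) (Y Pb : ℕ) : Prop where
  M1 : 1 ≤ Q.M
  b1 : Q.n < Pb
  b2 : Q.M ^ Q.n < Pb
  b3 : Y * Q.M ^ Q.n < Pb
  b4 : 2 * Q.Rd + 2 < Pb
  Rd_ge : Q.N + Q.J * Q.n + 4 ≤ Q.Rd

theorem Rng.slab {Q : Prm} {Y Pb : ℕ} (h : Rng Q Y Pb) {j s : ℕ} (hs : s < Q.M ^ (Q.n - j)) :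
    s < Pb := by
  have h1 : Q.M ^ (Q.n - j) ≤ Q.M ^ Q.n := Nat.pow_le_pow_right h.M1 (Nat.sub_le _ _)
  have := h.b2
  omega

theorem Rng.pos {Q : Prm} {Y Pb : ℕ} (h : Rng Q Y Pb) {j v : ℕ}
    (hv : v ≤ Y * Q.M ^ (Q.n - j)) : v < Pb := by
  have h1 : Q.M ^ (Q.n - j) ≤ Q.M ^ Q.n := Nat.pow_le_pow_right h.M1 (Nat.sub_le _ _)
  have h2 : Y * Q.M ^ (Q.n - j) ≤ Y * Q.M ^ Q.n := Nat.mul_le_mul_left _ h1
  have := h.b3
  omega

/-! ### Resampling of the coin of one lane -/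

section Coin

variable {Q : Prm} {Cd : Code} {P : Picker} {hid vis : ℕ → ℕ → ℕ → ℕ} {Y R E Pb : ℕ}

/-- The coin of the lane `q` of the node `(j + 1, s, u, v)` in round `k`. -/
structure AtLane (Q : Prm) (Cd : Code) (Y : ℕ) (j s u v k q : ℕ) (p : ℕ) : Prop where
  eq : p = Cd.cl (j + 1) s u v k q
  hj : j < Q.n
  hs : s < Q.M ^ (Q.n - (j + 1))
  huv : u ≤ v
  hv : v ≤ Y * Q.M ^ (Q.n - (j + 1))
  hk : k ≤ Q.Rd
  hq : q ≤ Q.N

theorem AtLane.lt {j s u v k q p : ℕ} (h : AtLane Q Cd Y j s u v k q p) (hR : Rng Q Y Pb)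
    (hCd : Cd.Ok Pb R) : p < R := by
  rw [h.eq]
  have h1 := hR.pos h.hv
  have h2 := h.huv
  have h3 := h.hk
  have h4 := h.hq
  have h5 := hR.b4
  have h6 := hR.Rd_ge
  have h7 := h.hj
  have h8 := hR.b1
  exact hCd.cl_lt _ _ _ _ _ _ (by omega) (hR.slab h.hs) (by omega) h1 (by omega) (by omega)

theorem cx_update (hR : Rng Q Y Pb) (hCd : Cd.Ok Pb R) {j s u v k q : ℕ} {p : Fin R}
    (hp : AtLane Q Cd Y j s u v k q p) (ω : Seed R E) (x : Fin E) {j' s' : ℕ} (hj' : j' < Q.n)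
    (hs' : s' < Q.M ^ (Q.n - j')) :
    sd (Function.update ω p x) (Cd.cx j' s') = sd ω (Cd.cx j' s') := by
  rw [sd_update, if_neg]
  rw [hp.eq]
  have h1 := hR.pos hp.hv
  have h2 := hp.huv
  have h3 := hp.hk
  have h4 := hp.hq
  have h5 := hR.b4
  have h6 := hR.Rd_ge
  have h7 := hp.hj
  have h8 := hR.b1
  exact hCd.disj _ _ _ _ _ _ _ _ (by omega) (hR.slab hs') (by omega) (hR.slab hp.hs)
    (by omega) h1 (by omega) (by omega)

theorem seed_agree (hR : Rng Q Y Pb) (hCd : Cd.Ok Pb R) {j s u v k q : ℕ} {p : Fin R}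
    (hp : AtLane Q Cd Y j s u v k q p) (ω : Seed R E) (x : Fin E) :
    SeedAgree Q Cd Y j (sd (Function.update ω p x)) (sd ω) where
  xi := by
    intro j' hj' s' hs'
    have := hp.hj
    exact cx_update hR hCd hp ω x (by omega) hs'
  cl := by
    intro j' h1' hj' s' hs' u' v' huv' hv' b' hb' q' hq'
    rw [sd_update, if_neg]
    rw [hp.eq]
    intro h
    have h1 := hR.pos hp.hv
    have h2 := hp.huv
    have h3 := hp.hk
    have h4 := hp.hq
    have h5 := hR.b4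
    have h6 := hR.Rd_ge
    have h7 := hp.hj
    have h8 := hR.b1
    have h9 := hR.pos hv'
    have := (hCd.cl_inj _ _ _ _ _ _ _ _ _ _ _ _ (by omega) (hR.slab hs') (by omega) h9
      (by omega) (by omega) (by omega) (hR.slab hp.hs) (by omega) h1 (by omega) (by omega) h).1
    omega

/-- The edge costs of the region do not see the coin. -/
theorem e_update (hQ : Q.Ok) (hle : ∀ s u v, hid s u v ≤ vis s u v) (hT : 0 < P.T)
    (hch : ∀ a c C q k f t, a ≤ c → t < P.T → IsChain Q.M a c (P.pk Q.M a c C q k f t))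
    (hloc : P.Loc Q.M) (hR : Rng Q Y Pb) (hCd : Cd.Ok Pb R) {j s u v k q : ℕ} {p : Fin R}
    (hp : AtLane Q Cd Y j s u v k q p) (ω : Seed R E) (x : Fin E) :
    ∀ k', ∀ i < Q.M, ∀ a a', u * Q.M ≤ a → a ≤ a' → a' ≤ v * Q.M →
      (Q.inst hid vis).e (Q.sch Cd P (sd (Function.update ω p x))) j s k' i a a' =
        (Q.inst hid vis).e (Q.sch Cd P (sd ω)) j s k' i a a' := by
  intro k' i hi a a' _ haa ha'
  have hj := hp.hj
  have hs' : s * Q.M + i < Q.M ^ (Q.n - j) := slab_lt hj hp.hs hi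
  have hxi : (Q.sch Cd P (sd (Function.update ω p x))).xi j (s * Q.M + i) =
      (Q.sch Cd P (sd ω)).xi j (s * Q.M + i) := by
    show sd _ _ % _ = sd _ _ % _
    rw [cx_update hR hCd hp ω x hj hs']
  rw [Inst.e_def, Inst.e_def]
  show (Q.inst hid vis).edge j (fun a a' => (Q.inst hid vis).c
      (Q.sch Cd P (sd (Function.update ω p x))) j (s * Q.M + i) a a'
      (k' - (Q.sch Cd P (sd (Function.update ω p x))).xi j (s * Q.M + i))) a a' =
    (Q.inst hid vis).edge j (fun a a' => (Q.inst hid vis).c (Q.sch Cd P (sd ω)) j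
      (s * Q.M + i) a a' (k' - (Q.sch Cd P (sd ω)).xi j (s * Q.M + i))) a a'
  unfold Inst.edge
  simp only []
  rw [hxi, sch_c_congr hQ hle hT hch hloc j hj.le (seed_agree hR hCd hp ω x) _ hs' a a' haa
    (ha'.trans (range_step hj hp.hv))]

/-- Excess of the cost of a lane over its mean. -/
noncomputable def lexc (Q : Prm) (Cd : Code) (P : Picker) (I : Inst) {R E : ℕ}
    (j s u v k q : ℕ) (ω : Seed R E) : ℝ :=
  (chainCost (I.e (Q.sch Cd P (sd ω)) j s (k + 1)) Q.M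
    (I.L (Q.sch Cd P (sd ω)) q j s u v k) : ℝ) -
  P.mean Q.M (u * Q.M) (v * Q.M) (Q.C j) (max 1 q) k (I.e (Q.sch Cd P (sd ω)) j s)

/-- The excess of a lane has mean zero given everything else. -/
theorem av_lexc (hQ : Q.Ok) (hle : ∀ s u v, hid s u v ≤ vis s u v) (hT : 0 < P.T)
    (hch : ∀ a c C q k f t, a ≤ c → t < P.T → IsChain Q.M a c (P.pk Q.M a c C q k f t))
    (hloc : P.Loc Q.M) (hR : Rng Q Y Pb) (hCd : Cd.Ok Pb R) (hE : 0 < E) (hTE : P.T ∣ E)
    {j s u v k q : ℕ} {p : Fin R} (hp : AtLane Q Cd Y j s u v k q p) (φ : Seed R E → ℝ)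
    (hφ : ∀ ω x, φ (Function.update ω p x) = φ ω) :
    H731.av (fun ω : Seed R E => φ ω * lexc Q Cd P (Q.inst hid vis) j s u v k q ω) = 0 := by
  have : Nonempty (Fin E) := ⟨⟨0, hE⟩⟩
  rw [← H731.av_resample (A := fun _ : Fin R => Fin E) p]
  rw [← H731.av_zero (Ω := Seed R E)]
  apply H731.av_congr
  intro ω
  have huv' : u * Q.M ≤ v * Q.M := Nat.mul_le_mul_right _ hp.huv
  set e := (Q.inst hid vis).e (Q.sch Cd P (sd ω)) j s with he
  have h1 : ∀ x : Fin E,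
      φ (Function.update ω p x) *
        lexc Q Cd P (Q.inst hid vis) j s u v k q (Function.update ω p x) =
      φ ω * ((chainCost (e (k + 1)) Q.M
          (P.pk Q.M (u * Q.M) (v * Q.M) (Q.C j) (max 1 q) k (cut k e) ((x : ℕ) % P.T)) : ℝ) -
        P.mean Q.M (u * Q.M) (v * Q.M) (Q.C j) (max 1 q) k e) := by
    intro x
    rw [hφ]
    have hee := e_update hQ hle hT hch hloc hR hCd hp ω x
    have hpk : ∀ t, P.pk Q.M (u * Q.M) (v * Q.M) (Q.C j) (max 1 q) k
        (cut k ((Q.inst hid vis).e (Q.sch Cd P (sd (Function.update ω p x))) j s)) t =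
        P.pk Q.M (u * Q.M) (v * Q.M) (Q.C j) (max 1 q) k (cut k e) t := by
      intro t
      apply hloc _ _ _ _ _ _ _ _ huv'
      intro k' hk' i hi a a' h1 h2 h3
      unfold cut
      rw [if_pos hk', if_pos hk']
      exact hee k' i hi a a' h1 h2 h3
    have hL : (Q.inst hid vis).L (Q.sch Cd P (sd (Function.update ω p x))) q j s u v k =
        P.pk Q.M (u * Q.M) (v * Q.M) (Q.C j) (max 1 q) k (cut k e) ((x : ℕ) % P.T) := by
      rw [← hpk]
      show P.pk Q.M (u * Q.M) (v * Q.M) (Q.C j) (max 1 q) k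
        (cut k ((Q.inst hid vis).e (Q.sch Cd P (sd (Function.update ω p x))) j s))
        (sd (Function.update ω p x) (Cd.cl (j + 1) s u v k q) % P.T) = _
      rw [sd_update, if_pos hp.eq.symm]
    have hcc : ∀ t < P.T, chainCost
        ((Q.inst hid vis).e (Q.sch Cd P (sd (Function.update ω p x))) j s (k + 1)) Q.M
          (P.pk Q.M (u * Q.M) (v * Q.M) (Q.C j) (max 1 q) k (cut k e) t) =
        chainCost (e (k + 1)) Q.M
          (P.pk Q.M (u * Q.M) (v * Q.M) (Q.C j) (max 1 q) k (cut k e) t) := by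
      intro t ht
      exact chainCost_congr (hch _ _ _ _ _ _ _ huv' ht) (hee (k + 1))
    unfold lexc
    rw [hL, hcc _ (Nat.mod_lt _ hT)]
    unfold Picker.mean
    have hsum : ∑ t ∈ range P.T, ((chainCost
        ((Q.inst hid vis).e (Q.sch Cd P (sd (Function.update ω p x))) j s (k + 1)) Q.M
          (P.pk Q.M (u * Q.M) (v * Q.M) (Q.C j) (max 1 q) k (cut k
            ((Q.inst hid vis).e (Q.sch Cd P (sd (Function.update ω p x))) j s)) t) : ℕ) : ℝ) =
        ∑ t ∈ range P.T, ((chainCost (e (k + 1)) Q.M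
          (P.pk Q.M (u * Q.M) (v * Q.M) (Q.C j) (max 1 q) k (cut k e) t) : ℕ) : ℝ) := by
      apply Finset.sum_congr rfl
      intro t ht
      rw [hpk, hcc t (mem_range.mp ht)]
    rw [hsum]
  rw [H731.av_congr h1, H731.av_const_mul, H731.av_sub, H731.av_const]
  rw [star_av_mod hE hTE (fun t => (chainCost (e (k + 1)) Q.M
          (P.pk Q.M (u * Q.M) (v * Q.M) (Q.C j) (max 1 q) k (cut k e) t) : ℝ))]
  unfold Picker.mean
  rw [sub_self, mul_zero]

/-- The lineage sum of the jitters does not see the coin. -/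
theorem lin_update (hR : Rng Q Y Pb) (hCd : Cd.Ok Pb R) {j s u v k q : ℕ} {p : Fin R}
    (hp : AtLane Q Cd Y j s u v k q p) (ω : Seed R E) (x : Fin E) :
    ∀ d ≤ Q.n, ∀ t < Q.M ^ d,
      lin Q.M Q.n (Q.sch Cd P (sd (Function.update ω p x))).xi d t =
        lin Q.M Q.n (Q.sch Cd P (sd ω)).xi d t := by
  intro d
  induction d with
  | zero => intro _ t _; rfl
  | succ d ih =>
    intro hd t ht
    have h1 : t / Q.M < Q.M ^ d := by
      apply Nat.div_lt_of_lt_mul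
      rw [pow_succ, mul_comm] at ht
      exact ht
    have h2 : t < Q.M ^ (Q.n - (Q.n - d - 1)) := by
      rw [show Q.n - (Q.n - d - 1) = d + 1 by omega]; exact ht
    show lin Q.M Q.n _ d (t / Q.M) + sd _ (Cd.cx (Q.n - d - 1) t) % (Q.J + 1) =
      lin Q.M Q.n _ d (t / Q.M) + sd _ (Cd.cx (Q.n - d - 1) t) % (Q.J + 1)
    rw [ih (by omega) _ h1, cx_update hR hCd hp ω x (by omega) h2]

end Coin

/-! ### Geometry -/

theorem pst_le {I : Inst} (hM : 1 ≤ I.M) {n Y l0 : ℕ} (hY : Y ≤ I.w) : ∀ d t u v,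
    I.pst n Y l0 d t = .inl (u, v) → v ≤ Y * I.M ^ d := by
  intro d
  induction d with
  | zero =>
    intro t u v h
    simp only [Inst.pst, Sum.inl.injEq, Prod.mk.injEq] at h
    rw [pow_zero, mul_one]
    omega
  | succ d ih =>
    intro t u v h
    rw [Inst.pst] at h
    rcases hs : I.pst n Y l0 d (t / I.M) with ⟨a, b⟩ | r
    · rw [hs] at h
      dsimp only at h
      have hab := (Inst.pst_ok (I := I) hM n Y l0 hY _ _ _ _ hs).1
      have hch := (Inst.opt_spec (I := I) hM (n - d - 1) (t / I.M) hab).1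
      have hb := ih _ _ _ hs
      split_ifs at h with hw
      simp only [Sum.inl.injEq, Prod.mk.injEq] at h
      obtain ⟨rfl, rfl⟩ := h
      refine (hch.le (Nat.mod_lt t (by omega : 0 < I.M))).trans ?_
      rw [pow_succ, ← mul_assoc]
      exact Nat.mul_le_mul_right _ hb
    · rw [hs] at h
      simp at h

theorem Prm.C_cast {Q : Prm} (hQ : Q.Ok) (j : ℕ) :
    (Q.C j : ℝ) = 1 / Q.A * ((Q.M : ℝ) ^ j * Q.l0) := by
  have hA : (Q.A : ℝ) ≠ 0 := by
    have := hQ.A_pos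
    positivity
  have hd : Q.A ∣ Q.len j := by
    unfold Prm.len Prm.l0
    exact Dvd.dvd.mul_left (Dvd.dvd.mul_right hQ.A_dvd _) _
  unfold Prm.C
  rw [Nat.cast_div hd hA]
  unfold Prm.len
  push_cast
  field_simp

theorem Prm.C_pos {Q : Prm} (hQ : Q.Ok) (j : ℕ) : 0 < Q.C j := by
  unfold Prm.C
  apply Nat.div_pos _ hQ.A_pos
  have h1 : Q.A ≤ Q.m := Nat.le_of_dvd hQ.m_pos hQ.A_dvd
  have h2 : 0 < Q.M ^ j := Nat.pow_pos (by have := hQ.M_two; omega)
  have h3 := hQ.g0_pos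
  unfold Prm.len Prm.l0
  calc Q.A ≤ Q.m := h1
    _ = 1 * (Q.m * 1) := by ring
    _ ≤ Q.M ^ j * (Q.m * Q.g0) := Nat.mul_le_mul h2 (Nat.mul_le_mul_left _ h3)

theorem Prm.l0_pos {Q : Prm} (hQ : Q.Ok) : 1 ≤ Q.l0 := by
  unfold Prm.l0
  exact Nat.mul_pos hQ.m_pos hQ.g0_pos

/-! ### The inequality for one seed -/

/-- Own rounds of the region. -/
theorem sum_own (N B x K : ℕ) (hK : N + B ≤ K) (f : ℕ → ℕ → ℝ) :
    ∑ k ∈ Ico (max 1 (N - x)) (N + B - x), f (N - x) k =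
      ∑ q ∈ range (N + 1), ∑ k ∈ range K,
        (if q = N - x ∧ max 1 q ≤ k ∧ k < N + B - x then (1 : ℝ) else 0) * f q k := by
  symm
  rw [Finset.sum_eq_single (N - x)]
  · simp only [ite_mul, one_mul, zero_mul]
    rw [← Finset.sum_filter]
    apply Finset.sum_congr _ fun _ _ => rfl
    ext k
    simp only [mem_Ico, mem_filter, mem_range, true_and]
    omega
  · intro q _ hq
    apply Finset.sum_eq_zero
    intro k _
    rw [if_neg (fun h => hq h.1), zero_mul]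
  · intro h
    exact absurd (mem_range.mpr (by omega)) h

theorem star_path {Q : Prm} {Cd : Code} {P : Picker} {hid vis : ℕ → ℕ → ℕ → ℕ} {Y : ℕ}
    {Lg e3 : ℝ} (hQ : Q.Ok) (hle : ∀ s u v, hid s u v ≤ vis s u v) (hY : Y ≤ Q.w)
    (hP : P.Ok Q.M (Q.w * Q.M) (Q.Rd + 1) Lg e3) {R E : ℕ} (ω : Seed R E) {B j t u v : ℕ}
    (hB : B ≤ Q.J * Q.n + 3) (hj : j < Q.n)
    (hs : (Q.inst hid vis).pst Q.n Y Q.l0 (Q.n - (j + 1)) t = .inl (u, v)) :
    ∑ β ∈ range B, Q976.Ker.ch Q.M (uP Q.M) j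
        (fun s => min (Q976.Ker.nu (Q.crv Cd P hid vis Y ω) j s (Q.N + β)) (1 / Q.A)) t -
      2 * ∑ β ∈ range (B + 1),
        Q976.Ker.gain Q.M (uP Q.M) (Q.crv Cd P hid vis Y ω) j t (Q.N + β) ≤
      1 / Q.A * (Lg + (Q.Rd + 1) * e3 + 1) +
        2 / ((Q.M : ℝ) ^ (j + 1) * Q.l0) *
        ∑ k ∈ Ico (max 1 (Q.N - lin Q.M Q.n (Q.sch Cd P (sd ω)).xi (Q.n - (j + 1)) t))
          (Q.N + B - lin Q.M Q.n (Q.sch Cd P (sd ω)).xi (Q.n - (j + 1)) t),
          lexc Q Cd P (Q.inst hid vis) j t u v k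
            (Q.N - lin Q.M Q.n (Q.sch Cd P (sd ω)).xi (Q.n - (j + 1)) t) ω := by
  have hM : 1 ≤ (Q.inst hid vis).M := by
    have := hQ.M_two
    show 1 ≤ Q.M
    omega
  have hI : (Q.inst hid vis).Ok := Prm.inst_ok71 hQ hle
  have hX : (Q.sch Cd P (sd ω)).Ok (Q.inst hid vis).M Q.J := Prm.sch_ok71 hP.T_pos hP.chain _
  have hl := Prm.l0_pos hQ
  have hA : (0 : ℝ) < Q.A := by exact_mod_cast hQ.A_pos
  have hcap : (0 : ℝ) ≤ 1 / Q.A := by positivity
  have hC := Prm.C_cast hQ j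
  obtain ⟨huv, hw⟩ := Inst.pst_ok (I := Q.inst hid vis) hM Q.n Y Q.l0 hY _ _ _ _ hs
  have huv' : u * Q.M ≤ v * Q.M := Nat.mul_le_mul_right _ huv
  set X := Q.sch Cd P (sd ω) with hXdef
  set x := lin Q.M Q.n X.xi (Q.n - (j + 1)) t with hx
  have hm := Inst.mass_rounds (I := Q.inst hid vis) (X := X) hI hX hl hY hcap hC hj hs Q.N B
  have hg := Inst.gain_rounds (I := Q.inst hid vis) (X := X) hM hl hY hj hs Q.N (B + 1)
  have hT : (0 : ℝ) < (Q.M : ℝ) ^ (j + 1) * Q.l0 := len_pos (I := Q.inst hid vis) hM hl (j + 1)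
  have hopt := (Inst.opt_spec (I := Q.inst hid vis) hM j t huv).1
  -- abbreviations
  set dd : ℕ → ℝ := fun k => ∑ i ∈ range Q.M,
    ((min ((Q.inst hid vis).dr X j t u v k i) (Q.C j) : ℕ) : ℝ) with hdd
  set gg : ℕ → ℝ := fun k => ((Q.inst hid vis).V X j t u v k : ℝ) -
    (Q.inst hid vis).c X (j + 1) t u v k with hgg
  have hgg0 : ∀ k, 0 ≤ gg k := by
    intro k
    rw [hgg]
    simp only [sub_nonneg, Nat.cast_le]
    exact (Inst.c_le_dp (I := Q.inst hid vis) (X := X) j t u v k).trans (best_le hopt)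
  have hdd0 : ∀ k, 0 ≤ dd k := fun k => Finset.sum_nonneg fun i _ => Nat.cast_nonneg _
  have hddC : ∀ k, dd k ≤ Q.C j * Q.M := by
    intro k
    calc dd k ≤ ∑ _i ∈ range Q.M, (Q.C j : ℝ) :=
          Finset.sum_le_sum fun i _ => by exact_mod_cast min_le_right _ _
      _ = Q.C j * Q.M := by rw [Finset.sum_const, card_range, nsmul_eq_mul, mul_comm]
  have hCM : (0 : ℝ) ≤ Q.C j * Q.M := by positivity
  -- mass
  have hmass : ∑ k ∈ Ico (Q.N - x) (Q.N + B - x), dd k ≤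
      Q.C j * Q.M + ∑ k ∈ Ico (max 1 (Q.N - x)) (Q.N + B - x), dd k := by
    rcases Nat.eq_zero_or_pos (Q.N - x) with h0 | h0
    · rw [h0, max_eq_left (Nat.zero_le 1)]
      rcases Nat.eq_zero_or_pos (Q.N + B - x) with h1 | h1
      · rw [h1]; simp [hCM]
      · rw [Finset.sum_eq_sum_Ico_succ_bot h1]
        have := hddC 0
        linarith
    · rw [max_eq_right (by omega : 1 ≤ Q.N - x)]
      linarith
  -- gain
  have hgain : ∑ k ∈ Ico (max 1 (Q.N - x)) (Q.N + B - x), gg k ≤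
      ∑ k ∈ Ico (Q.N - x) (Q.N + (B + 1) - x), gg k := by
    apply Finset.sum_le_sum_of_subset_of_nonneg
    · intro k hk
      rw [mem_Ico] at hk ⊢
      omega
    · intro k _ _
      exact hgg0 k
  -- regret
  have hreg : ∑ k ∈ Ico (max 1 (Q.N - x)) (Q.N + B - x), dd k ≤
      2 * ∑ k ∈ Ico (max 1 (Q.N - x)) (Q.N + B - x),
        (((Q.inst hid vis).V X j t u v k : ℝ) - P.mean Q.M (u * Q.M) (v * Q.M) (Q.C j)
          (max 1 (Q.N - x)) k ((Q.inst hid vis).e X j t)) +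
        Q.C j * Q.M * (Lg + (Q.Rd + 1) * e3) := by
    have hLe : 0 ≤ Lg + (Q.Rd + 1) * e3 := by
      have h1 := hP.Lg_nonneg
      have h2 := hP.e3_nonneg
      positivity
    rcases Nat.lt_or_ge (Q.N + B - x) (max 1 (Q.N - x)) with h | h
    · rw [Finset.Ico_eq_empty (by omega)]
      simp only [Finset.sum_empty, mul_zero, zero_add]
      positivity
    · have := hP.regret (u * Q.M) (v * Q.M) (Q.C j) (max 1 (Q.N - x)) (Q.N + B - x)
        ((Q.inst hid vis).e X j t) ((Q.inst hid vis).opt j t u v) huv'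
        (by
          have : v * Q.M ≤ (u + Q.w) * Q.M := Nat.mul_le_mul_right _ hw
          rw [add_mul] at this
          exact this)
        (Prm.C_pos hQ j) h
        (by have := hQ.Rd_ge; omega)
        (fun k i a a' haa => Inst.e_antitone hI hX haa (Nat.le_succ k)) hopt
      rw [show ((Q.Rd + 1 : ℕ) : ℝ) = (Q.Rd : ℝ) + 1 by push_cast; ring] at this
      exact this
  -- lanes
  have hlane : ∀ k ∈ Ico (max 1 (Q.N - x)) (Q.N + B - x),
      ((Q.inst hid vis).V X j t u v k : ℝ) - P.mean Q.M (u * Q.M) (v * Q.M) (Q.C j)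
          (max 1 (Q.N - x)) k ((Q.inst hid vis).e X j t) ≤
        gg k + lexc Q Cd P (Q.inst hid vis) j t u v k (Q.N - x) ω := by
    intro k hk
    rw [mem_Ico] at hk
    have h1 : (Q.inst hid vis).c X (j + 1) t u v k ≤
        chainCost ((Q.inst hid vis).e X j t (k + 1)) Q.M
          ((Q.inst hid vis).L X (Q.N - x) j t u v k) :=
      Inst.c_le_lane (I := Q.inst hid vis) (X := X) j t u v (q := Q.N - x) (b := k)
        (by show Q.N - x < Q.N + 1; omega) (by omega)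
    have h2 : ((Q.inst hid vis).c X (j + 1) t u v k : ℝ) ≤
        chainCost ((Q.inst hid vis).e X j t (k + 1)) Q.M
          ((Q.inst hid vis).L X (Q.N - x) j t u v k) := by exact_mod_cast h1
    unfold lexc
    rw [hgg]
    simp only
    linarith
  have hsum := Finset.sum_le_sum hlane
  rw [Finset.sum_add_distrib] at hsum
  -- assemble
  have hm' : ∑ β ∈ range B, Q976.Ker.ch Q.M (uP Q.M) j
        (fun s => min (Q976.Ker.nu (Q.crv Cd P hid vis Y ω) j s (Q.N + β)) (1 / Q.A)) t =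
      (∑ k ∈ Ico (Q.N - x) (Q.N + B - x), dd k) / ((Q.M : ℝ) ^ (j + 1) * Q.l0) := hm
  have hg' : (∑ k ∈ Ico (Q.N - x) (Q.N + (B + 1) - x), gg k) / ((Q.M : ℝ) ^ (j + 1) * Q.l0) ≤
      ∑ β ∈ range (B + 1),
        Q976.Ker.gain Q.M (uP Q.M) (Q.crv Cd P hid vis Y ω) j t (Q.N + β) := hg
  have h1A : (1 : ℝ) / Q.A = Q.C j * Q.M / ((Q.M : ℝ) ^ (j + 1) * Q.l0) := by
    rw [hC]
    have h3 : (Q.M : ℝ) ≠ 0 := by
      have : (Q.M : ℝ) ^ (j + 1) ≠ 0 := fun h => by rw [h, zero_mul] at hT; exact lt_irrefl _ hT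
      intro h0
      rw [h0] at this
      exact this (by rw [zero_pow (Nat.succ_ne_zero j)])
    have h4 : (Q.l0 : ℝ) ≠ 0 := by
      intro h0
      rw [h0, mul_zero] at hT
      exact lt_irrefl _ hT
    rw [pow_succ]
    field_simp
  set SE := ∑ k ∈ Ico (max 1 (Q.N - x)) (Q.N + B - x),
    lexc Q Cd P (Q.inst hid vis) j t u v k (Q.N - x) ω with hSE
  have key : ∑ k ∈ Ico (Q.N - x) (Q.N + B - x), dd k -
      2 * ∑ k ∈ Ico (Q.N - x) (Q.N + (B + 1) - x), gg k ≤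
      Q.C j * Q.M * (Lg + (Q.Rd + 1) * e3 + 1) + 2 * SE := by
    linarith
  have key2 := div_le_div_of_nonneg_right key hT.le
  rw [hm', h1A]
  calc (∑ k ∈ Ico (Q.N - x) (Q.N + B - x), dd k) / ((Q.M : ℝ) ^ (j + 1) * Q.l0) -
        2 * ∑ β ∈ range (B + 1),
          Q976.Ker.gain Q.M (uP Q.M) (Q.crv Cd P hid vis Y ω) j t (Q.N + β)
      ≤ (∑ k ∈ Ico (Q.N - x) (Q.N + B - x), dd k) / ((Q.M : ℝ) ^ (j + 1) * Q.l0) -
        2 * ((∑ k ∈ Ico (Q.N - x) (Q.N + (B + 1) - x), gg k) /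
          ((Q.M : ℝ) ^ (j + 1) * Q.l0)) := by linarith
    _ = (∑ k ∈ Ico (Q.N - x) (Q.N + B - x), dd k -
        2 * ∑ k ∈ Ico (Q.N - x) (Q.N + (B + 1) - x), gg k) /
          ((Q.M : ℝ) ^ (j + 1) * Q.l0) := by ring
    _ ≤ (Q.C j * Q.M * (Lg + (Q.Rd + 1) * e3 + 1) + 2 * SE) /
          ((Q.M : ℝ) ^ (j + 1) * Q.l0) := key2
    _ = _ := by ring

/-! ### The inequality in expectation -/

/-- **OT-4b.** -/
theorem stmtStar : StmtStar := by
  intro Q Cd P hid vis Y R E Pb Lg e3 h B hB j hj t ht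
  have hQ := h.hQ
  have hP := h.hP
  have hE := h.hE
  have hne : Nonempty (Fin E) := ⟨⟨0, hE⟩⟩
  have hM : 1 ≤ (Q.inst hid vis).M := by
    have := hQ.M_two
    show 1 ≤ Q.M
    omega
  have hA : (0 : ℝ) < Q.A := by exact_mod_cast hQ.A_pos
  have hcap : (0 : ℝ) ≤ 1 / Q.A := by positivity
  have hLe : 0 ≤ Lg + (Q.Rd + 1) * e3 := by
    have h1 := hP.Lg_nonneg
    have h2 := hP.e3_nonneg
    positivity
  rcases hs : (Q.inst hid vis).pst Q.n Y Q.l0 (Q.n - (j + 1)) t with ⟨u, v⟩ | r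
  swap
  · -- jump
    apply H731.av_le
    intro ω
    have h1 : ∑ β ∈ range B, Q976.Ker.ch Q.M (uP Q.M) j
        (fun s => min (Q976.Ker.nu (Q.crv Cd P hid vis Y ω) j s (Q.N + β)) (1 / Q.A)) t = 0 :=
      Inst.mass_dead (I := Q.inst hid vis) hcap hj hs Q.N B
    have h2 : 0 ≤ ∑ β ∈ range (B + 1),
        Q976.Ker.gain Q.M (uP Q.M) (Q.crv Cd P hid vis Y ω) j t (Q.N + β) :=
      Finset.sum_nonneg fun β _ =>
        Inst.gain_nonneg (I := Q.inst hid vis) hM (Prm.l0_pos hQ) h.hY hj _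
    rw [h1]
    have h3 : 0 ≤ 1 / (Q.A : ℝ) * (Lg + (Q.Rd + 1) * e3 + 1) := by positivity
    linarith
  · have hR : Rng Q Y Pb := ⟨hM, h.b1, h.b2, h.b3, h.b4, hQ.Rd_ge⟩
    have hloc : P.Loc Q.M := by
      intro a c C q k f f' t hac hf
      first
      | exact hP.loc a c C q k f f' t hf
      | exact hP.loc a c C q k f f' t hac hf
    obtain ⟨huv, hw⟩ := Inst.pst_ok (I := Q.inst hid vis) hM Q.n Y Q.l0 h.hY _ _ _ _ hs
    have hv := pst_le (I := Q.inst hid vis) hM h.hY _ _ _ _ hs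
    refine (H731.av_mono fun ω => star_path hQ h.hle h.hY hP ω hB hj hs).trans ?_
    rw [H731.av_add, H731.av_const, H731.av_const_mul]
    have hzero : H731.av (fun ω : Seed R E =>
        ∑ k ∈ Ico (max 1 (Q.N - lin Q.M Q.n (Q.sch Cd P (sd ω)).xi (Q.n - (j + 1)) t))
          (Q.N + B - lin Q.M Q.n (Q.sch Cd P (sd ω)).xi (Q.n - (j + 1)) t),
          lexc Q Cd P (Q.inst hid vis) j t u v k
            (Q.N - lin Q.M Q.n (Q.sch Cd P (sd ω)).xi (Q.n - (j + 1)) t) ω) = 0 := by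
      have h1 : ∀ ω : Seed R E,
          ∑ k ∈ Ico (max 1 (Q.N - lin Q.M Q.n (Q.sch Cd P (sd ω)).xi (Q.n - (j + 1)) t))
          (Q.N + B - lin Q.M Q.n (Q.sch Cd P (sd ω)).xi (Q.n - (j + 1)) t),
          lexc Q Cd P (Q.inst hid vis) j t u v k
            (Q.N - lin Q.M Q.n (Q.sch Cd P (sd ω)).xi (Q.n - (j + 1)) t) ω =
          ∑ q ∈ range (Q.N + 1), ∑ k ∈ range (Q.N + B),
            (if q = Q.N - lin Q.M Q.n (Q.sch Cd P (sd ω)).xi (Q.n - (j + 1)) t ∧ max 1 q ≤ k ∧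
              k < Q.N + B - lin Q.M Q.n (Q.sch Cd P (sd ω)).xi (Q.n - (j + 1)) t
              then (1 : ℝ) else 0) * lexc Q Cd P (Q.inst hid vis) j t u v k q ω := fun ω =>
        sum_own Q.N B _ (Q.N + B) le_rfl
          (fun q k => lexc Q Cd P (Q.inst hid vis) j t u v k q ω)
      rw [H731.av_congr h1, H731.av_sum]
      apply Finset.sum_eq_zero
      intro q hq
      rw [H731.av_sum]
      apply Finset.sum_eq_zero
      intro k hk
      rw [mem_range] at hq hk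
      have hAt : AtLane Q Cd Y j t u v k q (Cd.cl (j + 1) t u v k q) :=
        ⟨rfl, hj, ht, huv, hv, by have := hQ.Rd_ge; omega, by omega⟩
      refine av_lexc hQ h.hle hP.T_pos hP.chain hloc hR h.hCd hE h.dT
        (p := ⟨Cd.cl (j + 1) t u v k q, hAt.lt hR h.hCd⟩) hAt _ ?_
      intro ω x
      have ht' : t < Q.M ^ (Q.n - (j + 1)) := ht
      rw [lin_update hR h.hCd (p := ⟨Cd.cl (j + 1) t u v k q, hAt.lt hR h.hCd⟩) hAt ω x
        (Q.n - (j + 1)) (Nat.sub_le _ _) t ht']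
    rw [hzero, mul_zero, add_zero]

end Vale.Agent.P315.OT
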