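import Vale.Agent.P315.OT.Ram
import Vale.Agent.P315.H873.Glue3

/-!
P315, one-scale track: from a strategy with its parameter functions to `Top.Solves`. All hypotheses
are statements about numbers and lists.
-/

set_option autoImplicit false

namespace Vale.Agent.P315.OT

open Vale.Agent.P315 Vale.Agent.P315.RAM Vale.Agent.P315.H873 Vale.Agent.P315.H140
open Vale.Agent.Lib.PolyTime (Word pb pr FP PT Enc enc esize)

/-- The number of bits is at most linear. -/
theorem four_bits_le (c1 n lx ly : ℕ) (hx : lx ≤ n) (hy : ly ≤ n) :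
    4 * (c1 * bl (lx + ly)) + 10 ≤ (8 * c1 + 10) * (n + 2) := by
  have h1 := bl_le (lx + ly)
  have h2 : c1 * bl (lx + ly) ≤ c1 * (2 * (n + 2)) := Nat.mul_le_mul_left _ (by omega)
  calc 4 * (c1 * bl (lx + ly)) + 10 ≤ 4 * (c1 * (2 * (n + 2))) + 10 := by omega
    _ = 8 * c1 * (n + 2) + 10 := by ring
    _ ≤ 8 * c1 * (n + 2) + 10 * (n + 2) := by omega
    _ = (8 * c1 + 10) * (n + 2) := by ring

/-- Constants are powers. -/
theorem const_le_pow (c n : ℕ) : c ≤ (n + 2) ^ c := by
  calc c ≤ 2 ^ c := Nat.lt_two_pow_self.le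
    _ ≤ (n + 2) ^ c := Nat.pow_le_pow_left (by omega) c

theorem bits_pow_le (c1 k1 n lx ly : ℕ) (hx : lx ≤ n) (hy : ly ≤ n) :
    (4 * (c1 * bl (lx + ly)) + 10) ^ k1 ≤ (n + 2) ^ ((8 * c1 + 11) * k1) := by
  rw [pow_mul]
  refine Nat.pow_le_pow_left ?_ k1
  refine (four_bits_le c1 n lx ly hx hy).trans ?_
  rw [show 8 * c1 + 11 = (8 * c1 + 10) + 1 by ring, pow_succ]
  exact Nat.mul_le_mul_right _ (const_le_pow _ _)

/-- Size of the numbers. -/
theorem pow_le_two_pow_bits {c1 n lx ly : ℕ} (hn : n = max lx ly) :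
    (n + 2) ^ c1 ≤ 2 ^ (c1 * bl (lx + ly)) := by
  rw [Nat.mul_comm c1, pow_mul]
  refine Nat.pow_le_pow_left ?_ c1
  have := le_two_pow_bl (lx + ly)
  omega

section
variable {α : Type*} [Enc α]

/-- The time of the program. -/
def otTime (k k1 m N esp S Q l wg lxy : ℕ) : ℕ :=
  16 * (lxy + 2) + (4 * m + 10) ^ k1 + N * (41 * m + 29) +
    Q * (rowTime l wg + 2 * (N * (2 * m + 1) + esp + S + 2 * m + 10) ^ k) +
    (N * (2 * m + 1) + esp + S + 2 * m + 10) ^ k

/-- The state after `t` rounds with the feed `F`. -/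
def otRun (start : List ℕ → α) (ask : α → ℕ) (upd : ℕ × α → α) (x y : List ℕ) (l g D t : ℕ)
    (F : List ℕ) : α := (oround ask upd (otAns x y l g D))^[t] (start F)

/-- What is needed for the strings `x`, `y`; `a = [|x|, |y|]`. -/
structure OTHyp (start : List ℕ → α) (ask : α → ℕ) (upd : ℕ × α → α) (out : α → ℕ)
    (good : List ℕ → List ℕ → ℕ → Prop) (cc : ℕ) (x y : List ℕ) (pre : List ℕ)
    (l g D Q e N K w S : ℕ) : Prop where
  e_pow : ∃ j, e = 2 ^ j
  l_le : l ≤ (max x.length y.length + 2) ^ cc
  g_le : g ≤ (max x.length y.length + 2) ^ cc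
  D_le : D ≤ (max x.length y.length + 2) ^ cc
  Q_le : Q ≤ (max x.length y.length + 2) ^ cc
  e_le : e ≤ (max x.length y.length + 2) ^ cc
  N_le : N ≤ (max x.length y.length + 2) ^ cc
  KD_le : K * D * D ≤ (max x.length y.length + 2) ^ cc
  Kl_le : K * l ≤ (max x.length y.length + 2) ^ cc
  lw_le : l + w * g + 1 ≤ (max x.length y.length + 2) ^ cc
  S_le : S ≤ (max x.length y.length + 2) ^ cc
  pre_le : esize pre ≤ (max x.length y.length + 2) ^ cc
  valid : ∀ c : Fin N → Fin e, ∀ t < Q, OtV K D w (ask (otRun start ask upd x y l g D t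
    (feedP pre c)))
  size : ∀ c : Fin N → Fin e, ∀ t < Q, ∀ j ≤ 1,
    esize (absorb upd ((otAns x y l g D (ask (otRun start ask upd x y l g D t
      (feedP pre c)))).take j) (otRun start ask upd x y l g D t (feedP pre c))) ≤ S
  sizeQ : ∀ c : Fin N → Fin e, esize (otRun start ask upd x y l g D Q (feedP pre c)) ≤ S
  out_le : ∀ c : Fin N → Fin e, out (otRun start ask upd x y l g D Q (feedP pre c)) ≤
    (max x.length y.length + 2) ^ cc
  prob : 2 * Nat.card (Fin N → Fin e) ≤ 3 * Nat.card {c : Fin N → Fin e //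
    good x y (out (otRun start ask upd x y l g D Q (feedP pre c)))}

/-- **From strategy and parameters to `Solves`.** The exponent `k` depends only on the
strategy. -/
theorem exists_solves {start : List ℕ → α} {ask : α → ℕ} {upd : ℕ × α → α} {out : α → ℕ}
    (hstart : PT ∅ start) (hask : PT ∅ ask) (hupd : PT ∅ upd) (hout : PT ∅ out) :
    ∃ k : ℕ, ∀ (pre : List ℕ → List ℕ) (l g D Q e N : List ℕ → ℕ),
      PT ∅ pre → PT ∅ l → PT ∅ g → PT ∅ D → PT ∅ Q → PT ∅ e → PT ∅ N →
      ∀ (K w S : List ℕ → ℕ) (cc n1 : ℕ) (good : List ℕ → List ℕ → ℕ → Prop) (t : ℕ → ℝ),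
      1 ≤ cc → (∀ n, 0 < t n) → (∀ x y, good x y (ED x y)) →
      (∀ x y : List ℕ, n1 ≤ max x.length y.length →
        OTHyp start ask upd out good cc x y (pre [x.length, y.length]) (l [x.length, y.length])
          (g [x.length, y.length]) (D [x.length, y.length]) (Q [x.length, y.length])
          (e [x.length, y.length]) (N [x.length, y.length]) (K [x.length, y.length])
          (w [x.length, y.length]) (S [x.length, y.length])) →
      (∀ k1 : ℕ, ∃ (C0 : ℝ) (n0 : ℕ), ∀ x y : List ℕ, n0 ≤ max x.length y.length →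
        (otTime k k1 (cc * bl (x.length + y.length)) (N [x.length, y.length])
          (esize (pre [x.length, y.length])) (S [x.length, y.length]) (Q [x.length, y.length])
          (l [x.length, y.length]) (w [x.length, y.length] * g [x.length, y.length])
          (x.length + y.length) : ℝ) ≤ C0 * t (max x.length y.length)) →
      ∃ (C : ℝ) (kk : ℕ) (P : Prog), Top.Solves P good (fun n => C * t n) kk := by
  obtain ⟨k, hk⟩ := exists_ram hstart hask hupd hout
  refine ⟨k, fun pre l g D Q e N hpre hl hg hD hQ he hN K w S cc n1 good t hcc ht hgood0 hyp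
    htime => ?_⟩
  obtain ⟨P, k1, hP⟩ := hk pre l g D Q e N cc hpre hl hg hD hQ he hN hcc
  obtain ⟨C0, n0, hC0⟩ := htime k1
  set n2 := n0 + n1 + 1 with hn2
  -- exponent of the word length
  set cX := (9 * cc + 13) * k with hcX
  set c0 := cc + (8 * cc + 11) * k1 + cX + (2 * n2 + 1) + 3 with hc0
  have hc0' : 2 * n2 + 1 ≤ 2 ^ c0 := by
    calc 2 * n2 + 1 ≤ 2 ^ (2 * n2 + 1) := Nat.lt_two_pow_self.le
      _ ≤ 2 ^ c0 := Nat.pow_le_pow_right (by norm_num) (by omega)
  have hpw : ∀ (n i : ℕ), i ≤ c0 → (n + 2) ^ i ≤ (n + 2) ^ c0 := fun n i hi =>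
    Nat.pow_le_pow_right (by omega) hi
  -- the constant
  set A : ℝ := ((360 * ((n2 + 1) * (2 * n2 + 1)) + 10 : ℕ) : ℝ) with hA
  have hApos : 0 ≤ A := Nat.cast_nonneg _
  set Zt : ℝ := ∑ n ∈ Finset.range n2, A / t n with hSt
  have hSt0 : 0 ≤ Zt := Finset.sum_nonneg fun n _ => div_nonneg hApos (ht n).le
  refine ⟨2 * |C0| + Zt, c0 * 100 + 1, split n2 (small n2) P, ?_⟩
  refine solves_split3 (n0 := n2) (c0 := c0) (S := 100) (by omega) hc0' le_rfl
    (fun x y => otTime k k1 (cc * bl (x.length + y.length)) (N [x.length, y.length])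
      (esize (pre [x.length, y.length])) (S [x.length, y.length]) (Q [x.length, y.length])
      (l [x.length, y.length]) (w [x.length, y.length] * g [x.length, y.length])
      (x.length + y.length))
    (fun x y => N [x.length, y.length]) (fun x y => e [x.length, y.length])
    (fun x y => pre [x.length, y.length])
    (fun x y F => out (otRun start ask upd x y (l [x.length, y.length]) (g [x.length, y.length])
      (D [x.length, y.length]) (Q [x.length, y.length]) F)) ?_ ?_ ?_ ?_ hgood0 ?_
  · -- the specification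
    intro x y E hn hER hES
    have H := hyp x y (by omega)
    set a : List ℕ := [x.length, y.length] with ha
    set n := max x.length y.length with hnn
    have he0 : 0 < e a := by
      obtain ⟨j, hj⟩ := H.e_pow
      rw [hj]; exact Nat.pow_pos (by norm_num)
    set m := cc * bl (x.length + y.length) with hm
    have h2m : (n + 2) ^ cc ≤ 2 ^ m := pow_le_two_pow_bits hnn
    have h4m : 4 * m + 10 ≤ (n + 2) ^ (8 * cc + 11) := by
      have := bits_pow_le cc 1 n x.length y.length (le_max_left _ _) (le_max_right _ _)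
      simpa using this
    have hlen : 2 * (x.length + y.length + 3) ≤ (n + 2) ^ 3 := by
      have h1 : x.length ≤ n := le_max_left _ _
      have h2 : y.length ≤ n := le_max_right _ _
      have h3 : (n + 2) ^ 3 = (n + 2) * ((n + 2) * (n + 2)) := by ring
      have h4 : (n + 2) * (2 * 2) ≤ (n + 2) * ((n + 2) * (n + 2)) :=
        Nat.mul_le_mul_left _ (Nat.mul_le_mul (by omega) (by omega))
      omega
    have hX : (N a * (2 * m + 1) + esize (pre a) + S a + 2 * m + 10) ^ k ≤ (n + 2) ^ cX := by
      rw [hcX, pow_mul]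
      refine Nat.pow_le_pow_left ?_ k
      have h1 : N a * (2 * m + 1) ≤ (n + 2) ^ (9 * cc + 11) := by
        calc N a * (2 * m + 1) ≤ (n + 2) ^ cc * (n + 2) ^ (8 * cc + 11) :=
              Nat.mul_le_mul H.N_le (by omega)
          _ = (n + 2) ^ (9 * cc + 11) := by rw [← pow_add]; congr 1; ring
      have h2 : (n + 2) ^ cc ≤ (n + 2) ^ (9 * cc + 11) :=
        Nat.pow_le_pow_right (by omega) (by omega)
      have h3 : (n + 2) ^ (8 * cc + 11) ≤ (n + 2) ^ (9 * cc + 11) :=
        Nat.pow_le_pow_right (by omega) (by omega)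
      have h4 : (n + 2) ^ (9 * cc + 11) * (2 * 2) ≤ (n + 2) ^ (9 * cc + 13) := by
        rw [show 9 * cc + 13 = (9 * cc + 11) + 2 by ring, pow_add (n + 2) (9 * cc + 11) 2]
        refine Nat.mul_le_mul_left _ ?_
        rw [pow_two]
        exact Nat.mul_le_mul (by omega) (by omega)
      have h5 : esize (pre a) ≤ (n + 2) ^ cc := H.pre_le
      have h6 : S a ≤ (n + 2) ^ cc := H.S_le
      omega
    have hF : feedG E.ρ 0 (e a) (N a) (pre a) = feedP (pre a)
        (H731.coinsOf (fun i : Fin (N a) => (i : ℕ)) (fun _ => e a) (fun _ => he0) E.ρ) :=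
      feedG_eq he0 E.ρ (pre a)
    have hB : (n + 2) ^ cc ≤ (n + 2) ^ c0 := hpw n cc (by omega)
    have H1 := H.l_le
    have H2 := H.g_le
    have H3 := H.D_le
    have H4 := H.Q_le
    have H5 := H.e_le
    have H6 := H.N_le
    have H7 := H.KD_le
    have H8 := H.Kl_le
    have H9 : l a + w a * g a + 1 ≤ (n + 2) ^ cc := H.lw_le
    have H10 := H.out_le
      (H731.coinsOf (fun i : Fin (N a) => (i : ℕ)) (fun _ => e a) (fun _ => he0) E.ρ)
    have h11 : cc ≤ (n + 2) ^ cc := const_le_pow cc n
    have h12 := hpw n 3 (by omega)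
    have h13 := (bits_pow_le cc k1 n x.length y.length (le_max_left _ _) (le_max_right _ _)).trans
      (hpw n _ (by omega))
    have h14 := hX.trans (hpw n cX (by omega))
    have key := hP E x y a (feedP (pre a) (H731.coinsOf (fun i : Fin (N a) => (i : ℕ))
      (fun _ => e a) (fun _ => he0) E.ρ)) m (K a) (w a) (S a) ((n + 2) ^ c0) rfl rfl hF.symm he0
      (H5.trans h2m) hER
      (fun t' ht' => H.valid _ t' ht') (fun t' ht' j hj => H.size _ t' ht' j hj) (H.sizeQ _)
      (H10.trans hB) (H1.trans hB) (H2.trans hB) (H3.trans hB) (H4.trans hB) (H6.trans hB)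
      (H5.trans hB) (H7.trans hB) (H8.trans hB) (H9.trans hB) (by omega) (h11.trans hB)
      (hlen.trans h12) h13 h14
    rw [hF]
    exact key
  · -- the time for long strings
    intro x y hn
    have h1 := hC0 x y (by omega)
    have h2 : 8 ≤ otTime k k1 (cc * bl (x.length + y.length)) (N [x.length, y.length])
      (esize (pre [x.length, y.length])) (S [x.length, y.length]) (Q [x.length, y.length])
      (l [x.length, y.length]) (w [x.length, y.length] * g [x.length, y.length])
      (x.length + y.length) := by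
      unfold otTime; omega
    have h3 := ht (max x.length y.length)
    have h4 : C0 * t (max x.length y.length) ≤ |C0| * t (max x.length y.length) :=
      mul_le_mul_of_nonneg_right (le_abs_self C0) h3.le
    have h5 : 0 ≤ Zt * t (max x.length y.length) := mul_nonneg hSt0 h3.le
    have h6 : (8 : ℝ) ≤ (otTime k k1 (cc * bl (x.length + y.length)) (N [x.length, y.length])
      (esize (pre [x.length, y.length])) (S [x.length, y.length]) (Q [x.length, y.length])
      (l [x.length, y.length]) (w [x.length, y.length] * g [x.length, y.length])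
      (x.length + y.length) : ℝ) := by exact_mod_cast h2
    push_cast
    nlinarith
  · -- the time for short strings
    intro n hn
    have h1 : A / t n ≤ Zt := Finset.single_le_sum (f := fun n => A / t n)
      (fun i _ => div_nonneg hApos (ht i).le) (Finset.mem_range.mpr hn)
    have h2 : A = A / t n * t n := by field_simp [(ht n).ne']
    have h3 : A / t n * t n ≤ Zt * t n := mul_le_mul_of_nonneg_right h1 (ht n).le
    have h4 : 0 ≤ 2 * |C0| * t n := by have := ht n; positivity
    show A ≤ (2 * |C0| + Zt) * t n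
    rw [add_mul]
    linarith
  · intro x y hn
    have H := hyp x y (by omega)
    obtain ⟨j, hj⟩ := H.e_pow
    refine ⟨j, hj, ?_⟩
    have h1 := H.e_le
    rw [hj] at h1
    exact h1.trans (Nat.pow_le_pow_right (by omega) (by omega))
  · intro x y hn
    exact (hyp x y (by omega)).prob

end

end Vale.Agent.P315.OT
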