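import Vale.Agent.P315.OT.StratCor
import Vale.Agent.P315.OT.Geo

/-!
P315, one-scale track (helper453), OT-7: validity of the queries, the feed.
-/

set_option autoImplicit false

namespace Vale.Agent.P315.OT

open Finset
open Vale.Agent.P315.RAM (oround absorb)

variable {pl : ℕ → ℕ → ℕ → ℕ → ℕ → ℕ → ℕ → List (List (List (List ℕ))) → ℕ → List ℕ}
variable {vs : List ℕ → ℕ → ℕ → ℕ → ℕ}
variable {F : List ℕ} {Q : Prm} {D Y Tn Sn : ℕ} {hid vis : ℕ → ℕ → ℕ → ℕ}

/-- The queries of the strategy are codes of cells of the box. -/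
def ValidQ (Q : Prm) (D Y q : ℕ) : Prop :=
  ∃ s u v, s < Q.M ^ Q.n ∧ u ≤ v ∧ v ≤ u + Q.w ∧ v ≤ Y * Q.M ^ Q.n ∧ q = cellCode D s u v

theorem askS_valid (h : CorOk F Q D Y Tn Sn hid vis) (hYw : Y ≤ Q.w)
    (hvs : ∀ s u v, vs F s u v = vis s u v) {ans : ℕ → ℕ}
    (hans : ∀ s u v, s < Q.M ^ Q.n → u ≤ v → v ≤ Y * Q.M ^ Q.n →
      ans (cellCode D s u v) = hid s u v) (t : ℕ) :
    ValidQ Q D Y (askS pl vs
      ((oround (askS pl vs) (updS pl vs) (fun q => [ans q]))^[t] (startS F))) := by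
  unfold startS
  rw [oround_iter]
  have hg := rnd_good (pl := pl) (vs := vs) (F := F) ans t
  have hM : 0 < Q.M ^ Q.n := Nat.pow_pos (by have := h.M_two; omega)
  rcases rootE_spec (pl := pl) h hYw hvs hans hg with h1 | ⟨x, hx, -, h2⟩
  · refine ⟨0, 0, 0, hM, le_rfl, Nat.zero_le _, Nat.zero_le _, ?_⟩
    unfold askS
    rw [h1]
    simp [cellCode]
  · obtain ⟨g1, g2, g3, g4, g5⟩ := Inst.S_range h.sch Q.n 0 0 Y Q.N (Nat.zero_le _)
      (by rw [Nat.zero_add]; exact hYw) x hx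
    refine ⟨x.1, x.2.1, x.2.2, by simpa [Prm.inst] using g1, g3, g5, g4, ?_⟩
    unfold askS
    rw [h2]
    rfl

theorem ValidQ.lt {q : ℕ} (h : ValidQ Q D Y q) (hD : Y * Q.M ^ Q.n < D) :
    q < Q.M ^ Q.n * D * D := by
  obtain ⟨s, u, v, h1, h2, -, h3, rfl⟩ := h
  exact cellCode_lt h1 (by omega) (by omega)

/-! ### The visible costs -/

/-- The visible costs, computed from the feed. -/
def visF (F : List ℕ) (i u v : ℕ) : ℕ :=
  max (min (pm F * pg F) (F.getD 0 0 - i * (pm F * pg F)))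
    (min ((v - u) * pg F) (F.getD 1 0 - u * pg F))

theorem visF_eq (h : Fits F Q D Y Tn Sn) {x y : List ℕ} (h0 : F.getD 0 0 = x.length)
    (h1 : F.getD 1 0 = y.length) (i u v : ℕ) : visF F i u v = visc Q x y i u v := by
  unfold visF visc
  rw [h0, h1, h.hm, h.hg, factor_length, factor_length]
  congr 1
  · congr 1
    show Q.m * Q.g0 = (i + 1) * (Q.m * Q.g0) - i * (Q.m * Q.g0)
    rw [Nat.add_mul]; omega
  · rw [Nat.sub_mul]

/-! ### The feed -/

/-- The prefix of the feed. -/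
def preF (lx ly : ℕ) (Q : Prm) (D Y Tn Sn : ℕ) : List ℕ :=
  [lx, ly, Q.M, Q.n, Q.m, Q.w, Q.g0, Q.J, Q.N, Q.A, D, Y, Tn, Sn, 0, 0]

theorem preF_getD (lx ly : ℕ) (Q : Prm) (D Y Tn Sn : ℕ) (seeds : List ℕ) (i : ℕ) :
    (preF lx ly Q D Y Tn Sn ++ seeds).getD (16 + i) 0 = seeds.getD i 0 := by
  rw [List.getD_append_right _ _ _ _ (by simp [preF])]
  congr 1
  simp [preF]

theorem feedSeed_preF (lx ly : ℕ) (Q : Prm) (D Y Tn Sn : ℕ) (seeds : List ℕ) :
    feedSeed (preF lx ly Q D Y Tn Sn ++ seeds) = fun i => seeds.getD i 0 :=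
  funext fun i => preF_getD lx ly Q D Y Tn Sn seeds i

/-- The feed carries the parameters as soon as it is long enough. -/
theorem fits_preF (lx ly : ℕ) (Q : Prm) (D Y Tn Sn : ℕ) (seeds : List ℕ)
    (hM : Q.M ≤ 16 + seeds.length) (hn : Q.n ≤ 16 + seeds.length) (hw : Q.w ≤ 16 + seeds.length)
    (hN : Q.N ≤ 16 + seeds.length) (hT : Tn ≤ 16 + seeds.length)
    (hK : Q.M ^ Q.n ≤ 16 + seeds.length) (hY : Y * Q.M ^ Q.n ≤ 16 + seeds.length) :
    Fits (preF lx ly Q D Y Tn Sn ++ seeds) Q D Y Tn Sn := by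
  have hlen : (preF lx ly Q D Y Tn Sn ++ seeds).length = 16 + seeds.length := by
    rw [List.length_append]; rfl
  have eM : pM (preF lx ly Q D Y Tn Sn ++ seeds) = Q.M := by
    unfold pM; rw [hlen]; exact min_eq_left hM
  have en : pn (preF lx ly Q D Y Tn Sn ++ seeds) = Q.n := by
    unfold pn; rw [hlen]; exact min_eq_left hn
  have eK : pK (preF lx ly Q D Y Tn Sn ++ seeds) = Q.M ^ Q.n := by
    unfold pK; rw [hlen, eM, en]; exact min_eq_left hK
  have eY : pY (preF lx ly Q D Y Tn Sn ++ seeds) = Y := rfl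
  exact {
    hM := eM
    hn := en
    hm := rfl
    hw := by unfold pw; rw [hlen]; exact min_eq_left hw
    hg := rfl
    hJ := rfl
    hN := by unfold pN; rw [hlen]; exact min_eq_left hN
    hA := rfl
    hD := rfl
    hY := eY
    hT := by unfold pT; rw [hlen]; exact min_eq_left hT
    hS := rfl
    hK := eK
    hY0 := by unfold pY0; rw [hlen, eK, eY]; exact min_eq_left hY }

end Vale.Agent.P315.OT
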