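import Vale.Agent.P315.OT.StratSize
import Vale.Agent.P315.OT.StratUse
import Vale.Agent.P315.OT.Solve

/-!
P315, one-scale track, OT-7: the size conditions of `OTHyp`, from the validity of the queries.
-/

set_option autoImplicit false

namespace Vale.Agent.P315.OT

open Vale.Agent.Lib.PolyTime (esize esize_nat esize_nat_mono esize_list_le)
open Vale.Agent.P315.RAM (oround absorb)
open Vale.Agent.P315.H873 (feedP)

/-- Bound for the sizes of the states: `ep` size of the prefix, `N` seeds below `e`, `Q` rounds,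
codes below `K D ^ 2`, answers below `V`. -/
def otS (ep N e Q K D V : ℕ) : ℕ :=
  2 * (ep + N * (2 * esize e + 1)) + Q * (2 * (2 * esize (5 * (K * D * D)) + esize V + 1) + 1) + 1

theorem le_two_pow_esize (n : ℕ) : n ≤ 2 ^ esize n := by
  rw [esize_nat]
  exact Nat.lt_size_self n |>.le

theorem esize_feedP_le {N e : ℕ} (pre : List ℕ) (c : Fin N → Fin e) :
    esize (feedP pre c) ≤ esize pre + N * (2 * esize e + 1) := by
  have e1 : feedP pre c = pre ++ List.ofFn fun i => (c i : ℕ) := rfl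
  rw [e1, Vale.Agent.Lib.PolyTime.esize_append]
  have h : esize (List.ofFn fun i => (c i : ℕ)) ≤
      (List.ofFn fun i => (c i : ℕ)).length * (2 * esize e + 1) := by
    refine esize_list_le fun x hx => ?_
    obtain ⟨i, rfl⟩ := List.mem_ofFn.mp hx
    exact esize_nat_mono (c i).isLt.le
  rw [List.length_ofFn] at h
  omega

/-- The answers to valid queries. -/
theorem otAns_ok {K D w q : ℕ} (x y : List ℕ) (l g : ℕ) (h : OtV K D w q) :
    (otAns x y l g D q).length ≤ 1 ∧ ∀ z ∈ otAns x y l g D q, z < l + w * g + 1 := by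
  obtain ⟨s, u, v, -, hu, hv, huv, hvw, rfl⟩ := h
  have e1 : otAns x y l g D (code D s u v) =
      [rowDist (fun i => x.getD i 0) (fun i => y.getD i 0) x.length y.length l g s u v] := by
    unfold otAns
    exact rowAns_code _ _ _ _ _ _ hu hv
  rw [e1]
  refine ⟨le_rfl, fun z hz => ?_⟩
  rw [List.mem_singleton] at hz
  subst hz
  have h1 := rowDist_le (fun i => x.getD i 0) (fun i => y.getD i 0) x.length y.length l g s u v
  have h2 : (v - u) * g ≤ w * g := Nat.mul_le_mul_right _ (by omega)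
  omega

section

variable {pl : ℕ → ℕ → ℕ → ℕ → ℕ → ℕ → ℕ → List (List (List (List ℕ))) → ℕ → List ℕ}
variable {vs : List ℕ → ℕ → ℕ → ℕ → ℕ}

/-- The states of the run. -/
theorem otRun_ok {x y F : List ℕ} {l g D K w Rq : ℕ}
    (hv : ∀ t < Rq, OtV K D w (askS pl vs (otRun startS (askS pl vs) (updS pl vs) x y l g D t F))) :
    ∀ t ≤ Rq, StOk F (l + w * g + 1) t (otRun startS (askS pl vs) (updS pl vs) x y l g D t F) :=
  StOk.loop fun t ht => otAns_ok x y l g (hv t ht)

/-- The codes stay below `5 K D ^ 2`. -/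
theorem pFB_add_le (lx ly : ℕ) (Q : Prm) {D Y : ℕ} (Tn Sn : ℕ) (seeds : List ℕ) (hM : 1 ≤ Q.M)
    (hD : Y * Q.M ^ Q.n < D) :
    pFB (preF lx ly Q D Y Tn Sn ++ seeds) + pY (preF lx ly Q D Y Tn Sn ++ seeds) ≤
      5 * (Q.M ^ Q.n * D * D) := by
  set F := preF lx ly Q D Y Tn Sn ++ seeds with hF
  have hK : pK F ≤ Q.M ^ Q.n := by
    unfold pK
    refine (min_le_left _ _).trans ?_
    have h1 : pM F ≤ Q.M := min_le_left _ _
    have h2 : pn F ≤ Q.n := min_le_left _ _
    exact (Nat.pow_le_pow_left h1 _).trans (Nat.pow_le_pow_right hM h2)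
  have e1 : pD F = D := rfl
  have e2 : pY F = Y := rfl
  have h0 : pY0 F ≤ Y * Q.M ^ Q.n := by
    unfold pY0
    rw [e2]
    exact (min_le_left _ _).trans (Nat.mul_le_mul_left _ hK)
  have hK1 : 1 ≤ Q.M ^ Q.n := Nat.one_le_pow _ _ hM
  generalize Q.M ^ Q.n = K at *
  have hYK : Y ≤ Y * K := Nat.le_mul_of_pos_right _ hK1
  have hKD : pK F * D ≤ K * D := Nat.mul_le_mul_right _ hK
  have h3 : D ≤ K * D := Nat.le_mul_of_pos_left _ hK1
  have h4 : (pK F * pD F + pY0 F) * pD F ≤ (K * D + K * D) * D := by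
    rw [e1]
    exact Nat.mul_le_mul_right _ (by omega)
  have h5 : (K * D + K * D) * D = 2 * (K * D * D) := by ring
  have h6 : K * D ≤ K * D * D := Nat.le_mul_of_pos_right _ (by omega)
  unfold pFB
  rw [e2]
  omega

theorem StOk.esize_le' {x y : List ℕ} {Q : Prm} {D Y Tn Sn N e : ℕ} {c : Fin N → Fin e}
    {V t Rq : ℕ} {a : St} (hM : 1 ≤ Q.M) (hD : Y * Q.M ^ Q.n < D)
    (h : StOk (feedP (preF x.length y.length Q D Y Tn Sn) c) V t a) (ht : t ≤ Rq) :
    esize a ≤ otS (esize (preF x.length y.length Q D Y Tn Sn)) N e Rq (Q.M ^ Q.n) D V := by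
  have h1 := h.esize_le (le_two_pow_esize V)
  have h2 := esize_feedP_le (preF x.length y.length Q D Y Tn Sn) c
  have h3 := esize_nat_mono (pFB_add_le x.length y.length Q Tn Sn (List.ofFn fun i => (c i : ℕ))
    hM hD)
  have e1 : feedP (preF x.length y.length Q D Y Tn Sn) c =
    preF x.length y.length Q D Y Tn Sn ++ List.ofFn fun i => (c i : ℕ) := rfl
  rw [← e1] at h3
  have h4 : t * (2 * (2 * esize (pFB (feedP (preF x.length y.length Q D Y Tn Sn) c) +
        pY (feedP (preF x.length y.length Q D Y Tn Sn) c)) + esize V + 1) + 1) ≤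
      Rq * (2 * (2 * esize (5 * (Q.M ^ Q.n * D * D)) + esize V + 1) + 1) :=
    Nat.mul_le_mul ht (by omega)
  unfold otS
  omega

/-- **The field `size` of `OTHyp`.** -/
theorem otHyp_size {x y : List ℕ} {Q : Prm} {D Y Tn Sn N e l g w Rq : ℕ} {c : Fin N → Fin e}
    (hM : 1 ≤ Q.M) (hD : Y * Q.M ^ Q.n < D)
    (hv : ∀ t < Rq, OtV (Q.M ^ Q.n) D w (askS pl vs (otRun startS (askS pl vs) (updS pl vs) x y
      l g D t (feedP (preF x.length y.length Q D Y Tn Sn) c)))) :
    ∀ t < Rq, ∀ j ≤ 1, esize (absorb (updS pl vs) ((otAns x y l g D (askS pl vs (otRun startS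
      (askS pl vs) (updS pl vs) x y l g D t (feedP (preF x.length y.length Q D Y Tn Sn) c)))).take
        j) (otRun startS (askS pl vs) (updS pl vs) x y l g D t
          (feedP (preF x.length y.length Q D Y Tn Sn) c))) ≤
      otS (esize (preF x.length y.length Q D Y Tn Sn)) N e Rq (Q.M ^ Q.n) D (l + w * g + 1) := by
  intro t ht j _
  obtain ⟨h1, h2⟩ := otAns_ok x y l g (hv t ht)
  exact ((otRun_ok hv t ht.le).take h1 h2).esize_le' hM hD ht

/-- **The field `sizeQ` of `OTHyp`.** -/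
theorem otHyp_sizeQ {x y : List ℕ} {Q : Prm} {D Y Tn Sn N e l g w Rq : ℕ} {c : Fin N → Fin e}
    (hM : 1 ≤ Q.M) (hD : Y * Q.M ^ Q.n < D)
    (hv : ∀ t < Rq, OtV (Q.M ^ Q.n) D w (askS pl vs (otRun startS (askS pl vs) (updS pl vs) x y
      l g D t (feedP (preF x.length y.length Q D Y Tn Sn) c)))) :
    esize (otRun startS (askS pl vs) (updS pl vs) x y l g D Rq
      (feedP (preF x.length y.length Q D Y Tn Sn) c)) ≤
      otS (esize (preF x.length y.length Q D Y Tn Sn)) N e Rq (Q.M ^ Q.n) D (l + w * g + 1) :=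
  (otRun_ok hv Rq le_rfl).esize_le' hM hD le_rfl

/-- **The field `out_le` of `OTHyp`**, before the numbers are bounded by a power. -/
theorem otHyp_out {x y : List ℕ} {Q : Prm} {D Y Tn Sn N e l g w Rq : ℕ} {c : Fin N → Fin e}
    (hM : 1 ≤ Q.M)
    (hv : ∀ t < Rq, OtV (Q.M ^ Q.n) D w (askS pl visF (otRun startS (askS pl visF)
      (updS pl visF) x y l g D t (feedP (preF x.length y.length Q D Y Tn Sn) c)))) :
    outS pl visF (otRun startS (askS pl visF) (updS pl visF) x y l g D Rq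
      (feedP (preF x.length y.length Q D Y Tn Sn) c)) ≤
      Q.M ^ Q.n * ((Q.m + Q.w + Q.n * Q.w) * Q.g0) + (l + w * g + 1) +
        2 * (x.length + y.length) := by
  have h1 := (otRun_ok hv Rq le_rfl).out_le (pl := pl) (vs := visF)
  set F := feedP (preF x.length y.length Q D Y Tn Sn) c with hF
  have e0 : F.getD 0 0 = x.length := rfl
  have e1 : F.getD 1 0 = y.length := rfl
  have hb : pbig F ≤ Q.M ^ Q.n * ((Q.m + Q.w + Q.n * Q.w) * Q.g0) := by
    have a1 : pM F ≤ Q.M := min_le_left _ _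
    have a2 : pn F ≤ Q.n := min_le_left _ _
    have a3 : pw F ≤ Q.w := min_le_left _ _
    have a4 : pm F = Q.m := rfl
    have a5 : pg F = Q.g0 := rfl
    unfold pbig pMj
    rw [a4, a5]
    refine Nat.mul_le_mul ?_ (Nat.mul_le_mul_right _ ?_)
    · exact (Nat.pow_le_pow_left a1 _).trans (Nat.pow_le_pow_right hM ((min_le_left _ _).trans a2))
    · have := Nat.mul_le_mul a2 a3
      omega
  have hvis : visF F 0 0 (pY F) ≤ x.length + y.length := by
    unfold visF
    rw [e0, e1]
    omega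
  rw [e0, e1] at h1
  omega

end

end Vale.Agent.P315.OT
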