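import Vale.Agent.P315.OT.Cost
import Vale.Agent.P315.OT.StratUse
import Vale.Agent.P315.OT.Solve
import Vale.Agent.P315.OT.StratHyp

/-!
P315, one-scale track, OT-9 / OT-10: sizes of the prefix and of the states, and the time
hypothesis of `exists_solves`.
-/

set_option autoImplicit false

namespace Vale.Agent.P315.OT.Num

open Vale.Agent.P315.H738
open Vale.Agent.P315.H140 (bl)
open Vale.Agent.Lib.PolyTime (esize esize_list_le esize_nat_le esize_nat_mono)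

/-! ### The time, with the rate chosen before the overheads -/

/-- `time_num` with `c` chosen before `r` and `C₀`. -/
theorem time_num_unif (e g a : ℕ) (he : 1 ≤ e) (hg : 2 ≤ g) (ha : 2 * a ≤ g) :
    ∃ c : ℝ, 0 < c ∧ c ≤ 1 ∧ ∀ r C₀ : ℕ, ∃ (C : ℝ) (N0 : ℕ), 0 ≤ C ∧ ∀ N : ℕ, N0 ≤ N →
      (C₀ : ℝ) * ((pQ e N (lvl g 4 N) : ℝ) * cellT e N (lvl g 4 N)) + C₀ * ((N : ℝ) + 16)
        + C₀ * ((rws g 4 N : ℝ) ^ a * ((lg N : ℝ) + 1) ^ r) ≤ C * bd c N := by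
  obtain ⟨c, hc, N3, h3⟩ := final_exp g 4 (cE e) (16 * (16 * e + 1) * 121 * cw e ^ 2) 4
    (by omega) (by norm_num) (by unfold cE; exact Nat.one_le_iff_ne_zero.2 (by positivity))
  refine ⟨min c 1, lt_min hc one_pos, min_le_right _ _, fun r C₀ => ?_⟩
  obtain ⟨N1, h1⟩ := ev_reg e g he hg
  obtain ⟨N2, h2⟩ := ev_over a r 1 g ha
  refine ⟨4 * C₀, max N1 (max N2 N3), by positivity, fun N hN => ?_⟩
  have hR := h1 N ((le_max_left _ _).trans hN)
  have hO := h2 N ((le_max_left _ _).trans ((le_max_right _ _).trans hN))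
  have hE := h3 N ((le_max_right _ _).trans ((le_max_right _ _).trans hN))
  have hC0 : (0 : ℝ) ≤ C₀ := Nat.cast_nonneg _
  have hN0 : (0 : ℝ) ≤ N := Nat.cast_nonneg _
  have hlin : (N : ℝ) + 16 ≤ bd (min c 1) N := le_bd (min_le_right _ _) N
  have hrow : pK N (lvl g 4 N) * pm e N ≤ N := by
    have h4 := hR.rows
    have h5 : 1 * (rws g 4 N * pm e N) ≤ 16 * e * (rws g 4 N * pm e N) :=
      Nat.mul_le_mul_right _ (by omega)
    change rws g 4 N * pm e N ≤ N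
    omega
  -- the reads
  have t1 : (pQ e N (lvl g 4 N) : ℝ) * cellT e N (lvl g 4 N) ≤ 2 * bd (min c 1) N := by
    refine (reads_time he hrow).trans ?_
    have h6 : (2 : ℝ) * bd c N ≤ 2 * bd (min c 1) N := by
      have := bd_anti (min_le_left c 1) N
      linarith
    refine le_trans ?_ h6
    unfold bd
    have h7 : (N : ℝ) ^ 2 ≤ ((N : ℝ) + 16) ^ 2 := pow_le_pow_left₀ hN0 (by linarith) 2
    have h8 := mul_le_mul hE h7 (by positivity)
      (mul_nonneg (by norm_num : (0 : ℝ) ≤ 2) (Real.exp_pos _).le)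
    refine h8.trans (le_of_eq ?_)
    ring
  -- the overheads
  have t2 : (rws g 4 N : ℝ) ^ a * ((lg N : ℝ) + 1) ^ r ≤ bd (min c 1) N := by
    refine le_trans ?_ hlin
    have h9 : ((1 * rws g 4 N ^ a * (lg N + 1) ^ r : ℕ) : ℝ) ≤ ((N + 2 : ℕ) : ℝ) :=
      Nat.cast_le.2 hO
    push_cast at h9
    rw [one_mul] at h9
    linarith
  have s1 := mul_le_mul_of_nonneg_left t1 hC0
  have s2 := mul_le_mul_of_nonneg_left t2 hC0
  have s3 := mul_le_mul_of_nonneg_left hlin hC0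
  linarith

/-- `cost_bd` with `c` chosen before the parameter phase. -/
theorem cost_bd_unif {e : ℕ} (he : 1 ≤ e) (k aS g : ℕ) (hg2 : 2 ≤ g)
    (hg : 2 * costA k aS ≤ g) :
    ∃ c : ℝ, 0 < c ∧ c ≤ 1 ∧ ∀ k1 c1 CS rS : ℕ, ∃ (C : ℝ) (N0 : ℕ), 0 ≤ C ∧
    ∀ N : ℕ, N0 ≤ N → ∀ lx ly ep S : ℕ,
    lx ≤ N → ly ≤ N → ep ≤ CS * (rws g 4 N ^ aS * (lg N + 1) ^ rS) →
    S ≤ CS * (rws g 4 N ^ aS * (lg N + 1) ^ rS) →
    ((costT k k1 lx ly (c1 * bl (lx + ly)) (pNs e N (lvl g 4 N)) (pQ e N (lvl g 4 N))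
      (pm e N * pg e N (lvl g 4 N)) (pw e N * pg e N (lvl g 4 N)) ep S : ℕ) : ℝ) ≤
      C * bd c N := by
  obtain ⟨c, hc, hc1, h⟩ := time_num_unif e g (costA k aS) he hg2 hg
  refine ⟨c, hc, hc1, fun k1 c1 CS rS => ?_⟩
  obtain ⟨C₀, r, h1⟩ := cost_le he k aS g k1 c1 CS rS
  obtain ⟨C, N0, hC, h2⟩ := h r C₀
  refine ⟨C, N0, hC, fun N hN lx ly ep S hx hy hep hS => ?_⟩
  have h3 := Nat.cast_le (α := ℝ).2 (h1 N lx ly ep S hx hy hep hS)
  refine h3.trans (le_trans (le_of_eq ?_) (h2 N hN))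
  push_cast
  ring

/-! ### Sizes of numbers -/

theorem size_pol {a r C N x : ℕ} (h : Pol (N + 2) (lg N + 1) a r C x) :
    esize x ≤ (C + a + r) * (lg N + 1) := by
  have h1 : (N + 2) ^ a ≤ 2 ^ (a * (lg N + 1)) := by
    rw [mul_comm a, pow_mul]
    exact Nat.pow_le_pow_left (lt_two_pow_lg N).le a
  have h2 : (lg N + 1) ^ r ≤ 2 ^ (r * (lg N + 1)) := by
    rw [mul_comm r, pow_mul]
    exact Nat.pow_le_pow_left (Nat.lt_two_pow_self).le r
  have h3 : x < 2 ^ (C + (a * (lg N + 1) + r * (lg N + 1))) := by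
    refine lt_of_le_of_lt h ?_
    rw [pow_add, pow_add]
    exact Nat.mul_lt_mul_of_lt_of_le Nat.lt_two_pow_self (Nat.mul_le_mul h1 h2) (by positivity)
  refine (esize_nat_le h3).trans ?_
  have h4 : C ≤ C * (lg N + 1) := Nat.le_mul_of_pos_right _ (by omega)
  have h5 : (C + a + r) * (lg N + 1) = C * (lg N + 1) + (a * (lg N + 1) + r * (lg N + 1)) := by
    ring
  omega

section

variable {e g N : ℕ}

theorem pol_two_pow_ll (c N : ℕ) : Pol (N + 2) (lg N + 1) 0 c (2 ^ c) (2 ^ (c * ll N)) := by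
  unfold Pol
  rw [pow_zero, one_mul, mul_comm c, pow_mul, ← mul_pow]
  refine Nat.pow_le_pow_left ?_ c
  have := pow_ll_le N
  omega

theorem pol_lin {x : ℕ} (h : x ≤ N + 2) : Pol (N + 2) (lg N + 1) 1 0 1 x := by
  unfold Pol; simpa using h

theorem pol_n (g N : ℕ) : Pol (N + 2) (lg N + 1) 0 1 1 (lvl g 4 N) := by
  unfold Pol
  have := lvl_le g 4 N
  simpa using this.trans (Nat.le_succ _)

theorem pol_pw (e N : ℕ) : Pol (N + 2) (lg N + 1) 0 2 (cw e) (pw e N) := by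
  unfold Pol
  simpa using pw_le e N

theorem pol_pm (e N : ℕ) : Pol (N + 2) (lg N + 1) 0 2 (cw e) (pm e N) :=
  (pm_le_pw e N).trans (pol_pw e N)

theorem pg_le (e N n : ℕ) : pg e N n ≤ N + 2 := by
  have : N / (pK N n * pm e N) ≤ N := Nat.div_le_self _ _
  unfold pg
  omega

theorem pol_pJ1 (he : 1 ≤ e) (N : ℕ) :
    Pol (N + 2) (lg N + 1) 0 1 (32768 * e ^ 2) (pJ1 e N) := by
  unfold Pol
  rw [pow_zero, one_mul, pow_one]
  exact (pJ1_le he).trans (Nat.mul_le_mul_left _ ((ll_le_lg N).trans (Nat.le_succ _)))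

theorem pol_pJ (he : 1 ≤ e) (N : ℕ) : Pol (N + 2) (lg N + 1) 0 1 (32768 * e ^ 2) (pJ e N) :=
  (Nat.sub_le _ _).trans (pol_pJ1 he N)

theorem pol_pN (he : 1 ≤ e) (g N : ℕ) :
    Pol (N + 2) (lg N + 1) (0 + 0) (1 + 1) (32768 * e ^ 2 * 1) (pN e N (lvl g 4 N)) :=
  (pN_le _ _ _).trans ((pol_pJ he N).mul (pol_n g N))

theorem pol_pA (e N : ℕ) : Pol (N + 2) (lg N + 1) 0 1 (256 * e) (pA e N) := by
  unfold Pol pA
  rw [pow_zero, one_mul, pow_one]
  exact Nat.mul_le_mul_left _ ((ll_le_lg N).trans (Nat.le_succ _))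

theorem pol_pP' (he : 1 ≤ e) (hg : 1 ≤ g) (N : ℕ) :
    Pol (N + 2) (lg N + 1) 1 2 (cP e) (pP e N (lvl g 4 N)) := by
  have h := pol_pP he g N
  unfold Pol at *
  refine h.trans (Nat.mul_le_mul_left _ (Nat.mul_le_mul_right _ ?_))
  exact Nat.pow_le_pow_left (rws_le g 4 N hg) 1

/-! ### The prefix of the feed -/

/-- constant for the sizes of the numbers of the prefix; `cT` = constant for the last two -/
def cB (e cT : ℕ) : ℕ :=
  (1 + 1 + 0) + (2 ^ 4 + 0 + 4) + (1 + 0 + 1) + (cw e + 0 + 2) + (32768 * e ^ 2 + 0 + 1) +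
    (32768 * e ^ 2 * 1 + (0 + 0) + (1 + 1)) + (256 * e + 0 + 1) + (cP e + 1 + 2) + cT

theorem esize_preF (he : 1 ≤ e) (hg : 1 ≤ g) {lx ly Y Tn Sn cT : ℕ} (hx : lx ≤ N) (hy : ly ≤ N)
    (hY : Y ≤ N + 2) (hT : esize Tn ≤ cT * (lg N + 1)) (hS : esize Sn ≤ cT * (lg N + 1)) :
    esize (preF lx ly (prm e N (lvl g 4 N)) (pP e N (lvl g 4 N)) Y Tn Sn) ≤
      48 * cB e cT * (lg N + 1) := by
  have hB : ∀ c, c ≤ cB e cT → ∀ x : ℕ, esize x ≤ c * (lg N + 1) →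
      esize x ≤ cB e cT * (lg N + 1) :=
    fun c hc x hx => hx.trans (Nat.mul_le_mul_right _ hc)
  have b1 := hB _ (by unfold cB; omega) _ (size_pol (pol_lin (by omega : lx ≤ N + 2)))
  have b2 := hB _ (by unfold cB; omega) _ (size_pol (pol_lin (by omega : ly ≤ N + 2)))
  have b3 : esize (prm e N (lvl g 4 N)).M ≤ cB e cT * (lg N + 1) :=
    hB _ (by unfold cB; omega) _ (size_pol (pol_two_pow_ll 4 N))
  have b4 : esize (prm e N (lvl g 4 N)).n ≤ cB e cT * (lg N + 1) :=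
    hB _ (by unfold cB; omega) _ (size_pol (pol_n g N))
  have b5 : esize (prm e N (lvl g 4 N)).m ≤ cB e cT * (lg N + 1) :=
    hB _ (by unfold cB; omega) _ (size_pol (pol_pm e N))
  have b6 : esize (prm e N (lvl g 4 N)).w ≤ cB e cT * (lg N + 1) :=
    hB _ (by unfold cB; omega) _ (size_pol (pol_pw e N))
  have b7 : esize (prm e N (lvl g 4 N)).g0 ≤ cB e cT * (lg N + 1) :=
    hB _ (by unfold cB; omega) _ (size_pol (pol_lin (pg_le e N _)))
  have b8 : esize (prm e N (lvl g 4 N)).J ≤ cB e cT * (lg N + 1) :=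
    hB _ (by unfold cB; omega) _ (size_pol (pol_pJ he N))
  have b9 : esize (prm e N (lvl g 4 N)).N ≤ cB e cT * (lg N + 1) :=
    hB _ (by unfold cB; omega) _ (size_pol (pol_pN he g N))
  have b10 : esize (prm e N (lvl g 4 N)).A ≤ cB e cT * (lg N + 1) :=
    hB _ (by unfold cB; omega) _ (size_pol (pol_pA e N))
  have b11 := hB _ (by unfold cB; omega) _ (size_pol (pol_pP' he hg N))
  have b12 := hB _ (by unfold cB; omega) _ (size_pol (pol_lin hY))
  have b13 := hB _ (by unfold cB; omega) _ hT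
  have b14 := hB _ (by unfold cB; omega) _ hS
  have b15 := hB _ (by unfold cB; omega) _ (size_pol (pol_lin (by omega : 0 ≤ N + 2)))
  have h : ∀ x ∈ preF lx ly (prm e N (lvl g 4 N)) (pP e N (lvl g 4 N)) Y Tn Sn,
      esize x ≤ cB e cT * (lg N + 1) := by
    unfold preF
    simp only [List.forall_mem_cons]
    exact ⟨b1, b2, b3, b4, b5, b6, b7, b8, b9, b10, b11, b12, b13, b14, b15, b15,
      fun x hx => absurd hx List.not_mem_nil⟩
  refine (esize_list_le h).trans ?_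
  have hlen : (preF lx ly (prm e N (lvl g 4 N)) (pP e N (lvl g 4 N)) Y Tn Sn).length = 16 := rfl
  rw [hlen]
  have h1 : 1 ≤ cB e cT * (lg N + 1) := Nat.mul_pos (by unfold cB; omega) (by omega)
  have h2 : 48 * cB e cT * (lg N + 1) = 48 * (cB e cT * (lg N + 1)) := by ring
  rw [h2]
  omega

/-! ### The size of the states -/

/-- constant for the size of `5 K D D` -/
def cK (e : ℕ) : ℕ := 5 * (1 * cP e * cP e) + (1 + 1 + 1) + (0 + 2 + 2)

theorem size_KDD (he : 1 ≤ e) (hg : 1 ≤ g) (N : ℕ) :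
    esize (5 * (rws g 4 N * pP e N (lvl g 4 N) * pP e N (lvl g 4 N))) ≤ cK e * (lg N + 1) := by
  have hK : Pol (N + 2) (lg N + 1) 1 0 1 (rws g 4 N) := pol_lin (rws_le g 4 N hg)
  have hD := pol_pP' he hg N
  have h := (hK.mul hD).mul hD
  have h5 : Pol (N + 2) (lg N + 1) (1 + 1 + 1) (0 + 2 + 2) (5 * (1 * cP e * cP e))
      (5 * (rws g 4 N * pP e N (lvl g 4 N) * pP e N (lvl g 4 N))) := by
    unfold Pol at h ⊢
    rw [mul_assoc 5]
    exact Nat.mul_le_mul_left 5 h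
  exact size_pol h5

/-- constant for the size of the answers -/
def cV (e : ℕ) : ℕ := (2 * cw e + 1) + 1 + 2

theorem size_V (e N n : ℕ) :
    esize (pm e N * pg e N n + pw e N * pg e N n + 1) ≤ cV e * (lg N + 1) := by
  have h1 : pm e N ≤ cw e * (lg N + 1) ^ 2 := (pm_le_pw e N).trans (pw_le e N)
  have h2 := pw_le e N
  have h3 := pg_le e N n
  have h : Pol (N + 2) (lg N + 1) 1 2 (2 * cw e + 1)
      (pm e N * pg e N n + pw e N * pg e N n + 1) := by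
    unfold Pol
    have h4 : pm e N * pg e N n ≤ cw e * (lg N + 1) ^ 2 * (N + 2) := Nat.mul_le_mul h1 h3
    have h5 : pw e N * pg e N n ≤ cw e * (lg N + 1) ^ 2 * (N + 2) := Nat.mul_le_mul h2 h3
    have h6 : 1 ≤ (N + 2) ^ 1 * (lg N + 1) ^ 2 := Nat.one_le_iff_ne_zero.2 (by positivity)
    have h7 : (2 * cw e + 1) * ((N + 2) ^ 1 * (lg N + 1) ^ 2) =
        cw e * (lg N + 1) ^ 2 * (N + 2) + cw e * (lg N + 1) ^ 2 * (N + 2) +
          1 * ((N + 2) ^ 1 * (lg N + 1) ^ 2) := by ring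
    omega
  exact size_pol h

/-- constant of `otS` -/
def cS (e cp cE : ℕ) : ℕ :=
  2 * (cp + 2 * cP e ^ 6 * (2 * cE + 1)) +
    121 * cw e ^ 2 * (2 * (2 * cK e + cV e + 1) + 1) + 1

theorem pol_otS (he : 1 ≤ e) (hg : 1 ≤ g) {ep E' cp cE : ℕ} (hep : ep ≤ cp * (lg N + 1))
    (hE : esize E' ≤ cE * (lg N + 1)) :
    Pol (rws g 4 N) (lg N + 1) 8 20 (cS e cp cE)
      (otS ep (pNs e N (lvl g 4 N)) E' (pQ e N (lvl g 4 N)) (rws g 4 N) (pP e N (lvl g 4 N))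
        (pm e N * pg e N (lvl g 4 N) + pw e N * pg e N (lvl g 4 N) + 1)) := by
  have hK : 1 ≤ rws g 4 N := one_le_rws g 4 N
  have hL : 1 ≤ lg N + 1 := by omega
  set K := rws g 4 N with hKd
  set L := lg N + 1 with hLd
  have z1 := size_KDD he hg N
  have z2 := size_V e N (lvl g 4 N)
  rw [← hKd, ← hLd] at z1
  rw [← hLd] at z2
  have hlin : ∀ {c x : ℕ}, x ≤ c * L → Pol K L 0 1 c x := by
    intro c x h
    unfold Pol
    rw [pow_zero, one_mul, pow_one]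
    exact h
  have p1 : Pol K L 0 1 (2 * cE + 1) (2 * esize E' + 1) := hlin (by
    have : (2 * cE + 1) * L = 2 * (cE * L) + L := by ring
    omega)
  have p2 : Pol K L 6 13 (2 * cP e ^ 6 * (2 * cE + 1))
      (pNs e N (lvl g 4 N) * (2 * esize E' + 1)) :=
    ((pol_pNs he g N).mul p1).mono hK hL le_rfl le_rfl le_rfl le_rfl
  have p3 : Pol K L 6 14 (cp + 2 * cP e ^ 6 * (2 * cE + 1))
      (ep + pNs e N (lvl g 4 N) * (2 * esize E' + 1)) :=
    ((hlin hep).add hK hL p2).mono hK hL (by omega) (by omega) le_rfl le_rfl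
  have p4 : Pol K L 6 14 (2 * (cp + 2 * cP e ^ 6 * (2 * cE + 1)))
      (2 * (ep + pNs e N (lvl g 4 N) * (2 * esize E' + 1))) :=
    ((Pol.const hK hL 2).mul p3).mono hK hL (by omega) (by omega) le_rfl le_rfl
  have p5 : Pol K L 0 1 (2 * (2 * cK e + cV e + 1) + 1)
      (2 * (2 * esize (5 * (K * pP e N (lvl g 4 N) * pP e N (lvl g 4 N))) +
        esize (pm e N * pg e N (lvl g 4 N) + pw e N * pg e N (lvl g 4 N) + 1) + 1) + 1) := hlin (by
    have : (2 * (2 * cK e + cV e + 1) + 1) * L =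
      2 * (2 * (cK e * L) + cV e * L + L) + L := by ring
    omega)
  have p6 : Pol K L 2 5 (121 * cw e ^ 2 * (2 * (2 * cK e + cV e + 1) + 1))
      (pQ e N (lvl g 4 N) *
      (2 * (2 * esize (5 * (K * pP e N (lvl g 4 N) * pP e N (lvl g 4 N))) +
        esize (pm e N * pg e N (lvl g 4 N) + pw e N * pg e N (lvl g 4 N) + 1) + 1) + 1)) :=
    ((pol_pQ he g N).mul p5).mono hK hL (by omega) (by omega) le_rfl le_rfl
  unfold otS cS
  exact ((p4.add hK hL p6).add hK hL (Pol.const hK hL 1)).mono hK hL (by omega) (by omega)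
    le_rfl le_rfl

/-! ### The time hypothesis -/

/-- constant for `T` and `S` and for the modulus of the seeds -/
def cT (e : ℕ) : ℕ := (2 ^ 44 + 0 + 44) + (2 ^ 52 + 0 + 52) +
  (2 ^ 44 * (32768 * e ^ 2) + (0 + 0) + (44 + 1))

theorem otTime_eq (k k1 m N' esp S Q l wg lx ly : ℕ) :
    otTime k k1 m N' esp S Q l wg (lx + ly) = costT k k1 lx ly m N' Q l wg esp S := rfl

/-- **The hypothesis `htime` of `exists_solves`**, in numbers. The rate `c` does not depend on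
the parameter phase. -/
theorem htime_num (he : 1 ≤ e) (k g : ℕ) (hg : 2 * costA k 8 ≤ g) :
    ∃ c : ℝ, 0 < c ∧ c ≤ 1 ∧ ∀ cc k1 : ℕ, ∃ (C0 : ℝ) (n0 : ℕ), 0 ≤ C0 ∧ ∀ N lx ly Y : ℕ,
      n0 ≤ N → lx ≤ N → ly ≤ N → Y ≤ N + 2 →
      ((otTime k k1 (cc * bl (lx + ly)) (pP e N (lvl g 4 N) ^ 2 + pP e N (lvl g 4 N) ^ 6)
        (esize (preF lx ly (prm e N (lvl g 4 N)) (pP e N (lvl g 4 N)) Y (2 ^ (44 * ll N))
          (2 ^ (52 * ll N))))
        (otS (esize (preF lx ly (prm e N (lvl g 4 N)) (pP e N (lvl g 4 N)) Y (2 ^ (44 * ll N))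
          (2 ^ (52 * ll N)))) (pP e N (lvl g 4 N) ^ 2 + pP e N (lvl g 4 N) ^ 6)
          (2 ^ (44 * ll N) * pJ1 e N) (pQ e N (lvl g 4 N)) (pK N (lvl g 4 N))
          (pP e N (lvl g 4 N))
          (pm e N * pg e N (lvl g 4 N) + pw e N * pg e N (lvl g 4 N) + 1))
        (pQ e N (lvl g 4 N)) (pm e N * pg e N (lvl g 4 N)) (pw e N * pg e N (lvl g 4 N))
        (lx + ly) : ℕ) : ℝ) ≤ C0 * bd c N := by
  have hA : 2 ≤ g ∧ 1 ≤ g := by unfold costA at hg; omega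
  obtain ⟨c, hc, hc1, h⟩ := cost_bd_unif he k 8 g hA.1 hg
  refine ⟨c, hc, hc1, fun cc k1 => ?_⟩
  obtain ⟨C0, n0, hC0, h1⟩ := h k1 cc
    (48 * cB e (cT e) + cS e (48 * cB e (cT e)) (cT e)) 20
  refine ⟨C0, n0, hC0, fun N lx ly Y hN hx hy hY => ?_⟩
  have hK : 1 ≤ rws g 4 N := one_le_rws g 4 N
  have hL : 1 ≤ lg N + 1 := by omega
  have t1 : esize (2 ^ (44 * ll N)) ≤ cT e * (lg N + 1) :=
    (size_pol (pol_two_pow_ll 44 N)).trans (Nat.mul_le_mul_right _ (by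
      unfold cT; exact (Nat.le_add_right _ _).trans (Nat.le_add_right _ _)))
  have t2 : esize (2 ^ (52 * ll N)) ≤ cT e * (lg N + 1) :=
    (size_pol (pol_two_pow_ll 52 N)).trans (Nat.mul_le_mul_right _ (by
      unfold cT; exact (Nat.le_add_left _ _).trans (Nat.le_add_right _ _)))
  have t3 : esize (2 ^ (44 * ll N) * pJ1 e N) ≤ cT e * (lg N + 1) :=
    (size_pol ((pol_two_pow_ll 44 N).mul (pol_pJ1 he N))).trans (Nat.mul_le_mul_right _ (by
      unfold cT; exact Nat.le_add_left _ _))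
  have hep := esize_preF (Tn := 2 ^ (44 * ll N)) (Sn := 2 ^ (52 * ll N)) he hA.2 hx hy hY t1 t2
  have hS := pol_otS (g := g) he hA.2 hep t3
  rw [otTime_eq]
  refine h1 N hN lx ly _ _ hx hy ?_ ?_
  · have hep' : Pol (rws g 4 N) (lg N + 1) 0 1 (48 * cB e (cT e))
        (esize (preF lx ly (prm e N (lvl g 4 N)) (pP e N (lvl g 4 N)) Y (2 ^ (44 * ll N))
          (2 ^ (52 * ll N)))) := by
      unfold Pol
      rw [pow_zero, one_mul, pow_one]
      exact hep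
    exact hep'.mono hK hL (by omega) (by omega) (Nat.le_add_right _ _) le_rfl
  · exact hS.mono hK hL le_rfl le_rfl (Nat.le_add_left _ _) le_rfl

end

end Vale.Agent.P315.OT.Num
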