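import Vale.Agent.P315.H817.AdCell

/-!
P315, one-scale track: the cell program in row form. The query `q = (s D + u) D + v` asks for the
edit distance of the row `s` of `x` (length `l`) and the factor of `y` from `u g` to `v g`, all
positions being clipped at the end of the strings.
-/

set_option autoImplicit false

namespace Vale.Agent.P315.OT

open Vale.Agent.P315

/-- Distance of the row `s` of `x` and the factor of `y` between the marks `u` and `v`, clipped
at the ends of the strings (of lengths `nx`, `ny`). -/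
def rowDist (X Y : ℕ → ℕ) (nx ny l g s u v : ℕ) : ℕ :=
  dist X Y (s * l) (min l (nx - s * l)) (min (u * g) ny) (min (v * g) ny - min (u * g) ny)

/-- The answer to the query `q`. -/
def rowAns (X Y : ℕ → ℕ) (nx ny l g D q : ℕ) : List ℕ :=
  [rowDist X Y nx ny l g (q / D / D) (q / D % D) (q % D)]

@[simp] theorem length_rowAns (X Y : ℕ → ℕ) (nx ny l g D q : ℕ) :
    (rowAns X Y nx ny l g D q).length = 1 := rfl

/-- The code of a query. -/
def code (D s u v : ℕ) : ℕ := (s * D + u) * D + v

theorem rowAns_code (X Y : ℕ → ℕ) (nx ny l g : ℕ) {D s u v : ℕ} (hu : u < D) (hv : v < D) :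
    rowAns X Y nx ny l g D (code D s u v) = [rowDist X Y nx ny l g s u v] := by
  have hD : 0 < D := by omega
  have h1 : code D s u v / D = s * D + u := by
    unfold code
    rw [Nat.add_comm, Nat.add_mul_div_right _ _ hD, Nat.div_eq_of_lt hv, Nat.zero_add]
  have h2 : code D s u v % D = v := by
    unfold code
    rw [Nat.add_comm, Nat.add_mul_mod_self_right, Nat.mod_eq_of_lt hv]
  have h3 : (s * D + u) / D = s := by
    rw [Nat.add_comm, Nat.add_mul_div_right _ _ hD, Nat.div_eq_of_lt hu, Nat.zero_add]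
  have h4 : (s * D + u) % D = u := by
    rw [Nat.add_comm, Nat.add_mul_mod_self_right, Nat.mod_eq_of_lt hu]
  unfold rowAns
  rw [h1, h2, h3, h4]

theorem rowDist_le (X Y : ℕ → ℕ) (nx ny l g s u v : ℕ) :
    rowDist X Y nx ny l g s u v ≤ l + (v - u) * g := by
  unfold rowDist
  refine (dist_le X Y _ _ _ _).trans ?_
  have h : min (v * g) ny - min (u * g) ny ≤ (v - u) * g := by
    rw [Nat.sub_mul]; omega
  omega

/-- The cell program: register `z` holds the query; the answer (one number) goes to array `A`, its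
length `1` to register `z + 7`. Registers: `50` length `l` of the rows, `51` unit `g`, `53` the
number `D`; `0` and `1` the lengths of the strings. -/
def rowCell (z A : ℕ) : Prog :=
  .seq (.set 54 (ediv (.reg z) (.reg 53)))
  (.seq (.set 55 (emod (.reg z) (.reg 53)))
  (.seq (.set 56 (emod (.reg 54) (.reg 53)))
  (.seq (.set 54 (ediv (.reg 54) (.reg 53)))
  (.seq (.set 10 (emul (.reg 54) (.reg 50)))
  (.seq (.set 11 (emin (.reg 50) (esub (.reg 0) (.reg 10))))
  (.seq (.set 12 (emin (emul (.reg 56) (.reg 51)) (.reg 1)))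
  (.seq (.set 13 (esub (emin (emul (.reg 55) (.reg 51)) (.reg 1)) (.reg 12)))
  (.seq (.set 14 (eadd (.reg 11) (.reg 13)))
  (.seq dp
  (.seq (.put A (.lit 0) (.get 2 (.reg 13)))
  (.set (z + 7) (.lit 1))))))))))))

/-- Time of the cell program. -/
def rowTime (l w : ℕ) : ℕ := 80 + ((w + 1) * 14 + l * (62 + w * 122))

theorem rowCell_spec {E : Env} {s : State} {X Y : ℕ → ℕ} {z A q l g D nx ny w : ℕ}
    (hz : 58 ≤ z) (hA : 3 ≤ A) (h0 : s.arr 0 = X) (h1 : s.arr 1 = Y) (hq : s.reg z = q)
    (r0 : s.reg 0 = nx) (r1 : s.reg 1 = ny) (h50 : s.reg 50 = l) (h51 : s.reg 51 = g)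
    (h53 : s.reg 53 = D) (hi : q / D / D * l ≤ E.R) (hR : l + w + 1 ≤ E.R)
    (hw : (q % D - q / D % D) * g ≤ w) :
    Spec E s (rowCell z A) (rowTime l w)
      (fun s' => s'.reg (z + 7) = (rowAns X Y nx ny l g D q).length ∧
        ∀ a, a < (rowAns X Y nx ny l g D q).length →
          s'.arr A a = (rowAns X Y nx ny l g D q).getD a 0) := by
  have hA0 : A ≠ 2 := by omega
  have hwly : min (q % D * g) ny - min (q / D % D * g) ny ≤ w := by
    rw [Nat.sub_mul] at hw; omega
  set lx := min l (nx - q / D / D * l) with hlx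
  set py := min (q / D % D * g) ny with hpy
  set ly := min (q % D * g) ny - py with hly
  have hlxl : lx ≤ l := min_le_left _ _
  have hqR : Bdd E s → q ≤ E.R := fun hb => by rw [← hq]; exact hb.reg z
  have hnyR : Bdd E s → ny ≤ E.R := fun hb => by rw [← r1]; exact hb.reg 1
  unfold rowCell rowTime
  refine Spec.set_seq (q / D) rfl (by simp [ediv, Expr.cost]) ?_ (fun hb => ?_) ?_
  · simp [hq, h53]
  · exact (Nat.div_le_self q D).trans (hqR hb)
  refine Spec.set_seq (q % D) rfl (by simp [ediv, emod, Expr.cost]) ?_ (fun hb => ?_) ?_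
  · rw [emod_eval, reg_eval, reg_eval, State.setReg_reg, if_neg (by omega), State.setReg_reg,
      if_neg (by omega), hq, h53]
  · have := hb.reg z
    rw [State.setReg_reg, if_neg (by omega), hq] at this
    exact (Nat.mod_le q D).trans this
  refine Spec.set_seq (q / D % D) rfl (by simp [ediv, emod, Expr.cost]) ?_ (fun hb => ?_) ?_
  · simp [h53]
  · have := hb.reg 54
    simp at this
    exact (Nat.mod_le _ D).trans this
  refine Spec.set_seq (q / D / D) rfl (by simp [ediv, emod, Expr.cost]) ?_ (fun hb => ?_) ?_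
  · simp [h53]
  · have := hb.reg 54
    simp at this
    exact (Nat.div_le_self _ D).trans this
  refine Spec.set_seq (q / D / D * l) rfl (by simp [ediv, emod, emul, Expr.cost]) ?_
    (fun _ => hi) ?_
  · simp [h50]
  refine Spec.set_seq lx rfl (by simp [ediv, emod, emul, emin, esub, Expr.cost]) ?_
    (fun _ => by omega) ?_
  · simp [h50, r0, hlx]
  refine Spec.set_seq py rfl (by simp [ediv, emod, emul, emin, esub, Expr.cost]) ?_
    (fun hb => ?_) ?_
  · simp [h51, r1, hpy]
  · have := hb.reg 1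
    simp [r1] at this
    omega
  refine Spec.set_seq ly rfl (by simp [ediv, emod, emul, emin, esub, Expr.cost]) ?_
    (fun hb => by omega) ?_
  · simp [h51, r1, hly]
  refine Spec.set_seq (lx + ly) rfl (by simp [ediv, emod, emul, emin, esub, eadd, Expr.cost]) ?_
    (fun hb => by omega) ?_
  · simp
  simp only [ediv, emod, emul, emin, esub, eadd, Expr.cost]
  refine Spec.seq 10 ((w + 1) * 14 + l * (62 + w * 122)) 10 0
    (fun s' => ∀ j ≤ ly, s'.arr 2 j = cap X Y (q / D / D * l) py (lx + ly) lx j)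
    (by omega) (by omega) ?_ ?_
  · refine Spec.le (dp_spec (px := q / D / D * l) (lx := lx) (py := py) (ly := ly) (k := lx + ly)
      ?_ ?_ ?_ ?_ ?_ ?_ ?_ (by omega) (by omega)) ?_
    · simpa using h0
    · simpa using h1
    · simp
    · simp
    · simp
    · simp
    · simp
    · have e1 : min ly (2 * (lx + ly) + 1) ≤ w := (min_le_left _ _).trans hwly
      have e2 : lx * (62 + min ly (2 * (lx + ly) + 1) * 122) ≤ l * (62 + w * 122) :=
        Nat.mul_le_mul hlxl (by omega)
      omega
  · intro s1 hfr1 hrow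
    have wr_not : ∀ r, r = 13 → s1.reg r = ly := by
      intro r hr
      subst hr
      rw [hfr1.reg 13 (by decide)]; simp
    have hval : s1.arr 2 (s1.reg 13) = rowDist X Y nx ny l g (q / D / D) (q / D % D) (q % D) := by
      rw [wr_not 13 rfl, hrow ly le_rfl]
      unfold cap rowDist
      rw [← hlx, ← hpy, ← hly]
      have := dist_le X Y (q / D / D * l) lx py ly
      omega
    refine Spec.put_seq 0 (rowDist X Y nx ny l g (q / D / D) (q / D % D) (q % D)) (by omega)
      rfl rfl (by simp [Expr.cost]) rfl ?_ (fun hb => ?_) ?_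
    · simpa using hval
    · rw [← hval]; exact hb.arr 2 le_rfl _
    refine Spec.set 1 rfl (by simp [Expr.cost]) rfl (fun _ => by have := E.hR; omega)
      fun _ => ?_
    refine ⟨by simp, fun a ha => ?_⟩
    rw [length_rowAns] at ha
    have : a = 0 := by omega
    subst this
    simp [rowAns]

theorem rowCell_wr {z A : ℕ} : ∀ r ∈ (rowCell z A).wr, (10 ≤ r ∧ r ≤ 20) ∨ r = 39 ∨
    (54 ≤ r ∧ r ≤ 56) ∨ r = z + 7 := by
  intro r hr
  simp [rowCell, dp, Prog.wr, dpRow, dpCell] at hr
  omega

theorem rowCell_wa {z A : ℕ} : ∀ r ∈ (rowCell z A).wa, r = 2 ∨ r = A := by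
  intro r hr
  simp [rowCell, dp, Prog.wa, dpRow, dpCell] at hr
  omega

/-- The cell program in the form wanted by the oracle loop. -/
theorem rowCell_oracle {E : Env} {X Y : ℕ → ℕ} {z A l g D nx ny w : ℕ} (hz : 58 ≤ z)
    (hA : 3 ≤ A) (hR : l + w + 1 ≤ E.R) (Inv : State → Prop)
    (hI : ∀ s, Inv s → s.arr 0 = X ∧ s.arr 1 = Y ∧ s.reg 0 = nx ∧ s.reg 1 = ny ∧
      s.reg 50 = l ∧ s.reg 51 = g ∧ s.reg 53 = D)
    (hF : ∀ s s' : State, Inv s → (∀ r, ¬ (10 ≤ r ∧ r ≤ 20) → r ≠ 39 →
      ¬ (54 ≤ r ∧ r ≤ 56) → r ≠ z + 7 → s'.reg r = s.reg r) →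
      (∀ j, j ≠ 2 → j ≠ A → s'.arr j = s.arr j) → Inv s')
    (s : State) (q : ℕ) (hs : Inv s) (hq : s.reg z = q) (hi : q / D / D * l ≤ E.R)
    (hw : (q % D - q / D % D) * g ≤ w) :
    Spec E s (rowCell z A) (rowTime l w)
      (fun s' => Inv s' ∧ s'.reg (z + 7) = (rowAns X Y nx ny l g D q).length ∧
        ∀ a, a < (rowAns X Y nx ny l g D q).length →
          s'.arr A a = (rowAns X Y nx ny l g D q).getD a 0) := by
  obtain ⟨h0, h1, r0, r1, h50, h51, h53⟩ := hI s hs
  refine Spec.mono (rowCell_spec hz hA h0 h1 hq r0 r1 h50 h51 h53 hi hR hw).withFrame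
    le_rfl ?_
  rintro s' ⟨hf, h⟩
  refine ⟨hF s s' hs (fun r r1 r2 r3 r4 => hf.reg r fun hr => ?_) (fun j j1 j2 => hf.arr j
    fun hj => ?_), h⟩
  · rcases rowCell_wr r hr with h | h | h | h
    · exact r1 h
    · exact r2 h
    · exact r3 h
    · exact r4 h
  · rcases rowCell_wa j hj with h | h
    · exact j1 h
    · exact j2 h

end Vale.Agent.P315.OT
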