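import Vale.Agent.P315.OT.NumTime
import Vale.Agent.P315.H140.Big
import Vale.Agent.P315.OT.CellRow

/-!
P315, one-scale track, OT-9: the literal cost of the program of `OT/Ram.lean` in terms of the
parameters of `OT/Num.lean`.
-/

set_option autoImplicit false

namespace Vale.Agent.P315.OT.Num

open Vale.Agent.P315.H738
open Vale.Agent.P315.H140 (bl)

/-! ### Polynomials in `K` and `L` -/

/-- `x ≤ C K ^ a L ^ r`. -/
def Pol (K L a r C x : ℕ) : Prop := x ≤ C * (K ^ a * L ^ r)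

namespace Pol

variable {K L a r C x a' r' C' x' : ℕ}

theorem mono (hK : 1 ≤ K) (hL : 1 ≤ L) (h : Pol K L a r C x) (ha : a ≤ a') (hr : r ≤ r')
    (hC : C ≤ C') (hx : x' ≤ x) : Pol K L a' r' C' x' :=
  hx.trans (h.trans (Nat.mul_le_mul hC
    (Nat.mul_le_mul (Nat.pow_le_pow_right hK ha) (Nat.pow_le_pow_right hL hr))))

theorem const (_ : 1 ≤ K) (_ : 1 ≤ L) (x : ℕ) : Pol K L 0 0 x x := by
  unfold Pol; simp

theorem add (hK : 1 ≤ K) (hL : 1 ≤ L) (h : Pol K L a r C x) (h' : Pol K L a' r' C' x') :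
    Pol K L (a + a') (r + r') (C + C') (x + x') := by
  have h1 := h.mono hK hL (Nat.le_add_right a a') (Nat.le_add_right r r') le_rfl le_rfl
  have h2 := h'.mono hK hL (Nat.le_add_left a' a) (Nat.le_add_left r' r) le_rfl le_rfl
  unfold Pol at *
  rw [add_mul]
  exact Nat.add_le_add h1 h2

theorem mul (h : Pol K L a r C x) (h' : Pol K L a' r' C' x') :
    Pol K L (a + a') (r + r') (C * C') (x * x') := by
  unfold Pol at *
  calc x * x' ≤ C * (K ^ a * L ^ r) * (C' * (K ^ a' * L ^ r')) := Nat.mul_le_mul h h'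
    _ = _ := by rw [pow_add, pow_add]; ring

theorem pow (h : Pol K L a r C x) (k : ℕ) : Pol K L (k * a) (k * r) (C ^ k) (x ^ k) := by
  unfold Pol at *
  calc x ^ k ≤ (C * (K ^ a * L ^ r)) ^ k := Nat.pow_le_pow_left h k
    _ = _ := by rw [mul_pow, mul_pow, ← pow_mul, ← pow_mul, mul_comm a k, mul_comm r k]

end Pol

/-! ### The parameters -/

section

variable {e g N : ℕ}

theorem bl_le {N lx ly : ℕ} (hx : lx ≤ N) (hy : ly ≤ N) : bl (lx + ly) ≤ lg N + 2 := by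
  unfold bl
  apply Nat.clog_le_of_le_pow
  have h := lt_two_pow_lg N
  have e1 : 2 ^ (lg N + 2) = 2 * 2 ^ (lg N + 1) := by rw [pow_succ 2 (lg N + 1)]; ring
  rw [e1]
  omega

/-- number of seeds -/
def pNs (e N n : ℕ) : ℕ := pP e N n ^ 2 + pP e N n ^ 6

theorem pol_pP (he : 1 ≤ e) (g N : ℕ) :
    Pol (rws g 4 N) (lg N + 1) 1 2 (cP e) (pP e N (lvl g 4 N)) := by
  have h := pP_le (N := N) he (lvl_le g 4 N)
  unfold Pol
  rw [pow_one]
  exact h

theorem pol_pNs (he : 1 ≤ e) (g N : ℕ) :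
    Pol (rws g 4 N) (lg N + 1) 6 12 (2 * cP e ^ 6) (pNs e N (lvl g 4 N)) := by
  have h := (pol_pP he g N).pow 6
  have h1 : pNs e N (lvl g 4 N) ≤ 2 * pP e N (lvl g 4 N) ^ 6 := by
    have h2 : 1 ≤ pP e N (lvl g 4 N) := by unfold pP; omega
    have h3 : pP e N (lvl g 4 N) ^ 2 ≤ pP e N (lvl g 4 N) ^ 6 :=
      Nat.pow_le_pow_right h2 (by norm_num)
    unfold pNs
    omega
  unfold Pol at *
  calc pNs e N (lvl g 4 N) ≤ 2 * pP e N (lvl g 4 N) ^ 6 := h1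
    _ ≤ 2 * (cP e ^ 6 * (rws g 4 N ^ (6 * 1) * (lg N + 1) ^ (6 * 2))) := Nat.mul_le_mul_left _ h
    _ = _ := by ring

theorem pol_pQ (he : 1 ≤ e) (g N : ℕ) :
    Pol (rws g 4 N) (lg N + 1) 2 4 (121 * cw e ^ 2) (pQ e N (lvl g 4 N)) := pQ_le he

/-! ### The cost -/

/-- The exponent of `K` in the overheads, `k` = the exponent of the strategy, `aS` = the exponent
in the size of the states. -/
def costA (k aS : ℕ) : ℕ := 8 + k * (6 + 2 * aS)

/-- The quantity `X` of `OT/Ram.lean`. -/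
def costX (k Ns m ep S : ℕ) : ℕ := (Ns * (2 * m + 1) + ep + S + 2 * m + 10) ^ k

/-- The time of `OT/Ram.lean`. -/
def costT (k k1 lx ly m Ns Q l w ep S : ℕ) : ℕ :=
  16 * (lx + ly + 2) + (4 * m + 10) ^ k1 + Ns * (41 * m + 29) +
    Q * (rowTime l w + 2 * costX k Ns m ep S) + costX k Ns m ep S

theorem rowTime_le (l w : ℕ) : rowTime l w ≤ 122 * ((l + 1) * (w + 1)) := by
  unfold rowTime
  nlinarith [Nat.zero_le (l * w)]

/-- the constants of `X` -/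
def cX (e k c1 CS : ℕ) : ℕ :=
  (2 * cP e ^ 6 * (4 * c1 + 1) + CS + CS + 4 * c1 + 10) ^ k

theorem pol_m {N lx ly c1 : ℕ} (hx : lx ≤ N) (hy : ly ≤ N) (K : ℕ) :
    Pol K (lg N + 1) 0 1 (2 * c1) (c1 * bl (lx + ly)) := by
  unfold Pol
  have h := bl_le hx hy
  rw [pow_zero, pow_one, one_mul]
  calc c1 * bl (lx + ly) ≤ c1 * (2 * (lg N + 1)) := Nat.mul_le_mul_left _ (by omega)
    _ = _ := by ring

theorem pol_X (he : 1 ≤ e) {k aS c1 CS rS g N lx ly ep S : ℕ} (hx : lx ≤ N) (hy : ly ≤ N)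
    (hep : ep ≤ CS * (rws g 4 N ^ aS * (lg N + 1) ^ rS))
    (hS : S ≤ CS * (rws g 4 N ^ aS * (lg N + 1) ^ rS)) :
    Pol (rws g 4 N) (lg N + 1) (k * (6 + 2 * aS)) (k * (14 + 2 * rS)) (cX e k c1 CS)
      (costX k (pNs e N (lvl g 4 N)) (c1 * bl (lx + ly)) ep S) := by
  have hK : 1 ≤ rws g 4 N := one_le_rws g 4 N
  have hL : 1 ≤ lg N + 1 := by omega
  have hm := pol_m (c1 := c1) hx hy (rws g 4 N)
  have h2m : Pol (rws g 4 N) (lg N + 1) 0 1 (4 * c1) (2 * (c1 * bl (lx + ly))) := by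
    unfold Pol at *
    calc 2 * (c1 * bl (lx + ly)) ≤ 2 * (2 * c1 * (rws g 4 N ^ 0 * (lg N + 1) ^ 1)) :=
          Nat.mul_le_mul_left _ hm
      _ = _ := by ring
  have h1 := (pol_pNs he g N).mul (h2m.add hK hL (Pol.const hK hL 1))
  have h2 := (((h1.add hK hL hep).add hK hL hS).add hK hL h2m).add hK hL (Pol.const hK hL 10)
  have h3 := (h2.pow k)
  refine h3.mono hK hL (le_of_eq ?_) (le_of_eq ?_) (le_of_eq ?_) le_rfl
  · ring
  · ring
  · unfold cX; rfl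

/-- **The literal cost.** -/
theorem cost_le (he : 1 ≤ e) (k aS g k1 c1 CS rS : ℕ) : ∃ C₀ r : ℕ, ∀ N lx ly ep S : ℕ,
    lx ≤ N → ly ≤ N → ep ≤ CS * (rws g 4 N ^ aS * (lg N + 1) ^ rS) →
    S ≤ CS * (rws g 4 N ^ aS * (lg N + 1) ^ rS) →
    costT k k1 lx ly (c1 * bl (lx + ly)) (pNs e N (lvl g 4 N)) (pQ e N (lvl g 4 N))
      (pm e N * pg e N (lvl g 4 N)) (pw e N * pg e N (lvl g 4 N)) ep S ≤
      C₀ * (pQ e N (lvl g 4 N) * cellT e N (lvl g 4 N)) + C₀ * (N + 16) +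
        C₀ * (rws g 4 N ^ costA k aS * (lg N + 1) ^ r) := by
  -- constants
  set CX := cX e k c1 CS with hCX
  set c2 := (8 * c1 + 10) ^ k1 with hc2
  set c3 := 2 * cP e ^ 6 * (82 * c1 + 29) with hc3
  set c4 := 121 * cw e ^ 2 * (2 * CX) with hc4
  refine ⟨122 + 32 + (c2 + c3 + c4 + CX), k1 + (13 + (k * (14 + 2 * rS) + 4)),
    fun N lx ly ep S hx hy hep hS => ?_⟩
  have hK : 1 ≤ rws g 4 N := one_le_rws g 4 N
  have hL : 1 ≤ lg N + 1 := by omega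
  set n := lvl g 4 N with hn
  set K := rws g 4 N with hKd
  set L := lg N + 1 with hLd
  set r := k1 + (13 + (k * (14 + 2 * rS) + 4)) with hr
  set A := costA k aS with hA
  have hm : c1 * bl (lx + ly) ≤ 2 * c1 * L := by
    have h := pol_m (c1 := c1) hx hy 1
    unfold Pol at h
    simpa using h
  set m := c1 * bl (lx + ly) with hmd
  have hX : Pol K L (k * (6 + 2 * aS)) (k * (14 + 2 * rS)) CX
    (costX k (pNs e N n) m ep S) := pol_X he hx hy hep hS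
  set X := costX k (pNs e N n) m ep S with hXd
  -- the parts
  have q2 : (4 * m + 10) ^ k1 ≤ c2 * (K ^ A * L ^ r) := by
    have h1 : 4 * m + 10 ≤ (8 * c1 + 10) * L := by
      have : 10 ≤ 10 * L := by omega
      have e1 : (8 * c1 + 10) * L = 4 * (2 * c1 * L) + 10 * L := by ring
      omega
    calc (4 * m + 10) ^ k1 ≤ ((8 * c1 + 10) * L) ^ k1 := Nat.pow_le_pow_left h1 _
      _ = c2 * (1 * L ^ k1) := by rw [mul_pow, one_mul]
      _ ≤ c2 * (K ^ A * L ^ r) := Nat.mul_le_mul_left _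
          (Nat.mul_le_mul (Nat.one_le_pow _ _ hK) (Nat.pow_le_pow_right hL (by omega)))
  have q3 : pNs e N n * (41 * m + 29) ≤ c3 * (K ^ A * L ^ r) := by
    have h1 := pol_pNs he g N
    have h2 : 41 * m + 29 ≤ (82 * c1 + 29) * L := by
      have : 29 ≤ 29 * L := by omega
      have e1 : (82 * c1 + 29) * L = 41 * (2 * c1 * L) + 29 * L := by ring
      omega
    calc pNs e N n * (41 * m + 29) ≤ 2 * cP e ^ 6 * (K ^ 6 * L ^ 12) * ((82 * c1 + 29) * L) :=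
          Nat.mul_le_mul h1 h2
      _ = c3 * (K ^ 6 * L ^ 13) := by ring
      _ ≤ c3 * (K ^ A * L ^ r) := Nat.mul_le_mul_left _
          (Nat.mul_le_mul (Nat.pow_le_pow_right hK (by rw [hA]; unfold costA; omega))
            (Nat.pow_le_pow_right hL (by omega)))
  have q5 : X ≤ CX * (K ^ A * L ^ r) :=
    hX.mono hK hL (by rw [hA]; unfold costA; omega) (by omega) le_rfl le_rfl
  have q4 : pQ e N n * (2 * X) ≤ c4 * (K ^ A * L ^ r) := by
    have h1 := (pol_pQ he g N).mul hX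
    unfold Pol at h1
    calc pQ e N n * (2 * X) = 2 * (pQ e N n * X) := by ring
      _ ≤ 2 * (121 * cw e ^ 2 * CX * (K ^ (2 + k * (6 + 2 * aS)) *
          L ^ (4 + k * (14 + 2 * rS)))) := Nat.mul_le_mul_left _ h1
      _ = c4 * (K ^ (2 + k * (6 + 2 * aS)) * L ^ (4 + k * (14 + 2 * rS))) := by
          rw [hc4]; ring
      _ ≤ c4 * (K ^ A * L ^ r) := Nat.mul_le_mul_left _
          (Nat.mul_le_mul (Nat.pow_le_pow_right hK (by rw [hA]; unfold costA; omega))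
            (Nat.pow_le_pow_right hL (by omega)))
  have q6 : pQ e N n * rowTime (pm e N * pg e N n) (pw e N * pg e N n) ≤
      122 * (pQ e N n * cellT e N n) := by
    calc pQ e N n * rowTime (pm e N * pg e N n) (pw e N * pg e N n)
        ≤ pQ e N n * (122 * ((pm e N * pg e N n + 1) * (pw e N * pg e N n + 1))) :=
          Nat.mul_le_mul_left _ (rowTime_le _ _)
      _ = _ := by unfold cellT; ring
  have q1 : 16 * (lx + ly + 2) ≤ 32 * (N + 16) := by omega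
  unfold costT
  rw [Nat.mul_add (pQ e N n), ← hXd]
  set Z := K ^ A * L ^ r with hZ
  set V := pQ e N n * cellT e N n with hV
  have e1 : (122 + 32 + (c2 + c3 + c4 + CX)) * V + (122 + 32 + (c2 + c3 + c4 + CX)) * (N + 16) +
      (122 + 32 + (c2 + c3 + c4 + CX)) * Z = 122 * V + 32 * (N + 16) +
        (c2 * Z + c3 * Z + c4 * Z + CX * Z) + ((32 + (c2 + c3 + c4 + CX)) * V +
        (122 + (c2 + c3 + c4 + CX)) * (N + 16) + (122 + 32) * Z) := by ring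
  rw [e1]
  omega

/-- **The time of the program is at most `C N ^ 2 / exp (c log N / (log log N) ^ 3)`.** -/
theorem cost_bd (he : 1 ≤ e) (k aS g k1 c1 CS rS : ℕ) (hg2 : 2 ≤ g) (hg : 2 * costA k aS ≤ g) :
    ∃ c : ℝ, 0 < c ∧ c ≤ 1 ∧ ∃ (C : ℝ) (N0 : ℕ), 0 ≤ C ∧ ∀ N : ℕ, N0 ≤ N → ∀ lx ly ep S : ℕ,
    lx ≤ N → ly ≤ N → ep ≤ CS * (rws g 4 N ^ aS * (lg N + 1) ^ rS) →
    S ≤ CS * (rws g 4 N ^ aS * (lg N + 1) ^ rS) →
    ((costT k k1 lx ly (c1 * bl (lx + ly)) (pNs e N (lvl g 4 N)) (pQ e N (lvl g 4 N))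
      (pm e N * pg e N (lvl g 4 N)) (pw e N * pg e N (lvl g 4 N)) ep S : ℕ) : ℝ) ≤
      C * bd c N := by
  obtain ⟨C₀, r, h1⟩ := cost_le he k aS g k1 c1 CS rS
  obtain ⟨c, hc, hc1, C, N0, hC, h2⟩ := time_num e g (costA k aS) r C₀ he hg2 hg
  refine ⟨c, hc, hc1, C, N0, hC, fun N hN lx ly ep S hx hy hep hS => ?_⟩
  have h3 := Nat.cast_le (α := ℝ).2 (h1 N lx ly ep S hx hy hep hS)
  refine h3.trans (le_trans (le_of_eq ?_) (h2 N hN))
  push_cast
  ring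

/-! ### The sizes -/

/-- A quantity polynomial in `K` and `L`, with a fixed exponent of `K`, is at most `N + 2`. -/
theorem pol_ev (a r C g : ℕ) (hg : 2 * a ≤ g) :
    ∃ N0, ∀ N, N0 ≤ N → ∀ x, Pol (rws g 4 N) (lg N + 1) a r C x → x ≤ N + 2 := by
  obtain ⟨N0, h⟩ := ev_over a r C g hg
  refine ⟨N0, fun N hN x hx => hx.trans (le_trans (le_of_eq ?_) (h N hN))⟩
  ring

/-- **All overhead quantities are at most `N + 2`**: `X`, the seeds, the rounds, the bits. -/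
theorem sizes_ev (he : 1 ≤ e) (k aS g k1 c1 CS rS : ℕ) (hg : 2 * costA k aS ≤ g) :
    ∃ N0 : ℕ, ∀ N : ℕ, N0 ≤ N → ∀ lx ly ep S : ℕ,
    lx ≤ N → ly ≤ N → ep ≤ CS * (rws g 4 N ^ aS * (lg N + 1) ^ rS) →
    S ≤ CS * (rws g 4 N ^ aS * (lg N + 1) ^ rS) →
    costX k (pNs e N (lvl g 4 N)) (c1 * bl (lx + ly)) ep S ≤ N + 2 ∧
    (4 * (c1 * bl (lx + ly)) + 10) ^ k1 ≤ N + 2 ∧
    pNs e N (lvl g 4 N) ≤ N + 2 ∧ pQ e N (lvl g 4 N) ≤ N + 2 ∧ pP e N (lvl g 4 N) ≤ N + 2 ∧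
    rws g 4 N * pP e N (lvl g 4 N) * pP e N (lvl g 4 N) ≤ N + 2 := by
  have hA : costA k aS = 8 + k * (6 + 2 * aS) := rfl
  obtain ⟨N1, h1⟩ := pol_ev (k * (6 + 2 * aS)) (k * (14 + 2 * rS)) (cX e k c1 CS) g (by omega)
  obtain ⟨N2, h2⟩ := pol_ev 0 k1 ((8 * c1 + 10) ^ k1) g (by omega)
  obtain ⟨N3, h3⟩ := pol_ev 6 12 (2 * cP e ^ 6) g (by omega)
  obtain ⟨N4, h4⟩ := pol_ev 2 4 (121 * cw e ^ 2) g (by omega)
  obtain ⟨N5, h5⟩ := pol_ev 1 2 (cP e) g (by omega)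
  obtain ⟨N6, h6⟩ := pol_ev (1 + 1 + 1) (0 + 2 + 2) (1 * cP e * cP e) g (by omega)
  refine ⟨max N1 (max N2 (max N3 (max N4 (max N5 N6)))), fun N hN lx ly ep S hx hy hep hS => ?_⟩
  refine ⟨h1 N (by omega) _ (pol_X he hx hy hep hS), h2 N (by omega) _ ?_,
    h3 N (by omega) _ (pol_pNs he g N), h4 N (by omega) _ (pol_pQ he g N),
    h5 N (by omega) _ (pol_pP he g N), h6 N (by omega) _ ?_⟩
  · have hm := pol_m (c1 := c1) hx hy (rws g 4 N)
    unfold Pol at hm ⊢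
    have h7 : 4 * (c1 * bl (lx + ly)) + 10 ≤ (8 * c1 + 10) * (lg N + 1) := by
      have e1 : (8 * c1 + 10) * (lg N + 1) =
        4 * (2 * c1 * (rws g 4 N ^ 0 * (lg N + 1) ^ 1)) + 10 * (lg N + 1) := by ring
      omega
    calc (4 * (c1 * bl (lx + ly)) + 10) ^ k1 ≤ ((8 * c1 + 10) * (lg N + 1)) ^ k1 :=
          Nat.pow_le_pow_left h7 _
      _ = _ := by rw [mul_pow]; ring
  · have hK : Pol (rws g 4 N) (lg N + 1) 1 0 1 (rws g 4 N) := by unfold Pol; simp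
    exact (hK.mul (pol_pP he g N)).mul (pol_pP he g N)

end

end Vale.Agent.P315.OT.Num
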