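import Vale.Agent.P315.OT.Setup
import Vale.Agent.P315.H731.Tape

/-!
P315, one-scale track, OT-10 part 1: from the two averages (value, number of reads) to two thirds of
the seeds, for an output which is never too small and which is the certified cost of the root
whenever the number of leaves of the read set is at most the number of rounds.
-/

set_option autoImplicit false

namespace Vale.Agent.P315.OT

open Finset Vale.Agent.P315.H731

/-- Markov for two nonnegative quantities at once. -/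
theorem two_thirds_two {Ω : Type*} [Fintype Ω] (V R : Ω → ℝ) (hV : ∀ c, 0 ≤ V c)
    (hR : ∀ c, 0 ≤ R c) {a r : ℝ} (ha : 0 < a) (hr : 0 < r) (h1 : 6 * av V ≤ a)
    (h2 : 6 * av R ≤ r) (P : Ω → Prop) (hP : ∀ c, V c ≤ a → R c ≤ r → P c) :
    2 * Nat.card Ω ≤ 3 * Nat.card {c : Ω // P c} := by
  have hav : av (fun c => V c / a + R c / r) = av V / a + av R / r := by
    unfold av
    rw [sum_add_distrib, ← sum_div, ← sum_div]
    ring
  have hpos : ∀ c, 0 ≤ V c / a + R c / r := fun c =>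
    add_nonneg (div_nonneg (hV c) ha.le) (div_nonneg (hR c) hr.le)
  refine two_thirds_of_av (fun c => V c / a + R c / r) hpos one_pos ?_ P ?_
  · rw [hav]
    have e1 : av V / a ≤ 1 / 6 := by rw [div_le_iff₀ ha]; linarith
    have e2 : av R / r ≤ 1 / 6 := by rw [div_le_iff₀ hr]; linarith
    linarith
  · intro c h
    have h5 : 0 ≤ V c / a := div_nonneg (hV c) ha.le
    have h6 : 0 ≤ R c / r := div_nonneg (hR c) hr.le
    apply hP c
    · have : V c / a ≤ 1 := by linarith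
      rwa [div_le_one ha] at this
    · have : R c / r ≤ 1 := by linarith
      rwa [div_le_one hr] at this

theorem av_sub_const {Ω : Type*} [Fintype Ω] [Nonempty Ω] (f : Ω → ℝ) (d : ℝ) :
    av (fun c => f c - d) = av f - d := by
  unfold av
  have hc : (0 : ℝ) < (Fintype.card Ω : ℝ) := by exact_mod_cast Fintype.card_pos
  rw [sum_sub_distrib, sum_const, card_univ, nsmul_eq_mul]
  field_simp

/-- The right side of `StmtValue`. -/
noncomputable def valErr (Q : Prm) (Lg e3 : ℝ) : ℝ :=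
  4 * ((Q.J * Q.n : ℝ) / 2 - Q.N + Q.J * Real.sqrt Q.n + 2)
    + Q.n * (1 / Q.A * (Lg + (Q.Rd + 1) * e3 + 1))
    + Q.n * (4 * Q.A * (1 / (Q.M : ℝ) + 1 / (Q.J + 1))) + 1

/-- The right side of `StmtArea`. -/
noncomputable def areaBd (Q : Prm) (lam : ℝ) : ℝ :=
  (2 * Q.w + 1) * (Q.w + 1) * (Q.M : ℝ) ^ (2 * Q.n) *
    Real.exp (lam * Q.N + Q.n * (-(lam * Q.J / 2) + lam ^ 2 * Q.J ^ 2 / 8 +
      (Q.N + 1) * (Q.w + 1) * (2 * Q.w + 1) / Q.M * Real.exp lam))

/-- **The probabilistic end of the one-scale track.** `Out ω` is the output for the seed `ω`,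
`q` the number of rounds. -/
theorem good_seeds (hVal : StmtValue) (hArea : StmtArea) {Q : Prm} {Cd : Code} {P : Picker}
    {hid vis : ℕ → ℕ → ℕ → ℕ} {Y R E Pb : ℕ} {Lg e3 : ℝ}
    (hs : Std Q Cd P hid vis Y R E Pb Lg e3) (h2N : 2 * Q.N ≤ Q.J * Q.n)
    {lam : ℝ} (hlam : 0 ≤ lam) (Out : Seed R E → ℕ) (q ed : ℕ) (a b : ℝ) (ha : 0 < a)
    (hed : ∀ ω, ed ≤ Out ω)
    (hout : ∀ ω, ((Q.inst hid vis).S (Q.sch Cd P (sd ω)) Q.n 0 0 Y Q.N).card ≤ q →
      Out ω ≤ (Q.inst hid vis).c (Q.sch Cd P (sd ω)) Q.n 0 0 Y Q.N)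
    (hD : ((Q.inst hid vis).D hid Q.n 0 0 Y : ℝ) ≤ ed + b)
    (hc : ∀ ω : Seed R E, (Q.inst hid vis).D hid Q.n 0 0 Y ≤
      (Q.inst hid vis).c (Q.sch Cd P (sd ω)) Q.n 0 0 Y Q.N)
    (hval : 6 * (valErr Q Lg e3 * Q.len Q.n) ≤ a * Q.n)
    (hq : 0 < q) (harea : 6 * areaBd Q lam ≤ q) :
    2 * Nat.card (Seed R E) ≤
      3 * Nat.card {ω : Seed R E // ed ≤ Out ω ∧ (Out ω : ℝ) ≤ ed + (a + b)} := by
  have : Nonempty (Fin E) := ⟨⟨0, hs.hE⟩⟩
  have : Nonempty (Seed R E) := inferInstance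
  set D : ℕ := (Q.inst hid vis).D hid Q.n 0 0 Y with hDdef
  set c : Seed R E → ℕ := fun ω => (Q.inst hid vis).c (Q.sch Cd P (sd ω)) Q.n 0 0 Y Q.N with hcdef
  set S : Seed R E → ℕ :=
    fun ω => ((Q.inst hid vis).S (Q.sch Cd P (sd ω)) Q.n 0 0 Y Q.N).card with hSdef
  have hlen : 0 < (Q.len Q.n : ℝ) := by
    have h1 := hs.hQ.M_two
    have h2 := hs.hQ.m_pos
    have h3 := hs.hQ.g0_pos
    have : 0 < Q.len Q.n := by
      unfold Prm.len Prm.l0
      exact Nat.mul_pos (Nat.pow_pos (by omega)) (Nat.mul_pos h2 h3)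
    exact_mod_cast this
  have hn : 0 < (Q.n : ℝ) := by exact_mod_cast hs.hQ.n_pos
  have h1 : (Q.n : ℝ) * (av (fun ω => (c ω : ℝ)) - D) / Q.len Q.n ≤ valErr Q Lg e3 :=
    hVal Q Cd P hid vis Y R E Pb Lg e3 hs h2N
  have h1' : 6 * av (fun ω => (c ω : ℝ) - D) ≤ a := by
    rw [av_sub_const]
    rw [div_le_iff₀ hlen] at h1
    have h3 : (Q.n : ℝ) * (6 * (av (fun ω => (c ω : ℝ)) - D)) ≤ Q.n * a := by linarith
    exact le_of_mul_le_mul_left h3 hn
  have h2 : av (fun ω => (S ω : ℝ)) ≤ areaBd Q lam :=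
    hArea Q Cd P hid vis Y R E Pb Lg e3 hs lam hlam
  refine two_thirds_two (fun ω => (c ω : ℝ) - D) (fun ω => (S ω : ℝ)) (fun ω => ?_)
    (fun ω => Nat.cast_nonneg _) ha (r := q) (by exact_mod_cast hq) h1' (by linarith) _ ?_
  · have : (D : ℝ) ≤ c ω := by exact_mod_cast hc ω
    linarith
  · intro ω hv hr
    have hr' : S ω ≤ q := by exact_mod_cast hr
    refine ⟨hed ω, ?_⟩
    have h4 : (Out ω : ℝ) ≤ c ω := by exact_mod_cast hout ω hr'
    linarith

end Vale.Agent.P315.OT
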