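import Vale.Agent.P315.OT.Alg

/-!
Locality of the certified costs: the costs of level `j` only see the jitters of the levels below
`j` and the lanes of the levels up to `j`.
-/

set_option autoImplicit false

namespace Vale.Agent.P315.OT

open Finset

variable {I : Inst} {X X' : Sched}

/-- The two schedules have the same jitters below level `j` and the same lanes up to level `j`. -/
structure Sched.Agree (X X' : Sched) (j : ℕ) : Prop where
  Λ : X.Λ = X'.Λ
  xi : ∀ j' < j, ∀ s, X.xi j' s = X'.xi j' s
  lane : ∀ j' ≤ j, ∀ q s u v b f, X.lane q j' s u v b f = X'.lane q j' s u v b f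

theorem Sched.Agree.mono {j j' : ℕ} (h : X.Agree X' j) (hj : j' ≤ j) : X.Agree X' j' :=
  ⟨h.Λ, fun k hk s => h.xi k (by omega) s, fun k hk q s u v b f => h.lane k (by omega) q s u v b f⟩

theorem Sched.Agree.symm {j : ℕ} (h : X.Agree X' j) : X'.Agree X j :=
  ⟨h.Λ.symm, fun k hk s => (h.xi k hk s).symm, fun k hk q s u v b f => (h.lane k hk q s u v b f).symm⟩

/-- **Locality of the certified costs.** -/
theorem Inst.c_congr : ∀ {j : ℕ}, X.Agree X' j → I.c X j = I.c X' j := by
  intro j
  induction j with
  | zero => intro _; rfl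
  | succ j ih =>
    intro h
    have hc := ih (h.mono (Nat.le_succ j))
    have hed : ∀ s, I.ed X j s (I.c X j) = I.ed X' j s (I.c X' j) := by
      intro s
      funext k i u v
      unfold Inst.ed
      rw [hc, h.xi j (Nat.lt_succ_self j)]
    funext s u v b
    rw [Inst.c, Inst.c, hed, h.Λ]
    simp only [h.lane (j + 1) le_rfl]

/-- Locality of the edge costs of the region `(j + 1, s)`: they do not see the lanes of level
`j + 1`. -/
theorem Inst.e_congr {j : ℕ} (h : X.Agree X' j) (hxi : ∀ s, X.xi j s = X'.xi j s) :
    I.e X j = I.e X' j := by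
  funext s k i u v
  rw [Inst.e_def, Inst.e_def, Inst.c_congr h, hxi]

/-- Only the jitters of the children of `s` matter for the edge costs of the region
`(j + 1, s)`. -/
theorem Inst.e_congr_slab {j s : ℕ} (h : X.Agree X' j)
    (hxi : ∀ i, X.xi j (s * I.M + i) = X'.xi j (s * I.M + i)) :
    I.e X j s = I.e X' j s := by
  funext k i u v
  rw [Inst.e_def, Inst.e_def, Inst.c_congr h, hxi]

/-- Locality of the lanes of level `j + 1`. -/
theorem Inst.L_congr {j : ℕ} (h : X.Agree X' (j + 1)) : ∀ q s u v b, I.L X q j s u v b =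
    I.L X' q j s u v b := by
  intro q s u v b
  unfold Inst.L
  have hc : I.c X j = I.c X' j := Inst.c_congr (h.mono (Nat.le_succ j))
  have hed : I.ed X j s (I.c X j) = I.ed X' j s (I.c X' j) := by
    funext k i u v
    unfold Inst.ed
    rw [hc, h.xi j (Nat.lt_succ_self j)]
  rw [hed, h.lane (j + 1) le_rfl]

end Vale.Agent.P315.OT
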