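import Vale.Agent.P315.OT.Alg
import Vale.Agent.P315.H763.Bridge
import Vale.Agent.P315.H782.GreedyMD

/-!
P315, one-scale track, block OT-4: the lane machine. A lane is a uniformly chosen path of the
greedy list solver `picks` (helper763) on the table of the cumulated edge costs since the start
round `q`; its regret is `H782.md_harm`.
-/

set_option autoImplicit false

namespace Vale.Agent.P315.OT

open Finset Vale.Agent.P315.H763

/-! ### The tables -/

/-- Cumulated linear term in round `b` of the machine started in round `q`; `f k` = cost of the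
edge in round `k`. -/
def linX (cap q b : ℕ) (f : ℕ → ℕ) : ℕ :=
  2 * ∑ k ∈ range (b + 1 - q), f (q + k) - ∑ k ∈ range (b - q), min (f (q + k) - f (q + k + 1)) cap

/-- Entry of the edge `(i, a, a')` of the table (positions relative to `o`). -/
def linE (S cap q b o : ℕ) (f : ℕ → ℕ → ℕ → ℕ → ℕ) (i a a' : ℕ) : ℕ :=
  S * linX cap q b fun k => f k i (o + a) (o + a')

/-- A number larger than the price of every increasing path. -/
def bigE (S cap T M p q b o : ℕ) (f : ℕ → ℕ → ℕ → ℕ → ℕ) : ℕ :=
  1 + M * (cap * (S * T)) + ∑ i ∈ range M, ∑ a ∈ range p, ∑ a' ∈ range p, linE S cap q b o f i a a'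

/-- The table of the solver. -/
def liTab (S cap T M p q b o : ℕ) (f : ℕ → ℕ → ℕ → ℕ → ℕ) : List (List (List ℕ)) :=
  (List.range M).map fun i => (List.range p).map fun a => (List.range p).map fun a' =>
    if a ≤ a' then linE S cap q b o f i a a' else bigE S cap T M p q b o f

/-- The number of nodes of a row: positions `o, …, c`. -/
def wid (o c : ℕ) : ℕ := c - o + 1

/-- The greedy paths in round `b` of the machine started in round `q`. -/
def greedyPaths (S cap T M o c q b : ℕ) (f : ℕ → ℕ → ℕ → ℕ → ℕ) : List (List ℕ) :=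
  picks S cap 0 (wid o c - 1) T (liTab S cap T M (wid o c) q b o f)

/-- The lane in round `b` of the machine started in round `q`, for the coin `κ`. -/
def laneP (S cap T M o c q b : ℕ) (f : ℕ → ℕ → ℕ → ℕ → ℕ) (κ : ℕ) : ℕ → ℕ :=
  fun i => o + ((greedyPaths S cap T M o c q b f).getD (κ % T) []).getD i 0

section solver

variable {S cap T M p q b o : ℕ} {f : ℕ → ℕ → ℕ → ℕ → ℕ}

theorem liTab_length : (liTab S cap T M p q b o f).length = M := by simp [liTab]

theorem nn_liTab (hM : 0 < M) : nn (liTab S cap T M p q b o f) = p := by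
  unfold nn
  have h1 : (liTab S cap T M p q b o f).headD [] = (liTab S cap T M p q b o f).getD 0 [] := by
    cases (liTab S cap T M p q b o f) <;> rfl
  rw [h1]
  unfold liTab
  rw [getD_map_range _ _ _ hM]
  simp

theorem ent3_liTab {i a a' : ℕ} (hi : i < M) (ha : a < p) (ha' : a' < p) :
    ent3 (liTab S cap T M p q b o f) i a a' =
      if a ≤ a' then linE S cap q b o f i a a' else bigE S cap T M p q b o f := by
  unfold ent3 liTab ent2
  rw [getD_map_range _ _ _ hi, getD_map_range _ _ _ ha, getD_map_range _ _ _ ha']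

theorem harmL_le (S c : ℕ) : harmL S c ≤ S * c := by
  rw [harmL_eq]
  unfold H782.harmN
  refine (Finset.sum_le_sum fun j _ => Nat.div_le_self S (j + 1)).trans ?_
  rw [Finset.sum_const, Finset.card_range, smul_eq_mul, mul_comm]

theorem cntL_le (ps : List (List ℕ)) (i a a' : ℕ) : cntL ps i a a' ≤ ps.length := by
  unfold cntL
  exact List.length_filter_le _ _

/-- The picked paths are increasing. -/
theorem picks_mono (hM : 0 < M) (hp : 0 < p) {j : ℕ} (hj : j < T) :
    ∃ g : ℕ → ℕ, (picks S cap 0 (p - 1) T (liTab S cap T M p q b o f)).getD j [] =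
        (List.range (M + 1)).map g ∧ g 0 = 0 ∧ g M = p - 1 ∧ (∀ i ≤ M, g i < p) ∧
      ∀ i < M, g i ≤ g (i + 1) := by
  have hL : liTab S cap T M p q b o f ≠ [] := by
    intro h
    have := liTab_length (S := S) (cap := cap) (T := T) (M := M) (p := p) (q := q) (b := b)
      (o := o) (f := f)
    rw [h] at this
    simp at this
    omega
  obtain ⟨g, hg, g0, gM, gp, hmin⟩ := picks_spec S cap 0 (p - 1) T (liTab S cap T M p q b o f) hL
    (by rw [nn_liTab hM]; omega) (by rw [nn_liTab hM]; omega) hj
  rw [liTab_length] at hg gM gp hmin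
  rw [nn_liTab hM] at gp hmin
  refine ⟨g, hg, g0, gM, gp, ?_⟩
  by_contra hcon
  push Not at hcon
  obtain ⟨i, hi, hlt⟩ := hcon
  set ps := (picks S cap 0 (p - 1) T (liTab S cap T M p q b o f)).take j with hps
  have hpl : ps.length ≤ T := by
    rw [hps, List.length_take, picks_length]; omega
  -- an increasing path
  have h1 := hmin (fun i => if i = 0 then 0 else p - 1) (by simp) (by simp; omega)
    (fun i _ => by
      by_cases h : i = 0
      · simp [h, hp]
      · simp [h]; omega)
  have h2 : ∑ i ∈ range M, (ent3 (liTab S cap T M p q b o f) i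
      ((fun i => if i = 0 then 0 else p - 1) i) ((fun i => if i = 0 then 0 else p - 1) (i + 1)) +
      cap * harmL S (cntL ps i ((fun i => if i = 0 then 0 else p - 1) i)
        ((fun i => if i = 0 then 0 else p - 1) (i + 1)))) <
      bigE S cap T M p q b o f := by
    have h3 : ∀ i ∈ range M, (ent3 (liTab S cap T M p q b o f) i
      ((fun i => if i = 0 then 0 else p - 1) i) ((fun i => if i = 0 then 0 else p - 1) (i + 1)) +
      cap * harmL S (cntL ps i ((fun i => if i = 0 then 0 else p - 1) i)
        ((fun i => if i = 0 then 0 else p - 1) (i + 1)))) ≤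
        ∑ a ∈ range p, ∑ a' ∈ range p, linE S cap q b o f i a a' + cap * (S * T) := by
      intro i hi
      have hi' := Finset.mem_range.1 hi
      simp only [Nat.add_eq_zero_iff, one_ne_zero, and_false, if_false]
      set a := (if i = 0 then 0 else p - 1) with ha
      have hap : a < p := by
        rw [ha]; split_ifs <;> omega
      have haa : a ≤ p - 1 := by omega
      rw [ent3_liTab hi' hap (by omega), if_pos haa]
      refine Nat.add_le_add ?_ ?_
      · calc linE S cap q b o f i a (p - 1) ≤ ∑ a' ∈ range p, linE S cap q b o f i a a' :=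
              Finset.single_le_sum (f := fun a' => linE S cap q b o f i a a')
                (fun _ _ => Nat.zero_le _) (Finset.mem_range.2 (by omega))
          _ ≤ _ := Finset.single_le_sum
                (f := fun a => ∑ a' ∈ range p, linE S cap q b o f i a a')
                (fun _ _ => Nat.zero_le _) (Finset.mem_range.2 hap)
      · refine Nat.mul_le_mul_left _ ((harmL_le _ _).trans (Nat.mul_le_mul_left _ ?_))
        exact (cntL_le _ _ _ _).trans hpl
    refine lt_of_le_of_lt (Finset.sum_le_sum h3) ?_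
    rw [Finset.sum_add_distrib, Finset.sum_const, Finset.card_range, smul_eq_mul]
    unfold bigE
    omega
  have h4 : bigE S cap T M p q b o f ≤ ∑ i ∈ range M, (ent3 (liTab S cap T M p q b o f) i
      (g i) (g (i + 1)) + cap * harmL S (cntL ps i (g i) (g (i + 1)))) := by
    have h5 : ent3 (liTab S cap T M p q b o f) i (g i) (g (i + 1)) =
        bigE S cap T M p q b o f := by
      rw [ent3_liTab hi (gp i hi.le) (gp (i + 1) hi), if_neg (by omega)]
    calc bigE S cap T M p q b o f ≤ ent3 (liTab S cap T M p q b o f) i (g i) (g (i + 1)) +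
          cap * harmL S (cntL ps i (g i) (g (i + 1))) := by rw [h5]; omega
      _ ≤ _ := Finset.single_le_sum (f := fun i => ent3 (liTab S cap T M p q b o f) i
          (g i) (g (i + 1)) + cap * harmL S (cntL ps i (g i) (g (i + 1))))
          (fun _ _ => Nat.zero_le _) (Finset.mem_range.2 hi)
  exact absurd (h4.trans h1) (not_le.2 h2)

end solver

/-- Every lane is an increasing chain. -/
theorem laneP_chain {S cap T M o c q b : ℕ} {f : ℕ → ℕ → ℕ → ℕ → ℕ} {κ : ℕ} (hM : 0 < M)
    (hT : 0 < T) (hoc : o ≤ c) : IsChain M o c (laneP S cap T M o c q b f κ) := by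
  obtain ⟨g, hg, g0, gM, gp, gm⟩ := picks_mono (S := S) (cap := cap) (T := T) (M := M)
    (p := wid o c) (q := q) (b := b) (o := o) (f := f) hM (Nat.succ_pos _)
    (Nat.mod_lt κ hT)
  have hval : ∀ i ≤ M, laneP S cap T M o c q b f κ i = o + g i := by
    intro i hi
    unfold laneP greedyPaths
    rw [hg, getD_map_range' _ _ (by omega)]
  refine ⟨?_, ?_, ?_⟩
  · rw [hval 0 (Nat.zero_le _), g0, Nat.add_zero]
  · rw [hval M le_rfl, gM]
    unfold wid
    omega
  · intro i hi
    rw [hval i hi.le, hval (i + 1) hi]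
    have := gm i hi
    omega

/-! ### Regret -/

open Vale.Agent.P315

theorem picks_greedy' {S Q : ℕ} (hS : 0 < S) (hQ : 0 < Q) (s t T : ℕ)
    (Li : List (List (List ℕ))) (hL : Li ≠ []) {M p : ℕ} (hM : Li.length = M) (hp : nn Li = p)
    (hp0 : 0 < p) (hs : s < p) (ht : t < p) :
    H782.Greedy (H782.harm S)
      (fun (i : Fin M) (e : Fin p × Fin p) => (((ent3 Li i e.1 e.2 : ℕ) : ℤ) : ℝ) / (S * Q))
      (paths M p s t) T (fun j => edge M p hp0 ((picks S Q s t T Li).getD j [])) := by
  subst hM
  subst hp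
  exact picks_greedy hS hQ s t T Li hL hs ht

theorem greedy_congr {ι E : Type*} [Fintype ι] [DecidableEq E] {H : ℕ → ℝ} {L L' : ι → E → ℝ}
    {PP PP' : Set (ι → E)} {T : ℕ} {p : ℕ → ι → E} (h : H782.Greedy H L PP T p) (hPP : PP' ⊆ PP)
    (hmem : ∀ t < T, p t ∈ PP') (hL : ∀ x ∈ PP', ∀ i, L i (x i) = L' i (x i)) :
    H782.Greedy H L' PP' T p where
  mem := hmem
  min := by
    intro t ht x hx
    have h1 := h.min t ht x (hPP hx)
    have h2 : ∀ y ∈ PP', H782.aval H L' p t y = H782.aval H L p t y := by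
      intro y hy
      unfold H782.aval
      exact Finset.sum_congr rfl fun i _ => by rw [hL y hy i]
    rw [h2 _ (hmem t ht), h2 x hx]
    exact h1

/-- The increasing paths. -/
def monoPaths (M p s t : ℕ) : Set (Fin M → Fin p × Fin p) :=
  {x | x ∈ paths M p s t ∧ ∀ i, (x i).1 ≤ (x i).2}

/-- The real tables of the machine started in round `q`. -/
noncomputable def Dr (M p q o : ℕ) (f : ℕ → ℕ → ℕ → ℕ → ℕ) : ℕ → Fin M → Fin p × Fin p → ℝ :=
  fun k i e => if e.1 ≤ e.2 then (f (q + k) i (o + e.1) (o + e.2) : ℝ) else 0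

theorem cast_linX {cap q k : ℕ} {g : ℕ → ℕ} (hg : ∀ j, g (q + j + 1) ≤ g (q + j)) :
    (linX cap q (q + k) g : ℝ) = 2 * ∑ j ∈ range (k + 1), (g (q + j) : ℝ) -
      ∑ j ∈ range k, min ((g (q + j) : ℝ) - g (q + (j + 1))) cap := by
  unfold linX
  have e1 : q + k + 1 - q = k + 1 := by omega
  have e2 : q + k - q = k := by omega
  rw [e1, e2]
  have hle : ∑ j ∈ range k, min (g (q + j) - g (q + j + 1)) cap ≤
      2 * ∑ j ∈ range (k + 1), g (q + j) := by
    rw [Finset.sum_range_succ]
    have : ∑ j ∈ range k, min (g (q + j) - g (q + j + 1)) cap ≤ ∑ j ∈ range k, g (q + j) :=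
      Finset.sum_le_sum fun j _ => (min_le_left _ _).trans (Nat.sub_le _ _)
    omega
  rw [Nat.cast_sub hle]
  push_cast
  congr 1
  refine Finset.sum_congr rfl fun j _ => ?_
  rw [Nat.cast_sub (hg j)]
  rfl

section

variable {S cap T M p q o : ℕ} {f : ℕ → ℕ → ℕ → ℕ → ℕ}

theorem machine_greedy (hS : 0 < S) (hcap : 0 < cap) (hM : 0 < M) (hp : 0 < p)
    (hf : ∀ k, ∀ i < M, ∀ a a', a ≤ a' → a' < p →
      f (q + k + 1) i (o + a) (o + a') ≤ f (q + k) i (o + a) (o + a')) (k : ℕ) :
    H782.Greedy (H782.harm S) (H330.Ls (Dr M p q o f) cap k) (monoPaths M p 0 (p - 1)) T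
      (fun j => edge M p hp
        ((picks S cap 0 (p - 1) T (liTab S cap T M p q (q + k) o f)).getD j [])) := by
  have hL : liTab S cap T M p q (q + k) o f ≠ [] := by
    intro h
    have := liTab_length (S := S) (cap := cap) (T := T) (M := M) (p := p) (q := q) (b := q + k)
      (o := o) (f := f)
    rw [h] at this
    simp at this
    omega
  refine greedy_congr (picks_greedy' hS hcap 0 (p - 1) T _ hL liTab_length (nn_liTab hM) hp hp
    (by omega)) (fun x hx => hx.1) ?_ ?_
  · intro t ht
    obtain ⟨g, hg, g0, gM, gp, gm⟩ := picks_mono (S := S) (cap := cap) (T := T) (M := M)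
      (p := p) (q := q) (b := q + k) (o := o) (f := f) hM hp ht
    have he : ∀ i : Fin M, (edge M p hp
        ((picks S cap 0 (p - 1) T (liTab S cap T M p q (q + k) o f)).getD t []) i).1.val = g i ∧
        (edge M p hp ((picks S cap 0 (p - 1) T (liTab S cap T M p q (q + k) o f)).getD t [])
          i).2.val = g (i + 1) := by
      intro i
      have h := (edge_eq hp gp i (edge M p hp
        ((picks S cap 0 (p - 1) T (liTab S cap T M p q (q + k) o f)).getD t []) i)).mp
          (by rw [hg])
      exact ⟨h.1.symm, h.2.symm⟩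
    refine ⟨⟨g, g0, gM, fun i => ⟨(he i).1, (he i).2⟩⟩, fun i => ?_⟩
    rw [Fin.le_def, (he i).1, (he i).2]
    exact gm i i.2
  · intro x hx i
    have hxi := hx.2 i
    have hle : ((x i).1 : ℕ) ≤ (x i).2 := hxi
    rw [ent3_liTab i.2 (x i).1.2 (x i).2.2, if_pos hle]
    unfold linE H330.Ls H330.wt Dr
    simp only [if_pos hxi]
    have hc := cast_linX (cap := cap) (q := q) (k := k)
      (g := fun k => f k i (o + (x i).1) (o + (x i).2))
      (fun j => hf j i i.2 _ _ hle (x i).2.2)
    have hS' : (S : ℝ) ≠ 0 := by positivity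
    have hcap' : (cap : ℝ) ≠ 0 := by positivity
    have h1 : ((((S * linX cap q (q + k) fun k => f k i (o + (x i).1) (o + (x i).2) : ℕ) : ℤ)
        : ℝ)) / (S * cap) = (cap : ℝ)⁻¹ *
          (linX cap q (q + k) fun k => f k i (o + (x i).1) (o + (x i).2) : ℕ) := by
      push_cast
      field_simp
    rw [h1, hc]

end

/-- **Regret of the lanes.** `P` = any increasing chain; the expectation over the coin of the
cost of the lane of round `q + k`, read one round later, is the average over the coin. -/
theorem lane_regret {S cap T M o c q : ℕ} {f : ℕ → ℕ → ℕ → ℕ → ℕ} (hS : 0 < S) (hcap : 0 < cap)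
    (hT : 0 < T) (hM : 0 < M) (hoc : o ≤ c)
    (hf : ∀ k, q ≤ k → ∀ i < M, ∀ a a', o ≤ a → a ≤ a' → a' ≤ c →
      f (k + 1) i a a' ≤ f k i a a')
    {P : ℕ → ℕ} (hP : IsChain M o c P) {th : ℝ} (hth0 : 0 < th) (hth1 : th ≤ 1 / 2)
    (N : ℕ) :
    ∑ k ∈ range N, ∑ i ∈ range M, min ((f (q + k) i (P i) (P (i + 1)) : ℝ) -
        f (q + k + 1) i (P i) (P (i + 1))) cap ≤
      2 * ∑ k ∈ range N, ((chainCost (f (q + k)) M P : ℝ) - (∑ κ ∈ range T,
        (chainCost (f (q + k + 1)) M (laneP S cap T M o c q (q + k) f κ) : ℝ)) / T)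
      + cap * (M * (2 * Real.log (wid o c)))
      + N * (cap * (M * (4 * th + H782.err1 (wid o c * wid o c) T (T / S) / th))) := by
  set p := wid o c with hp
  have hp0 : 0 < p := Nat.succ_pos _
  have hpv : o + (p - 1) = c := by
    rw [hp]
    unfold wid
    omega
  have hT' : (T : ℝ) ≠ 0 := by positivity
  have hfr : ∀ k, ∀ i < M, ∀ a a', a ≤ a' → a' < p →
      f (q + k + 1) i (o + a) (o + a') ≤ f (q + k) i (o + a) (o + a') :=
    fun k i hi a a' h1 h2 => hf (q + k) (by omega) i hi _ _ (by omega) (by omega) (by omega)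
  set D := Dr M p q o f with hD
  have hanti : ∀ k i e, D (k + 1) i e ≤ D k i e := by
    intro k i e
    rw [hD]
    unfold Dr
    split_ifs with h
    · exact_mod_cast hfr k i i.2 _ _ h e.2.2
    · exact le_rfl
  have : Nonempty (Fin p × Fin p) := ⟨(⟨0, hp0⟩, ⟨0, hp0⟩)⟩
  have hPb : ∀ i ≤ M, o ≤ P i ∧ P i ≤ c := fun i hi => ⟨hP.ge hi, hP.le hi⟩
  -- the comparison path
  let x : Fin M → Fin p × Fin p := fun i =>
    (⟨P i - o, by have := hPb i i.2.le; omega⟩,
      ⟨P (i + 1) - o, by have := hPb (i + 1) i.2; omega⟩)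
  have hx : x ∈ monoPaths M p 0 (p - 1) := by
    refine ⟨⟨fun i => P i - o, ?_, ?_, fun i => ⟨rfl, rfl⟩⟩, fun i => ?_⟩
    · simp [hP.start]
    · simp only [hP.finish]; omega
    · show P i - o ≤ P (i + 1) - o
      have := hP.mono i i.2
      omega
  have hxle : ∀ i : Fin M, (x i).1 ≤ (x i).2 := hx.2
  have hDx : ∀ k (i : Fin M), D k i (x i) = (f (q + k) i (P i) (P (i + 1)) : ℝ) := by
    intro k i
    rw [hD]
    unfold Dr
    rw [if_pos (hxle i)]
    show ((f (q + k) i (o + (P i - o)) (o + (P (i + 1) - o)) : ℕ) : ℝ) = _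
    have h1 := hPb i i.2.le
    have h2 := hPb (i + 1) i.2
    rw [show o + (P i - o) = P i by omega,
      show o + (P (i + 1) - o) = P (i + 1) by omega]
  have h := H782.md_harm (D := D) hanti (cap := (cap : ℝ)) (by exact_mod_cast hcap) hS hT
    (p := fun k j => edge M p hp0
        ((picks S cap 0 (p - 1) T (liTab S cap T M p q (q + k) o f)).getD j []))
    (fun k => machine_greedy hS hcap hM hp0 hfr k) hx hth0 hth1 N
  -- the left side
  have hl : ∑ k ∈ range N, ∑ i, H330.wt D (cap : ℝ) k i (x i) =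
      ∑ k ∈ range N, ∑ i ∈ range M, min ((f (q + k) i (P i) (P (i + 1)) : ℝ) -
        f (q + k + 1) i (P i) (P (i + 1))) cap := by
    refine Finset.sum_congr rfl fun k _ => ?_
    rw [Finset.sum_range]
    refine Finset.sum_congr rfl fun i _ => ?_
    unfold H330.wt
    rw [hDx, hDx]
    rfl
  -- the cost of `P`
  have hm : ∀ k, ∑ i, D k i (x i) = (chainCost (f (q + k)) M P : ℝ) := by
    intro k
    unfold chainCost
    push_cast
    rw [Finset.sum_range]
    exact Finset.sum_congr rfl fun i _ => hDx k i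
  -- the mean cost of the lanes
  have hv : ∀ k, H782.val (D (k + 1)) (H782.xx (fun j => edge M p hp0
        ((picks S cap 0 (p - 1) T (liTab S cap T M p q (q + k) o f)).getD j [])) T) =
      (∑ κ ∈ range T,
        (chainCost (f (q + k + 1)) M (laneP S cap T M o c q (q + k) f κ) : ℝ)) / T := by
    intro k
    rw [eq_div_iff hT', mul_comm, H782.val_xx _ _ hT]
    refine Finset.sum_congr rfl fun κ hκ => ?_
    have hκT := Finset.mem_range.1 hκ
    obtain ⟨g, hg, g0, gM, gp, gm⟩ := picks_mono (S := S) (cap := cap) (T := T) (M := M)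
      (p := p) (q := q) (b := q + k) (o := o) (f := f) hM hp0 hκT
    have hval : ∀ i ≤ M, laneP S cap T M o c q (q + k) f κ i = o + g i := by
      intro i hi
      unfold laneP greedyPaths
      rw [Nat.mod_eq_of_lt hκT, ← hp, hg, getD_map_range' _ _ (by omega)]
    have he : ∀ i : Fin M, (edge M p hp0
        ((picks S cap 0 (p - 1) T (liTab S cap T M p q (q + k) o f)).getD κ [])
          i).1.val = g i ∧
        (edge M p hp0 ((picks S cap 0 (p - 1) T
          (liTab S cap T M p q (q + k) o f)).getD κ []) i).2.val = g (i + 1) := by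
      intro i
      have h := (edge_eq hp0 gp i (edge M p hp0
        ((picks S cap 0 (p - 1) T (liTab S cap T M p q (q + k) o f)).getD κ []) i)).mp
          (by rw [hg])
      exact ⟨h.1.symm, h.2.symm⟩
    unfold chainCost
    push_cast
    rw [Finset.sum_range]
    refine Finset.sum_congr rfl fun i _ => ?_
    rw [hD]
    unfold Dr
    have hle : (edge M p hp0 ((picks S cap 0 (p - 1) T
        (liTab S cap T M p q (q + k) o f)).getD κ []) i).1 ≤
        (edge M p hp0 ((picks S cap 0 (p - 1) T
        (liTab S cap T M p q (q + k) o f)).getD κ []) i).2 := by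
      rw [Fin.le_def, (he i).1, (he i).2]
      exact gm i i.2
    rw [if_pos hle, (he i).1, (he i).2, hval i i.2.le, hval (i + 1) i.2]
    rfl
  rw [hl] at h
  refine h.trans (le_of_eq ?_)
  have hcardE : Fintype.card (Fin p × Fin p) = p * p := by simp
  rw [hcardE, Fintype.card_fin]
  have hlog : Real.log ((p * p : ℕ) : ℝ) = 2 * Real.log p := by
    push_cast
    have : (p : ℝ) ≠ 0 := by positivity
    rw [Real.log_mul this this]
    ring
  rw [hlog]
  congr 3
  refine Finset.sum_congr rfl fun k _ => ?_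
  rw [hm k, hv k]

end Vale.Agent.P315.OT
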