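import Vale.Agent.P315.OT.Setup
import Vale.Agent.P315.H738.Reg

/-!
P315, one-scale track, OT-9: the parameters as functions of the length `N`, and the numbers.

`1 / e` = the error, `n` = number of levels (`n = lvl g 4 N` below), everything else does not
depend on `g`.
-/

set_option autoImplicit false

namespace Vale.Agent.P315.OT.Num

open Vale.Agent.P315.H738

/-! ### The parameters -/

/-- `1 / pA` = the cap. -/
def pA (e N : ℕ) : ℕ := 256 * e * ll N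

/-- mesh units per row length -/
def pm (e N : ℕ) : ℕ := pA e N * lg N

/-- width -/
def pw (e N : ℕ) : ℕ := (16 * e + 1) * pm e N

/-- number of values of the jitters, a power of two -/
def pJ1 (e N : ℕ) : ℕ := 2 ^ (Nat.log 2 (16384 * e ^ 2 * ll N) + 1)

def pJ (e N : ℕ) : ℕ := pJ1 e N - 1

/-- number of rows -/
def pK (N n : ℕ) : ℕ := bra 4 N ^ n

/-- root index -/
def pN (e N n : ℕ) : ℕ := pJ e N * n / 2 - n / (64 * e)

def pRd (e N n : ℕ) : ℕ := pN e N n + pJ e N * n + 4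

/-- unit -/
def pg (e N n : ℕ) : ℕ := N / (pK N n * pm e N) + 1

/-- the parameters for the length `N`, the error `1 / e`, and `n` levels -/
def prm (e N n : ℕ) : Prm where
  M := bra 4 N
  n := n
  m := pm e N
  w := pw e N
  g0 := pg e N n
  J := pJ e N
  N := pN e N n
  A := pA e N
  Rd := pRd e N n

/-- constant in the exponent of the number of reads -/
def cE (e : ℕ) : ℕ := 4 * (64 * e) ^ 2 * (16384 * e ^ 2) ^ 2

def pE (e N n : ℕ) : ℕ := n / (cE e * ll N ^ 2)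

/-- number of rounds of the oracle loop -/
def pQ (e N n : ℕ) : ℕ :=
  20 * ((2 * pw e N + 1) * (pw e N + 1) * pK N n ^ 2) / 2 ^ pE e N n + 1

/-- bound for all positions -/
def pP (e N n : ℕ) : ℕ := (pm e N + 2) * pK N n + 2 * pRd e N n + n + 4

/-! ### Bounds which hold always -/

section basic

variable {e N n : ℕ}

theorem pA_pos (he : 1 ≤ e) : 1 ≤ pA e N := by
  have := one_le_ll N
  unfold pA
  exact Nat.one_le_iff_ne_zero.2 (by positivity)

theorem pm_pos (he : 1 ≤ e) : 1 ≤ pm e N := Nat.mul_pos (pA_pos he) (one_le_lg N)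

theorem pm_le_pw (e N : ℕ) : pm e N ≤ pw e N := by
  unfold pw; exact Nat.le_mul_of_pos_left _ (by omega)

theorem pw_pos (he : 1 ≤ e) : 1 ≤ pw e N := (pm_pos he).trans (pm_le_pw e N)

theorem lt_pJ1 (e N : ℕ) : 16384 * e ^ 2 * ll N < pJ1 e N :=
  Nat.lt_pow_succ_log_self (by norm_num) _

theorem pJ1_le (he : 1 ≤ e) : pJ1 e N ≤ 32768 * e ^ 2 * ll N := by
  have h0 : 16384 * e ^ 2 * ll N ≠ 0 := by
    have := one_le_ll N
    positivity
  have h1 := Nat.pow_log_le_self 2 h0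
  unfold pJ1
  rw [pow_succ]
  calc 2 ^ Nat.log 2 (16384 * e ^ 2 * ll N) * 2 ≤ 16384 * e ^ 2 * ll N * 2 :=
        Nat.mul_le_mul_right _ h1
    _ = _ := by ring

theorem pJ_add (e N : ℕ) : pJ e N + 1 = pJ1 e N := by
  unfold pJ
  have : 1 ≤ pJ1 e N := Nat.one_le_two_pow
  omega

theorem pJ_pos (he : 1 ≤ e) : 1 ≤ pJ e N := by
  have h1 := lt_pJ1 e N
  have h2 := pJ_add e N
  have h3 : 1 ≤ 16384 * e ^ 2 * ll N := by
    have := one_le_ll N
    exact Nat.one_le_iff_ne_zero.2 (by positivity)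
  omega

theorem pJ_le (he : 1 ≤ e) : pJ e N ≤ 32768 * e ^ 2 * ll N :=
  (Nat.sub_le _ _).trans (pJ1_le he)

theorem pK_pos (N n : ℕ) : 1 ≤ pK N n := by
  unfold pK bra
  exact Nat.one_le_iff_ne_zero.2 (by positivity)

theorem pN_le (e N n : ℕ) : pN e N n ≤ pJ e N * n :=
  (Nat.sub_le _ _).trans (Nat.div_le_self _ _)

theorem two_pN_le (e N n : ℕ) : 2 * pN e N n ≤ pJ e N * n := by
  have h1 : pN e N n ≤ pJ e N * n / 2 := Nat.sub_le _ _
  have h2 := Nat.mul_div_le (pJ e N * n) 2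
  omega

theorem pg_pos (e N n : ℕ) : 1 ≤ pg e N n := Nat.le_add_left _ _

/-- the rows cover the length -/
theorem len_ge (he : 1 ≤ e) : N < pK N n * pm e N * pg e N n := by
  have h : 0 < pK N n * pm e N := Nat.mul_pos (pK_pos N n) (pm_pos he)
  exact Nat.lt_mul_div_succ _ h

theorem len_le : pK N n * pm e N * pg e N n ≤ N + pK N n * pm e N := by
  unfold pg
  rw [mul_add, mul_one]
  exact Nat.add_le_add_right (Nat.mul_div_le _ _) _

/-- the end of the second string, in units of the root, is at most the mesh number -/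
theorem Y_le (he : 1 ≤ e) {y : ℕ} (hy : y ≤ N) :
    (y + pK N n * pg e N n - 1) / (pK N n * pg e N n) ≤ pm e N := by
  have h0 : 0 < pK N n * pg e N n := Nat.mul_pos (pK_pos N n) (pg_pos e N n)
  have h1 := len_ge (n := n) (N := N) he
  rw [Nat.div_le_iff_le_mul_add_pred h0]
  have h2 : pK N n * pm e N * pg e N n = pK N n * pg e N n * pm e N := by ring
  omega

theorem prm_len (e N n j : ℕ) : (prm e N n).len j = bra 4 N ^ j * (pm e N * pg e N n) := rfl

theorem prm_len_n (e N n : ℕ) : (prm e N n).len n = pK N n * pm e N * pg e N n := by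
  rw [prm_len]; unfold pK; ring

theorem bra_ge (N : ℕ) : 2 ≤ bra 4 N := by
  unfold bra
  have := one_le_ll N
  calc 2 = 2 ^ 1 := rfl
    _ ≤ 2 ^ (4 * ll N) := Nat.pow_le_pow_right (by norm_num) (by omega)

theorem prm_ok (he : 1 ≤ e) (hn : 1 ≤ n) : (prm e N n).Ok where
  M_two := bra_ge N
  n_pos := hn
  m_pos := pm_pos he
  g0_pos := pg_pos e N n
  A_pos := pA_pos he
  A_dvd := Dvd.intro _ rfl
  Rd_ge := le_rfl

theorem b1 (e N n : ℕ) : n < pP e N n := by unfold pP; omega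

theorem b2 (e N n : ℕ) : bra 4 N ^ n < pP e N n := by
  unfold pP
  have : pK N n * 1 ≤ (pm e N + 2) * pK N n := by
    rw [Nat.mul_comm]; exact Nat.mul_le_mul_right _ (by omega)
  change pK N n < _
  omega

theorem b3 (e N n : ℕ) {Y : ℕ} (hY : Y ≤ pm e N) : Y * bra 4 N ^ n < pP e N n := by
  unfold pP
  have : Y * pK N n ≤ (pm e N + 2) * pK N n := Nat.mul_le_mul_right _ (by omega)
  change Y * pK N n < _
  omega

theorem b4 (e N n : ℕ) : 2 * pRd e N n + 2 < pP e N n := by unfold pP; omega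

end basic

/-! ### The regime -/

/-- constant of the width -/
def cw (e : ℕ) : ℕ := (16 * e + 1) * (256 * e)

theorem pw_eq (e N : ℕ) : pw e N = cw e * (ll N * lg N) := by
  unfold pw pm pA cw; ring

/-- powers of `lg` against `N` -/
theorem ev_N (C r : ℕ) : ∃ N0, ∀ N, N0 ≤ N → C * (lg N + 1) ^ r ≤ N := by
  obtain ⟨B, hB⟩ := ev_pow (2 * C) r
  obtain ⟨N0, h⟩ := ev_lg B
  refine ⟨max N0 2, fun N hN => ?_⟩
  have h1 := hB _ (h N ((le_max_left _ _).trans hN))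
  have h2 := two_pow_lg_le N
  have h3 : 2 ≤ N := (le_max_right _ _).trans hN
  have h4 : 2 * C * (lg N + 1) ^ r = 2 * (C * (lg N + 1) ^ r) := by ring
  omega

/-- all overheads: `C K ^ k L ^ r ≤ N` if `g ≥ 2 k` -/
theorem ev_over (k r C g : ℕ) (hg : 2 * k ≤ g) :
    ∃ N0, ∀ N, N0 ≤ N → C * rws g 4 N ^ k * (lg N + 1) ^ r ≤ N + 2 := by
  obtain ⟨N0, h⟩ := ev_N (C ^ 2) (2 * r)
  refine ⟨N0, fun N hN => ?_⟩
  have h1 := h N hN
  have h2 : (rws g 4 N ^ k) ^ 2 ≤ N + 2 := by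
    rw [← pow_mul]
    exact (Nat.pow_le_pow_right (one_le_rws g 4 N) (by omega)).trans (rws_pow_le g 4 N)
  have h3 : (C * (lg N + 1) ^ r) ^ 2 ≤ N + 2 := by
    calc (C * (lg N + 1) ^ r) ^ 2 = C ^ 2 * (lg N + 1) ^ (2 * r) := by
          rw [mul_pow, ← pow_mul, mul_comm r 2]
      _ ≤ N + 2 := by omega
  have h4 : (C * rws g 4 N ^ k * (lg N + 1) ^ r) ^ 2 ≤ (N + 2) ^ 2 := by
    calc (C * rws g 4 N ^ k * (lg N + 1) ^ r) ^ 2
        = (rws g 4 N ^ k) ^ 2 * (C * (lg N + 1) ^ r) ^ 2 := by ring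
      _ ≤ (N + 2) * (N + 2) := Nat.mul_le_mul h2 h3
      _ = (N + 2) ^ 2 := by ring
  exact (Nat.pow_le_pow_iff_left (by norm_num)).1 h4

/-- the regime: everything that is needed of large `N` -/
structure Reg (e g N : ℕ) : Prop where
  /-- many levels -/
  lev1 : 176 * e ≤ lvl g 4 N
  lev2 : cE e * ll N ^ 2 ≤ lvl g 4 N
  /-- large branching -/
  M1 : 64 * e * pA e N ≤ bra 4 N
  M2 : 3 * (64 * e) ^ 2 * pJ e N ^ 2 * ((pN e N (lvl g 4 N) + 1) * (pw e N + 1) *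
    (2 * pw e N + 1)) ≤ bra 4 N
  W : pw e N * bra 4 N + 2 ≤ 2 ^ (7 * ll N)
  /-- few rows -/
  rows : 16 * e * (rws g 4 N * pm e N) ≤ N

theorem ev_reg (e g : ℕ) (he : 1 ≤ e) (hg : 2 ≤ g) : ∃ N0, ∀ N, N0 ≤ N → Reg e g N := by
  have hg1 : 1 ≤ g := by omega
  obtain ⟨N1, h1⟩ := ev_lvl g 4 (176 * e) 0 hg1 (by norm_num)
  obtain ⟨N2, h2⟩ := ev_lvl g 4 (cE e) 2 hg1 (by norm_num)
  obtain ⟨N3, h3⟩ := ev_bra 4 (64 * e * (256 * e)) 0 1 (by norm_num)
  obtain ⟨N4, h4⟩ := ev_bra 4 (3 * (64 * e) ^ 2 * (32768 * e ^ 2) ^ 2 *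
    (2 * (32768 * e ^ 2)) * (2 * cw e) * (3 * cw e)) 3 5 (by norm_num)
  obtain ⟨N5, h5⟩ := ev_ll (4 * cw e)
  obtain ⟨N6, h6⟩ := ev_N (2 * (16 * e * (256 * e)) ^ 2) 4
  refine ⟨max (max N1 N2) (max (max N3 N4) (max (max N5 N6) 2)), fun N hN => ?_⟩
  have c1 := h1 N (by omega)
  have c2 := h2 N (by omega)
  have c3 := h3 N (by omega)
  have c4 := h4 N (by omega)
  have c5 := h5 N (by omega)
  have c6 := h6 N (by omega)
  have c7 : 2 ≤ N := by omega
  have hb := one_le_ll N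
  have hL := one_le_lg N
  have hcw : 1 ≤ cw e := by
    unfold cw; exact Nat.one_le_iff_ne_zero.2 (by positivity)
  set b := ll N with hbd
  set L := lg N with hLd
  refine ⟨?_, ?_, ?_, ?_, ?_, ?_⟩
  · simpa using c1
  · refine le_trans (Nat.mul_le_mul_left _ (Nat.pow_le_pow_left (by omega) 2)) c2
  · refine le_trans ?_ c3
    rw [pow_zero, mul_one, pow_one]
    unfold pA
    calc 64 * e * (256 * e * b) = 64 * e * (256 * e) * b := by ring
      _ ≤ _ := Nat.mul_le_mul_left _ (by omega)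
  · refine le_trans ?_ c4
    have hJ : pJ e N ≤ 32768 * e ^ 2 * b := pJ_le he
    have hn : lvl g 4 N ≤ L := lvl_le g 4 N
    have hbL : 1 ≤ b * L := Nat.mul_pos hb hL
    have hc : 1 ≤ 32768 * e ^ 2 := Nat.one_le_iff_ne_zero.2 (by positivity)
    have hN : pN e N (lvl g 4 N) + 1 ≤ 2 * (32768 * e ^ 2) * (b * L) := by
      have h8 : pN e N (lvl g 4 N) ≤ 32768 * e ^ 2 * b * L :=
        (pN_le _ _ _).trans (Nat.mul_le_mul hJ hn)
      have h9 : 1 ≤ 32768 * e ^ 2 * (b * L) := Nat.mul_pos hc hbL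
      calc pN e N (lvl g 4 N) + 1 ≤ 32768 * e ^ 2 * b * L + 32768 * e ^ 2 * (b * L) := by omega
        _ = _ := by ring
    have hw : pw e N = cw e * (b * L) := pw_eq e N
    have hw0 : 1 ≤ cw e * (b * L) := Nat.mul_pos hcw hbL
    have hw1 : pw e N + 1 ≤ 2 * cw e * (b * L) := by
      rw [hw]
      have : 2 * cw e * (b * L) = 2 * (cw e * (b * L)) := by ring
      omega
    have hw2 : 2 * pw e N + 1 ≤ 3 * cw e * (b * L) := by
      rw [hw]
      have : 3 * cw e * (b * L) = 3 * (cw e * (b * L)) := by ring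
      omega
    calc 3 * (64 * e) ^ 2 * pJ e N ^ 2 * ((pN e N (lvl g 4 N) + 1) * (pw e N + 1) *
          (2 * pw e N + 1))
        ≤ 3 * (64 * e) ^ 2 * (32768 * e ^ 2 * b) ^ 2 * ((2 * (32768 * e ^ 2) * (b * L)) *
          (2 * cw e * (b * L)) * (3 * cw e * (b * L))) := by
          apply Nat.mul_le_mul
          · exact Nat.mul_le_mul_left _ (Nat.pow_le_pow_left hJ 2)
          · exact Nat.mul_le_mul (Nat.mul_le_mul hN hw1) hw2
      _ = (3 * (64 * e) ^ 2 * (32768 * e ^ 2) ^ 2 *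
          (2 * (32768 * e ^ 2)) * (2 * cw e) * (3 * cw e)) * L ^ 3 * b ^ 5 := by ring
      _ ≤ _ := Nat.mul_le_mul_left _ (Nat.pow_le_pow_left (by omega) 5)
  · have d1 : 4 * cw e ≤ 2 ^ b := c5.trans (Nat.lt_two_pow_self (n := b)).le
    have d2 : b ≤ 2 ^ b := (Nat.lt_two_pow_self (n := b)).le
    have d3 : L ≤ 2 ^ b := (lg_lt N).le
    have d4 : 1 ≤ 2 ^ (4 * b) := Nat.one_le_two_pow
    have d5 : pw e N * bra 4 N + 2 ≤ 4 * cw e * b * L * 2 ^ (4 * b) := by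
      have hbL : 1 ≤ b * L := Nat.mul_pos hb hL
      have hw0 : 1 ≤ cw e * (b * L) := Nat.mul_pos hcw hbL
      have h0 : 1 ≤ cw e * (b * L) * 2 ^ (4 * b) := Nat.mul_pos hw0 d4
      have h1 : pw e N * bra 4 N = cw e * (b * L) * 2 ^ (4 * b) := by rw [pw_eq]; rfl
      have h2 : 4 * cw e * b * L * 2 ^ (4 * b) = 4 * (cw e * (b * L) * 2 ^ (4 * b)) := by ring
      omega
    refine d5.trans ?_
    calc 4 * cw e * b * L * 2 ^ (4 * b) ≤ 2 ^ b * 2 ^ b * 2 ^ b * 2 ^ (4 * b) :=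
          Nat.mul_le_mul_right _ (Nat.mul_le_mul (Nat.mul_le_mul d1 d2) d3)
      _ = 2 ^ (7 * b) := by rw [← pow_add, ← pow_add, ← pow_add]; congr 1; ring
  · have hK : rws g 4 N ^ 2 ≤ N + 2 :=
      (Nat.pow_le_pow_right (one_le_rws g 4 N) hg).trans (rws_pow_le g 4 N)
    have hbL : b ≤ L := ll_le_lg N
    have hm : (16 * e * pm e N) ^ 2 * 2 ≤ N := by
      refine le_trans ?_ c6
      have : 16 * e * pm e N ≤ 16 * e * (256 * e) * (L + 1) ^ 2 := by
        unfold pm pA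
        calc 16 * e * (256 * e * b * L) = 16 * e * (256 * e) * (b * L) := by ring
          _ ≤ 16 * e * (256 * e) * ((L + 1) * (L + 1)) :=
              Nat.mul_le_mul_left _ (Nat.mul_le_mul (by omega) (by omega))
          _ = _ := by ring
      calc (16 * e * pm e N) ^ 2 * 2 ≤ (16 * e * (256 * e) * (L + 1) ^ 2) ^ 2 * 2 :=
            Nat.mul_le_mul_right _ (Nat.pow_le_pow_left this 2)
        _ = _ := by ring
    have h9 : (16 * e * (rws g 4 N * pm e N)) ^ 2 ≤ N ^ 2 := by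
      calc (16 * e * (rws g 4 N * pm e N)) ^ 2 = rws g 4 N ^ 2 * (16 * e * pm e N) ^ 2 := by ring
        _ ≤ (N + 2) * (16 * e * pm e N) ^ 2 := Nat.mul_le_mul_right _ hK
        _ ≤ (2 * N) * (16 * e * pm e N) ^ 2 := Nat.mul_le_mul_right _ (by omega)
        _ = N * ((16 * e * pm e N) ^ 2 * 2) := by ring
        _ ≤ N * N := Nat.mul_le_mul_left _ hm
        _ = N ^ 2 := by ring
    exact (Nat.pow_le_pow_iff_left (by norm_num)).1 h9

/-! ### The value -/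

section real

variable {e g N n : ℕ}

theorem pN_ge_real (e N n : ℕ) :
    (pJ e N : ℝ) * n / 2 - pN e N n ≤ n / (64 * e) + 1 / 2 := by
  have h1 : ((pJ e N * n / 2 : ℕ) : ℝ) - ((n / (64 * e) : ℕ) : ℝ) ≤ (pN e N n : ℝ) := by
    unfold pN
    rw [sub_le_iff_le_add]
    exact_mod_cast le_tsub_add
  have h2 : ((n / (64 * e) : ℕ) : ℝ) ≤ n / (64 * e) := by
    have := @Nat.cast_div_le ℝ _ _ _ n (64 * e)
    push_cast at this
    exact this
  have h3 : (pJ e N : ℝ) * n / 2 - 1 / 2 ≤ ((pJ e N * n / 2 : ℕ) : ℝ) := by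
    have h4 : pJ e N * n ≤ 2 * (pJ e N * n / 2) + 1 := by omega
    have h5 : (pJ e N : ℝ) * n ≤ 2 * ((pJ e N * n / 2 : ℕ) : ℝ) + 1 := by exact_mod_cast h4
    linarith
  linarith

theorem pN_le_real (he : 1 ≤ e) (n : ℕ) :
    (pN e N n : ℝ) ≤ (pJ e N : ℝ) * n / 2 - n / (64 * e) + 1 := by
  have h0 : n / (64 * e) ≤ pJ e N * n / 2 := by
    calc n / (64 * e) ≤ n / 2 := Nat.div_le_div_left (by omega) (by norm_num)
      _ ≤ pJ e N * n / 2 := Nat.div_le_div_right (Nat.le_mul_of_pos_left _ (pJ_pos he))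
  have h1 : (pN e N n : ℝ) = ((pJ e N * n / 2 : ℕ) : ℝ) - ((n / (64 * e) : ℕ) : ℝ) := by
    unfold pN
    rw [Nat.cast_sub h0]
  have h2 : (n : ℝ) / (64 * e) - 1 ≤ ((n / (64 * e) : ℕ) : ℝ) := by
    have h64 : 0 < 64 * e := by omega
    have h3 : n < 64 * e * (n / (64 * e) + 1) := Nat.lt_mul_div_succ _ h64
    have h4 : (n : ℝ) < 64 * e * (((n / (64 * e) : ℕ) : ℝ) + 1) := by exact_mod_cast h3
    have h5 : (0 : ℝ) < 64 * e := by exact_mod_cast h64
    have h6 : (n : ℝ) / (64 * e) ≤ ((n / (64 * e) : ℕ) : ℝ) + 1 := by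
      rw [div_le_iff₀ h5]; linarith
    linarith
  have h3 : ((pJ e N * n / 2 : ℕ) : ℝ) ≤ (pJ e N : ℝ) * n / 2 := by
    have := @Nat.cast_div_le ℝ _ _ _ (pJ e N * n) 2
    push_cast at this
    exact this
  linarith

/-- **The value**: the right side of `StmtValue` is at most `n / (2 e)`. -/
theorem value_num (he : 1 ≤ e) (h : Reg e g N) {Lg e3 : ℝ} (hLg : Lg ≤ 14 * ll N)
    (he3 : ((pRd e N (lvl g 4 N) : ℝ) + 1) * e3 ≤ 1) :
    4 * (((prm e N (lvl g 4 N)).J * (prm e N (lvl g 4 N)).n : ℝ) / 2 -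
          (prm e N (lvl g 4 N)).N +
        (prm e N (lvl g 4 N)).J * Real.sqrt (prm e N (lvl g 4 N)).n + 2)
      + (prm e N (lvl g 4 N)).n * (1 / (prm e N (lvl g 4 N)).A *
          (Lg + ((prm e N (lvl g 4 N)).Rd + 1) * e3 + 1))
      + (prm e N (lvl g 4 N)).n * (4 * (prm e N (lvl g 4 N)).A *
          (1 / ((prm e N (lvl g 4 N)).M : ℝ) + 1 / ((prm e N (lvl g 4 N)).J + 1))) + 1
      ≤ (prm e N (lvl g 4 N)).n * (1 / (2 * e)) := by
  show 4 * ((pJ e N * (lvl g 4 N : ℕ) : ℝ) / 2 - pN e N (lvl g 4 N) +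
        pJ e N * Real.sqrt (lvl g 4 N) + 2)
      + (lvl g 4 N : ℕ) * (1 / pA e N * (Lg + (pRd e N (lvl g 4 N) + 1) * e3 + 1))
      + (lvl g 4 N : ℕ) * (4 * pA e N * (1 / (bra 4 N : ℝ) + 1 / (pJ e N + 1))) + 1
      ≤ (lvl g 4 N : ℕ) * (1 / (2 * e))
  set n := lvl g 4 N with hn
  have he0 : (1 : ℝ) ≤ e := by exact_mod_cast he
  have hepos : (0 : ℝ) < e := by linarith
  have hb : (1 : ℝ) ≤ ll N := by exact_mod_cast one_le_ll N
  have hn1 : (176 : ℝ) * e ≤ n := by exact_mod_cast h.lev1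
  have hnpos : (0 : ℝ) < n := by nlinarith
  have t1 := pN_ge_real e N n
  -- the jitter term
  have t2 : (pJ e N : ℝ) * Real.sqrt n ≤ n / (64 * e) := by
    have h1 : (64 * e * pJ e N) ^ 2 ≤ n := by
      refine le_trans ?_ h.lev2
      calc (64 * e * pJ e N) ^ 2 ≤ (64 * e * (32768 * e ^ 2 * ll N)) ^ 2 :=
            Nat.pow_le_pow_left (Nat.mul_le_mul_left _ (pJ_le he)) 2
        _ = cE e * ll N ^ 2 := by unfold cE; ring
    have h2 : (64 * (e : ℝ) * pJ e N) ≤ Real.sqrt n := by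
      apply Real.le_sqrt_of_sq_le
      exact_mod_cast h1
    rw [le_div_iff₀ (by positivity)]
    calc (pJ e N : ℝ) * Real.sqrt n * (64 * e) = (64 * (e : ℝ) * pJ e N) * Real.sqrt n := by ring
      _ ≤ Real.sqrt n * Real.sqrt n := mul_le_mul_of_nonneg_right h2 (Real.sqrt_nonneg _)
      _ = n := Real.mul_self_sqrt hnpos.le
  -- constants
  have t3 : (11 : ℝ) ≤ n / (16 * e) := by
    rw [le_div_iff₀ (by positivity)]; linarith
  -- the cap
  have hA : (pA e N : ℝ) = 256 * e * ll N := by unfold pA; push_cast; ring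
  have t4 : 1 / (pA e N : ℝ) * (Lg + (pRd e N n + 1) * e3 + 1) ≤ 1 / (16 * e) := by
    rw [hA, one_div_mul_eq_div, div_le_div_iff₀ (by positivity) (by positivity)]
    have h1 : Lg + ((pRd e N n : ℝ) + 1) * e3 + 1 ≤ 16 * ll N := by linarith
    nlinarith
  -- the branching
  have hM0 : (0 : ℝ) < bra 4 N := by
    have := bra_ge N
    exact_mod_cast (by omega : 0 < bra 4 N)
  have t5 : 4 * (pA e N : ℝ) * (1 / (bra 4 N : ℝ)) ≤ 1 / (16 * e) := by
    rw [mul_one_div, div_le_div_iff₀ hM0 (by positivity)]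
    have h1 : (64 : ℝ) * e * pA e N ≤ bra 4 N := by exact_mod_cast h.M1
    linarith
  have t6 : 4 * (pA e N : ℝ) * (1 / ((pJ e N : ℝ) + 1)) ≤ 1 / (16 * e) := by
    rw [mul_one_div, div_le_div_iff₀ (by positivity) (by positivity), hA]
    have h1 : 16384 * e ^ 2 * ll N < pJ e N + 1 := by rw [pJ_add]; exact lt_pJ1 e N
    have h2 : (16384 : ℝ) * e ^ 2 * ll N < pJ e N + 1 := by exact_mod_cast h1
    nlinarith
  have s4 : (n : ℝ) * (1 / (pA e N : ℝ) * (Lg + (pRd e N n + 1) * e3 + 1)) ≤ n * (1 / (16 * e)) :=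
    mul_le_mul_of_nonneg_left t4 hnpos.le
  have s5 : (n : ℝ) * (4 * (pA e N : ℝ) * (1 / (bra 4 N : ℝ) + 1 / ((pJ e N : ℝ) + 1))) ≤
      n * (1 / (8 * e)) := by
    apply mul_le_mul_of_nonneg_left _ hnpos.le
    rw [mul_add]
    have : 1 / (8 * (e : ℝ)) = 1 / (16 * e) + 1 / (16 * e) := by field_simp; norm_num
    linarith
  have r1 : (n : ℝ) * (1 / (16 * e)) = n / (16 * e) := by ring
  have r2 : (n : ℝ) * (1 / (8 * e)) = 2 * (n / (16 * e)) := by ring
  have r3 : (n : ℝ) * (1 / (2 * e)) = 8 * (n / (16 * e)) := by ring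
  have r4 : (n : ℝ) / (64 * e) = (n / (16 * e)) / 4 := by ring
  have r5 : (0 : ℝ) ≤ n / (16 * e) := by positivity
  rw [r3]
  rw [r1] at s4
  rw [r2] at s5
  rw [r4] at t1 t2
  linarith

/-- the logarithm of the number of edges -/
theorem log_edges_le (h : Reg e g N) :
    Real.log (((pw e N * bra 4 N + 2 : ℕ) : ℝ) ^ 2) ≤ 14 * ll N := by
  have h1 : ((pw e N * bra 4 N + 2 : ℕ) : ℝ) ≤ 2 ^ (7 * ll N) := by exact_mod_cast h.W
  have h2 : Real.log ((pw e N * bra 4 N + 2 : ℕ) : ℝ) ≤ (7 * ll N : ℕ) * Real.log 2 := by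
    rw [← Real.log_pow]
    exact Real.log_le_log (by positivity) h1
  have h3 := Real.log_two_lt_d9
  have h4 : (0 : ℝ) ≤ ll N := Nat.cast_nonneg _
  rw [Real.log_pow]
  push_cast at h2 ⊢
  nlinarith

/-! ### The number of reads -/

/-- the value of `lam` -/
noncomputable def lam (e N : ℕ) : ℝ := 4 / (64 * e * (pJ e N : ℝ) ^ 2)

theorem lam_nonneg (e N : ℕ) : 0 ≤ lam e N := by unfold lam; positivity

theorem lam_le_one (he : 1 ≤ e) : lam e N ≤ 1 := by
  have he0 : (1 : ℝ) ≤ e := by exact_mod_cast he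
  have hJ1 : (1 : ℝ) ≤ pJ e N := by exact_mod_cast pJ_pos he
  unfold lam
  rw [div_le_one (by positivity)]
  have : (1 : ℝ) ≤ (pJ e N : ℝ) ^ 2 := one_le_pow₀ hJ1
  nlinarith

theorem exp_lam_le (he : 1 ≤ e) : Real.exp (lam e N) ≤ 3 := by
  have h1 : Real.exp (lam e N) ≤ Real.exp 1 := Real.exp_le_exp.2 (lam_le_one he)
  have h2 := Real.exp_one_lt_d9
  linarith

/-- the rate of the area -/
noncomputable def rate (e N : ℕ) : ℝ := 1 / ((64 * e) ^ 2 * (pJ e N : ℝ) ^ 2)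

theorem rate_nonneg (e N : ℕ) : 0 ≤ rate e N := by unfold rate; positivity

theorem lam_rate (he : 1 ≤ e) (x : ℝ) : lam e N * (x / (64 * e)) = 4 * (x * rate e N) := by
  have he0 : (e : ℝ) ≠ 0 := by
    have : (1 : ℝ) ≤ e := by exact_mod_cast he
    linarith
  have hJ1 : (pJ e N : ℝ) ≠ 0 := by
    have : (1 : ℝ) ≤ pJ e N := by exact_mod_cast pJ_pos he
    linarith
  unfold lam rate
  field_simp

theorem lam_sq_rate (he : 1 ≤ e) : lam e N ^ 2 * (pJ e N : ℝ) ^ 2 / 8 = 2 * rate e N := by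
  have he0 : (e : ℝ) ≠ 0 := by
    have : (1 : ℝ) ≤ e := by exact_mod_cast he
    linarith
  have hJ1 : (pJ e N : ℝ) ≠ 0 := by
    have : (1 : ℝ) ≤ pJ e N := by exact_mod_cast pJ_pos he
    linarith
  unfold lam rate
  field_simp
  norm_num

theorem gam_le (he : 1 ≤ e) (h : Reg e g N) :
    ((pN e N (lvl g 4 N) : ℝ) + 1) * (pw e N + 1) * (2 * pw e N + 1) / bra 4 N *
      Real.exp (lam e N) ≤ rate e N := by
  have hM0 : (0 : ℝ) < bra 4 N := by
    have := bra_ge N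
    exact_mod_cast (by omega : 0 < bra 4 N)
  have hJ1 : (1 : ℝ) ≤ pJ e N := by exact_mod_cast pJ_pos he
  have he0 : (1 : ℝ) ≤ e := by exact_mod_cast he
  have hJpos : (0 : ℝ) < pJ e N := by linarith
  have hepos : (0 : ℝ) < e := by linarith
  set X : ℝ := ((pN e N (lvl g 4 N) : ℝ) + 1) * (pw e N + 1) * (2 * pw e N + 1) with hX
  have hX0 : 0 ≤ X := by positivity
  have h1 : 3 * (64 * (e : ℝ)) ^ 2 * pJ e N ^ 2 * X ≤ bra 4 N := by
    have h0 := (Nat.cast_le (α := ℝ)).2 h.M2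
    rw [Nat.cast_mul, Nat.cast_mul, Nat.cast_mul, Nat.cast_mul, Nat.cast_mul] at h0
    simp only [Nat.cast_pow, Nat.cast_mul, Nat.cast_add, Nat.cast_one, Nat.cast_ofNat] at h0
    exact h0
  have hR : (0 : ℝ) < (64 * (e : ℝ)) ^ 2 * (pJ e N : ℝ) ^ 2 :=
    mul_pos (pow_pos (mul_pos (by norm_num) hepos) 2) (pow_pos hJpos 2)
  calc X / bra 4 N * Real.exp (lam e N) ≤ X / bra 4 N * 3 :=
        mul_le_mul_of_nonneg_left (exp_lam_le he) (div_nonneg hX0 hM0.le)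
    _ ≤ rate e N := by
        unfold rate
        rw [div_mul_eq_mul_div, div_le_div_iff₀ hM0 hR]
        calc X * 3 * ((64 * (e : ℝ)) ^ 2 * (pJ e N : ℝ) ^ 2)
            = 3 * (64 * (e : ℝ)) ^ 2 * pJ e N ^ 2 * X := by ring
          _ ≤ (bra 4 N : ℝ) := h1
          _ = 1 * (bra 4 N : ℝ) := (one_mul _).symm

theorem expo_le {l u n J N' c G : ℝ} (hl0 : 0 ≤ l) (hl1 : l ≤ 1) (hn : 0 ≤ n)
    (hN : N' ≤ J * n / 2 - n / c + 1) (h1 : l * (n / c) = 4 * (n * u))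
    (h2 : l ^ 2 * J ^ 2 / 8 = 2 * u) (hG : G ≤ u) :
    l * N' + n * (-(l * J / 2) + l ^ 2 * J ^ 2 / 8 + G) ≤ 1 - n * u := by
  have a1 : l * N' ≤ l * (J * n / 2 - n / c + 1) := mul_le_mul_of_nonneg_left hN hl0
  have a2 := mul_le_mul_of_nonneg_left hG hn
  rw [h2]
  have a3 : l * (J * n / 2 - n / c + 1) = n * (l * J / 2) - l * (n / c) + l := by ring
  rw [a3, h1] at a1
  have a4 : n * (-(l * J / 2) + 2 * u + G) = -(n * (l * J / 2)) + 2 * (n * u) + n * G := by ring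
  rw [a4]
  linarith

theorem pE_le (he : 1 ≤ e) (n : ℕ) : (pE e N n : ℝ) ≤ n * rate e N := by
  have h1 : (pE e N n : ℝ) ≤ n / (cE e * ll N ^ 2) := by
    unfold pE
    have := @Nat.cast_div_le ℝ _ _ _ n (cE e * ll N ^ 2)
    push_cast at this
    exact this
  refine h1.trans ?_
  rw [div_eq_mul_one_div]
  apply mul_le_mul_of_nonneg_left _ (Nat.cast_nonneg _)
  have hJ1 : (1 : ℝ) ≤ pJ e N := by exact_mod_cast pJ_pos he
  have he0 : (1 : ℝ) ≤ e := by exact_mod_cast he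
  have hJpos : (0 : ℝ) < pJ e N := by linarith
  have hepos : (0 : ℝ) < e := by linarith
  unfold rate
  apply one_div_le_one_div_of_le (by positivity)
  have h2 : (pJ e N : ℝ) ≤ 32768 * e ^ 2 * ll N := by exact_mod_cast pJ_le he
  have h3 : (pJ e N : ℝ) ^ 2 ≤ (32768 * e ^ 2 * ll N) ^ 2 := pow_le_pow_left₀ hJpos.le h2 2
  calc (64 * (e : ℝ)) ^ 2 * (pJ e N : ℝ) ^ 2 ≤ (64 * (e : ℝ)) ^ 2 * (32768 * e ^ 2 * ll N) ^ 2 :=
        mul_le_mul_of_nonneg_left h3 (by positivity)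
    _ = cE e * ll N ^ 2 := by unfold cE; push_cast; ring

theorem exp_fin {x : ℝ} {E : ℕ} (h : (E : ℝ) ≤ x) : Real.exp (1 - x) ≤ 3 / 2 ^ E := by
  have h1 : Real.exp 1 ≤ 3 := by
    have := Real.exp_one_lt_d9
    linarith
  have h2 : Real.exp (-x) ≤ 1 / 2 ^ E := by
    rw [one_div, ← Real.exp_log (show (0 : ℝ) < 2 ^ E by positivity), ← Real.exp_neg,
      Real.log_pow]
    apply Real.exp_le_exp.2
    have h3 := Real.log_two_lt_d9
    have h4 : (0 : ℝ) ≤ E := Nat.cast_nonneg _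
    nlinarith
  rw [sub_eq_add_neg, Real.exp_add]
  calc Real.exp 1 * Real.exp (-x) ≤ 3 * (1 / 2 ^ E) :=
        mul_le_mul h1 h2 (Real.exp_pos _).le (by norm_num)
    _ = _ := by ring

/-- **The area**: the right side of `StmtArea` for `lam e N`. -/
theorem area_num (he : 1 ≤ e) (h : Reg e g N) :
    (2 * ((prm e N (lvl g 4 N)).w : ℝ) + 1) * ((prm e N (lvl g 4 N)).w + 1) *
      ((prm e N (lvl g 4 N)).M : ℝ) ^ (2 * (prm e N (lvl g 4 N)).n) *
        Real.exp (lam e N * (prm e N (lvl g 4 N)).N + (prm e N (lvl g 4 N)).n *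
          (-(lam e N * (prm e N (lvl g 4 N)).J / 2) +
          lam e N ^ 2 * (prm e N (lvl g 4 N)).J ^ 2 / 8 +
          ((prm e N (lvl g 4 N)).N + 1) * ((prm e N (lvl g 4 N)).w + 1) *
          (2 * (prm e N (lvl g 4 N)).w + 1) / (prm e N (lvl g 4 N)).M * Real.exp (lam e N)))
      ≤ 3 * (((2 * pw e N + 1) * (pw e N + 1) * pK N (lvl g 4 N) ^ 2 : ℕ) : ℝ) /
          2 ^ pE e N (lvl g 4 N) := by
  have hexpo := expo_le (lam_nonneg e N) (lam_le_one he) (Nat.cast_nonneg (lvl g 4 N))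
    (pN_le_real he (lvl g 4 N)) (lam_rate he _) (lam_sq_rate he) (gam_le he h)
  have hfin := (Real.exp_le_exp.2 hexpo).trans (exp_fin (pE_le he (lvl g 4 N)))
  have hpos : (0 : ℝ) ≤ (2 * (pw e N : ℝ) + 1) * (pw e N + 1) *
      (bra 4 N : ℝ) ^ (2 * lvl g 4 N) := by positivity
  refine (mul_le_mul_of_nonneg_left hfin hpos).trans (le_of_eq ?_)
  unfold pK
  push_cast
  rw [← pow_mul, mul_comm 2 (lvl g 4 N)]
  ring

/-- six times the mean is at most the number of rounds -/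
theorem six_le_pQ (e N n : ℕ) :
    6 * (3 * (((2 * pw e N + 1) * (pw e N + 1) * pK N n ^ 2 : ℕ) : ℝ) / 2 ^ pE e N n) ≤
      pQ e N n := by
  unfold pQ
  set X := (2 * pw e N + 1) * (pw e N + 1) * pK N n ^ 2 with hX
  have h0 : 0 < 2 ^ pE e N n := by positivity
  have h1 : 20 * X < 2 ^ pE e N n * (20 * X / 2 ^ pE e N n + 1) := Nat.lt_mul_div_succ _ h0
  have h2 : (20 : ℝ) * X < 2 ^ pE e N n * (((20 * X / 2 ^ pE e N n + 1 : ℕ)) : ℝ) := by
    exact_mod_cast h1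
  have h3 : (0 : ℝ) < 2 ^ pE e N n := by positivity
  have h4 : (0 : ℝ) ≤ X := Nat.cast_nonneg _
  rw [mul_div_assoc', div_le_iff₀ h3]
  linarith

end real

end Vale.Agent.P315.OT.Num
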