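import Vale.Agent.P315.OT.StratCor
import Vale.Agent.P315.OT.Geo

/-!
P315, one-scale track, OT-7: all visible values are at most `pbig`.
-/

set_option autoImplicit false

namespace Vale.Agent.P315.OT

open Finset

/-- Visible values: one chain with at most one jump, in row `0`. -/
theorem D_vis_le {Q : Prm} (hM : 1 ≤ Q.M) {hid vis : ℕ → ℕ → ℕ → ℕ}
    (hvis : ∀ s u v, u ≤ v → v ≤ u + Q.w → vis s u v ≤ (Q.m + Q.w) * Q.g0) : ∀ j s u v,
    u ≤ v → v ≤ u + Q.w →
    (Q.inst hid vis).D vis j s u v ≤ Q.M ^ j * ((Q.m + Q.w + j * Q.w) * Q.g0) := by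
  intro j
  induction j with
  | zero =>
    intro s u v huv hw
    have := hvis s u v huv hw
    rw [pow_zero, one_mul, Nat.zero_mul, Nat.add_zero]
    exact this
  | succ j ih =>
    intro s u v huv hw
    obtain ⟨M', hM'⟩ : ∃ M', Q.M = M' + 1 := ⟨Q.M - 1, by omega⟩
    have huv' : u * Q.M ≤ v * Q.M := Nat.mul_le_mul_right _ huv
    -- the chain
    have hz : IsChain Q.M (u * Q.M) (v * Q.M) (fun i => if i = 0 then u * Q.M else v * Q.M) := by
      refine ⟨by simp, ?_, ?_⟩
      · have : Q.M ≠ 0 := by omega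
        simp [this]
      · intro i _
        by_cases hi : i = 0
        · simp [hi, huv']
        · simp [hi]
    have h1 : (Q.inst hid vis).D vis (j + 1) s u v ≤
        chainCost (fun i => (Q.inst hid vis).edge j ((Q.inst hid vis).D vis j (s * Q.M + i))) Q.M
          (fun i => if i = 0 then u * Q.M else v * Q.M) := best_le hz
    refine h1.trans ?_
    set V := Q.M ^ j * ((Q.m + Q.w + j * Q.w) * Q.g0) with hV
    have h2 : ∀ i, (Q.inst hid vis).edge j ((Q.inst hid vis).D vis j (s * Q.M + (i + 1)))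
        (v * Q.M) (v * Q.M) ≤ V := by
      intro i
      unfold Inst.edge
      rw [if_pos (by rw [Nat.sub_self]; exact Nat.zero_le _)]
      exact ih _ _ _ le_rfl (Nat.le_add_right _ _)
    have h3 : (Q.inst hid vis).edge j ((Q.inst hid vis).D vis j (s * Q.M + 0))
        (u * Q.M) (v * Q.M) ≤ V + Q.w * Q.M * (Q.M ^ j * Q.g0) := by
      unfold Inst.edge
      split_ifs with hs
      · have hs' : v * Q.M - u * Q.M ≤ Q.w := hs
        exact (ih _ _ _ huv' (by omega)).trans (Nat.le_add_right _ _)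
      · have h4 : v * Q.M - u * Q.M ≤ Q.w * Q.M := by
          rw [← Nat.mul_sub_right_distrib]
          exact Nat.mul_le_mul_right _ (by omega)
        exact (Nat.mul_le_mul_right (Q.M ^ j * Q.g0) h4).trans (Nat.le_add_left _ _)
    have h5 : chainCost (fun i => (Q.inst hid vis).edge j ((Q.inst hid vis).D vis j
        (s * Q.M + i))) Q.M (fun i => if i = 0 then u * Q.M else v * Q.M) ≤
        M' * V + (V + Q.w * Q.M * (Q.M ^ j * Q.g0)) := by
      unfold chainCost
      rw [show range Q.M = range (M' + 1) by rw [hM'], Finset.sum_range_succ']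
      apply Nat.add_le_add
      · calc _ ≤ ∑ _i ∈ range M', V := by
              apply Finset.sum_le_sum
              intro i _
              simp only [Nat.succ_ne_zero, if_false]
              exact h2 i
          _ = M' * V := by rw [Finset.sum_const, card_range, smul_eq_mul]
      · simp only [if_true, Nat.zero_add, one_ne_zero, if_false]
        exact h3
    refine h5.trans (le_of_eq ?_)
    have h6 : M' * V + (V + Q.w * Q.M * (Q.M ^ j * Q.g0)) =
        (M' + 1) * V + Q.w * Q.M * (Q.M ^ j * Q.g0) := by ring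
    rw [h6, ← hM', hV, pow_succ]
    ring

/-- The hypothesis `hbig` of `CorOk`. -/
theorem hbig_of {F : List ℕ} {Q : Prm} {D Y Tn Sn : ℕ} {hid vis : ℕ → ℕ → ℕ → ℕ}
    (hF : Fits F Q D Y Tn Sn) (hM : 1 ≤ Q.M)
    (hvis : ∀ s u v, u ≤ v → v ≤ u + Q.w → vis s u v ≤ (Q.m + Q.w) * Q.g0) :
    ∀ j ≤ Q.n, ∀ s u v, u ≤ v → v ≤ u + Q.w → (Q.inst hid vis).D vis j s u v ≤ pbig F := by
  intro j hj s u v huv hw
  refine (D_vis_le hM hvis j s u v huv hw).trans ?_
  unfold pbig pMj
  rw [hF.hM, hF.hn, hF.hm, hF.hw, hF.hg, Nat.min_self]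
  exact Nat.mul_le_mul (Nat.pow_le_pow_right hM hj)
    (Nat.mul_le_mul_right _ (Nat.add_le_add_left (Nat.mul_le_mul_right _ hj) _))

/-- The visible costs of `Geo.lean`. -/
theorem visc_le_unit (Q : Prm) (x y : List ℕ) (s : ℕ) {u v : ℕ} (hw : v ≤ u + Q.w) :
    visc Q x y s u v ≤ (Q.m + Q.w) * Q.g0 := by
  unfold visc
  have h1 : (factor x (s * Q.l0) ((s + 1) * Q.l0)).length ≤ Q.m * Q.g0 := by
    refine (factor_length_le _ _ _).trans ?_
    rw [← Nat.mul_sub_right_distrib, show s + 1 - s = 1 by omega, one_mul]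
    exact le_rfl
  have h2 : (factor y (u * Q.g0) (v * Q.g0)).length ≤ Q.w * Q.g0 := by
    refine (factor_length_le _ _ _).trans ?_
    rw [← Nat.mul_sub_right_distrib]
    exact Nat.mul_le_mul_right _ (by omega)
  rw [Nat.add_mul Q.m Q.w Q.g0]
  apply max_le
  · omega
  · omega

/-- `hbig` for the concrete instance. -/
theorem hbig_visc {F : List ℕ} {Q : Prm} {D Y Tn Sn : ℕ} (hF : Fits F Q D Y Tn Sn)
    (hM : 1 ≤ Q.M) (x y : List ℕ) : ∀ j ≤ Q.n, ∀ s u v, u ≤ v → v ≤ u + Q.w →
    (Q.inst (hidc Q x y) (visc Q x y)).D (visc Q x y) j s u v ≤ pbig F :=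
  hbig_of hF hM fun s _ _ _ hw => visc_le_unit Q x y s hw

end Vale.Agent.P315.OT
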