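import Vale.Agent.P315.H140.Big3
import Vale.Agent.P315.OT.CellRow
import Vale.Agent.P315.OT.Geo
import Vale.Agent.P315.H817.Cell

/-!
P315, one-scale track, OT-8: the word RAM program. The generic one-pass program of `H140/Big3` with
the cell program `rowCell`, and the values of the cells in terms of `hidc`.
-/

set_option autoImplicit false

namespace Vale.Agent.P315.OT

open Vale.Agent.P315 Vale.Agent.P315.RAM Vale.Agent.P315.H873 Vale.Agent.P315.H140
open Vale.Agent.Lib.PolyTime (Word pb pr FP PT Enc enc esize)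

variable {E : Env}

/-! ### The values of the cells -/

theorem rowDist_eq (x y : List ℕ) (l g s : ℕ) {u v : ℕ} (huv : u ≤ v) :
    rowDist (fun i => x.getD i 0) (fun i => y.getD i 0) x.length y.length l g s u v =
      lev (factor x (s * l) ((s + 1) * l)) (factor y (u * g) (v * g)) := by
  have hg : u * g ≤ v * g := Nat.mul_le_mul_right g huv
  have h1 : factor x (s * l) ((s + 1) * l) =
      seg (fun i => x.getD i 0) (s * l) (min l (x.length - s * l)) := by
    unfold factor
    rw [H817.take_drop_eq_seg, Nat.succ_mul, Nat.add_sub_cancel_left]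
  have h2 : factor y (u * g) (v * g) =
      seg (fun i => y.getD i 0) (min (u * g) y.length) (min (v * g) y.length -
        min (u * g) y.length) := by
    unfold factor
    rw [H817.take_drop_eq_seg]
    rcases Nat.le_total (u * g) y.length with h | h
    · rw [min_eq_left h]
      congr 1
      omega
    · have e1 : min (v * g - u * g) (y.length - u * g) = 0 := by omega
      have e2 : min (v * g) y.length - min (u * g) y.length = 0 := by omega
      rw [e1, e2, seg_zero, seg_zero]
  unfold rowDist dist
  rw [h1, h2]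

theorem rowDist_eq_hidc (Q : Prm) (x y : List ℕ) (s : ℕ) {u v : ℕ} (huv : u ≤ v) :
    rowDist (fun i => x.getD i 0) (fun i => y.getD i 0) x.length y.length Q.l0 Q.g0 s u v =
      hidc Q x y s u v := rowDist_eq x y Q.l0 Q.g0 s huv

/-! ### The program -/

/-- The answers for the strings `x`, `y`. -/
def otAns (x y : List ℕ) (l g D q : ℕ) : List ℕ :=
  rowAns (fun i => x.getD i 0) (fun i => y.getD i 0) x.length y.length l g D q

theorem otAns_code (x y : List ℕ) (Q : Prm) {D s u v : ℕ} (hu : u < D) (hv : v < D)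
    (huv : u ≤ v) : otAns x y Q.l0 Q.g0 D (code D s u v) = [hidc Q x y s u v] := by
  unfold otAns
  rw [rowAns_code _ _ _ _ _ _ hu hv, rowDist_eq_hidc Q x y s huv]

/-- The admissible queries: cells of width at most `w` with positions below `D` in the rows
`s < K`. -/
def OtV (K D w q : ℕ) : Prop := ∃ s u v, s < K ∧ u < D ∧ v < D ∧ u ≤ v ∧ v ≤ u + w ∧
  q = code D s u v

theorem code_div {D s u v : ℕ} (hu : u < D) (hv : v < D) :
    code D s u v / D / D = s ∧ code D s u v / D % D = u ∧ code D s u v % D = v := by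
  have hD : 0 < D := by omega
  have h1 : code D s u v / D = s * D + u := by
    unfold code
    rw [Nat.add_comm, Nat.add_mul_div_right _ _ hD, Nat.div_eq_of_lt hv, Nat.zero_add]
  refine ⟨?_, ?_, ?_⟩
  · rw [h1, Nat.add_comm, Nat.add_mul_div_right _ _ hD, Nat.div_eq_of_lt hu, Nat.zero_add]
  · rw [h1, Nat.add_comm, Nat.add_mul_mod_self_right, Nat.mod_eq_of_lt hu]
  · unfold code
    rw [Nat.add_comm, Nat.add_mul_mod_self_right, Nat.mod_eq_of_lt hv]

theorem code_lt {K D s u v : ℕ} (hs : s < K) (hu : u < D) (hv : v < D) :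
    code D s u v < K * D * D := by
  unfold code
  have h1 : s * D + u < K * D := by
    calc s * D + u < s * D + D := by omega
      _ = (s + 1) * D := by ring
      _ ≤ K * D := Nat.mul_le_mul_right _ hs
  calc (s * D + u) * D + v < (s * D + u) * D + D := by omega
    _ = (s * D + u + 1) * D := by ring
    _ ≤ K * D * D := Nat.mul_le_mul_right _ h1

/-- The parameters in registers: length of a row, unit, modulus of the codes, number of rounds,
modulus of the seeds, number of seeds. -/
def otPs (l g D Q e N : List ℕ → ℕ) : List (ℕ × (List ℕ → ℕ)) :=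
  [(50, l), (51, g), (53, D), (68, Q), (71, e), (75, N)]

section
variable {α : Type*} [Enc α]

/-- **OT-8.** The word RAM program of the one-scale track, for any strategy. The exponent `k`
depends only on the strategy; the prefix of the feed and the parameters are polynomial time
functions of the list `[|x|, |y|]`. -/
theorem exists_ram {start : List ℕ → α} {ask : α → ℕ} {upd : ℕ × α → α} {out : α → ℕ}
    (hstart : PT ∅ start) (hask : PT ∅ ask) (hupd : PT ∅ upd) (hout : PT ∅ out) :
    ∃ k : ℕ, ∀ (pre : List ℕ → List ℕ) (l g D Q e N : List ℕ → ℕ) (c1 : ℕ),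
      PT ∅ pre → PT ∅ l → PT ∅ g → PT ∅ D → PT ∅ Q → PT ∅ e → PT ∅ N → 1 ≤ c1 →
      ∃ (P : Prog) (k1 : ℕ), ∀ (E : Env) (x y : List ℕ) (a : List ℕ) (F : List ℕ)
        (m K w S R : ℕ),
        a = [x.length, y.length] → m = c1 * bl (x.length + y.length) →
        F = feedG E.ρ 0 (e a) (N a) (pre a) →
        0 < e a → e a ≤ 2 ^ m → E.R = R →
        (∀ t < Q a, OtV K (D a) w (ask ((oround ask upd (otAns x y (l a) (g a) (D a)))^[t]
          (start F)))) →
        (∀ t < Q a, ∀ j ≤ 1, esize (absorb upd ((otAns x y (l a) (g a) (D a)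
          (ask ((oround ask upd (otAns x y (l a) (g a) (D a)))^[t] (start F)))).take j)
            ((oround ask upd (otAns x y (l a) (g a) (D a)))^[t] (start F))) ≤ S) →
        esize ((oround ask upd (otAns x y (l a) (g a) (D a)))^[Q a] (start F)) ≤ S →
        out ((oround ask upd (otAns x y (l a) (g a) (D a)))^[Q a] (start F)) ≤ R →
        l a ≤ R → g a ≤ R → D a ≤ R → Q a ≤ R → N a ≤ R → e a ≤ R →
        K * D a * D a ≤ R → K * l a ≤ R → l a + w * g a + 1 ≤ R → l a + w * g a < 2 ^ m →
        c1 ≤ R → 2 * (x.length + y.length + 3) ≤ R → (4 * m + 10) ^ k1 ≤ R →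
        (N a * (2 * m + 1) + esize (pre a) + S + 2 * m + 10) ^ k ≤ R →
        Spec E (State.init x y) P
          (16 * (x.length + y.length + 2) + (4 * m + 10) ^ k1 + N a * (41 * m + 29) +
            Q a * (rowTime (l a) (w * g a) + 2 * (N a * (2 * m + 1) + esize (pre a) + S +
              2 * m + 10) ^ k) +
            (N a * (2 * m + 1) + esize (pre a) + S + 2 * m + 10) ^ k)
          (fun σ' => N a ≤ σ'.coins ∧
            σ'.reg 2 = out ((oround ask upd (otAns x y (l a) (g a) (D a)))^[Q a] (start F))) := by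
  obtain ⟨k, hk⟩ := exists_big hstart hask hupd hout
  refine ⟨k, fun pre l g D Q e N c1 hpre hl hg hD hQ he hN hc1 => ?_⟩
  obtain ⟨P, k1, hP⟩ := hk pre (otPs l g D Q e N) c1 (rowCell 60 191) hpre
    (by
      intro p hp
      simp only [otPs, List.mem_cons, List.not_mem_nil, or_false] at hp
      rcases hp with rfl | rfl | rfl | rfl | rfl | rfl <;> assumption)
    (by
      intro p hp
      simp only [otPs, List.mem_cons, List.not_mem_nil, or_false] at hp
      rcases hp with rfl | rfl | rfl | rfl | rfl | rfl <;> (unfold OkReg; omega))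
    (by simp [otPs]) hc1
    (fun h => by have := rowCell_wr _ h; omega)
    (fun h => by have := rowCell_wa _ h; omega)
  refine ⟨P, k1, ?_⟩
  intro E x y a F m K w S R ha hm hF he0 hem hER hV hS hSQ hoR hlR hgR hDR hQR hNR heR hKD hKl
    hlw hlwm hcR hxy hk1 hkX
  subst ha hF hER
  have hpar : ∀ σ : State, ParVal (otPs l g D Q e N) [x.length, y.length] σ →
      σ.reg 50 = l [x.length, y.length] ∧ σ.reg 51 = g [x.length, y.length] ∧
      σ.reg 53 = D [x.length, y.length] ∧ σ.reg 68 = Q [x.length, y.length] ∧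
      σ.reg 71 = e [x.length, y.length] ∧ σ.reg 75 = N [x.length, y.length] := by
    intro σ h
    exact ⟨h (50, l) (by simp [otPs]), h (51, g) (by simp [otPs]), h (53, D) (by simp [otPs]),
      h (68, Q) (by simp [otPs]), h (71, e) (by simp [otPs]), h (75, N) (by simp [otPs])⟩
  refine (hP E x y m (e [x.length, y.length]) (N [x.length, y.length]) (Q [x.length, y.length])
    S 1 (rowTime (l [x.length, y.length]) (w * g [x.length, y.length]))
    (OtV K (D [x.length, y.length]) w)
    (otAns x y (l [x.length, y.length]) (g [x.length, y.length]) (D [x.length, y.length]))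
    hm (fun σ h => ⟨(hpar σ h).2.2.2.2.1, (hpar σ h).2.2.2.2.2, (hpar σ h).2.2.2.1⟩) he0 hem
    ?_ ?_ ?_ hV hS hSQ hoR hcR hxy hk1 hkX).mono le_rfl fun _ h => h
  · intro p hp
    simp only [otPs, List.mem_cons, List.not_mem_nil, or_false] at hp
    rcases hp with rfl | rfl | rfl | rfl | rfl | rfl <;> assumption
  · rintro q ⟨s, u, v, hs, hu, hv, huv, hvw, rfl⟩
    refine ⟨?_, le_rfl, fun z hz => ?_⟩
    · have := code_lt hs hu hv
      omega
    · unfold otAns at hz
      rw [rowAns_code _ _ _ _ _ _ hu hv, List.mem_singleton] at hz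
      subst hz
      refine lt_of_le_of_lt (rowDist_le _ _ _ _ _ _ _ _ _) (lt_of_le_of_lt ?_ hlwm)
      exact Nat.add_le_add_left (Nat.mul_le_mul_right _ (by omega)) _
  · rintro σ q hI hq ⟨s, u, v, hs, hu, hv, huv, hvw, rfl⟩
    obtain ⟨d1, d2, d3⟩ := code_div (s := s) hu hv
    refine rowCell_oracle (z := 60) (A := 191) (by norm_num) (by norm_num) hlw
      (Inv x y m (otPs l g D Q e N)) (fun σ hσ => ?_) (fun σ σ' hσ hr ha => ?_) σ _ hI hq ?_ ?_
    · obtain ⟨p1, p2, p3, -⟩ := hpar σ hσ.par
      exact ⟨hσ.a0, hσ.a1, hσ.r0, hσ.r1, p1, p2, p3⟩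
    · have hok : ∀ p ∈ otPs l g D Q e N, OkReg p.1 := by
        intro p hp
        simp only [otPs, List.mem_cons, List.not_mem_nil, or_false] at hp
        rcases hp with rfl | rfl | rfl | rfl | rfl | rfl <;> (unfold OkReg; omega)
      refine ⟨?_, ?_, ?_, ?_, ?_, fun p hp => ?_⟩
      · rw [ha 0 (by norm_num) (by norm_num)]; exact hσ.a0
      · rw [ha 1 (by norm_num) (by norm_num)]; exact hσ.a1
      · rw [hr 0 (by norm_num) (by norm_num) (by norm_num) (by norm_num)]; exact hσ.r0
      · rw [hr 1 (by norm_num) (by norm_num) (by norm_num) (by norm_num)]; exact hσ.r1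
      · rw [hr 61 (by norm_num) (by norm_num) (by norm_num) (by norm_num)]; exact hσ.r61
      · have h1 := hok p hp
        have h2 : p.1 = 50 ∨ p.1 = 51 ∨ p.1 = 53 ∨ p.1 = 68 ∨ p.1 = 71 ∨ p.1 = 75 := by
          simp only [otPs, List.mem_cons, List.not_mem_nil, or_false] at hp
          rcases hp with rfl | rfl | rfl | rfl | rfl | rfl <;> simp
        rw [hr p.1 (by omega) (by omega) (by omega) (by omega)]
        exact hσ.par p hp
    · rw [d1]
      exact (Nat.mul_le_mul_right _ hs.le).trans hKl
    · rw [d2, d3]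
      exact Nat.mul_le_mul_right _ (by omega)

end

end Vale.Agent.P315.OT
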