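import Vale.Agent.P315.OT.StratUse
import Vale.Agent.P315.OT.Ram
import Vale.Agent.P315.OT.Picker

/-!
P315, one-scale track (helper453), OT-7: the strategy run on the answers of the row cells.
-/

set_option autoImplicit false

namespace Vale.Agent.P315.OT

open Finset
open Vale.Agent.P315.RAM (oround absorb)

/-- The list picker of the strategy. -/
def plT (T S : ℕ) : ℕ → ℕ → ℕ → ℕ → ℕ → List (List (List (List ℕ))) → ℕ → List ℕ := pkL S T

/-- The answer to a query, as a number. -/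
def ans1 (x y : List ℕ) (l g D q : ℕ) : ℕ := (otAns x y l g D q).getD 0 0

theorem otAns_eq (x y : List ℕ) (l g D : ℕ) : otAns x y l g D = fun q => [ans1 x y l g D q] := rfl

/-- The state after `t` rounds. -/
def stM (x y : List ℕ) (Q : Prm) (D : ℕ) (F : List ℕ) (t : ℕ) : St :=
  (oround (askS plT visF) (updS plT visF) (otAns x y Q.l0 Q.g0 D))^[t] (startS F)

/-- The feed. -/
def feedM (x y : List ℕ) (Q : Prm) (D Tn Sn : ℕ) (seeds : List ℕ) : List ℕ :=
  preF x.length y.length Q D (Q.Y y) Tn Sn ++ seeds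

/-- The assumptions on the parameters. -/
structure MainOk (x y : List ℕ) (Q : Prm) (D Tn : ℕ) (seeds : List ℕ) : Prop where
  M_two : 2 ≤ Q.M
  Y_le : Q.Y y ≤ Q.w
  D_gt : Q.Y y * Q.M ^ Q.n < D
  len_M : Q.M ≤ 16 + seeds.length
  len_n : Q.n ≤ 16 + seeds.length
  len_w : Q.w ≤ 16 + seeds.length
  len_N : Q.N ≤ 16 + seeds.length
  len_T : Tn ≤ 16 + seeds.length
  len_K : Q.M ^ Q.n ≤ 16 + seeds.length
  len_Y : Q.Y y * Q.M ^ Q.n ≤ 16 + seeds.length
  big : ∀ F : List ℕ, Fits F Q D (Q.Y y) Tn (F.getD 13 0) → ∀ j ≤ Q.n, ∀ s u v, u ≤ v →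
    v ≤ u + Q.w → (Q.inst (hidc Q x y) (visc Q x y)).D (visc Q x y) j s u v ≤ pbig F

theorem MainOk.cor {x y : List ℕ} {Q : Prm} {D Tn Sn : ℕ} {seeds : List ℕ}
    (h : MainOk x y Q D Tn seeds) :
    CorOk (feedM x y Q D Tn Sn seeds) Q D (Q.Y y) Tn Sn (hidc Q x y) (visc Q x y) where
  fits := fits_preF _ _ _ _ _ _ _ _ h.len_M h.len_n h.len_w h.len_N h.len_T h.len_K h.len_Y
  M_two := h.M_two
  hle := fun s u v => hidc_le_visc Q x y s u v
  hbig := h.big _ (fits_preF _ _ _ _ _ _ _ _ h.len_M h.len_n h.len_w h.len_N h.len_T h.len_K h.len_Y)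

theorem strat_main {x y : List ℕ} {Q : Prm} {D Tn Sn : ℕ} {seeds : List ℕ}
    (h : MainOk x y Q D Tn seeds) :
    (∀ t, OtV (Q.M ^ Q.n) D Q.w (askS plT visF (stM x y Q D (feedM x y Q D Tn Sn seeds) t))) ∧
    ∀ Rq, outS plT visF (stM x y Q D (feedM x y Q D Tn Sn seeds) Rq) =
        (Q.inst (hidc Q x y) (visc Q x y)).c
          (Q.sch (stdCode D) (stdPicker Sn Tn) (fun i => seeds.getD i 0)) Q.n 0 0 (Q.Y y) Q.N ∨
      (Rq < ((Q.inst (hidc Q x y) (visc Q x y)).S
          (Q.sch (stdCode D) (stdPicker Sn Tn) (fun i => seeds.getD i 0))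
            Q.n 0 0 (Q.Y y) Q.N).card ∧
        outS plT visF (stM x y Q D (feedM x y Q D Tn Sn seeds) Rq) = x.length + y.length) := by
  have hc := h.cor (Sn := Sn)
  have hvs : ∀ s u v, visF (feedM x y Q D Tn Sn seeds) s u v = visc Q x y s u v :=
    visF_eq hc.fits rfl rfl
  have hans : ∀ s u v, s < Q.M ^ Q.n → u ≤ v → v ≤ Q.Y y * Q.M ^ Q.n →
      ans1 x y Q.l0 Q.g0 D (cellCode D s u v) = hidc Q x y s u v := by
    intro s u v _ huv hv
    have hD := h.D_gt
    have h1 := otAns_code x y Q (D := D) (s := s) (u := u) (v := v) (by omega) (by omega) huv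
    have h2 : otAns x y Q.l0 Q.g0 D (cellCode D s u v) = [hidc Q x y s u v] := h1
    unfold ans1
    rw [h2]
    rfl
  have hsch : fsch plT (feedM x y Q D Tn Sn seeds) Q D Tn Sn =
      Q.sch (stdCode D) (stdPicker Sn Tn) (fun i => seeds.getD i 0) := by
    unfold fsch feedM
    rw [feedSeed_preF]
    rfl
  constructor
  · intro t
    obtain ⟨s, u, v, h1, h2, h3, h4, h5⟩ :=
      askS_valid (pl := plT) (vs := visF) hc h.Y_le hvs hans t
    have hD := h.D_gt
    refine ⟨s, u, v, h1, by omega, by omega, h2, h3, ?_⟩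
    unfold stM
    rw [otAns_eq]
    exact h5
  · intro Rq
    have h1 := outS_spec (pl := plT) (vs := visF) hc h.Y_le hvs hans Rq
    rw [hsch] at h1
    unfold stM
    rw [otAns_eq]
    exact h1

end Vale.Agent.P315.OT
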