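import Vale.Agent.P315.OT.NumOk
import Vale.Agent.P315.OT.Root
import Vale.Agent.P315.OT.CurOk
import Vale.Agent.P315.OT.Star
import Vale.Agent.P315.OT.H71.Atoms
import Vale.Agent.P315.OT.StratMain
import Vale.Agent.P315.OT.StratBig

/-!
P315, one-scale track, OT-9: two thirds of the seeds are good, for the concrete parameters.
-/

set_option autoImplicit false

namespace Vale.Agent.P315.OT.Num

open Vale.Agent.P315.H738

/-- the value, unconditionally -/
theorem stmtValue_all : StmtValue := stmtValue stmtCur stmtStar stmtAtoms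

variable {e g : ℕ}

theorem pQ_pos (e N n : ℕ) : 0 < pQ e N n := by
  unfold pQ
  exact Nat.succ_pos _

/-- **Two thirds of the seeds are good**, for the parameters of the length `N`. -/
theorem good_num (he : 1 ≤ e) {x y : List ℕ} {N : ℕ} (hN : N = max x.length y.length)
    (hN1 : 1 ≤ N) (h : Reg2 e g N) {E : ℕ} (hE : 0 < E) (hJ : pJ1 e N ∣ E) (hT : sT N ∣ E)
    {ε : ℝ} (hε : 7 / (e : ℝ) ≤ ε)
    (Out : Seed (pR e N (lvl g 4 N)) E → ℕ)
    (hrun : ∀ ω, RunOk (prm e N (lvl g 4 N)) (stdCode (pP e N (lvl g 4 N)))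
      (stdPicker (sS N) (sT N)) x y (pQ e N (lvl g 4 N)) (sd ω) (Out ω)) :
    2 * Nat.card (Seed (pR e N (lvl g 4 N)) E) ≤
      3 * Nat.card {ω : Seed (pR e N (lvl g 4 N)) E // ED x y ≤ Out ω ∧
        (Out ω : ℝ) ≤ ED x y + ε * ((max x.length y.length : ℕ) : ℝ)} := by
  have hn1 : 1 ≤ lvl g 4 N := by
    have := h.reg.lev1
    omega
  have hx : x.length ≤ N := by rw [hN]; exact le_max_left _ _
  have hy : y.length ≤ N := by rw [hN]; exact le_max_right _ _
  have hmax : max x.length y.length = N := hN.symm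
  clear hN
  have hlen : N ≤ (prm e N (lvl g 4 N)).len (prm e N (lvl g 4 N)).n := by
    show N ≤ (prm e N (lvl g 4 N)).len (lvl g 4 N)
    rw [prm_len_n]
    exact (len_ge he).le
  have hV : valErr (prm e N (lvl g 4 N)) (14 * ll N) (8 / (bra 4 N : ℕ)) ≤
      (lvl g 4 N : ℕ) * (1 / (2 * e)) := value_num he h.reg le_rfl (err_le h)
  have hdJ : (prm e N (lvl g 4 N)).J + 1 ∣ E := by
    show pJ e N + 1 ∣ E
    rw [pJ_add]
    exact hJ
  have hdT : (stdPicker (sS N) (sT N)).T ∣ E := hT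
  have hCd : (stdCode (pP e N (lvl g 4 N))).Ok (pP e N (lvl g 4 N)) (pR e N (lvl g 4 N)) := by
    unfold pR
    exact stdCode_ok _
  have hA : 6 * areaBd (prm e N (lvl g 4 N)) (lam e N) ≤ (pQ e N (lvl g 4 N) : ℕ) :=
    le_trans (mul_le_mul_of_nonneg_left (area_num he h.reg) (by norm_num))
      (six_le_pQ e N (lvl g 4 N))
  have hw : (16 * e + 1) * (prm e N (lvl g 4 N)).m ≤ (prm e N (lvl g 4 N)).w := le_of_eq rfl
  have hv := hval_num he h.reg hV hε
  have hh := heps_num he h.reg hN1 hε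
  rw [hmax]
  have key := @root_seeds stmtValue_all (prm e N (lvl g 4 N)) (stdCode (pP e N (lvl g 4 N)))
    (stdPicker (sS N) (sT N)) x y (pR e N (lvl g 4 N)) E (pP e N (lvl g 4 N)) (14 * ll N)
    (8 / (bra 4 N : ℕ)) (prm_ok he hn1) (16 * e)
  rw [hmax] at key
  have k1 := b1 e N (lvl g 4 N)
  have k2 := b2 e N (lvl g 4 N)
  have k3 := Y_mul_lt he (lvl g 4 N) hy
  have k4 := b4 e N (lvl g 4 N)
  have k5 := two_pN_le e N (lvl g 4 N)
  have k6 := pQ_pos e N (lvl g 4 N)
  exact key (by omega) hw (hx.trans hlen) (hy.trans hlen) hE hdJ hdT (picker_ok h _) hCd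
    k1 k2 k3 k4 k5 (lam_nonneg e N) Out (pQ e N (lvl g 4 N)) hrun hv hh k6 hA

/-- the assumptions of the strategy -/
theorem main_ok (he : 1 ≤ e) {x y : List ℕ} {N : ℕ} (hy : y.length ≤ N) (h : Reg e g N)
    {seeds : List ℕ} (hs : pR e N (lvl g 4 N) ≤ seeds.length) :
    MainOk x y (prm e N (lvl g 4 N)) (pP e N (lvl g 4 N)) (sT N) seeds := by
  have hR : pP e N (lvl g 4 N) ≤ 16 + seeds.length := by
    have := P_le_R e N (lvl g 4 N)
    omega
  obtain ⟨c1, c2, c3, c4, c5, c6, c7⟩ := feed_ok he h hy hR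
  exact {
    M_two := bra_ge N
    Y_le := Y_le_w he _ hy
    D_gt := Y_mul_lt he _ hy
    len_M := c1
    len_n := c2
    len_w := c3
    len_N := c4
    len_T := c5
    len_K := c6
    len_Y := c7
    big := fun F hF => hbig_visc hF (by have := bra_ge N; show 1 ≤ bra 4 N; omega) x y }

end Vale.Agent.P315.OT.Num
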