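import Vale.Agent.P315.OT.Num

/-!
P315, one-scale track, OT-9: the time.
-/

set_option autoImplicit false

namespace Vale.Agent.P315.OT.Num

open Vale.Agent.P315.H738

/-- The bound `N ^ 2 / exp (c log N / (log log N) ^ 3)` (with `N + 16` for `N`). -/
noncomputable def bd (c : ℝ) (N : ℕ) : ℝ :=
  ((N : ℝ) + 16) ^ 2 *
    Real.exp (-(c * Real.log ((N : ℝ) + 16) / Real.log (Real.log ((N : ℝ) + 16)) ^ 3))

theorem bd_pos (c : ℝ) (N : ℕ) : 0 < bd c N := by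
  unfold bd
  have : (0 : ℝ) ≤ N := Nat.cast_nonneg N
  positivity

/-- linear terms -/
theorem le_bd {c : ℝ} (hc : c ≤ 1) (N : ℕ) : (N : ℝ) + 16 ≤ bd c N := by
  have h0 : (0 : ℝ) ≤ N := Nat.cast_nonneg N
  have h1 := loglog_ge N
  set l1 := Real.log ((N : ℝ) + 16) with hl1
  set l2 := Real.log l1 with hl2
  have h2 := log_N_ge N
  have hlog2 : 0 < Real.log 2 := Real.log_pos (by norm_num)
  have h3 : 0 ≤ l1 := by linarith
  have h4 : (1 : ℝ) ≤ l2 ^ 3 := one_le_pow₀ h1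
  have h5 : c * l1 / l2 ^ 3 ≤ l1 := by
    rw [div_le_iff₀ (by positivity)]
    have : c * l1 ≤ 1 * l1 := mul_le_mul_of_nonneg_right hc h3
    nlinarith
  have h6 : Real.exp (-l1) ≤ Real.exp (-(c * l1 / l2 ^ 3)) := Real.exp_le_exp.2 (by linarith)
  have h7 : Real.exp (-l1) = ((N : ℝ) + 16)⁻¹ := by
    rw [Real.exp_neg, hl1, Real.exp_log (by positivity)]
  have h8 : ((N : ℝ) + 16) ^ 2 * ((N : ℝ) + 16)⁻¹ = (N : ℝ) + 16 := by field_simp
  unfold bd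
  calc (N : ℝ) + 16 = ((N : ℝ) + 16) ^ 2 * ((N : ℝ) + 16)⁻¹ := h8.symm
    _ ≤ _ := by
        rw [← h7]
        exact mul_le_mul_of_nonneg_left h6 (by positivity)

theorem bd_anti {c c' : ℝ} (h : c' ≤ c) (N : ℕ) : bd c N ≤ bd c' N := by
  unfold bd
  have h0 : (0 : ℝ) ≤ N := Nat.cast_nonneg N
  apply mul_le_mul_of_nonneg_left _ (by positivity)
  apply Real.exp_le_exp.2
  have h1 := loglog_ge N
  have h2 := log_N_ge N
  have hlog2 : 0 < Real.log 2 := Real.log_pos (by norm_num)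
  apply neg_le_neg
  apply div_le_div_of_nonneg_right _ (by positivity)
  exact mul_le_mul_of_nonneg_right h (by linarith)

/-- time of one cell, up to a constant -/
def cellT (e N n : ℕ) : ℕ := (pm e N * pg e N n + 1) * (pw e N * pg e N n + 1)

theorem cellT_mul_le {e N n : ℕ} (he : 1 ≤ e) (h : pK N n * pm e N ≤ N) :
    cellT e N n * pK N n ^ 2 ≤ 16 * (16 * e + 1) * N ^ 2 := by
  have hm := pm_pos (N := N) he
  have hg := pg_pos e N n
  have hw := pw_pos (N := N) he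
  have h1 : pK N n * pm e N * pg e N n ≤ 2 * N := by
    have := @len_le e N n
    omega
  have h2 : pm e N * pg e N n + 1 ≤ 2 * (pm e N * pg e N n) := by
    have : 1 ≤ pm e N * pg e N n := Nat.mul_pos hm hg
    omega
  have h3 : pw e N * pg e N n + 1 ≤ 2 * (pw e N * pg e N n) := by
    have : 1 ≤ pw e N * pg e N n := Nat.mul_pos hw hg
    omega
  unfold cellT
  calc (pm e N * pg e N n + 1) * (pw e N * pg e N n + 1) * pK N n ^ 2
      ≤ 2 * (pm e N * pg e N n) * (2 * (pw e N * pg e N n)) * pK N n ^ 2 :=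
        Nat.mul_le_mul_right _ (Nat.mul_le_mul h2 h3)
    _ = 4 * (16 * e + 1) * (pK N n * pm e N * pg e N n) ^ 2 := by unfold pw; ring
    _ ≤ 4 * (16 * e + 1) * (2 * N) ^ 2 := Nat.mul_le_mul_left _ (Nat.pow_le_pow_left h1 2)
    _ = _ := by ring

theorem pE_le_n (e N n : ℕ) : pE e N n ≤ n := Nat.div_le_self _ _

theorem two_pow_pE_le (e N n : ℕ) : 2 ^ pE e N n ≤ pK N n ^ 2 := by
  have h1 : 2 ^ pE e N n ≤ 2 ^ n := Nat.pow_le_pow_right (by norm_num) (pE_le_n e N n)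
  have h2 : 2 ^ n ≤ pK N n := Nat.pow_le_pow_left (bra_ge N) n
  have h3 : pK N n ≤ pK N n ^ 2 := Nat.le_self_pow (by norm_num) _
  omega

/-- the reads -/
theorem reads_time {e N n : ℕ} (he : 1 ≤ e) (h : pK N n * pm e N ≤ N) :
    (pQ e N n : ℝ) * cellT e N n ≤
      (16 * (16 * e + 1) * 121 * cw e ^ 2 : ℕ) * (lg N : ℝ) ^ 4 / 2 ^ pE e N n *
        (N : ℝ) ^ 2 := by
  have hX := cellT_mul_le he h
  have hw := pw_pos (N := N) he
  have hK := pK_pos N n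
  set X := cellT e N n with hXd
  set K := pK N n with hKd
  set w := pw e N with hwd
  set P := 2 ^ pE e N n with hP
  have hP0 : 0 < P := by positivity
  have hPK : P ≤ K ^ 2 := two_pow_pE_le e N n
  -- `pQ * P ≤ 121 w ^ 2 K ^ 2`
  have h1 : pQ e N n * P ≤ 121 * w ^ 2 * K ^ 2 := by
    unfold pQ
    rw [add_mul, one_mul]
    have h2 : 20 * ((2 * w + 1) * (w + 1) * K ^ 2) / P * P ≤ 20 * ((2 * w + 1) * (w + 1) * K ^ 2) :=
      Nat.div_mul_le_self _ _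
    have h3 : (2 * w + 1) * (w + 1) ≤ 6 * w ^ 2 := by nlinarith
    have h4 : 20 * ((2 * w + 1) * (w + 1) * K ^ 2) ≤ 20 * (6 * w ^ 2 * K ^ 2) :=
      Nat.mul_le_mul_left _ (Nat.mul_le_mul_right _ h3)
    have h5 : K ^ 2 ≤ w ^ 2 * K ^ 2 := Nat.le_mul_of_pos_left _ (by positivity)
    calc 20 * ((2 * w + 1) * (w + 1) * K ^ 2) / P * P + P
        ≤ 20 * (6 * w ^ 2 * K ^ 2) + w ^ 2 * K ^ 2 := by omega
      _ = 121 * w ^ 2 * K ^ 2 := by ring
  have hbL : ll N ≤ lg N := ll_le_lg N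
  have h6 : w ^ 2 ≤ cw e ^ 2 * lg N ^ 4 := by
    rw [hwd, pw_eq]
    calc (cw e * (ll N * lg N)) ^ 2 ≤ (cw e * (lg N * lg N)) ^ 2 :=
          Nat.pow_le_pow_left (Nat.mul_le_mul_left _ (Nat.mul_le_mul_right _ hbL)) 2
      _ = _ := by ring
  have h7 : pQ e N n * X * P ≤ 16 * (16 * e + 1) * 121 * cw e ^ 2 * lg N ^ 4 * N ^ 2 := by
    calc pQ e N n * X * P = (pQ e N n * P) * X := by ring
      _ ≤ (121 * w ^ 2 * K ^ 2) * X := Nat.mul_le_mul_right _ h1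
      _ = 121 * w ^ 2 * (X * K ^ 2) := by ring
      _ ≤ 121 * (cw e ^ 2 * lg N ^ 4) * (16 * (16 * e + 1) * N ^ 2) :=
          Nat.mul_le_mul (Nat.mul_le_mul_left _ h6) hX
      _ = _ := by ring
  have h8 : ((pQ e N n * X * P : ℕ) : ℝ) ≤
      ((16 * (16 * e + 1) * 121 * cw e ^ 2 * lg N ^ 4 * N ^ 2 : ℕ) : ℝ) := Nat.cast_le.2 h7
  have hP' : ((P : ℕ) : ℝ) = 2 ^ pE e N n := by rw [hP]; push_cast; ring
  have hP0' : (0 : ℝ) < 2 ^ pE e N n := by positivity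
  rw [div_mul_eq_mul_div, le_div_iff₀ hP0', ← hP']
  push_cast at h8 ⊢
  linarith

/-- **OT-9, the time**: reads, linear part, and the overheads `C₀ K ^ a (L + 1) ^ r`. -/
theorem time_num (e g a r C₀ : ℕ) (he : 1 ≤ e) (hg : 2 ≤ g) (ha : 2 * a ≤ g) :
    ∃ c : ℝ, 0 < c ∧ c ≤ 1 ∧ ∃ (C : ℝ) (N0 : ℕ), 0 ≤ C ∧ ∀ N : ℕ, N0 ≤ N →
      (C₀ : ℝ) * ((pQ e N (lvl g 4 N) : ℝ) * cellT e N (lvl g 4 N)) + C₀ * ((N : ℝ) + 16)
        + C₀ * ((rws g 4 N : ℝ) ^ a * ((lg N : ℝ) + 1) ^ r) ≤ C * bd c N := by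
  obtain ⟨N1, h1⟩ := ev_reg e g he hg
  obtain ⟨N2, h2⟩ := ev_over a r 1 g ha
  obtain ⟨c, hc, N3, h3⟩ := final_exp g 4 (cE e) (16 * (16 * e + 1) * 121 * cw e ^ 2) 4
    (by omega) (by norm_num) (by unfold cE; exact Nat.one_le_iff_ne_zero.2 (by positivity))
  refine ⟨min c 1, lt_min hc one_pos, min_le_right _ _, 4 * C₀, max N1 (max N2 N3), by positivity,
    fun N hN => ?_⟩
  have hR := h1 N ((le_max_left _ _).trans hN)
  have hO := h2 N ((le_max_left _ _).trans ((le_max_right _ _).trans hN))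
  have hE := h3 N ((le_max_right _ _).trans ((le_max_right _ _).trans hN))
  have hC0 : (0 : ℝ) ≤ C₀ := Nat.cast_nonneg _
  have hN0 : (0 : ℝ) ≤ N := Nat.cast_nonneg _
  have hlin : (N : ℝ) + 16 ≤ bd (min c 1) N :=
    le_bd (min_le_right _ _) N
  have hrow : pK N (lvl g 4 N) * pm e N ≤ N := by
    have h4 := hR.rows
    have h5 : 1 * (rws g 4 N * pm e N) ≤ 16 * e * (rws g 4 N * pm e N) :=
      Nat.mul_le_mul_right _ (by omega)
    change rws g 4 N * pm e N ≤ N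
    omega
  -- the reads
  have t1 : (pQ e N (lvl g 4 N) : ℝ) * cellT e N (lvl g 4 N) ≤ 2 * bd (min c 1) N := by
    refine (reads_time he hrow).trans ?_
    have h6 : (2 : ℝ) * bd c N ≤ 2 * bd (min c 1) N := by
      have := bd_anti (min_le_left c 1) N
      linarith
    refine le_trans ?_ h6
    unfold bd
    have h7 : (N : ℝ) ^ 2 ≤ ((N : ℝ) + 16) ^ 2 := pow_le_pow_left₀ hN0 (by linarith) 2
    have h8 := mul_le_mul hE h7 (by positivity)
      (mul_nonneg (by norm_num : (0 : ℝ) ≤ 2) (Real.exp_pos _).le)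
    refine h8.trans (le_of_eq ?_)
    ring
  -- the overheads
  have t2 : (rws g 4 N : ℝ) ^ a * ((lg N : ℝ) + 1) ^ r ≤ bd (min c 1) N := by
    refine le_trans ?_ hlin
    have h9 : ((1 * rws g 4 N ^ a * (lg N + 1) ^ r : ℕ) : ℝ) ≤ ((N + 2 : ℕ) : ℝ) :=
      Nat.cast_le.2 hO
    push_cast at h9
    rw [one_mul] at h9
    linarith
  have s1 := mul_le_mul_of_nonneg_left t1 hC0
  have s2 := mul_le_mul_of_nonneg_left t2 hC0
  have s3 := mul_le_mul_of_nonneg_left hlin hC0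
  linarith

/-! ### Sizes of the parameters -/

theorem pRd_le {e N n : ℕ} (he : 1 ≤ e) (hn : n ≤ lg N) :
    pRd e N n ≤ 65540 * e ^ 2 * (lg N + 1) ^ 2 := by
  have h1 : pN e N n ≤ pJ e N * n := pN_le e N n
  have h2 : pJ e N * n ≤ 32768 * e ^ 2 * (lg N * lg N) := by
    calc pJ e N * n ≤ 32768 * e ^ 2 * ll N * lg N := Nat.mul_le_mul (pJ_le he) hn
      _ ≤ 32768 * e ^ 2 * lg N * lg N :=
          Nat.mul_le_mul_right _ (Nat.mul_le_mul_left _ (ll_le_lg N))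
      _ = _ := by ring
  have h3 : 1 ≤ e ^ 2 * (lg N + 1) ^ 2 := Nat.one_le_iff_ne_zero.2 (by positivity)
  have h4 : lg N * lg N ≤ (lg N + 1) ^ 2 := by nlinarith
  have h5 : 32768 * e ^ 2 * (lg N * lg N) ≤ 32768 * e ^ 2 * (lg N + 1) ^ 2 :=
    Nat.mul_le_mul_left _ h4
  unfold pRd
  have e1 : 65540 * e ^ 2 * (lg N + 1) ^ 2 = 2 * (32768 * e ^ 2 * (lg N + 1) ^ 2) +
    4 * (e ^ 2 * (lg N + 1) ^ 2) := by ring
  omega

theorem pw_le (e N : ℕ) : pw e N ≤ cw e * (lg N + 1) ^ 2 := by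
  rw [pw_eq]
  apply Nat.mul_le_mul_left
  calc ll N * lg N ≤ (lg N + 1) * (lg N + 1) :=
        Nat.mul_le_mul ((ll_le_lg N).trans (Nat.le_succ _)) (Nat.le_succ _)
    _ = _ := by ring

/-- constant for `pP` -/
def cP (e : ℕ) : ℕ := cw e + 2 + 2 * (65540 * e ^ 2) + 5

theorem pP_le {e N n : ℕ} (he : 1 ≤ e) (hn : n ≤ lg N) :
    pP e N n ≤ cP e * (pK N n * (lg N + 1) ^ 2) := by
  have h1 := pRd_le he hn
  have h2 : pm e N ≤ cw e * (lg N + 1) ^ 2 := (pm_le_pw e N).trans (pw_le e N)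
  have hK := pK_pos N n
  unfold pP cP
  set X := (lg N + 1) ^ 2 with hX
  set K := pK N n with hKd
  have hX1 : 1 ≤ X := Nat.one_le_iff_ne_zero.2 (by positivity)
  have hL : lg N + 1 ≤ X := by rw [hX]; nlinarith
  have hKX : X ≤ K * X := Nat.le_mul_of_pos_left _ hK
  have hXK : K ≤ K * X := Nat.le_mul_of_pos_right _ hX1
  have h3 : (pm e N + 2) * K ≤ (cw e + 2) * (K * X) := by
    calc (pm e N + 2) * K ≤ (cw e * X + 2 * X) * K := Nat.mul_le_mul_right _ (by omega)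
      _ = _ := by ring
  have h4 : pRd e N n ≤ 65540 * e ^ 2 * (K * X) := h1.trans (Nat.mul_le_mul_left _ hKX)
  have e1 : (cw e + 2 + 2 * (65540 * e ^ 2) + 5) * (K * X) =
      (cw e + 2) * (K * X) + 2 * (65540 * e ^ 2 * (K * X)) + 5 * (K * X) := by ring
  omega

theorem pQ_le {e N n : ℕ} (he : 1 ≤ e) :
    pQ e N n ≤ 121 * cw e ^ 2 * (pK N n ^ 2 * (lg N + 1) ^ 4) := by
  have hw := pw_pos (N := N) he
  have hK := pK_pos N n
  have h1 := pw_le e N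
  set w := pw e N with hwd
  have h3 : (2 * w + 1) * (w + 1) ≤ 6 * w ^ 2 := by nlinarith
  have h4 : 20 * ((2 * w + 1) * (w + 1) * pK N n ^ 2) ≤ 20 * (6 * w ^ 2 * pK N n ^ 2) :=
    Nat.mul_le_mul_left _ (Nat.mul_le_mul_right _ h3)
  have h5 : 20 * ((2 * w + 1) * (w + 1) * pK N n ^ 2) / 2 ^ pE e N n ≤
      20 * ((2 * w + 1) * (w + 1) * pK N n ^ 2) := Nat.div_le_self _ _
  have h6 : 1 ≤ w ^ 2 * pK N n ^ 2 := Nat.one_le_iff_ne_zero.2 (by positivity)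
  unfold pQ
  calc 20 * ((2 * w + 1) * (w + 1) * pK N n ^ 2) / 2 ^ pE e N n + 1
      ≤ 121 * (w ^ 2 * pK N n ^ 2) := by
        have e1 : 20 * (6 * w ^ 2 * pK N n ^ 2) = 120 * (w ^ 2 * pK N n ^ 2) := by ring
        omega
    _ ≤ 121 * ((cw e * (lg N + 1) ^ 2) ^ 2 * pK N n ^ 2) :=
        Nat.mul_le_mul_left _ (Nat.mul_le_mul_right _ (Nat.pow_le_pow_left h1 2))
    _ = _ := by ring

end Vale.Agent.P315.OT.Num
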