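import Vale.Agent.P315.OT.VisPT
import Vale.Agent.P315.OT.Picker
import Vale.Agent.P315.H167.ParPT

/-!
P315, one-scale track, OT-10: the final parameter functions of `a = [|x|, |y|]` and their
computability in polynomial time.
-/

set_option autoImplicit false

namespace Vale.Agent.P315.OT

open Vale.Agent.Lib.PolyTime Vale.Agent.P315.H738

/-- The larger length. -/
def zN (a : List ℕ) : ℕ := max (a.getD 0 0) (a.getD 1 0)

/-- The number of levels. -/
def zn (g : ℕ) (a : List ℕ) : ℕ := lvl g 4 (zN a)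

/-- The parameters. -/
def zQ (e g : ℕ) (a : List ℕ) : Prm := Num.prm e (zN a) (zn g a)

/-- The modulus of the codes. -/
def zD (e g : ℕ) (a : List ℕ) : ℕ := Num.pP e (zN a) (zn g a)

/-- The number of seeds. -/
def zR (e g : ℕ) (a : List ℕ) : ℕ := zD e g a ^ 2 + zD e g a ^ 6

/-- The number of paths of the picker. -/
def zT (a : List ℕ) : ℕ := 2 ^ (44 * ll (zN a))

/-- The rounding of the picker. -/
def zS (a : List ℕ) : ℕ := 2 ^ (52 * ll (zN a))

/-- The modulus of the seeds. -/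
def zE (e : ℕ) (a : List ℕ) : ℕ := zT a * Num.pJ1 e (zN a)

/-- The end of the root. -/
def zY (e g : ℕ) (a : List ℕ) : ℕ :=
  a.getD 1 0 / (Num.pK (zN a) (zn g a) * Num.pg e (zN a) (zn g a)) + 1

/-- The fixed part of the feed. -/
def zpre (e g : ℕ) (a : List ℕ) : List ℕ :=
  preF (a.getD 0 0) (a.getD 1 0) (zQ e g a) (zD e g a) (zY e g a) (zT a) (zS a)

/-- The length of a row. -/
def zl (e g : ℕ) (a : List ℕ) : ℕ := Num.pm e (zN a) * Num.pg e (zN a) (zn g a)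

/-- The unit. -/
def zg (e g : ℕ) (a : List ℕ) : ℕ := Num.pg e (zN a) (zn g a)

/-- The number of rounds. -/
def zRq (e g : ℕ) (a : List ℕ) : ℕ := Num.pQ e (zN a) (zn g a)

section values

variable (e g : ℕ) (x y : List ℕ)

theorem zN_eq : zN [x.length, y.length] = max x.length y.length := rfl

theorem zY_eq : zY e g [x.length, y.length] = (zQ e g [x.length, y.length]).Y y := rfl

theorem zl_eq (a : List ℕ) : zl e g a = (zQ e g a).l0 := rfl

theorem zg_eq (a : List ℕ) : zg e g a = (zQ e g a).g0 := rfl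

theorem zpre_eq : zpre e g [x.length, y.length] =
    preF x.length y.length (zQ e g [x.length, y.length]) (zD e g [x.length, y.length])
      ((zQ e g [x.length, y.length]).Y y) (zT [x.length, y.length])
      (zS [x.length, y.length]) := rfl

theorem zT_dvd (a : List ℕ) : zT a ∣ zE e a := Dvd.intro _ rfl

theorem zJ_dvd (a : List ℕ) : ((zQ e g a).J + 1) ∣ zE e a := by
  show (Num.pJ e (zN a) + 1) ∣ _
  rw [Num.pJ_add]
  exact Dvd.intro_left _ rfl

theorem zE_pow (a : List ℕ) : ∃ j, zE e a = 2 ^ j :=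
  ⟨44 * ll (zN a) + (Nat.log 2 (16384 * e ^ 2 * ll (zN a)) + 1), by
    unfold zE zT Num.pJ1
    rw [← pow_add]⟩

theorem zE_pos (a : List ℕ) : 0 < zE e a := by
  obtain ⟨j, hj⟩ := zE_pow e a
  rw [hj]
  exact Nat.pow_pos (by norm_num)

end values

/-! ### Polynomial time -/

@[fun_prop]
theorem PT_zN : PT ∅ zN := by unfold zN; fun_prop

theorem PT_zn (g : ℕ) : PT ∅ (zn g) := Num.PT_lvl g 4 PT_zN

theorem PBd_zn (g : ℕ) : PBd (zn g) := Num.PBd_lvl' g 4 PT_zN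

theorem PT_zD (e g : ℕ) : PT ∅ (zD e g) := Num.PT_pP e PT_zN (PT_zn g) (PBd_zn g)

theorem PT_zR (e g : ℕ) : PT ∅ (zR e g) :=
  PT.add (PT.powConst (PT_zD e g) 2) (PT.powConst (PT_zD e g) 6)

theorem PT_zT : PT ∅ zT := Num.PT_two_pow_ll PT_zN 44

theorem PT_zS : PT ∅ zS := Num.PT_two_pow_ll PT_zN 52

theorem PT_zE (e : ℕ) : PT ∅ (zE e) := PT.mul PT_zT (Num.PT_pJ1 e PT_zN)

theorem PT_zg (e g : ℕ) : PT ∅ (zg e g) := Num.PT_pg e PT_zN (PT_zn g) (PBd_zn g)

theorem PT_zl (e g : ℕ) : PT ∅ (zl e g) := PT.mul (Num.PT_pm e PT_zN) (PT_zg e g)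

theorem PT_zRq (e g : ℕ) : PT ∅ (zRq e g) := Num.PT_pQ e PT_zN (PT_zn g) (PBd_zn g)

theorem PT_zY (e g : ℕ) : PT ∅ (zY e g) :=
  PT.add (PT.div (by fun_prop) (PT.mul (Num.PT_pK PT_zN (PT_zn g) (PBd_zn g)) (PT_zg e g)))
    (PT.const 1)

theorem PT_zpre (e g : ℕ) : PT ∅ (zpre e g) :=
  PT_preF (by fun_prop) (by fun_prop) (Num.PT_bra 4 PT_zN) (PT_zn g) (Num.PT_pm e PT_zN)
    (Num.PT_pw e PT_zN) (PT_zg e g) (Num.PT_pJ e PT_zN) (Num.PT_pN e PT_zN (PT_zn g))
    (Num.PT_pA e PT_zN) (PT_zD e g) (PT_zY e g) PT_zT PT_zS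

end Vale.Agent.P315.OT
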