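import Vale.Agent.P315.OT.Picker
import Vale.Agent.P315.H763.SolverPT
import Vale.Agent.P315.H155.Auto

/-!
P315, one-scale track, block OT-4a: the list function of the picker is computable in polynomial
time.
-/

set_option autoImplicit false

namespace Vale.Agent.P315.OT

open Vale.Agent.Lib.PolyTime

variable {α : Type*} [Enc α]

/-- A sum over a range as a sum of a list. -/
theorem sum_range_list (n : ℕ) (f : ℕ → ℕ) :
    ∑ i ∈ Finset.range n, f i = ((List.range n).map f).sum := by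
  induction n with
  | zero => rfl
  | succ n ih => rw [Finset.sum_range_succ, List.range_succ, List.map_append, List.sum_append, ih]
                 simp

theorem PT_sum_range {n : α → ℕ} {f : α → ℕ → ℕ} (hn : PT ∅ n) (hnb : PBd n)
    (hf : PT ∅ (fun x : α × ℕ => f x.1 x.2)) :
    PT ∅ (fun a => ∑ i ∈ Finset.range (n a), f a i) := by
  simp only [sum_range_list]
  exact (PT.map (PT.range hn hnb) hf).sum

theorem PT_hget {H : α → List (List (List (List ℕ)))} {k i r r' : α → ℕ} (hH : PT ∅ H)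
    (hk : PT ∅ k) (hi : PT ∅ i) (hr : PT ∅ r) (hr' : PT ∅ r') :
    PT ∅ (fun a => hget (H a) (k a) (i a) (r a) (r' a)) :=
  (((hH.getD hk (PT.const [])).getD hi (PT.const [])).getD hr (PT.const [])).getD hr' (PT.const 0)

theorem PT_linX {C q b : α → ℕ} {g : α → ℕ → ℕ} (hC : PT ∅ C) (hq : PT ∅ q) (hb : PT ∅ b)
    (hbb : PBd b) (hg : PT ∅ (fun x : α × ℕ => g x.1 x.2)) :
    PT ∅ (fun a => linX (C a) (q a) (b a) (g a)) := by
  unfold linX
  have h1 : PT ∅ (fun x : α × ℕ => g x.1 (q x.1 + x.2)) :=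
    hg.comp (PT.fst'.pair ((hq.comp PT.fst').add PT.snd'))
  have h2 : PT ∅ (fun x : α × ℕ => g x.1 (q x.1 + x.2 + 1)) :=
    hg.comp (PT.fst'.pair (((hq.comp PT.fst').add PT.snd').add (PT.const 1)))
  refine PT.sub (PT.mul (PT.const 2) (PT_sum_range ?_ ?_ h1)) (PT_sum_range ?_ ?_ ?_)
  · exact (hb.add (PT.const 1)).sub hq
  · fun_prop
  · exact hb.sub hq
  · fun_prop
  · exact PT.min (h1.sub h2) (hC.comp PT.fst')

theorem PT_linE {S C q b i r r' : α → ℕ} {H : α → List (List (List (List ℕ)))} (hS : PT ∅ S)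
    (hC : PT ∅ C) (hq : PT ∅ q) (hb : PT ∅ b) (hbb : PBd b) (hH : PT ∅ H) (hi : PT ∅ i)
    (hr : PT ∅ r) (hr' : PT ∅ r') :
    PT ∅ (fun a => linE (S a) (C a) (q a) (b a) 0 (hget (H a)) (i a) (r a) (r' a)) := by
  unfold linE
  simp only [Nat.zero_add]
  exact hS.mul (PT_linX hC hq hb hbb (PT_hget (hH.comp PT.fst') PT.snd' (hi.comp PT.fst')
    (hr.comp PT.fst') (hr'.comp PT.fst')))

theorem PT_bigE {S C T M p q b : α → ℕ} {H : α → List (List (List (List ℕ)))} (hS : PT ∅ S)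
    (hC : PT ∅ C) (hT : PT ∅ T) (hM : PT ∅ M) (hMb : PBd M) (hp : PT ∅ p) (hpb : PBd p)
    (hq : PT ∅ q) (hb : PT ∅ b) (hbb : PBd b) (hH : PT ∅ H) :
    PT ∅ (fun a => bigE (S a) (C a) (T a) (M a) (p a) (q a) (b a) 0 (hget (H a))) := by
  unfold bigE
  refine ((PT.const 1).add (hM.mul (hC.mul (hS.mul hT)))).add (PT_sum_range hM hMb ?_)
  refine PT_sum_range (hp.comp PT.fst') (by fun_prop) ?_
  refine PT_sum_range (hp.comp PT.fst'.fst) (by fun_prop) ?_
  have e1 : PT ∅ (fun x : ((α × ℕ) × ℕ) × ℕ => x.1.1.1) := PT.fst'.fst.fst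
  exact PT_linE (hS.comp e1) (hC.comp e1) (hq.comp e1) (hb.comp e1) (by fun_prop) (hH.comp e1)
    PT.fst'.fst.snd PT.fst'.snd PT.snd'

theorem PT_liTab {S C T M p q b : α → ℕ} {H : α → List (List (List (List ℕ)))} (hS : PT ∅ S)
    (hC : PT ∅ C) (hT : PT ∅ T) (hM : PT ∅ M) (hMb : PBd M) (hp : PT ∅ p) (hpb : PBd p)
    (hq : PT ∅ q) (hb : PT ∅ b) (hbb : PBd b) (hH : PT ∅ H) :
    PT ∅ (fun a => liTab (S a) (C a) (T a) (M a) (p a) (q a) (b a) 0 (hget (H a))) := by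
  unfold liTab
  refine PT.map (f := fun a i => (List.range (p a)).map fun r => (List.range (p a)).map fun r' =>
    if r ≤ r' then linE (S a) (C a) (q a) (b a) 0 (hget (H a)) i r r'
    else bigE (S a) (C a) (T a) (M a) (p a) (q a) (b a) 0 (hget (H a))) (PT.range hM hMb) ?_
  refine PT.map (f := fun (x : α × ℕ) r => (List.range (p x.1)).map fun r' =>
    if r ≤ r' then linE (S x.1) (C x.1) (q x.1) (b x.1) 0 (hget (H x.1)) x.2 r r'
    else bigE (S x.1) (C x.1) (T x.1) (M x.1) (p x.1) (q x.1) (b x.1) 0 (hget (H x.1)))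
    ((PT.range hp hpb).comp PT.fst') ?_
  refine PT.map (f := fun (x : (α × ℕ) × ℕ) r' =>
    if x.2 ≤ r' then linE (S x.1.1) (C x.1.1) (q x.1.1) (b x.1.1) 0 (hget (H x.1.1)) x.1.2 x.2 r'
    else bigE (S x.1.1) (C x.1.1) (T x.1.1) (M x.1.1) (p x.1.1) (q x.1.1) (b x.1.1) 0
      (hget (H x.1.1))) ((PT.range hp hpb).comp PT.fst'.fst) ?_
  have e1 : PT ∅ (fun x : ((α × ℕ) × ℕ) × ℕ => x.1.1.1) := PT.fst'.fst.fst
  refine PT.ite (PT.le PT.fst'.snd PT.snd') ?_ ?_
  · exact PT_linE (hS.comp e1) (hC.comp e1) (hq.comp e1) (hb.comp e1) (by fun_prop) (hH.comp e1)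
      PT.fst'.fst.snd PT.fst'.snd PT.snd'
  · exact PT_bigE (hS.comp e1) (hC.comp e1) (hT.comp e1) (hM.comp e1) (by fun_prop) (hp.comp e1)
      (by fun_prop) (hq.comp e1) (hb.comp e1) (by fun_prop) (hH.comp e1)

/-- The list function of the picker is computable in polynomial time. -/
@[fun_prop]
theorem PT_pkL {S C T M p q k t : α → ℕ} {H : α → List (List (List (List ℕ)))} (hS : PT ∅ S)
    (hT : PT ∅ T) (hTb : PBd T) (hM : PT ∅ M) (hMb : PBd M) (hp : PT ∅ p) (hpb : PBd p)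
    (hC : PT ∅ C) (hq : PT ∅ q) (hk : PT ∅ k) (hkb : PBd k) (hH : PT ∅ H) (ht : PT ∅ t) :
    PT ∅ (fun a => pkL (S a) (T a) (M a) (p a) (C a) (q a) (k a) (H a) (t a)) := by
  unfold pkL
  refine (H763.pt_picks hS hC (PT.const 0) hp hT hTb ?_).getD (ht.mod hT) (PT.const [])
  exact PT_liTab hS hC hT hM hMb (hp.add (PT.const 1)) (by fun_prop) hq hk hkb hH

example {p q : α → ℕ} {k : α → List ℕ} {H : α → List (List (List (List ℕ)))} (hk : PT ∅ k)
    (hp : PT ∅ p) (hpb : PBd p) (hq : PT ∅ q) (hH : PT ∅ H) :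
    PT ∅ (fun a => pkL 5 7 ((k a).length) (p a) 8 (q a) ((k a).length) (H a) (q a)) := by
  fun_prop

end Vale.Agent.P315.OT
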