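import Vale.Agent.P315.OT.Alg
import Vale.Agent.P315.H866.Cut
import Vale.Agent.P315.H731.Avg

/-!
P315, one-scale track: pickers (the machine, abstractly), random schedule, the curves of the
comparison path, and the statements of the blocks OT-3, …, OT-6 (as `Prop`s).
-/

set_option autoImplicit false

namespace Vale.Agent.P315.OT

open Finset

/-! ### Pickers: the machine -/

/-- A machine: `pk M a c C q k f t` is the `t`-th chain (`t < T`) proposed in round `k` by the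
machine started in round `q`, for chains of `M` steps from `a` to `c`, with the cap `C`, and the
history `f` (`f k' i u v`, `k' ≤ k`). -/
structure Picker where
  T : ℕ
  pk : (M a c C q k : ℕ) → (f : ℕ → ℕ → ℕ → ℕ → ℕ) → (t : ℕ) → ℕ → ℕ

/-- Mean cost of the proposals of round `k` at the costs of round `k + 1`. -/
noncomputable def Picker.mean (P : Picker) (M a c C q k : ℕ) (f : ℕ → ℕ → ℕ → ℕ → ℕ) : ℝ :=
  (∑ t ∈ range P.T, (chainCost (f (k + 1)) M (P.pk M a c C q k (cut k f) t) : ℝ)) / P.T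

/-- The regret inequality (MD) of the machine, for at most `R` rounds, ranges at most `W`. -/
structure Picker.Ok (P : Picker) (M W R : ℕ) (Lg e3 : ℝ) : Prop where
  T_pos : 0 < P.T
  e3_nonneg : 0 ≤ e3
  Lg_nonneg : 0 ≤ Lg
  chain : ∀ a c C q k f t, a ≤ c → t < P.T → IsChain M a c (P.pk M a c C q k f t)
  loc : ∀ a c C q k (f f' : ℕ → ℕ → ℕ → ℕ → ℕ) t, (∀ k' ≤ k, ∀ i < M, ∀ u v, a ≤ u → u ≤ v → v ≤ c →
    f k' i u v = f' k' i u v) → P.pk M a c C q k f t = P.pk M a c C q k f' t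
  regret : ∀ a c C q B (f : ℕ → ℕ → ℕ → ℕ → ℕ) z, a ≤ c → c ≤ a + W → 0 < C → q ≤ B →
    B ≤ q + R → (∀ k i u v, u ≤ v → f (k + 1) i u v ≤ f k i u v) → IsChain M a c z →
    (∑ k ∈ Ico q B, ∑ i ∈ range M,
      ((min (f k i (z i) (z (i + 1)) - f (k + 1) i (z i) (z (i + 1))) C : ℕ) : ℝ)) ≤
      2 * ∑ k ∈ Ico q B, ((chainCost (f k) M z : ℝ) - P.mean M a c C q k f)
        + C * M * (Lg + R * e3)

/-! ### Parameters, coins, schedule -/

/-- Parameters: branching `M`, levels `n`, mesh `m` (units per row length), width `w`, unit `g0`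
(symbols), jitters `0..J`, root index `N`, `1/A` = the cap, `Rd` = bound for the rounds. -/
structure Prm where
  M : ℕ
  n : ℕ
  m : ℕ
  w : ℕ
  g0 : ℕ
  J : ℕ
  N : ℕ
  A : ℕ
  Rd : ℕ

/-- Length of a row, in symbols. -/
def Prm.l0 (Q : Prm) : ℕ := Q.m * Q.g0

/-- Length of a slab of level `j`. -/
def Prm.len (Q : Prm) (j : ℕ) : ℕ := Q.M ^ j * Q.l0

/-- The cap of the machines whose units are the slabs of level `j`. -/
def Prm.C (Q : Prm) (j : ℕ) : ℕ := Q.len j / Q.A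

/-- The instance with given leaf costs. -/
def Prm.inst (Q : Prm) (hid vis : ℕ → ℕ → ℕ → ℕ) : Inst where
  M := Q.M
  w := Q.w
  g := fun j => Q.M ^ j * Q.g0
  hid := hid
  vis := vis

/-- Admissible parameters. -/
structure Prm.Ok (Q : Prm) : Prop where
  M_two : 2 ≤ Q.M
  n_pos : 1 ≤ Q.n
  m_pos : 1 ≤ Q.m
  g0_pos : 1 ≤ Q.g0
  A_pos : 1 ≤ Q.A
  A_dvd : Q.A ∣ Q.m
  Rd_ge : Q.N + Q.J * Q.n + 4 ≤ Q.Rd

/-- Places of the coins in the seed: `cx j s` for the jitter of the slab `(j, s)`,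
`cl j s u v b q` for the coin of lane `q` of the node `(j, s, u, v)` in round `b`. -/
structure Code where
  cx : ℕ → ℕ → ℕ
  cl : ℕ → ℕ → ℕ → ℕ → ℕ → ℕ → ℕ

/-- Codes are injective and `< len` when all arguments are `< P`. -/
structure Code.Ok (Cd : Code) (P len : ℕ) : Prop where
  cx_lt : ∀ j s, j < P → s < P → Cd.cx j s < len
  cl_lt : ∀ j s u v b q, j < P → s < P → u < P → v < P → b < P → q < P → Cd.cl j s u v b q < len
  cx_inj : ∀ j s j' s', j < P → s < P → j' < P → s' < P → Cd.cx j s = Cd.cx j' s' →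
    j = j' ∧ s = s'
  cl_inj : ∀ j s u v b q j' s' u' v' b' q', j < P → s < P → u < P → v < P → b < P → q < P →
    j' < P → s' < P → u' < P → v' < P → b' < P → q' < P →
    Cd.cl j s u v b q = Cd.cl j' s' u' v' b' q' →
    j = j' ∧ s = s' ∧ u = u' ∧ v = v' ∧ b = b' ∧ q = q'
  disj : ∀ j s j' s' u v b q, j < P → s < P → j' < P → s' < P → u < P → v < P → b < P → q < P →
    Cd.cx j s ≠ Cd.cl j' s' u v b q

/-- The random schedule: the seed `ω` is read modulo `J + 1` and modulo `T`; lane `q` comes from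
the machine started in round `max 1 q`. Codes out of range are read as `0` by `sd`. -/
def Prm.sch (Q : Prm) (Cd : Code) (P : Picker) (ω : ℕ → ℕ) : Sched where
  xi := fun j s => ω (Cd.cx j s) % (Q.J + 1)
  Λ := Q.N + 1
  lane := fun q j s u v b f =>
    P.pk Q.M (u * Q.M) (v * Q.M) (Q.C (j - 1)) (max 1 q) b f (ω (Cd.cl j s u v b q) % P.T)

/-- A seed with `R` entries below `E`. -/
abbrev Seed (R E : ℕ) := Fin R → Fin E

/-- The seed as a function on `ℕ`. -/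
def sd {R E : ℕ} (ω : Seed R E) : ℕ → ℕ := fun i => if h : i < R then (ω ⟨i, h⟩ : ℕ) else 0

/-! ### The comparison path -/

/-- An optimal chain of the node `(j + 1, s, u, v)` for the full values. -/
noncomputable def Inst.opt (I : Inst) (j s u v : ℕ) : ℕ → ℕ := by
  classical
  exact if h : ∃ z, IsChain I.M (u * I.M) (v * I.M) z ∧
      chainCost (fun i => I.edge j (I.D I.hid j (s * I.M + i))) I.M z = I.D I.hid (j + 1) s u v
    then h.choose else fun _ => 0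

theorem Inst.opt_spec {I : Inst} (hM : 1 ≤ I.M) (j s : ℕ) {u v : ℕ} (huv : u ≤ v) :
    IsChain I.M (u * I.M) (v * I.M) (I.opt j s u v) ∧
      chainCost (fun i => I.edge j (I.D I.hid j (s * I.M + i))) I.M (I.opt j s u v) =
        I.D I.hid (j + 1) s u v := by
  classical
  have h : ∃ z, IsChain I.M (u * I.M) (v * I.M) z ∧
      chainCost (fun i => I.edge j (I.D I.hid j (s * I.M + i))) I.M z =
        I.D I.hid (j + 1) s u v := exists_best hM (Nat.mul_le_mul_right _ huv)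
  unfold Inst.opt
  rw [dif_pos h]
  exact h.choose_spec

/-- The slab number `t` at depth `d` below the root `(n, 0, 0, Y)`: `inl (u, v)` if the
comparison path is there in the node `(n - d, t, u, v)`, `inr r` if it is in a jump of cost `r` per
unit time (`l0` = length of a row). -/
noncomputable def Inst.pst (I : Inst) (n Y l0 : ℕ) : ℕ → ℕ → (ℕ × ℕ) ⊕ ℝ
  | 0, _ => .inl (0, Y)
  | d + 1, t =>
    match I.pst n Y l0 d (t / I.M) with
    | .inr r => .inr r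
    | .inl (u, v) =>
      if I.opt (n - d - 1) (t / I.M) u v (t % I.M + 1) -
          I.opt (n - d - 1) (t / I.M) u v (t % I.M) ≤ I.w then
        .inl (I.opt (n - d - 1) (t / I.M) u v (t % I.M),
          I.opt (n - d - 1) (t / I.M) u v (t % I.M + 1))
      else .inr (((I.opt (n - d - 1) (t / I.M) u v (t % I.M + 1) -
          I.opt (n - d - 1) (t / I.M) u v (t % I.M) : ℕ) : ℝ) * I.g (n - d - 1) /
            (I.M ^ (n - d - 1) * l0))

/-- Sum of the jitters on the lineage from the root to the slab number `t` at depth `d`. -/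
def lin (M n : ℕ) (xi : ℕ → ℕ → ℕ) : ℕ → ℕ → ℕ
  | 0, _ => 0
  | d + 1, t => lin M n xi d (t / M) + xi (n - d - 1) t

/-- The curves of the comparison path, per unit time, in the static coordinate. -/
noncomputable def Inst.cur (I : Inst) (X : Sched) (n Y l0 : ℕ) (j t β : ℕ) : ℝ :=
  match I.pst n Y l0 (n - j) t with
  | .inr r => r
  | .inl (u, v) => (I.c X j t u v (β - lin I.M n X.xi (n - j) t) : ℝ) / (I.M ^ j * l0)

/-- The hidden cost of the comparison path in the row `r`, per unit time. -/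
noncomputable def Inst.dl (I : Inst) (n Y l0 : ℕ) (r : ℕ) : ℝ :=
  match I.pst n Y l0 n r with
  | .inr x => x
  | .inl (u, v) => (I.hid r u v : ℝ) / l0

/-- The uniform kernel. -/
noncomputable def uW (M n : ℕ) : ℕ → ℕ → ℝ := fun j _ => 1 / (M : ℝ) ^ (n - j)

/-- The uniform kernel. -/
noncomputable def uP (M : ℕ) : ℕ → ℕ → ℕ → ℝ := fun _ _ _ => 1 / (M : ℝ)

open Q976.Ker in
/-- **OT-3** (pathwise facts about the curves; `X` any admissible schedule). -/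
structure CurOk (I : Inst) (X : Sched) (n Y l0 J : ℕ) : Prop where
  ker : IsKer I.M n (uW I.M n) (uP I.M)
  gain0 : ∀ j < n, ∀ t < I.M ^ (n - (j + 1)), ∀ β,
    0 ≤ gain I.M (uP I.M) (I.cur X n Y l0) j t β
  nu0 : ∀ j ≤ n, ∀ t < I.M ^ (n - j), ∀ β, 0 ≤ nu (I.cur X n Y l0) j t β
  leaf : ∀ r < I.M ^ n, ∀ β, I.cur X n Y l0 0 r β ≤
    I.dl n Y l0 r + if β < lin I.M n X.xi n r + 2 then 1 else 0
  low : ∀ β, av I.M n (uW I.M n) 0 (I.dl n Y l0) ≤ I.cur X n Y l0 n 0 β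
  root : av I.M n (uW I.M n) 0 (I.dl n Y l0) = (I.D I.hid n 0 0 Y : ℝ) / (I.M ^ n * l0)
  top : ∀ β, I.cur X n Y l0 n 0 β = (I.c X n 0 0 Y β : ℝ) / (I.M ^ n * l0)
  drop : ∀ j ≤ n, ∀ t < I.M ^ (n - j), ∀ β β', β ≤ β' →
    I.cur X n Y l0 j t β - I.cur X n Y l0 j t β' ≤ 1

/-- Statement of OT-3. -/
def StmtCur : Prop :=
  ∀ (I : Inst) (X : Sched) (n Y l0 J : ℕ), I.Ok → X.Ok I.M J → 1 ≤ l0 →
    (∀ s u v, I.vis s u v ≤ I.hid s u v + l0) → Y ≤ I.w → CurOk I X n Y l0 J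

/-- The curves for the seed `ω`. -/
noncomputable def Prm.crv (Q : Prm) (Cd : Code) (P : Picker) (hid vis : ℕ → ℕ → ℕ → ℕ) (Y : ℕ)
    {R E : ℕ} (ω : Seed R E) : ℕ → ℕ → ℕ → ℝ :=
  (Q.inst hid vis).cur (Q.sch Cd P (sd ω)) Q.n Y Q.l0

/-- Standing assumptions of the probabilistic blocks. -/
structure Std (Q : Prm) (Cd : Code) (P : Picker) (hid vis : ℕ → ℕ → ℕ → ℕ) (Y R E Pb : ℕ)
    (Lg e3 : ℝ) : Prop where
  hQ : Q.Ok
  hle : ∀ s u v, hid s u v ≤ vis s u v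
  hvis : ∀ s u v, vis s u v ≤ hid s u v + Q.l0
  hY : Y ≤ Q.w
  hE : 0 < E
  dJ : (Q.J + 1) ∣ E
  dT : P.T ∣ E
  hP : P.Ok Q.M (Q.w * Q.M) (Q.Rd + 1) Lg e3
  hCd : Cd.Ok Pb R
  b1 : Q.n < Pb
  b2 : Q.M ^ Q.n < Pb
  b3 : Y * Q.M ^ Q.n < Pb
  b4 : 2 * Q.Rd + 2 < Pb

open Q976.Ker in
/-- Statement of OT-4: the machine inequality in expectation. -/
def StmtStar : Prop :=
  ∀ (Q : Prm) (Cd : Code) (P : Picker) (hid vis : ℕ → ℕ → ℕ → ℕ) (Y R E Pb : ℕ) (Lg e3 : ℝ),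
    Std Q Cd P hid vis Y R E Pb Lg e3 → ∀ B ≤ Q.J * Q.n + 3, ∀ j < Q.n,
      ∀ t < Q.M ^ (Q.n - (j + 1)),
    H731.av (fun ω : Seed R E =>
      ∑ β ∈ range B, ch Q.M (uP Q.M) j
        (fun s => min (nu (Q.crv Cd P hid vis Y ω) j s (Q.N + β)) (1 / Q.A)) t -
      2 * ∑ β ∈ range (B + 1), gain Q.M (uP Q.M) (Q.crv Cd P hid vis Y ω) j t (Q.N + β)) ≤
      1 / Q.A * (Lg + (Q.Rd + 1) * e3 + 1)

open Q976.Ker in
/-- Statement of OT-5: the atoms in expectation. -/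
def StmtAtoms : Prop :=
  ∀ (Q : Prm) (Cd : Code) (P : Picker) (hid vis : ℕ → ℕ → ℕ → ℕ) (Y R E Pb : ℕ) (Lg e3 : ℝ),
    Std Q Cd P hid vis Y R E Pb Lg e3 → ∀ B, ∀ j < Q.n, ∀ t < Q.M ^ (Q.n - (j + 1)),
    H731.av (fun ω : Seed R E =>
      ∑ β ∈ range B, (if 1 / (Q.A : ℝ) / 2 ≤
        ch Q.M (uP Q.M) j (fun s => nu (Q.crv Cd P hid vis Y ω) j s (Q.N + β)) t
        then ch Q.M (uP Q.M) j (fun s => nu (Q.crv Cd P hid vis Y ω) j s (Q.N + β)) t else 0)) ≤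
      2 * Q.A * (1 / (Q.M : ℝ) + 1 / (Q.J + 1))

/-- Statement of OT-6a: the value at the root in expectation. -/
def StmtValue : Prop :=
  ∀ (Q : Prm) (Cd : Code) (P : Picker) (hid vis : ℕ → ℕ → ℕ → ℕ) (Y R E Pb : ℕ) (Lg e3 : ℝ),
    Std Q Cd P hid vis Y R E Pb Lg e3 → 2 * Q.N ≤ Q.J * Q.n →
    (Q.n : ℝ) * (H731.av (fun ω : Seed R E =>
      ((Q.inst hid vis).c (Q.sch Cd P (sd ω)) Q.n 0 0 Y Q.N : ℝ)) -
        (Q.inst hid vis).D hid Q.n 0 0 Y) / Q.len Q.n ≤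
      4 * ((Q.J * Q.n : ℝ) / 2 - Q.N + Q.J * Real.sqrt Q.n + 2)
        + Q.n * (1 / Q.A * (Lg + (Q.Rd + 1) * e3 + 1))
        + Q.n * (4 * Q.A * (1 / (Q.M : ℝ) + 1 / (Q.J + 1))) + 1

/-- Statement of OT-6b: the expected number of leaves read (`lam` arbitrary). -/
def StmtArea : Prop :=
  ∀ (Q : Prm) (Cd : Code) (P : Picker) (hid vis : ℕ → ℕ → ℕ → ℕ) (Y R E Pb : ℕ) (Lg e3 : ℝ),
    Std Q Cd P hid vis Y R E Pb Lg e3 → ∀ lam : ℝ, 0 ≤ lam →
    H731.av (fun ω : Seed R E =>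
      (((Q.inst hid vis).S (Q.sch Cd P (sd ω)) Q.n 0 0 Y Q.N).card : ℝ)) ≤
      (2 * Q.w + 1) * (Q.w + 1) * (Q.M : ℝ) ^ (2 * Q.n) *
        Real.exp (lam * Q.N + Q.n * (-(lam * Q.J / 2) + lam ^ 2 * Q.J ^ 2 / 8 +
          (Q.N + 1) * (Q.w + 1) * (2 * Q.w + 1) / Q.M * Real.exp lam))

end Vale.Agent.P315.OT
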