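import Vale.Agent.P315.OT.NumTime
import Vale.Agent.P315.OT.StratUse

/-!
P315, one-scale track: all parameters are polynomially bounded in `max |x| |y| + 2`.
-/

set_option autoImplicit false

namespace Vale.Agent.P315.OT

open Vale.Agent.P315.H738 Num

/-- Polynomially bounded in `max lx ly + 2`. -/
def Pol2 (f : ℕ → ℕ → ℕ) : Prop := ∃ c, ∀ lx ly, f lx ly ≤ (max lx ly + 2) ^ c

namespace Pol2

theorem of_le {f f' : ℕ → ℕ → ℕ} (h : Pol2 f') (hf : ∀ lx ly, f lx ly ≤ f' lx ly) : Pol2 f := by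
  obtain ⟨c, hc⟩ := h
  exact ⟨c, fun lx ly => (hf lx ly).trans (hc lx ly)⟩

theorem const (a : ℕ) : Pol2 fun _ _ => a :=
  ⟨a, fun lx ly => Nat.lt_two_pow_self.le.trans (Nat.pow_le_pow_left (by omega) a)⟩

theorem max' : Pol2 fun lx ly => Max.max lx ly :=
  ⟨1, fun lx ly => by rw [pow_one]; exact Nat.le_add_right _ _⟩

theorem fst : Pol2 fun lx _ => lx := max'.of_le fun lx ly => le_max_left lx ly

theorem snd : Pol2 fun _ ly => ly := max'.of_le fun lx ly => le_max_right lx ly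

theorem mul {f f' : ℕ → ℕ → ℕ} (h : Pol2 f) (h' : Pol2 f') :
    Pol2 fun lx ly => f lx ly * f' lx ly := by
  obtain ⟨c, hc⟩ := h
  obtain ⟨c', hc'⟩ := h'
  exact ⟨c + c', fun lx ly => by rw [pow_add]; exact Nat.mul_le_mul (hc lx ly) (hc' lx ly)⟩

theorem add {f f' : ℕ → ℕ → ℕ} (h : Pol2 f) (h' : Pol2 f') :
    Pol2 fun lx ly => f lx ly + f' lx ly := by
  obtain ⟨c, hc⟩ := h
  obtain ⟨c', hc'⟩ := h'
  refine ⟨c + c' + 1, fun lx ly => ?_⟩
  have h1 : (max lx ly + 2) ^ c ≤ (max lx ly + 2) ^ (c + c') :=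
    Nat.pow_le_pow_right (by omega) (by omega)
  have h2 : (max lx ly + 2) ^ c' ≤ (max lx ly + 2) ^ (c + c') :=
    Nat.pow_le_pow_right (by omega) (by omega)
  calc f lx ly + f' lx ly ≤ (max lx ly + 2) ^ (c + c') * 2 := by
        have := hc lx ly
        have := hc' lx ly
        omega
    _ ≤ (max lx ly + 2) ^ (c + c') * (max lx ly + 2) := Nat.mul_le_mul_left _ (by omega)
    _ = (max lx ly + 2) ^ (c + c' + 1) := (pow_succ _ _).symm

theorem pow {f : ℕ → ℕ → ℕ} (h : Pol2 f) (k : ℕ) : Pol2 fun lx ly => f lx ly ^ k := by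
  obtain ⟨c, hc⟩ := h
  exact ⟨c * k, fun lx ly => by rw [pow_mul]; exact Nat.pow_le_pow_left (hc lx ly) k⟩

theorem div {f f' : ℕ → ℕ → ℕ} (h : Pol2 f) : Pol2 fun lx ly => f lx ly / f' lx ly :=
  h.of_le fun _ _ => Nat.div_le_self _ _

theorem sub {f f' : ℕ → ℕ → ℕ} (h : Pol2 f) : Pol2 fun lx ly => f lx ly - f' lx ly :=
  h.of_le fun _ _ => Nat.sub_le _ _

theorem min_left {f f' : ℕ → ℕ → ℕ} (h : Pol2 f) : Pol2 fun lx ly => min (f lx ly) (f' lx ly) :=
  h.of_le fun _ _ => min_le_left _ _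

theorem min_right {f f' : ℕ → ℕ → ℕ} (h : Pol2 f') : Pol2 fun lx ly => min (f lx ly) (f' lx ly) :=
  h.of_le fun _ _ => min_le_right _ _

theorem max {f f' : ℕ → ℕ → ℕ} (h : Pol2 f) (h' : Pol2 f') :
    Pol2 fun lx ly => max (f lx ly) (f' lx ly) :=
  (h.add h').of_le fun _ _ => max_le (Nat.le_add_right _ _) (Nat.le_add_left _ _)

/-- One exponent for finitely many functions. -/
theorem common (l : List (ℕ → ℕ → ℕ)) (h : ∀ f ∈ l, Pol2 f) :
    ∃ c, ∀ f ∈ l, ∀ lx ly, f lx ly ≤ (Max.max lx ly + 2) ^ c := by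
  induction l with
  | nil => exact ⟨0, fun f hf => absurd hf List.not_mem_nil⟩
  | cons f l ih =>
    obtain ⟨c, hc⟩ := h f List.mem_cons_self
    obtain ⟨c', hc'⟩ := ih fun f' hf' => h f' (List.mem_cons_of_mem _ hf')
    refine ⟨Max.max c c', fun f' hf' lx ly => ?_⟩
    rcases List.mem_cons.1 hf' with rfl | hf'
    · exact (hc lx ly).trans (Nat.pow_le_pow_right (by omega) (le_max_left _ _))
    · exact (hc' f' hf' lx ly).trans (Nat.pow_le_pow_right (by omega) (le_max_right _ _))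

end Pol2

end Vale.Agent.P315.OT
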