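import Vale.Agent.P315.OT.StdCode
import Vale.Agent.P315.H155.Auto

/-!
P315, one-scale track (helper453), OT-7: the strategy as a function on lists of naturals.

A table entry is `(0, x)` (the value `x`) or `(q + 1, 0)` (the cell with code `q` is missing).
-/

set_option autoImplicit false

namespace Vale.Agent.P315.OT

open Vale.Agent.P315.H155 (minD minD_le_default minD_le_of_mem minD_mem le_minD)

/-! ### Tables -/

/-- Entry: `(0, x)` is the value `x`, `(q + 1, _)` says that the cell `q` is missing. -/
abbrev Ent := ℕ × ℕ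

/-- Tables: slab, start, width, index. -/
abbrev Tbl := List (List (List (List Ent)))

/-- Entry of a table. -/
def tget (T : Tbl) (s u d b : ℕ) : Ent := (((T.getD s []).getD u []).getD d []).getD b (0, 0)

/-- The table of a function. -/
def tmk (K Y w B : ℕ) (f : ℕ → ℕ → ℕ → ℕ → Ent) : Tbl :=
  (List.range K).map fun s => (List.range (Y + 1)).map fun u => (List.range (w + 1)).map fun d =>
    (List.range (B + 1)).map fun b => f s u d b

theorem tget_tmk {K Y w B : ℕ} (f : ℕ → ℕ → ℕ → ℕ → Ent) {s u d b : ℕ} (hs : s < K) (hu : u ≤ Y)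
    (hd : d ≤ w) (hb : b ≤ B) : tget (tmk K Y w B f) s u d b = f s u d b := by
  unfold tget tmk
  rw [getD_map_range _ _ _ hs, getD_map_range _ _ _ (by omega), getD_map_range _ _ _ (by omega),
    getD_map_range _ _ _ (by omega)]

/-- The first exception in a list of entries (`0` if there is none). -/
def fm (l : List Ent) : ℕ := ((l.find? (fun e => decide (e.1 ≠ 0))).getD (0, 0)).1

theorem fm_spec (l : List Ent) :
    (fm l = 0 ∧ ∀ e ∈ l, e.1 = 0) ∨ (fm l ≠ 0 ∧ ∃ e ∈ l, e.1 ≠ 0 ∧ fm l = e.1) := by
  rcases h : l.find? (fun e => decide (e.1 ≠ 0)) with _ | e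
  · left
    have h0 : fm l = 0 := by unfold fm; rw [h]; rfl
    refine ⟨h0, fun e he => ?_⟩
    have := List.find?_eq_none.mp h e he
    simpa using this
  · right
    have h1 := List.mem_of_find?_eq_some h
    have h2 := List.find?_some h
    have h3 : e.1 ≠ 0 := by simpa using h2
    have h0 : fm l = e.1 := by unfold fm; rw [h]; rfl
    exact ⟨by rw [h0]; exact h3, e, h1, h3, h0⟩

/-! ### The cheapest monotone chain -/

/-- The values of the first `i + 1` rows, clamped at `big`; `W` = list of tables. -/
def bestRow (W : List (List (List ℕ))) (p big : ℕ) : ℕ → List ℕ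
  | 0 => (List.range (p + 1)).map fun r' => min big (((W.getD 0 []).getD 0 []).getD r' 0)
  | i + 1 => (List.range (p + 1)).map fun r' =>
      min big (minD ((List.range (r' + 1)).map fun r =>
        (bestRow W p big i).getD r 0 + ((W.getD (i + 1) []).getD r []).getD r' 0)
        ((bestRow W p big i).getD 0 0 + ((W.getD (i + 1) []).getD 0 []).getD r' 0))

/-- The cheapest chain of `M` rows from `0` to `p`, clamped at `big`. -/
def bestL (W : List (List (List ℕ))) (M p big : ℕ) : ℕ := (bestRow W p big (M - 1)).getD p 0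

theorem bestRow_spec {W : List (List (List ℕ))} {p big M a : ℕ} {f : ℕ → ℕ → ℕ → ℕ}
    (hW : ∀ i < M, ∀ r r', r ≤ r' → r' ≤ p →
      ((W.getD i []).getD r []).getD r' 0 = f i (a + r) (a + r')) :
    ∀ i, i + 1 ≤ M → ∀ r' ≤ p,
      (∃ z, IsChain (i + 1) a (a + r') z ∧
        (bestRow W p big i).getD r' 0 = min (chainCost f (i + 1) z) big) ∧
      ∀ z, IsChain (i + 1) a (a + r') z → (bestRow W p big i).getD r' 0 ≤ chainCost f (i + 1) z := by
  intro i
  induction i with
  | zero =>
    intro hi r' hr'
    have e1 : (bestRow W p big 0).getD r' 0 = min big (f 0 a (a + r')) := by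
      rw [bestRow, getD_map_range _ _ _ (by omega)]
      have := hW 0 (by omega) 0 r' (Nat.zero_le _) hr'
      rw [this, add_zero]
    constructor
    · refine ⟨fun k => if k = 0 then a else a + r', ⟨by simp, by simp, ?_⟩, ?_⟩
      · intro k hk
        obtain rfl : k = 0 := by omega
        simp
      · rw [e1]
        unfold chainCost
        simp [min_comm]
    · intro z hz
      rw [e1]
      have h0 := hz.start
      have h1 : z 1 = a + r' := hz.finish
      unfold chainCost
      simp only [Nat.zero_add, Finset.sum_range_one, h0, h1]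
      exact min_le_right _ _
  | succ i ih =>
    intro hi r' hr'
    have ih' := ih (by omega)
    have hw : ∀ r, r ≤ r' → ((W.getD (i + 1) []).getD r []).getD r' 0 =
        f (i + 1) (a + r) (a + r') := fun r hr => hW (i + 1) (by omega) r r' hr hr'
    have e1 : (bestRow W p big (i + 1)).getD r' 0 =
        min big (minD ((List.range (r' + 1)).map fun r =>
          (bestRow W p big i).getD r 0 + ((W.getD (i + 1) []).getD r []).getD r' 0)
          ((bestRow W p big i).getD 0 0 + ((W.getD (i + 1) []).getD 0 []).getD r' 0)) := by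
      rw [bestRow, getD_map_range _ _ _ (by omega)]
    -- the minimum is attained at some `r ≤ r'`
    obtain ⟨r, hr, e2⟩ : ∃ r, r ≤ r' ∧ minD ((List.range (r' + 1)).map fun r =>
          (bestRow W p big i).getD r 0 + ((W.getD (i + 1) []).getD r []).getD r' 0)
          ((bestRow W p big i).getD 0 0 + ((W.getD (i + 1) []).getD 0 []).getD r' 0) =
        (bestRow W p big i).getD r 0 + f (i + 1) (a + r) (a + r') := by
      rcases minD_mem ((List.range (r' + 1)).map fun r =>
          (bestRow W p big i).getD r 0 + ((W.getD (i + 1) []).getD r []).getD r' 0)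
          ((bestRow W p big i).getD 0 0 + ((W.getD (i + 1) []).getD 0 []).getD r' 0) with h | h
      · refine ⟨0, Nat.zero_le _, ?_⟩
        rw [h, hw 0 (Nat.zero_le _)]
      · obtain ⟨r, hr, h2⟩ := List.mem_map.mp h
        have hr2 := List.mem_range.mp hr
        refine ⟨r, by omega, ?_⟩
        rw [← h2, hw r (by omega)]
    constructor
    · obtain ⟨⟨z, hz, hz2⟩, -⟩ := ih' r (hr.trans hr')
      refine ⟨fun k => if k ≤ i + 1 then z k else a + r', ⟨?_, ?_, ?_⟩, ?_⟩
      · simp [hz.start]
      · simp
      · intro k hk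
        by_cases hk1 : k + 1 ≤ i + 1
        · simp only [hk1, if_true, show k ≤ i + 1 by omega]
          exact hz.mono k (by omega)
        · obtain rfl : k = i + 1 := by omega
          simp only [le_refl, if_true, show ¬ (i + 1 + 1 ≤ i + 1) by omega, if_false]
          rw [hz.finish]; omega
      · rw [e1, e2, hz2]
        have e3 : chainCost f (i + 1 + 1) (fun k => if k ≤ i + 1 then z k else a + r') =
            chainCost f (i + 1) z + f (i + 1) (a + r) (a + r') := by
          unfold chainCost
          rw [Finset.sum_range_succ]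
          congr 1
          · refine Finset.sum_congr rfl fun k hk => ?_
            have := Finset.mem_range.mp hk
            simp only [show k ≤ i + 1 by omega, show k + 1 ≤ i + 1 by omega, if_true]
          · simp only [le_refl, if_true, show ¬ (i + 1 + 1 ≤ i + 1) by omega, if_false]
            rw [hz.finish]
        rw [e3]
        omega
    · intro z hz
      have h1 : a ≤ z (i + 1) := hz.ge (by omega)
      have h2 : z (i + 1) ≤ a + r' := by
        have := hz.mono (i + 1) (by omega)
        rw [hz.finish] at this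
        exact this
      have hz' : IsChain (i + 1) a (a + (z (i + 1) - a)) z :=
        ⟨hz.start, by omega, fun k hk => hz.mono k (by omega)⟩
      have h3 := (ih' (z (i + 1) - a) (by omega)).2 z hz'
      have e3 : chainCost f (i + 1 + 1) z =
          chainCost f (i + 1) z + f (i + 1) (a + (z (i + 1) - a)) (a + r') := by
        unfold chainCost
        rw [Finset.sum_range_succ, hz.finish, show a + (z (i + 1) - a) = z (i + 1) by omega]
      rw [e1, e3]
      refine (min_le_right _ _).trans ?_
      refine (minD_le_of_mem (List.mem_map.mpr ⟨z (i + 1) - a,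
        List.mem_range.mpr (by omega), rfl⟩)).trans ?_
      rw [hw _ (by omega)]
      exact Nat.add_le_add_right h3 _

theorem bestL_spec {W : List (List (List ℕ))} {p big M a : ℕ} {f : ℕ → ℕ → ℕ → ℕ} (hM : 1 ≤ M)
    (hW : ∀ i < M, ∀ r r', r ≤ r' → r' ≤ p →
      ((W.getD i []).getD r []).getD r' 0 = f i (a + r) (a + r')) :
    bestL W M p big = min (best f M a (a + p)) big := by
  obtain ⟨m, rfl⟩ : ∃ m, M = m + 1 := ⟨M - 1, by omega⟩
  obtain ⟨⟨z, hz, h1⟩, h2⟩ := bestRow_spec (big := big) hW m le_rfl p le_rfl
  have e : bestL W (m + 1) p big = (bestRow W p big m).getD p 0 := rfl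
  rw [e]
  apply le_antisymm
  · apply le_min
    · exact le_best hM (by omega) fun z hz => h2 z hz
    · rw [h1]; exact min_le_right _ _
  · rw [h1]
    exact min_le_min (best_le hz) le_rfl

/-! ### Parameters, read off the feed -/

/-- Branching. -/
def pM (F : List ℕ) : ℕ := min (F.getD 2 0) F.length
/-- Levels. -/
def pn (F : List ℕ) : ℕ := min (F.getD 3 0) F.length
/-- Mesh. -/
def pm (F : List ℕ) : ℕ := F.getD 4 0
/-- Width. -/
def pw (F : List ℕ) : ℕ := min (F.getD 5 0) F.length
/-- Unit. -/
def pg (F : List ℕ) : ℕ := F.getD 6 0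
/-- Jitter. -/
def pJ (F : List ℕ) : ℕ := F.getD 7 0
/-- Root index. -/
def pN (F : List ℕ) : ℕ := min (F.getD 8 0) F.length
/-- Inverse cap. -/
def pA (F : List ℕ) : ℕ := F.getD 9 0
/-- Modulus of the codes. -/
def pD (F : List ℕ) : ℕ := F.getD 10 0
/-- End of the root. -/
def pY (F : List ℕ) : ℕ := F.getD 11 0
/-- Number of picks. -/
def pT (F : List ℕ) : ℕ := min (F.getD 12 0) F.length
/-- Scale of the solver. -/
def pS (F : List ℕ) : ℕ := F.getD 13 0
/-- Number of rows. -/
def pK (F : List ℕ) : ℕ := min (pM F ^ pn F) F.length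
/-- Number of positions. -/
def pY0 (F : List ℕ) : ℕ := min (pY F * pK F) F.length
/-- Largest index. -/
def pB (F : List ℕ) : ℕ := pN F + pn F
/-- `M ^ j`. -/
def pMj (F : List ℕ) (j : ℕ) : ℕ := pM F ^ (min j (pn F))
/-- Upper bound for all values. -/
def pbig (F : List ℕ) : ℕ := pMj F (pn F) * ((pm F + pw F + pn F * pw F) * pg F)
/-- Upper bound for the exceptions. -/
def pFB (F : List ℕ) : ℕ := (pK F * pD F + pY0 F) * pD F + pY0 F + 1

/-- Jitter of the slab `(j, σ)`. -/
def xiF (F : List ℕ) (j σ : ℕ) : ℕ := F.getD (16 + (j * pD F + σ)) 0 % (pJ F + 1)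

/-- Coin of the lane `q` of the node `(j, s, u, v)` in round `b`. -/
def coinF (F : List ℕ) (j s u v b q : ℕ) : ℕ :=
  F.getD (16 + (pD F ^ 2 +
    (((((j * pD F + s) * pD F + u) * pD F + v) * pD F + b) * pD F + q))) 0 % (pT F)

/-- Entry of the edge of level `j` from `u` to `v` in the slab `σ`, for the round `k`. -/
def edgF (F : List ℕ) (tab : Tbl) (j σ k u v : ℕ) : Ent :=
  if v - u ≤ pw F then tget tab σ u (v - u) (k - xiF F j σ)
  else (0, (v - u) * (pMj F j * pg F))

/-- The rounds `0, …, k` of the entries. -/
def histF (F : List ℕ) (tab : Tbl) (j s a p k : ℕ) : List (List (List (List Ent))) :=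
  (List.range (k + 1)).map fun k' => (List.range (pM F)).map fun i =>
    (List.range (p + 1)).map fun r => (List.range (p + 1)).map fun r' =>
      if r ≤ r' then edgF F tab j (s * pM F + i) k' (a + r) (a + r') else (0, 0)

/-- Values of a list of entries. -/
def valH (H : List (List (List (List Ent)))) : List (List (List (List ℕ))) :=
  H.map fun l => l.map fun l => l.map fun l => l.map fun e => e.2

section

variable (pl : ℕ → ℕ → ℕ → ℕ → ℕ → ℕ → ℕ → List (List (List (List ℕ))) → ℕ → List ℕ)

/-- The path of lane `q`. -/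
def pathF (F : List ℕ) (j s u d p b : ℕ) (HV : List (List (List (List ℕ)))) (q : ℕ) : List ℕ :=
  fixL (pM F) p (pl (pT F) (pS F) (pM F) p (pMj F j * (pm F * pg F) / pA F) (max 1 q) b HV
    (coinF F (j + 1) s u (u + d) b q))

/-- The entries of the lane with a given path. -/
def laneE (F : List ℕ) (tab : Tbl) (j s a k : ℕ) (path : List ℕ) : List Ent :=
  (List.range (pM F)).map fun i =>
    edgF F tab j (s * pM F + i) k (a + path.getD i 0) (a + path.getD (i + 1) 0)

/-- The entries of all lanes. -/
def lanesF (F : List ℕ) (tab : Tbl) (j s u d p b : ℕ) (HV : List (List (List (List ℕ)))) :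
    List (List Ent) :=
  (List.range (pN F + 1)).map fun q =>
    laneE F tab j s (u * pM F) (b + 1) (pathF pl F j s u d p b HV q)

/-- Second half of the computation of an entry: nothing is missing in the history. -/
def entS2 (F : List ℕ) (tab : Tbl) (j s u d p b : ℕ) (HV : List (List (List (List ℕ)))) : Ent :=
  if b = 0 then (0, bestL (HV.getD b []) (pM F) p (pbig F))
  else if fm (lanesF pl F tab j s u d p b HV).flatten ≠ 0 then
    (min (fm (lanesF pl F tab j s u d p b HV).flatten) (pFB F), 0)
  else (0, minD ((lanesF pl F tab j s u d p b HV).map fun l => (l.map fun e => e.2).sum)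
    (bestL (HV.getD b []) (pM F) p (pbig F)))

/-- Entry of level `j + 1` from the table of level `j`. -/
def entS (F : List ℕ) (tab : Tbl) (j s u d b : ℕ) : Ent :=
  if fm (histF F tab j s (u * pM F) (min d (pw F) * pM F) (min b (pB F))).flatten.flatten.flatten
      ≠ 0 then
    (min (fm (histF F tab j s (u * pM F) (min d (pw F) * pM F)
      (min b (pB F))).flatten.flatten.flatten) (pFB F), 0)
  else entS2 pl F tab j s u d (min d (pw F) * pM F) (min b (pB F))
    (valH (histF F tab j s (u * pM F) (min d (pw F) * pM F) (min b (pB F))))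

/-- The table of level `j + 1` from the table of level `j`. -/
def levS (F : List ℕ) (j : ℕ) (tab : Tbl) : Tbl :=
  tmk (pK F) (pY0 F) (pw F) (pB F) fun s u d b => entS pl F tab j s u d b

variable (vs : List ℕ → ℕ → ℕ → ℕ → ℕ)

/-- Look a cell up in the list of answers. -/
def lookE (T : List (ℕ × ℕ)) (q : ℕ) : Ent :=
  ((T.find? (fun e => decide (e.1 = q))).map fun e => ((0, e.2) : Ent)).getD (q + 1, 0)

/-- The table of level `0`. -/
def lev0 (F : List ℕ) (T : List (ℕ × ℕ)) : Tbl :=
  tmk (pK F) (pY0 F) (pw F) (pB F) fun s u d b =>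
    if 2 ≤ b then lookE T (cellCode (pD F) s u (u + d)) else (0, vs F s u (u + d))

/-- The table of level `j`. -/
def tabs (F : List ℕ) (T : List (ℕ × ℕ)) : ℕ → Tbl
  | 0 => lev0 vs F T
  | j + 1 => levS pl F j (tabs F T j)

/-- State of the strategy: the feed and the answers. -/
abbrev St := List ℕ × List (ℕ × ℕ)

/-- The entry of the root. -/
def rootE (a : St) : Ent := tget (tabs pl vs a.1 a.2 (pn a.1)) 0 0 (pY a.1) (pN a.1)

/-- Next query. -/
def askS (a : St) : ℕ := (rootE pl vs a).1 - 1

/-- Absorb one number (nothing changes when the root is known). -/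
def updS (x : ℕ × St) : St :=
  if (rootE pl vs x.2).1 = 0 then x.2 else (x.2.1, (askS pl vs x.2, x.1) :: x.2.2)

/-- Output. -/
def outS (a : St) : ℕ := if (rootE pl vs a).1 = 0 then (rootE pl vs a).2 else a.1.getD 0 0 + a.1.getD 1 0

/-- Start. -/
def startS (F : List ℕ) : St := (F, [])

end

end Vale.Agent.P315.OT
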