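import Vale.Agent.P315.OT.Strat
import Vale.Agent.P315.OT.Loc
import Vale.Agent.P315.RAM.Oracle

/-!
P315, one-scale track (helper453), OT-7: correctness of the strategy of `Strat.lean`.
-/

set_option autoImplicit false

namespace Vale.Agent.P315.OT

open Vale.Agent.P315.H155 (minD minD_le_default minD_le_of_mem minD_mem le_minD)
open Finset

/-! ### Read sets -/

section Read

variable {I : Inst} {X : Sched} {J : ℕ}

theorem Inst.S_zero (j s u v : ℕ) : I.S X j s u v 0 = ∅ := by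
  cases j with
  | zero => rw [Inst.S, if_neg (by omega)]
  | succ j => rw [Inst.S, if_pos rfl]

theorem Inst.S_succ (j s u v : ℕ) {b : ℕ} (hb : b ≠ 0) : I.S X (j + 1) s u v b =
    ((range I.M).biUnion fun i => (Icc (u * I.M) (v * I.M)).biUnion fun a =>
        (Icc a (v * I.M)).biUnion fun a' =>
          I.sh (I.S X j (s * I.M + i) a a' (b - X.xi j (s * I.M + i))) a a') ∪
      ((range X.Λ).biUnion fun q => (range I.M).biUnion fun i =>
          I.sh (I.S X j (s * I.M + i) (I.L X q j s u v b i) (I.L X q j s u v b (i + 1))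
            (b + 1 - X.xi j (s * I.M + i))) (I.L X q j s u v b i) (I.L X q j s u v b (i + 1))) := by
  rw [Inst.S, if_neg hb]

theorem Inst.S_child {j s u v b : ℕ} (hb : b ≠ 0) {i a a' : ℕ} (hi : i < I.M) (ha : u * I.M ≤ a)
    (haa : a ≤ a') (ha' : a' ≤ v * I.M) (hw : a' - a ≤ I.w) :
    I.S X j (s * I.M + i) a a' (b - X.xi j (s * I.M + i)) ⊆ I.S X (j + 1) s u v b := by
  intro x hx
  rw [Inst.S_succ _ _ _ _ hb, mem_union]
  left
  simp only [mem_biUnion, mem_range, mem_Icc]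
  refine ⟨i, hi, a, ⟨ha, haa.trans ha'⟩, a', ⟨haa, ha'⟩, ?_⟩
  unfold Inst.sh
  rw [if_pos hw]
  exact hx

theorem Inst.S_lane {j s u v b : ℕ} (hb : b ≠ 0) {q i : ℕ} (hq : q < X.Λ) (hi : i < I.M)
    (hw : I.L X q j s u v b (i + 1) - I.L X q j s u v b i ≤ I.w) :
    I.S X j (s * I.M + i) (I.L X q j s u v b i) (I.L X q j s u v b (i + 1))
      (b + 1 - X.xi j (s * I.M + i)) ⊆ I.S X (j + 1) s u v b := by
  intro x hx
  rw [Inst.S_succ _ _ _ _ hb, mem_union]
  right
  simp only [mem_biUnion, mem_range]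
  refine ⟨q, hq, i, hi, ?_⟩
  unfold Inst.sh
  rw [if_pos hw]
  exact hx

/-- The read sets grow with the index. -/
theorem Inst.S_mono' (hX : X.Ok I.M J) : ∀ j s u v b, u ≤ v →
    I.S X j s u v b ⊆ I.S X j s u v (b + 1) := by
  intro j
  induction j with
  | zero =>
    intro s u v b _
    rw [Inst.S, Inst.S]
    split_ifs with h1 h2
    · exact subset_rfl
    · omega
    · exact empty_subset _
    · exact subset_rfl
  | succ j ih =>
    intro s u v b huv
    rcases Nat.eq_zero_or_pos b with rfl | hb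
    · rw [Inst.S_zero]; exact empty_subset _
    have ih' : ∀ σ a a' k k', a ≤ a' → k ≤ k' → I.S X j σ a a' k ⊆ I.S X j σ a a' k' := by
      intro σ a a' k k' haa hk
      induction k', hk using Nat.le_induction with
      | base => exact subset_rfl
      | succ k' _ ihk => exact ihk.trans (ih σ a a' k' haa)
    intro x hx
    rw [Inst.S_succ _ _ _ _ (by omega), mem_union] at hx
    rcases hx with hx | hx
    · simp only [mem_biUnion, mem_range, mem_Icc] at hx
      obtain ⟨i, hi, a, ⟨ha1, ha2⟩, a', ⟨ha1', ha2'⟩, hx⟩ := hx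
      unfold Inst.sh at hx
      split_ifs at hx with hw
      · exact Inst.S_child (by omega) hi ha1 ha1' ha2' hw
          (ih' _ _ _ _ _ ha1' (by omega) hx)
      · simp at hx
    · simp only [mem_biUnion, mem_range] at hx
      obtain ⟨q, hq, i, hi, hx⟩ := hx
      have hL := Inst.L_chain (I := I) hX q j s u v b huv
      unfold Inst.sh at hx
      split_ifs at hx with hw
      · exact Inst.S_child (by omega) hi (hL.ge hi.le) (hL.mono i hi) (hL.le (by omega)) hw hx
      · simp at hx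

theorem Inst.S_mono (hX : X.Ok I.M J) {j s u v b b' : ℕ} (huv : u ≤ v) (hb : b ≤ b') :
    I.S X j s u v b ⊆ I.S X j s u v b' := by
  induction b', hb using Nat.le_induction with
  | base => exact subset_rfl
  | succ k _ ih => exact ih.trans (Inst.S_mono' hX j s u v k huv)

/-- The cells of a read set lie in the box of the node. -/
theorem Inst.S_range (hX : X.Ok I.M J) : ∀ j s u v b, u ≤ v → v ≤ u + I.w →
    ∀ x ∈ I.S X j s u v b, x.1 < (s + 1) * I.M ^ j ∧ u * I.M ^ j ≤ x.2.1 ∧ x.2.1 ≤ x.2.2 ∧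
      x.2.2 ≤ v * I.M ^ j ∧ x.2.2 ≤ x.2.1 + I.w := by
  intro j
  induction j with
  | zero =>
    intro s u v b huv hw x hx
    rw [Inst.S] at hx
    split_ifs at hx
    · rw [mem_singleton] at hx
      subst hx
      simp only [pow_zero, mul_one]
      omega
    · simp at hx
  | succ j ih =>
    intro s u v b huv _ x hx
    rcases Nat.eq_zero_or_pos b with rfl | hb
    · rw [Inst.S_zero] at hx; simp at hx
    have key : ∀ i < I.M, ∀ a a' k, u * I.M ≤ a → a ≤ a' → a' ≤ v * I.M → a' - a ≤ I.w →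
        x ∈ I.S X j (s * I.M + i) a a' k → x.1 < (s + 1) * I.M ^ (j + 1) ∧
          u * I.M ^ (j + 1) ≤ x.2.1 ∧ x.2.1 ≤ x.2.2 ∧ x.2.2 ≤ v * I.M ^ (j + 1) ∧
            x.2.2 ≤ x.2.1 + I.w := by
      intro i hi a a' k h1 h2 h3 h4 hx
      obtain ⟨g1, g2, g3, g4, g5⟩ := ih _ _ _ _ h2 (by omega) x hx
      have e1 : (s * I.M + i + 1) * I.M ^ j ≤ (s + 1) * I.M ^ (j + 1) := by
        rw [pow_succ']
        calc (s * I.M + i + 1) * I.M ^ j ≤ ((s + 1) * I.M) * I.M ^ j :=
              Nat.mul_le_mul_right _ (by rw [Nat.add_mul, Nat.one_mul]; omega)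
          _ = (s + 1) * (I.M * I.M ^ j) := by ring
      have e2 : u * I.M ^ (j + 1) ≤ a * I.M ^ j := by
        rw [pow_succ']
        calc u * (I.M * I.M ^ j) = (u * I.M) * I.M ^ j := by ring
          _ ≤ _ := Nat.mul_le_mul_right _ h1
      have e3 : a' * I.M ^ j ≤ v * I.M ^ (j + 1) := by
        rw [pow_succ']
        calc a' * I.M ^ j ≤ (v * I.M) * I.M ^ j := Nat.mul_le_mul_right _ h3
          _ = _ := by ring
      exact ⟨by omega, by omega, g3, by omega, g5⟩
    rw [Inst.S_succ _ _ _ _ (by omega), mem_union] at hx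
    rcases hx with hx | hx
    · simp only [mem_biUnion, mem_range, mem_Icc] at hx
      obtain ⟨i, hi, a, ⟨ha1, ha2⟩, a', ⟨ha1', ha2'⟩, hx⟩ := hx
      unfold Inst.sh at hx
      split_ifs at hx with hw
      · exact key i hi _ _ _ ha1 ha1' ha2' hw hx
      · simp at hx
    · simp only [mem_biUnion, mem_range] at hx
      obtain ⟨q, hq, i, hi, hx⟩ := hx
      have hL := Inst.L_chain (I := I) hX q j s u v b huv
      unfold Inst.sh at hx
      split_ifs at hx with hw
      · exact key i hi _ _ _ (hL.ge hi.le) (hL.mono i hi) (hL.le (by omega)) hw hx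
      · simp at hx

end Read

/-! ### Lookup -/

/-- The query `q` is not answered. -/
def Unk (T : List (ℕ × ℕ)) (q : ℕ) : Prop := ∀ e ∈ T, e.1 ≠ q

theorem lookE_spec {T : List (ℕ × ℕ)} {ans : ℕ → ℕ} (hT : ∀ e ∈ T, e.2 = ans e.1) (q : ℕ) :
    lookE T q = (0, ans q) ∨ (lookE T q = (q + 1, 0) ∧ Unk T q) := by
  rcases h : T.find? (fun e => decide (e.1 = q)) with _ | e
  · right
    refine ⟨by unfold lookE; rw [h]; rfl, fun e he h2 => ?_⟩
    have := List.find?_eq_none.mp h e he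
    simp at this
    exact this h2
  · left
    have h1 := List.mem_of_find?_eq_some h
    have h2 := List.find?_some h
    have h3 : e.1 = q := by simpa using h2
    have h4 : lookE T q = (0, e.2) := by unfold lookE; rw [h]; rfl
    rw [h4, hT e h1, h3]

/-- The entry `e` is the value `c`, or an unanswered cell of `S`. -/
def Sp (T : List (ℕ × ℕ)) (D : ℕ) (e : Ent) (c : ℕ) (S : Finset (ℕ × ℕ × ℕ)) : Prop :=
  e = (0, c) ∨ ∃ x ∈ S, Unk T (cellCode D x.1 x.2.1 x.2.2) ∧
    e = (cellCode D x.1 x.2.1 x.2.2 + 1, 0)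

theorem Sp.mono {T : List (ℕ × ℕ)} {D : ℕ} {e : Ent} {c : ℕ} {S S' : Finset (ℕ × ℕ × ℕ)}
    (h : Sp T D e c S) (hS : S ⊆ S') : Sp T D e c S' := by
  rcases h with h | ⟨x, hx, h⟩
  · exact Or.inl h
  · exact Or.inr ⟨x, hS hx, h⟩

theorem Sp.zero {T : List (ℕ × ℕ)} {D : ℕ} {e : Ent} {c : ℕ} {S : Finset (ℕ × ℕ × ℕ)}
    (h : Sp T D e c S) (h0 : e.1 = 0) : e = (0, c) := by
  rcases h with h | ⟨x, -, -, h⟩
  · exact h
  · rw [h] at h0; simp at h0

/-- A list of entries, each of which is correct or an unanswered cell of `S`: the first exception. -/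
theorem Sp.fm {T : List (ℕ × ℕ)} {D : ℕ} {l : List Ent} {S : Finset (ℕ × ℕ × ℕ)}
    (h : ∀ e ∈ l, e.1 = 0 ∨ ∃ x ∈ S, Unk T (cellCode D x.1 x.2.1 x.2.2) ∧
      e = (cellCode D x.1 x.2.1 x.2.2 + 1, 0)) :
    (fm l = 0 ∧ ∀ e ∈ l, e.1 = 0) ∨ ∃ x ∈ S, Unk T (cellCode D x.1 x.2.1 x.2.2) ∧
      fm l = cellCode D x.1 x.2.1 x.2.2 + 1 := by
  rcases fm_spec l with h1 | ⟨-, e, he, h2, h3⟩
  · exact Or.inl h1
  · rcases h e he with h4 | ⟨x, hx, h4, h5⟩
    · exact absurd h4 h2
    · exact Or.inr ⟨x, hx, h4, by rw [h3, h5]⟩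

/-! ### One level -/

/-- The seed in the feed. -/
def feedSeed (F : List ℕ) : ℕ → ℕ := fun i => F.getD (16 + i) 0

/-- The feed carries the parameters `Q`, the modulus `D`, the root end `Y` and the numbers `Tn`,
`Sn` of the solver. -/
structure Fits (F : List ℕ) (Q : Prm) (D Y Tn Sn : ℕ) : Prop where
  hM : pM F = Q.M
  hn : pn F = Q.n
  hm : pm F = Q.m
  hw : pw F = Q.w
  hg : pg F = Q.g0
  hJ : pJ F = Q.J
  hN : pN F = Q.N
  hA : pA F = Q.A
  hD : pD F = D
  hY : pY F = Y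
  hT : pT F = Tn
  hS : pS F = Sn
  hK : pK F = Q.M ^ Q.n
  hY0 : pY0 F = Y * Q.M ^ Q.n

theorem sum_map_range (n : ℕ) (f : ℕ → ℕ) :
    ((List.range n).map f).sum = ∑ i ∈ range n, f i := by
  induction n with
  | zero => rfl
  | succ n ih =>
    rw [List.range_succ, List.map_append, List.sum_append, ih, Finset.sum_range_succ]
    simp

theorem lmin_eq_minD (a : ℕ) (f : ℕ → ℕ) (m : ℕ) : lmin a f m = minD ((List.range m).map f) a := by
  induction m with
  | zero => rfl
  | succ m ih =>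
    show min (lmin a f m) (f m) = _
    rw [List.range_succ, List.map_append, ih]
    unfold minD
    rw [List.foldl_append]
    rfl

section Level

variable {pl : ℕ → ℕ → ℕ → ℕ → ℕ → ℕ → ℕ → List (List (List (List ℕ))) → ℕ → List ℕ}
variable {F : List ℕ} {Q : Prm} {D Y Tn Sn : ℕ} {hid vis : ℕ → ℕ → ℕ → ℕ} {T : List (ℕ × ℕ)}

/-- The schedule of the feed. -/
def fsch (pl : ℕ → ℕ → ℕ → ℕ → ℕ → ℕ → ℕ → List (List (List (List ℕ))) → ℕ → List ℕ)
    (F : List ℕ) (Q : Prm) (D Tn Sn : ℕ) : Sched :=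
  Q.sch (stdCode D) (listPicker Tn (pl Tn Sn)) (feedSeed F)

theorem fsch_ok (hM : 1 ≤ Q.M) : (fsch pl F Q D Tn Sn).Ok Q.M Q.J where
  xi_le := fun j s => by
    exact Nat.lt_succ_iff.mp (Nat.mod_lt _ (Nat.succ_pos Q.J))
  chain := fun q j s u v b f huv =>
    chainOf_isChain hM (Nat.mul_le_mul_right _ huv) _

theorem fsch_xi (hF : Fits F Q D Y Tn Sn) (j σ : ℕ) :
    (fsch pl F Q D Tn Sn).xi j σ = xiF F j σ := by
  unfold xiF
  rw [hF.hD, hF.hJ]
  rfl

/-- The table is correct at level `j`. -/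
def TabOk (pl : ℕ → ℕ → ℕ → ℕ → ℕ → ℕ → ℕ → List (List (List (List ℕ))) → ℕ → List ℕ)
    (F : List ℕ) (Q : Prm) (D Y Tn Sn : ℕ) (hid vis : ℕ → ℕ → ℕ → ℕ) (T : List (ℕ × ℕ)) (j : ℕ)
    (tab : Tbl) : Prop :=
  ∀ s u d b, (s + 1) * Q.M ^ j ≤ Q.M ^ Q.n → (u + d) * Q.M ^ j ≤ Y * Q.M ^ Q.n → d ≤ Q.w →
    b + j ≤ Q.N + Q.n →
    Sp T D (tget tab s u d b) ((Q.inst hid vis).c (fsch pl F Q D Tn Sn) j s u (u + d) b)
      ((Q.inst hid vis).S (fsch pl F Q D Tn Sn) j s u (u + d) b)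

theorem pMj_eq (hF : Fits F Q D Y Tn Sn) {j : ℕ} (hj : j ≤ Q.n) : pMj F j = Q.M ^ j := by
  unfold pMj
  rw [hF.hM, hF.hn, min_eq_left hj]

/-- The entry of an edge. -/
theorem edgF_spec (hF : Fits F Q D Y Tn Sn) {j : ℕ} (hj : j ≤ Q.n) {tab : Tbl}
    (hT : TabOk pl F Q D Y Tn Sn hid vis T j tab) {s i k a a' : ℕ}
    (hs : (s * Q.M + i + 1) * Q.M ^ j ≤ Q.M ^ Q.n) (haa : a ≤ a')
    (ha : a' * Q.M ^ j ≤ Y * Q.M ^ Q.n) (hk : k + j ≤ Q.N + Q.n) :
    edgF F tab j (s * Q.M + i) k a a' =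
        (0, (Q.inst hid vis).e (fsch pl F Q D Tn Sn) j s k i a a') ∨
      (a' - a ≤ Q.w ∧ ∃ x ∈ (Q.inst hid vis).S (fsch pl F Q D Tn Sn) j (s * Q.M + i) a a'
          (k - (fsch pl F Q D Tn Sn).xi j (s * Q.M + i)),
        Unk T (cellCode D x.1 x.2.1 x.2.2) ∧
        edgF F tab j (s * Q.M + i) k a a' = (cellCode D x.1 x.2.1 x.2.2 + 1, 0)) := by
  unfold edgF
  rw [hF.hw]
  have he : (Q.inst hid vis).e (fsch pl F Q D Tn Sn) j s k i a a' =
      if a' - a ≤ Q.w then (Q.inst hid vis).c (fsch pl F Q D Tn Sn) j (s * Q.M + i) a a'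
        (k - (fsch pl F Q D Tn Sn).xi j (s * Q.M + i)) else (a' - a) * (Q.M ^ j * Q.g0) := rfl
  rw [he]
  split_ifs with hw
  · have h := hT (s * Q.M + i) a (a' - a) (k - (fsch pl F Q D Tn Sn).xi j (s * Q.M + i)) hs
      (by rw [show a + (a' - a) = a' by omega]; exact ha) hw (by omega)
    rw [show a + (a' - a) = a' by omega] at h
    rw [← fsch_xi (pl := pl) hF]
    rcases h with h | ⟨x, hx, h1, h2⟩
    · exact Or.inl h
    · exact Or.inr ⟨hw, x, hx, h1, h2⟩
  · left
    rw [pMj_eq hF hj, hF.hg]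

theorem mem_histF {tab : Tbl} {j s a p k : ℕ} {e : Ent}
    (h : e ∈ (histF F tab j s a p k).flatten.flatten.flatten) :
    e.1 = 0 ∨ ∃ k' ≤ k, ∃ i < pM F, ∃ r r', r ≤ r' ∧ r' ≤ p ∧
      e = edgF F tab j (s * pM F + i) k' (a + r) (a + r') := by
  simp only [histF, List.mem_flatten, List.mem_map, List.mem_range] at h
  obtain ⟨l1, ⟨l2, ⟨l3, ⟨k', hk, rfl⟩, h2⟩, h1⟩, he⟩ := h
  simp only [List.mem_map, List.mem_range] at h2
  obtain ⟨i, hi, rfl⟩ := h2
  simp only [List.mem_map, List.mem_range] at h1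
  obtain ⟨r, hr, rfl⟩ := h1
  simp only [List.mem_map, List.mem_range] at he
  obtain ⟨r', hr', rfl⟩ := he
  split_ifs with hrr
  · exact Or.inr ⟨k', by omega, i, hi, r, r', hrr, by omega, rfl⟩
  · exact Or.inl rfl

theorem mem_histF_of {tab : Tbl} {j s a p k k' i r r' : ℕ} (hk : k' ≤ k) (hi : i < pM F)
    (hrr : r ≤ r') (hr : r' ≤ p) : edgF F tab j (s * pM F + i) k' (a + r) (a + r') ∈
      (histF F tab j s a p k).flatten.flatten.flatten := by
  unfold histF
  refine List.mem_flatten.2 ⟨_, List.mem_flatten.2 ⟨_, List.mem_flatten.2 ⟨_,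
    List.mem_map.2 ⟨k', List.mem_range.2 (by omega), rfl⟩,
    List.mem_map.2 ⟨i, List.mem_range.2 hi, rfl⟩⟩,
    List.mem_map.2 ⟨r, List.mem_range.2 (by omega), rfl⟩⟩,
    List.mem_map.2 ⟨r', List.mem_range.2 (by omega), by rw [if_pos hrr]⟩⟩

theorem valH_histF {tab : Tbl} {j s a p k : ℕ} {f : ℕ → ℕ → ℕ → ℕ → ℕ}
    (h : ∀ k' ≤ k, ∀ i < pM F, ∀ r r', r ≤ r' → r' ≤ p →
      (edgF F tab j (s * pM F + i) k' (a + r) (a + r')).2 = f k' i (a + r) (a + r')) :
    valH (histF F tab j s a p k) = histL (pM F) a p k f := by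
  unfold valH histF histL
  simp only [List.map_map]
  refine List.map_congr_left fun k' hk => ?_
  simp only [Function.comp_apply, List.map_map]
  refine List.map_congr_left fun i hi => ?_
  simp only [Function.comp_apply, List.map_map]
  refine List.map_congr_left fun r hr => ?_
  simp only [Function.comp_apply, List.map_map]
  refine List.map_congr_left fun r' hr' => ?_
  have h1 := List.mem_range.mp hk
  have h2 := List.mem_range.mp hi
  have h3 := List.mem_range.mp hr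
  have h4 := List.mem_range.mp hr'
  simp only [Function.comp_apply]
  split_ifs with hrr
  · exact h k' (by omega) i h2 r r' hrr (by omega)
  · rfl

/-- Standing assumptions of the correctness proof. -/
structure CorOk (F : List ℕ) (Q : Prm) (D Y Tn Sn : ℕ) (hid vis : ℕ → ℕ → ℕ → ℕ) : Prop where
  fits : Fits F Q D Y Tn Sn
  M_two : 2 ≤ Q.M
  hle : ∀ s u v, hid s u v ≤ vis s u v
  hbig : ∀ j ≤ Q.n, ∀ s u v, u ≤ v → v ≤ u + Q.w → (Q.inst hid vis).D vis j s u v ≤ pbig F

theorem CorOk.inst (h : CorOk F Q D Y Tn Sn hid vis) : (Q.inst hid vis).Ok :=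
  ⟨h.M_two, h.hle⟩

theorem CorOk.sch (h : CorOk F Q D Y Tn Sn hid vis) :
    (fsch pl F Q D Tn Sn).Ok (Q.inst hid vis).M Q.J := fsch_ok (by have := h.M_two; omega)

/-- Exceptions are below the clamp. -/
theorem code_le_FB (h : CorOk F Q D Y Tn Sn hid vis) {j s u v b : ℕ} (huv : u ≤ v)
    (hw : v ≤ u + Q.w) (hs : (s + 1) * Q.M ^ j ≤ Q.M ^ Q.n) (hv : v * Q.M ^ j ≤ Y * Q.M ^ Q.n)
    {x : ℕ × ℕ × ℕ} (hx : x ∈ (Q.inst hid vis).S (fsch pl F Q D Tn Sn) j s u v b) :
    min (cellCode D x.1 x.2.1 x.2.2 + 1) (pFB F) = cellCode D x.1 x.2.1 x.2.2 + 1 := by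
  obtain ⟨h1, h2, h3, h4, h5⟩ := Inst.S_range h.sch j s u v b huv hw x hx
  apply min_eq_left
  unfold pFB cellCode
  rw [h.fits.hK, h.fits.hD, h.fits.hY0]
  have e1 : x.1 ≤ Q.M ^ Q.n := (le_of_lt h1).trans hs
  have e2 : x.2.2 ≤ Y * Q.M ^ Q.n := h4.trans hv
  have e3 : x.2.1 ≤ Y * Q.M ^ Q.n := h3.trans e2
  have e4 : x.1 * D + x.2.1 ≤ Q.M ^ Q.n * D + Y * Q.M ^ Q.n :=
    Nat.add_le_add (Nat.mul_le_mul_right _ e1) e3
  have e5 := Nat.mul_le_mul_right D e4
  omega

theorem best_e_le (h : CorOk F Q D Y Tn Sn hid vis) {j s u v b : ℕ} (hj : j + 1 ≤ Q.n)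
    (huv : u ≤ v) (hw : v ≤ u + Q.w) :
    best ((Q.inst hid vis).e (fsch pl F Q D Tn Sn) j s b) Q.M (u * Q.M) (v * Q.M) ≤ pbig F := by
  have h1 : (Q.inst hid vis).D (Q.inst hid vis).vis (j + 1) s u v ≤ pbig F :=
    h.hbig (j + 1) hj s u v huv hw
  rw [← Inst.c_at_zero (X := fsch pl F Q D Tn Sn) h.inst (j + 1) s u v huv] at h1
  rw [Inst.c_succ_zero] at h1
  refine le_trans (best_mono (by have := h.M_two; omega) (Nat.mul_le_mul_right _ huv) ?_) h1
  intro i _ a a' _ haa _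
  exact Inst.e_antitone h.inst h.sch haa (Nat.zero_le b)

/-- The lane of the strategy is the lane of the schedule. -/
theorem L_eq (h : Fits F Q D Y Tn Sn) {j s u d b q : ℕ} (hj : j + 1 ≤ Q.n)
    {HV : List (List (List (List ℕ)))}
    (hHV : HV = histL Q.M (u * Q.M) (d * Q.M) b
      (cut b ((Q.inst hid vis).ed (fsch pl F Q D Tn Sn) j s
        ((Q.inst hid vis).c (fsch pl F Q D Tn Sn) j)))) (i : ℕ) :
    (Q.inst hid vis).L (fsch pl F Q D Tn Sn) q j s u (u + d) b i =
      u * Q.M + (pathF pl F j s u d (d * Q.M) b HV q).getD i 0 := by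
  have e1 : (u + d) * Q.M - u * Q.M = d * Q.M := by rw [Nat.add_mul]; omega
  have e2 : (Q.inst hid vis).L (fsch pl F Q D Tn Sn) q j s u (u + d) b i =
      chainOf Q.M (u * Q.M) ((u + d) * Q.M - u * Q.M)
        (pl Tn Sn Q.M ((u + d) * Q.M - u * Q.M) (Q.C (j + 1 - 1)) (max 1 q) b
          (histL Q.M (u * Q.M) ((u + d) * Q.M - u * Q.M) b
            (cut b ((Q.inst hid vis).ed (fsch pl F Q D Tn Sn) j s
              ((Q.inst hid vis).c (fsch pl F Q D Tn Sn) j))))
          (feedSeed F ((stdCode D).cl (j + 1) s u (u + d) b q) % Tn)) i := rfl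
  rw [e2, e1, ← hHV]
  unfold chainOf pathF coinF
  have e3 : Q.C (j + 1 - 1) = pMj F j * (pm F * pg F) / pA F := by
    rw [pMj_eq h (by omega), h.hm, h.hg, h.hA]
    rfl
  rw [e3, h.hM, h.hT, h.hS, h.hD]
  rfl

/-- The second half of the computation of an entry. -/
theorem entS2_spec (h : CorOk F Q D Y Tn Sn hid vis) {j : ℕ} (hj : j + 1 ≤ Q.n) {tab : Tbl}
    (hT : TabOk pl F Q D Y Tn Sn hid vis T j tab) {s u d b : ℕ}
    (hs : (s + 1) * Q.M ^ (j + 1) ≤ Q.M ^ Q.n) (hv : (u + d) * Q.M ^ (j + 1) ≤ Y * Q.M ^ Q.n)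
    (hd : d ≤ Q.w) (hb : b + (j + 1) ≤ Q.N + Q.n) {HV : List (List (List (List ℕ)))}
    (hHV : HV = histL Q.M (u * Q.M) (d * Q.M) b
      (cut b ((Q.inst hid vis).ed (fsch pl F Q D Tn Sn) j s
        ((Q.inst hid vis).c (fsch pl F Q D Tn Sn) j)))) :
    Sp T D (entS2 pl F tab j s u d (d * Q.M) b HV)
      ((Q.inst hid vis).c (fsch pl F Q D Tn Sn) (j + 1) s u (u + d) b)
      ((Q.inst hid vis).S (fsch pl F Q D Tn Sn) (j + 1) s u (u + d) b) := by
  set I := Q.inst hid vis with hI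
  set X := fsch pl F Q D Tn Sn with hX
  have hM1 : 1 ≤ Q.M := by have := h.M_two; omega
  have hbest : bestL (HV.getD b []) Q.M (d * Q.M) (pbig F) =
      best (I.e X j s b) Q.M (u * Q.M) ((u + d) * Q.M) := by
    have hW : ∀ i < Q.M, ∀ r r', r ≤ r' → r' ≤ d * Q.M →
        (((HV.getD b []).getD i []).getD r []).getD r' 0 =
          I.e X j s b i (u * Q.M + r) (u * Q.M + r') := by
      intro i hi r r' hrr hr'
      have h1 := hget_histL Q.M (u * Q.M) (d * Q.M) b
        (cut b (I.ed X j s (I.c X j))) le_rfl hi (hrr.trans hr') hr'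
      rw [← hHV, if_pos hrr] at h1
      unfold hget at h1
      rw [h1]
      unfold cut
      rw [if_pos le_rfl]
      rfl
    rw [bestL_spec hM1 hW, ← Nat.add_mul]
    exact min_eq_left (best_e_le h hj (by omega) (by omega))
  -- the entries of the lanes
  have hedge : ∀ q, ∀ i < Q.M,
      edgF F tab j (s * Q.M + i) (b + 1)
          (u * Q.M + (pathF pl F j s u d (d * Q.M) b HV q).getD i 0)
          (u * Q.M + (pathF pl F j s u d (d * Q.M) b HV q).getD (i + 1) 0) =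
        (0, I.e X j s (b + 1) i (I.L X q j s u (u + d) b i) (I.L X q j s u (u + d) b (i + 1))) ∨
      ∃ x, (b ≠ 0 → q < X.Λ → x ∈ I.S X (j + 1) s u (u + d) b) ∧
        Unk T (cellCode D x.1 x.2.1 x.2.2) ∧
        edgF F tab j (s * Q.M + i) (b + 1)
          (u * Q.M + (pathF pl F j s u d (d * Q.M) b HV q).getD i 0)
          (u * Q.M + (pathF pl F j s u d (d * Q.M) b HV q).getD (i + 1) 0) =
          (cellCode D x.1 x.2.1 x.2.2 + 1, 0) := by
    intro q i hi
    have hL := Inst.L_chain (I := I) (X := X) h.sch q j s u (u + d) b (by omega)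
    have h2 := hL.mono i hi
    have h3 : I.L X q j s u (u + d) b (i + 1) ≤ (u + d) * Q.M := hL.le (show i + 1 ≤ Q.M from hi)
    have e1 : (s * Q.M + i + 1) * Q.M ^ j ≤ Q.M ^ Q.n := by
      refine le_trans ?_ hs
      rw [pow_succ']
      calc (s * Q.M + i + 1) * Q.M ^ j ≤ ((s + 1) * Q.M) * Q.M ^ j :=
            Nat.mul_le_mul_right _ (by rw [Nat.add_mul, Nat.one_mul]; omega)
        _ = (s + 1) * (Q.M * Q.M ^ j) := by ring
    have e2 : I.L X q j s u (u + d) b (i + 1) * Q.M ^ j ≤ Y * Q.M ^ Q.n := by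
      refine le_trans ?_ hv
      rw [pow_succ']
      calc I.L X q j s u (u + d) b (i + 1) * Q.M ^ j ≤ ((u + d) * Q.M) * Q.M ^ j :=
            Nat.mul_le_mul_right _ h3
        _ = _ := by ring
    have h4 := edgF_spec h.fits (by omega) hT (s := s) (i := i) (k := b + 1) e1 h2 e2 (by omega)
    rw [← L_eq h.fits hj hHV i, ← L_eq h.fits hj hHV (i + 1)]
    rcases h4 with h4 | ⟨h5, x, hx, h6, h7⟩
    · exact Or.inl h4
    · refine Or.inr ⟨x, fun hb0 hq => ?_, h6, h7⟩
      exact Inst.S_lane hb0 hq hi h5 hx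
  have hlane : b ≠ 0 → ∀ e ∈ (lanesF pl F tab j s u d (d * Q.M) b HV).flatten,
      e.1 = 0 ∨ ∃ x ∈ I.S X (j + 1) s u (u + d) b, Unk T (cellCode D x.1 x.2.1 x.2.2) ∧
        e = (cellCode D x.1 x.2.1 x.2.2 + 1, 0) := by
    intro hb0 e he
    obtain ⟨l, hl, he⟩ := List.mem_flatten.1 he
    obtain ⟨q, hq, rfl⟩ := List.mem_map.1 hl
    obtain ⟨i, hi, rfl⟩ := List.mem_map.1 he
    rw [h.fits.hN] at hq
    rw [h.fits.hM] at hi
    have hq' : q < X.Λ := List.mem_range.1 hq
    have hi' := List.mem_range.1 hi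
    rw [h.fits.hM]
    rcases hedge q i hi' with h1 | ⟨x, hx, h1, h2⟩
    · left; rw [h1]
    · exact Or.inr ⟨x, hx hb0 hq', h1, h2⟩
  unfold entS2
  rw [h.fits.hM, hbest]
  split_ifs with hb0 hm
  · left
    subst hb0
    rw [Inst.c_succ_zero]
    rfl
  · -- a missing cell on a lane
    rcases Sp.fm (T := T) (D := D) (S := I.S X (j + 1) s u (u + d) b) (hlane hb0) with h1 | ⟨x, hx, h1, h2⟩
    · exact absurd h1.1 hm
    · right
      refine ⟨x, hx, h1, ?_⟩
      rw [h2, code_le_FB h (by omega) (by omega) hs hv hx]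
  · -- everything is known
    rw [ne_eq, not_not] at hm
    have hz : ∀ e ∈ (lanesF pl F tab j s u d (d * Q.M) b HV).flatten, e.1 = 0 := by
      rcases fm_spec (lanesF pl F tab j s u d (d * Q.M) b HV).flatten with h1 | h1
      · exact h1.2
      · exact absurd hm h1.1
    left
    rw [Inst.c_succ _ _ _ _ _ _ (by omega), lmin_eq_minD]
    congr 1
    congr 1
    unfold lanesF
    rw [List.map_map]
    have hΛ : X.Λ = Q.N + 1 := rfl
    rw [hΛ, h.fits.hN]
    refine List.map_congr_left fun q hq => ?_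
    have hq' := List.mem_range.1 hq
    simp only [Function.comp_apply]
    unfold laneE
    rw [List.map_map, sum_map_range, h.fits.hM]
    unfold chainCost
    refine Finset.sum_congr rfl fun i hi => ?_
    have hi' := Finset.mem_range.1 hi
    rcases hedge q i hi' with h1 | ⟨x, -, -, h1⟩
    · simp only [Function.comp_apply]
      rw [h1]
    · exfalso
      have h2 := hz (edgF F tab j (s * Q.M + i) (b + 1)
        (u * Q.M + (pathF pl F j s u d (d * Q.M) b HV q).getD i 0)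
        (u * Q.M + (pathF pl F j s u d (d * Q.M) b HV q).getD (i + 1) 0)) ?_
      · rw [h1] at h2; simp at h2
      · refine List.mem_flatten.2 ⟨_, List.mem_map.2 ⟨q, ?_, rfl⟩, List.mem_map.2 ⟨i, ?_, ?_⟩⟩
        · rw [h.fits.hN]; exact hq
        · rw [h.fits.hM]; exact List.mem_range.2 hi'
        · rw [h.fits.hM]

/-- An entry of level `j + 1`. -/
theorem entS_spec (h : CorOk F Q D Y Tn Sn hid vis) {j : ℕ} (hj : j + 1 ≤ Q.n) {tab : Tbl}
    (hT : TabOk pl F Q D Y Tn Sn hid vis T j tab) {s u d b : ℕ}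
    (hs : (s + 1) * Q.M ^ (j + 1) ≤ Q.M ^ Q.n) (hv : (u + d) * Q.M ^ (j + 1) ≤ Y * Q.M ^ Q.n)
    (hd : d ≤ Q.w) (hb : b + (j + 1) ≤ Q.N + Q.n) :
    Sp T D (entS pl F tab j s u d b)
      ((Q.inst hid vis).c (fsch pl F Q D Tn Sn) (j + 1) s u (u + d) b)
      ((Q.inst hid vis).S (fsch pl F Q D Tn Sn) (j + 1) s u (u + d) b) := by
  set I := Q.inst hid vis with hI
  set X := fsch pl F Q D Tn Sn with hX
  have e1 : min d (pw F) * pM F = d * Q.M := by rw [h.fits.hw, h.fits.hM, min_eq_left hd]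
  have e2 : min b (pB F) = b := by
    unfold pB
    rw [h.fits.hN, h.fits.hn]
    exact min_eq_left (by omega)
  -- all edges of the history
  have hedge : ∀ k' ≤ b, ∀ i < Q.M, ∀ r r', r ≤ r' → r' ≤ d * Q.M →
      edgF F tab j (s * Q.M + i) k' (u * Q.M + r) (u * Q.M + r') =
        (0, I.e X j s k' i (u * Q.M + r) (u * Q.M + r')) ∨
      ∃ x ∈ I.S X (j + 1) s u (u + d) b, Unk T (cellCode D x.1 x.2.1 x.2.2) ∧
        edgF F tab j (s * Q.M + i) k' (u * Q.M + r) (u * Q.M + r') =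
          (cellCode D x.1 x.2.1 x.2.2 + 1, 0) := by
    intro k' hk' i hi r r' hrr hr'
    have g1 : (s * Q.M + i + 1) * Q.M ^ j ≤ Q.M ^ Q.n := by
      refine le_trans ?_ hs
      rw [pow_succ']
      calc (s * Q.M + i + 1) * Q.M ^ j ≤ ((s + 1) * Q.M) * Q.M ^ j :=
            Nat.mul_le_mul_right _ (by rw [Nat.add_mul, Nat.one_mul]; omega)
        _ = (s + 1) * (Q.M * Q.M ^ j) := by ring
    have g0 : u * Q.M + r' ≤ (u + d) * Q.M := by rw [Nat.add_mul]; omega
    have g2 : (u * Q.M + r') * Q.M ^ j ≤ Y * Q.M ^ Q.n := by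
      refine le_trans ?_ hv
      rw [pow_succ']
      calc (u * Q.M + r') * Q.M ^ j ≤ ((u + d) * Q.M) * Q.M ^ j := Nat.mul_le_mul_right _ g0
        _ = _ := by ring
    rcases edgF_spec h.fits (by omega) hT (s := s) (i := i) (k := k') g1
      (show u * Q.M + r ≤ u * Q.M + r' by omega) g2 (by omega) with h1 | ⟨h1, x, hx, h2, h3⟩
    · exact Or.inl h1
    · right
      refine ⟨x, ?_, h2, h3⟩
      rcases Nat.eq_zero_or_pos b with rfl | hb0
      · obtain rfl : k' = 0 := by omega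
        rw [Nat.zero_sub, Inst.S_zero] at hx
        simp at hx
      · refine Inst.S_child (by omega) (show i < Q.M from hi) (show u * Q.M ≤ u * Q.M + r by omega)
          (show u * Q.M + r ≤ u * Q.M + r' by omega) g0 h1 ?_
        exact Inst.S_mono h.sch (by omega) (Nat.sub_le_sub_right hk' _) hx
  have hall : ∀ e ∈ (histF F tab j s (u * Q.M) (d * Q.M) b).flatten.flatten.flatten,
      e.1 = 0 ∨ ∃ x ∈ I.S X (j + 1) s u (u + d) b, Unk T (cellCode D x.1 x.2.1 x.2.2) ∧
        e = (cellCode D x.1 x.2.1 x.2.2 + 1, 0) := by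
    intro e he
    rcases mem_histF he with h1 | ⟨k', hk', i, hi, r, r', hrr, hr', rfl⟩
    · exact Or.inl h1
    · rw [h.fits.hM] at hi ⊢
      rcases hedge k' hk' i hi r r' hrr hr' with h2 | ⟨x, hx, h2, h3⟩
      · left; rw [h2]
      · exact Or.inr ⟨x, hx, h2, h3⟩
  unfold entS
  rw [e1, e2, h.fits.hM]
  split_ifs with hm
  · rcases Sp.fm (T := T) (D := D) (S := I.S X (j + 1) s u (u + d) b) hall with h1 | ⟨x, hx, h1, h2⟩
    · exact absurd h1.1 hm
    · right
      refine ⟨x, hx, h1, ?_⟩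
      rw [h2, code_le_FB h (by omega) (by omega) hs hv hx]
  · rw [ne_eq, not_not] at hm
    have hz : ∀ e ∈ (histF F tab j s (u * Q.M) (d * Q.M) b).flatten.flatten.flatten, e.1 = 0 := by
      rcases fm_spec (histF F tab j s (u * Q.M) (d * Q.M) b).flatten.flatten.flatten with h1 | h1
      · exact h1.2
      · exact absurd hm h1.1
    refine entS2_spec h hj hT hs hv hd hb ?_
    rw [valH_histF (f := cut b (I.ed X j s (I.c X j))) ?_, h.fits.hM]
    intro k' hk' i hi r r' hrr hr'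
    rw [h.fits.hM] at hi ⊢
    have h4 := hz _ (mem_histF_of (F := F) (tab := tab) (j := j) (s := s) (a := u * Q.M) hk'
      (by rw [h.fits.hM]; exact hi) hrr hr')
    rw [h.fits.hM] at h4
    unfold cut
    rw [if_pos hk']
    rcases hedge k' hk' i hi r r' hrr hr' with h2 | ⟨x, hx, h2, h3⟩
    · rw [h2]; rfl
    · rw [h3] at h4; simp at h4

/-- The table of level `0`. -/
theorem lev0_spec (h : CorOk F Q D Y Tn Sn hid vis) {vs : List ℕ → ℕ → ℕ → ℕ → ℕ}
    (hvs : ∀ s u v, vs F s u v = vis s u v) {ans : ℕ → ℕ}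
    (hans : ∀ s u v, s < Q.M ^ Q.n → u ≤ v → v ≤ Y * Q.M ^ Q.n → ans (cellCode D s u v) = hid s u v)
    (hT : ∀ e ∈ T, e.2 = ans e.1) : TabOk pl F Q D Y Tn Sn hid vis T 0 (lev0 vs F T) := by
  intro s u d b hs hv hd hb
  rw [pow_zero, mul_one] at hs hv
  unfold lev0
  rw [tget_tmk _ (by rw [h.fits.hK]; omega) (by rw [h.fits.hY0]; omega) (by rw [h.fits.hw]; exact hd)
    (by unfold pB; rw [h.fits.hN, h.fits.hn]; omega), h.fits.hD]
  split_ifs with hb2
  · rcases lookE_spec hT (cellCode D s u (u + d)) with h1 | ⟨h1, h2⟩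
    · left
      rw [h1, hans s u (u + d) (by omega) (by omega) hv, Inst.c_zero, if_pos hb2]
      rfl
    · right
      refine ⟨(s, u, u + d), ?_, h2, h1⟩
      rw [Inst.S, if_pos hb2, mem_singleton]
  · left
    rw [Inst.c_zero, if_neg hb2, hvs]
    rfl

/-- All tables are correct. -/
theorem tabs_spec (h : CorOk F Q D Y Tn Sn hid vis) {vs : List ℕ → ℕ → ℕ → ℕ → ℕ}
    (hvs : ∀ s u v, vs F s u v = vis s u v) {ans : ℕ → ℕ}
    (hans : ∀ s u v, s < Q.M ^ Q.n → u ≤ v → v ≤ Y * Q.M ^ Q.n → ans (cellCode D s u v) = hid s u v)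
    (hT : ∀ e ∈ T, e.2 = ans e.1) : ∀ j, j ≤ Q.n →
      TabOk pl F Q D Y Tn Sn hid vis T j (tabs pl vs F T j) := by
  intro j
  induction j with
  | zero => intro _; exact lev0_spec h hvs hans hT
  | succ j ih =>
    intro hj s u d b hs hv hd hb
    have hM : 0 < Q.M ^ (j + 1) := Nat.pow_pos (by have := h.M_two; omega)
    have h1 : s < Q.M ^ Q.n := by
      have := Nat.le_mul_of_pos_right (s + 1) hM
      omega
    have h2 : u ≤ Y * Q.M ^ Q.n := by
      have := Nat.le_mul_of_pos_right (u + d) hM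
      omega
    show Sp T D (tget (levS pl F j (tabs pl vs F T j)) s u d b) _ _
    unfold levS
    rw [tget_tmk _ (by rw [h.fits.hK]; exact h1) (by rw [h.fits.hY0]; exact h2)
      (by rw [h.fits.hw]; exact hd) (by unfold pB; rw [h.fits.hN, h.fits.hn]; omega)]
    exact entS_spec h hj (ih (by omega)) hs hv hd hb

/-- The root. -/
theorem rootE_spec (h : CorOk F Q D Y Tn Sn hid vis) (hYw : Y ≤ Q.w)
    {vs : List ℕ → ℕ → ℕ → ℕ → ℕ}
    (hvs : ∀ s u v, vs F s u v = vis s u v) {ans : ℕ → ℕ}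
    (hans : ∀ s u v, s < Q.M ^ Q.n → u ≤ v → v ≤ Y * Q.M ^ Q.n → ans (cellCode D s u v) = hid s u v)
    (hT : ∀ e ∈ T, e.2 = ans e.1) :
    Sp T D (rootE pl vs (F, T)) ((Q.inst hid vis).c (fsch pl F Q D Tn Sn) Q.n 0 0 Y Q.N)
      ((Q.inst hid vis).S (fsch pl F Q D Tn Sn) Q.n 0 0 Y Q.N) := by
  have h1 := tabs_spec (pl := pl) h hvs hans hT Q.n le_rfl 0 0 Y Q.N (by simp) (by simp) hYw le_rfl
  rw [Nat.zero_add] at h1
  unfold rootE
  simp only
  rw [h.fits.hn, h.fits.hY, h.fits.hN]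
  exact h1

end Level

/-! ### The loop -/

section Loop

open Vale.Agent.P315.RAM (oround absorb)

variable {pl : ℕ → ℕ → ℕ → ℕ → ℕ → ℕ → ℕ → List (List (List (List ℕ))) → ℕ → List ℕ}
variable {vs : List ℕ → ℕ → ℕ → ℕ → ℕ}
variable {F : List ℕ} {Q : Prm} {D Y Tn Sn : ℕ} {hid vis : ℕ → ℕ → ℕ → ℕ}

/-- One round on the list of answers. -/
def rnd (pl : ℕ → ℕ → ℕ → ℕ → ℕ → ℕ → ℕ → List (List (List (List ℕ))) → ℕ → List ℕ)
    (vs : List ℕ → ℕ → ℕ → ℕ → ℕ) (F : List ℕ) (ans : ℕ → ℕ) (T : List (ℕ × ℕ)) : List (ℕ × ℕ) :=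
  if (rootE pl vs (F, T)).1 = 0 then T else (askS pl vs (F, T), ans (askS pl vs (F, T))) :: T

theorem oround_eq (ans : ℕ → ℕ) (T : List (ℕ × ℕ)) :
    oround (askS pl vs) (updS pl vs) (fun q => [ans q]) (F, T) = (F, rnd pl vs F ans T) := by
  show updS pl vs (ans (askS pl vs (F, T)), (F, T)) = _
  unfold updS rnd
  simp only
  split_ifs <;> rfl

theorem oround_iter (ans : ℕ → ℕ) (t : ℕ) (T : List (ℕ × ℕ)) :
    (oround (askS pl vs) (updS pl vs) (fun q => [ans q]))^[t] (F, T) =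
      (F, (rnd pl vs F ans)^[t] T) := by
  induction t generalizing T with
  | zero => rfl
  | succ t ih => rw [Function.iterate_succ_apply, oround_eq, ih, Function.iterate_succ_apply]

theorem rnd_good (ans : ℕ → ℕ) (t : ℕ) :
    ∀ e ∈ (rnd pl vs F ans)^[t] [], e.2 = ans e.1 := by
  induction t with
  | zero => simp
  | succ t ih =>
    rw [Function.iterate_succ_apply']
    unfold rnd at ih ⊢
    split_ifs with h
    · exact ih
    · intro e he
      rcases List.mem_cons.1 he with rfl | he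
      · rfl
      · exact ih e he

theorem rnd_length (ans : ℕ → ℕ) (t : ℕ) : ((rnd pl vs F ans)^[t] []).length ≤ t := by
  induction t with
  | zero => exact le_rfl
  | succ t ih =>
    rw [Function.iterate_succ_apply']
    unfold rnd at ih ⊢
    split_ifs with h
    · exact ih.trans (Nat.le_succ t)
    · rw [List.length_cons]; exact Nat.succ_le_succ ih

/-- Either the value has been found, or there are `t` different answered cells in the read set and
one which is not answered. -/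
theorem rnd_dich (h : CorOk F Q D Y Tn Sn hid vis) (hYw : Y ≤ Q.w)
    (hvs : ∀ s u v, vs F s u v = vis s u v) {ans : ℕ → ℕ}
    (hans : ∀ s u v, s < Q.M ^ Q.n → u ≤ v → v ≤ Y * Q.M ^ Q.n →
      ans (cellCode D s u v) = hid s u v) (t : ℕ) :
    rootE pl vs (F, (rnd pl vs F ans)^[t] []) =
        (0, (Q.inst hid vis).c (fsch pl F Q D Tn Sn) Q.n 0 0 Y Q.N) ∨
      ∃ U ⊆ ((Q.inst hid vis).S (fsch pl F Q D Tn Sn) Q.n 0 0 Y Q.N).image
          (fun x => cellCode D x.1 x.2.1 x.2.2),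
        U.card = t + 1 ∧ ∀ q ∈ U, q = askS pl vs (F, (rnd pl vs F ans)^[t] []) ∨
          ∃ e ∈ (rnd pl vs F ans)^[t] [], e.1 = q := by
  induction t with
  | zero =>
    rcases rootE_spec (pl := pl) (T := []) h hYw hvs hans (by simp) with h1 | ⟨x, hx, h1, h2⟩
    · exact Or.inl h1
    · right
      refine ⟨{cellCode D x.1 x.2.1 x.2.2}, ?_, by simp, ?_⟩
      · rw [Finset.singleton_subset_iff]
        exact Finset.mem_image_of_mem (fun x : ℕ × ℕ × ℕ => cellCode D x.1 x.2.1 x.2.2) hx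
      · intro q hq
        left
        rw [Finset.mem_singleton] at hq
        subst hq
        show _ = askS pl vs (F, [])
        unfold askS
        rw [h2]
        rfl
  | succ t ih =>
    rw [Function.iterate_succ_apply']
    set T := (rnd pl vs F ans)^[t] [] with hT
    rcases ih with ih | ⟨U, hU, hc, hUq⟩
    · left
      have : rnd pl vs F ans T = T := by unfold rnd; rw [ih, if_pos rfl]
      rw [this]; exact ih
    by_cases h0 : (rootE pl vs (F, T)).1 = 0
    · left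
      have : rnd pl vs F ans T = T := by unfold rnd; rw [if_pos h0]
      rw [this]
      exact (rootE_spec (pl := pl) (T := T) h hYw hvs hans (rnd_good ans t)).zero h0
    have hr : rnd pl vs F ans T = (askS pl vs (F, T), ans (askS pl vs (F, T))) :: T := by
      unfold rnd; rw [if_neg h0]
    have hgood : ∀ e ∈ rnd pl vs F ans T, e.2 = ans e.1 := by
      have := rnd_good (pl := pl) (vs := vs) (F := F) ans (t + 1)
      rwa [Function.iterate_succ_apply'] at this
    rcases rootE_spec (pl := pl) (T := rnd pl vs F ans T) h hYw hvs hans hgood with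
      h1 | ⟨x, hx, h1, h2⟩
    · exact Or.inl h1
    right
    refine ⟨insert (cellCode D x.1 x.2.1 x.2.2) U, ?_, ?_, ?_⟩
    · rw [Finset.insert_subset_iff]
      exact ⟨Finset.mem_image_of_mem (fun x : ℕ × ℕ × ℕ => cellCode D x.1 x.2.1 x.2.2) hx, hU⟩
    · rw [Finset.card_insert_of_notMem, hc]
      intro hmem
      rw [hr] at h1
      rcases hUq _ hmem with h4 | ⟨e, he, h4⟩
      · exact h1 (askS pl vs (F, T), ans (askS pl vs (F, T))) (List.mem_cons_self) h4.symm
      · exact h1 e (List.mem_cons_of_mem _ he) h4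
    · intro q hq
      rcases Finset.mem_insert.1 hq with rfl | hq
      · left
        unfold askS
        rw [h2]
        rfl
      · right
        rw [hr]
        rcases hUq q hq with h4 | ⟨e, he, h4⟩
        · exact ⟨_, List.mem_cons_self, h4.symm⟩
        · exact ⟨e, List.mem_cons_of_mem _ he, h4⟩

/-- **Correctness of the strategy**: after `Rq` rounds the output is the certified cost, or the
read set has more than `Rq` cells and the output is `lx + ly` or the certified cost. -/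
theorem outS_spec (h : CorOk F Q D Y Tn Sn hid vis) (hYw : Y ≤ Q.w)
    (hvs : ∀ s u v, vs F s u v = vis s u v) {ans : ℕ → ℕ}
    (hans : ∀ s u v, s < Q.M ^ Q.n → u ≤ v → v ≤ Y * Q.M ^ Q.n →
      ans (cellCode D s u v) = hid s u v) (Rq : ℕ) :
    outS pl vs ((oround (askS pl vs) (updS pl vs) (fun q => [ans q]))^[Rq] (startS F)) =
        (Q.inst hid vis).c (fsch pl F Q D Tn Sn) Q.n 0 0 Y Q.N ∨
      (Rq < ((Q.inst hid vis).S (fsch pl F Q D Tn Sn) Q.n 0 0 Y Q.N).card ∧
        outS pl vs ((oround (askS pl vs) (updS pl vs) (fun q => [ans q]))^[Rq] (startS F)) =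
          F.getD 0 0 + F.getD 1 0) := by
  unfold startS
  rw [oround_iter]
  have hg := rnd_good (pl := pl) (vs := vs) (F := F) ans Rq
  rcases rnd_dich (pl := pl) (vs := vs) h hYw hvs hans Rq with h1 | ⟨U, hU, hc, -⟩
  · left
    unfold outS
    rw [h1, if_pos rfl]
  · rcases rootE_spec (pl := pl) h hYw hvs hans hg with h2 | ⟨x, hx, -, h2⟩
    · left
      unfold outS
      rw [h2, if_pos rfl]
    · right
      have h3 := Finset.card_le_card hU
      have h4 := Finset.card_image_le (s := (Q.inst hid vis).S (fsch pl F Q D Tn Sn) Q.n 0 0 Y Q.N)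
        (f := fun x => cellCode D x.1 x.2.1 x.2.2)
      refine ⟨by omega, ?_⟩
      unfold outS
      rw [h2, if_neg (by simp)]

end Loop

end Vale.Agent.P315.OT
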