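import Vale.Agent.P315.OT.StratMain
import Vale.Agent.P315.OT.StratBig
import Vale.Agent.P315.OT.Solve
import Vale.Agent.P315.OT.Root

/-!
P315, one-scale track (helper453), OT-7: the two facts about the run, in the form of
`Solve.lean` (`OTHyp.valid`) and `Root.lean` (`RunOk`).
-/

set_option autoImplicit false

namespace Vale.Agent.P315.OT

open Finset
open Vale.Agent.P315.RAM (oround absorb)
open Vale.Agent.P315.H873 (feedP)

/-- The numerical conditions; `R` = number of random words. -/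
structure RunHyp (Q : Prm) (Y D Tn R : ℕ) : Prop where
  M_two : 2 ≤ Q.M
  Y_le : Y ≤ Q.w
  D_gt : Y * Q.M ^ Q.n < D
  len_M : Q.M ≤ 16 + R
  len_n : Q.n ≤ 16 + R
  len_w : Q.w ≤ 16 + R
  len_N : Q.N ≤ 16 + R
  len_T : Tn ≤ 16 + R
  len_K : Q.M ^ Q.n ≤ 16 + R
  len_Y : Y * Q.M ^ Q.n ≤ 16 + R

theorem ofFn_getD_eq_sd {R E : ℕ} (c : Fin R → Fin E) (i : ℕ) :
    (List.ofFn fun i => (c i : ℕ)).getD i 0 = sd c i := by
  unfold sd
  rw [List.getD_eq_getElem?_getD, List.getElem?_ofFn]
  split_ifs with h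
  · rfl
  · rfl

theorem RunHyp.mainOk {x y : List ℕ} {Q : Prm} {D Tn R : ℕ} (h : RunHyp Q (Q.Y y) D Tn R)
    {seeds : List ℕ} (hs : seeds.length = R) : MainOk x y Q D Tn seeds where
  M_two := h.M_two
  Y_le := h.Y_le
  D_gt := h.D_gt
  len_M := hs ▸ h.len_M
  len_n := hs ▸ h.len_n
  len_w := hs ▸ h.len_w
  len_N := hs ▸ h.len_N
  len_T := hs ▸ h.len_T
  len_K := hs ▸ h.len_K
  len_Y := hs ▸ h.len_Y
  big := fun F hF => hbig_visc hF (by have := h.M_two; omega) x y

section

variable {x y : List ℕ} {Q : Prm} {D Tn Sn R E : ℕ}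

/-- All questions are codes of cells. -/
theorem run_valid (h : RunHyp Q (Q.Y y) D Tn R) (c : Fin R → Fin E) (t : ℕ) :
    OtV (Q.M ^ Q.n) D Q.w (askS (fun T S => pkL S T) visF
      (otRun startS (askS (fun T S => pkL S T) visF) (updS (fun T S => pkL S T) visF) x y
        (Q.m * Q.g0) Q.g0 D t (feedP (preF x.length y.length Q D (Q.Y y) Tn Sn) c))) := by
  have hs : (List.ofFn fun i => (c i : ℕ)).length = R := List.length_ofFn
  exact (strat_main (Sn := Sn) (h.mainOk (x := x) (y := y) hs)).1 t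

/-- The output is the certified cost of the root for the seeds `c`, or the root is not yet
known. -/
theorem run_ok (h : RunHyp Q (Q.Y y) D Tn R) (c : Fin R → Fin E) (q : ℕ) :
    RunOk Q (stdCode D) (stdPicker Sn Tn) x y q (sd c) (outS (fun T S => pkL S T) visF
      (otRun startS (askS (fun T S => pkL S T) visF) (updS (fun T S => pkL S T) visF) x y
        (Q.m * Q.g0) Q.g0 D q (feedP (preF x.length y.length Q D (Q.Y y) Tn Sn) c))) := by
  have hs : (List.ofFn fun i => (c i : ℕ)).length = R := List.length_ofFn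
  have h1 := (strat_main (Sn := Sn) (h.mainOk (x := x) (y := y) hs)).2 q
  have h2 : (fun i => (List.ofFn fun i => (c i : ℕ)).getD i 0) = sd c :=
    funext (ofFn_getD_eq_sd c)
  rw [h2] at h1
  exact h1

end

end Vale.Agent.P315.OT
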