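import Vale.Agent.P315.OT.StratFin
import Vale.Agent.P315.OT.Num

/-!
P315, one-scale track (helper453), OT-7: the numerical conditions of the run for the parameters.
-/

set_option autoImplicit false

namespace Vale.Agent.P315.OT.Num

open Vale.Agent.P315.H738

theorem prm_Y_le {e N n : ℕ} (he : 1 ≤ e) {y : List ℕ} (hy : y.length ≤ N) :
    (prm e N n).Y y ≤ pm e N := by
  have h0 : 0 < pK N n * pg e N n := Nat.mul_pos (pK_pos N n) (pg_pos e N n)
  have h1 := len_ge (n := n) (N := N) he
  have h2 : y.length / (pK N n * pg e N n) < pm e N := by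
    rw [Nat.div_lt_iff_lt_mul h0]
    have : pK N n * pm e N * pg e N n = pm e N * (pK N n * pg e N n) := by ring
    omega
  change y.length / (pK N n * pg e N n) + 1 ≤ pm e N
  omega

/-- **The numerical conditions of the run.** -/
theorem prm_run {e g N : ℕ} (he : 1 ≤ e) (h : Reg e g N) {y : List ℕ} (hy : y.length ≤ N) :
    RunHyp (prm e N (lvl g 4 N)) ((prm e N (lvl g 4 N)).Y y) (pP e N (lvl g 4 N))
      (2 ^ (44 * ll N)) (pP e N (lvl g 4 N) ^ 2 + pP e N (lvl g 4 N) ^ 6) := by
  set n := lvl g 4 N with hn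
  set D := pP e N n with hD
  have hn1 : 176 * e ≤ n := h.lev1
  have hD1 : 1 ≤ D := by have := b1 e N n; omega
  have hR : D ≤ 16 + (D ^ 2 + D ^ 6) := by
    have : D * 1 ≤ D * D := Nat.mul_le_mul_left _ hD1
    have h3 : D * D = D ^ 2 := by ring
    omega
  have hY := prm_Y_le (n := n) he hy
  have hM : bra 4 N ≤ bra 4 N ^ n := Nat.le_self_pow (by omega) _
  have hK := b2 e N n
  have hb3 := b3 e N n hY
  have hM1 := h.M1
  have hA := pA_pos (N := N) he
  refine ⟨bra_ge N, hY.trans (pm_le_pw e N), hb3, ?_, ?_, ?_, ?_, ?_, ?_, ?_⟩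
  · change bra 4 N ≤ _
    omega
  · change n ≤ _
    have := b1 e N n
    omega
  · change pw e N ≤ _
    refine le_trans ?_ hR
    have h2 : 16 * e + 1 ≤ pK N n := by
      have : 64 * e * 1 ≤ 64 * e * pA e N := Nat.mul_le_mul_left _ hA
      change _ ≤ bra 4 N ^ n
      omega
    have h3 : pw e N ≤ (pm e N + 2) * pK N n := by
      unfold pw
      calc (16 * e + 1) * pm e N ≤ pK N n * (pm e N + 2) := Nat.mul_le_mul h2 (by omega)
        _ = _ := Nat.mul_comm _ _
    rw [hD]
    unfold pP
    omega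
  · change pN e N n ≤ _
    refine le_trans ?_ hR
    rw [hD]
    unfold pP pRd
    omega
  · refine le_trans ?_ hR
    have h2 : 2 ^ (44 * ll N) ≤ bra 4 N ^ n := by
      unfold bra
      rw [← pow_mul]
      apply Nat.pow_le_pow_right (by norm_num)
      calc 44 * ll N = 4 * ll N * 11 := by ring
        _ ≤ 4 * ll N * n := Nat.mul_le_mul_left _ (by omega)
    omega
  · change bra 4 N ^ n ≤ _
    omega
  · change (prm e N n).Y y * bra 4 N ^ n ≤ _
    omega

end Vale.Agent.P315.OT.Num
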