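import Vale.Agent.P315.OT.StratHyp
import Vale.Agent.P315.OT.StratNum
import Vale.Agent.P315.OT.Par

/-!
P315, one-scale track, OT-7: the fields of `OTHyp` about the run, for the parameters of `Par.lean`.
-/

set_option autoImplicit false

namespace Vale.Agent.P315.OT

open Vale.Agent.P315.H738
open Vale.Agent.Lib.PolyTime (esize)
open Vale.Agent.P315.RAM (oround absorb)
open Vale.Agent.P315.H873 (feedP)

/-- The bound of the sizes of the states. -/
def zSz (e g : ℕ) (a : List ℕ) : ℕ :=
  otS (esize (zpre e g a)) (zR e g a) (zE e a) (zRq e g a) (Num.pK (zN a) (zn g a)) (zD e g a)
    (zl e g a + Num.pw e (zN a) * zg e g a + 1)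

section

variable {e g : ℕ} (x y : List ℕ)

/-- **All fields of `OTHyp` about the run**, for the parameters. -/
theorem z_fields (he : 1 ≤ e) (h : Num.Reg e g (max x.length y.length))
    (c : Fin (zR e g [x.length, y.length]) → Fin (zE e [x.length, y.length])) :
    (∀ t, OtV (Num.pK (zN [x.length, y.length]) (zn g [x.length, y.length]))
      (zD e g [x.length, y.length]) (Num.pw e (zN [x.length, y.length]))
      (askS (fun T S => pkL S T) visF (otRun startS (askS (fun T S => pkL S T) visF)
        (updS (fun T S => pkL S T) visF) x y (zl e g [x.length, y.length])
        (zg e g [x.length, y.length]) (zD e g [x.length, y.length]) t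
        (feedP (zpre e g [x.length, y.length]) c)))) ∧
    (∀ t < zRq e g [x.length, y.length], ∀ j ≤ 1,
      esize (absorb (updS (fun T S => pkL S T) visF) ((otAns x y (zl e g [x.length, y.length])
        (zg e g [x.length, y.length]) (zD e g [x.length, y.length])
        (askS (fun T S => pkL S T) visF (otRun startS (askS (fun T S => pkL S T) visF)
          (updS (fun T S => pkL S T) visF) x y (zl e g [x.length, y.length])
          (zg e g [x.length, y.length]) (zD e g [x.length, y.length]) t
          (feedP (zpre e g [x.length, y.length]) c)))).take j)
        (otRun startS (askS (fun T S => pkL S T) visF)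
          (updS (fun T S => pkL S T) visF) x y (zl e g [x.length, y.length])
          (zg e g [x.length, y.length]) (zD e g [x.length, y.length]) t
          (feedP (zpre e g [x.length, y.length]) c))) ≤ zSz e g [x.length, y.length]) ∧
    esize (otRun startS (askS (fun T S => pkL S T) visF)
          (updS (fun T S => pkL S T) visF) x y (zl e g [x.length, y.length])
          (zg e g [x.length, y.length]) (zD e g [x.length, y.length])
          (zRq e g [x.length, y.length])
          (feedP (zpre e g [x.length, y.length]) c)) ≤ zSz e g [x.length, y.length] ∧
    outS (fun T S => pkL S T) visF (otRun startS (askS (fun T S => pkL S T) visF)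
          (updS (fun T S => pkL S T) visF) x y (zl e g [x.length, y.length])
          (zg e g [x.length, y.length]) (zD e g [x.length, y.length])
          (zRq e g [x.length, y.length])
          (feedP (zpre e g [x.length, y.length]) c)) ≤
      Num.pK (zN [x.length, y.length]) (zn g [x.length, y.length]) *
        ((Num.pm e (zN [x.length, y.length]) + Num.pw e (zN [x.length, y.length]) +
          zn g [x.length, y.length] * Num.pw e (zN [x.length, y.length])) *
          zg e g [x.length, y.length]) +
        (zl e g [x.length, y.length] + Num.pw e (zN [x.length, y.length]) *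
          zg e g [x.length, y.length] + 1) + 2 * (x.length + y.length) := by
  have hy : y.length ≤ max x.length y.length := le_max_right _ _
  have hrun : RunHyp (zQ e g [x.length, y.length]) ((zQ e g [x.length, y.length]).Y y)
      (zD e g [x.length, y.length]) (zT [x.length, y.length]) (zR e g [x.length, y.length]) :=
    Num.prm_run he h hy
  have hv : ∀ t, OtV ((zQ e g [x.length, y.length]).M ^ (zQ e g [x.length, y.length]).n)
      (zD e g [x.length, y.length]) (zQ e g [x.length, y.length]).w
      (askS (fun T S => pkL S T) visF (otRun startS (askS (fun T S => pkL S T) visF)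
        (updS (fun T S => pkL S T) visF) x y (zl e g [x.length, y.length])
        (zg e g [x.length, y.length]) (zD e g [x.length, y.length]) t
        (feedP (preF x.length y.length (zQ e g [x.length, y.length])
          (zD e g [x.length, y.length]) (zY e g [x.length, y.length])
          (zT [x.length, y.length]) (zS [x.length, y.length])) c))) := fun t =>
    run_valid hrun c t
  have hM : 1 ≤ (zQ e g [x.length, y.length]).M := (by norm_num : 1 ≤ 2).trans hrun.M_two
  have hD := hrun.D_gt
  exact ⟨hv, otHyp_size hM hD fun t _ => hv t, otHyp_sizeQ hM hD fun t _ => hv t,
    otHyp_out hM fun t _ => hv t⟩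

end

end Vale.Agent.P315.OT
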