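import Vale.Agent.P315.OT.Strat

/-!
P315, one-scale track (helper722), OT-7: the functions `askS`, `updS`, `outS`, `startS` of the
strategy are polynomial time computable.
-/

set_option autoImplicit false

namespace Vale.Agent.P315.OT

open Vale.Agent.Lib.PolyTime
open Vale.Agent.P315.H155 (minD minD_le_default minD_le_of_mem minD_mem le_minD PBd_min_left
  PBd_min_right)

variable {α β γ : Type} [Enc α] [Enc β] [Enc γ]

/-! ### Tables -/

@[fun_prop]
theorem PT_tget {T : α → Tbl} {s u d b : α → ℕ} (hT : PT ∅ T) (hs : PT ∅ s) (hu : PT ∅ u)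
    (hd : PT ∅ d) (hb : PT ∅ b) : PT ∅ (fun a => tget (T a) (s a) (u a) (d a) (b a)) := by
  unfold tget
  fun_prop

theorem PT_tmk {K Y w B : α → ℕ} {f : α → ℕ → ℕ → ℕ → ℕ → Ent} (hK : PT ∅ K) (hK' : PBd K)
    (hY : PT ∅ Y) (hY' : PBd Y) (hw : PT ∅ w) (hw' : PBd w) (hB : PT ∅ B) (hB' : PBd B)
    (hf : PT ∅ (fun p : ((((α × ℕ) × ℕ) × ℕ) × ℕ) =>
      f p.1.1.1.1 p.1.1.1.2 p.1.1.2 p.1.2 p.2)) :
    PT ∅ (fun a => tmk (K a) (Y a) (w a) (B a) (f a)) := by
  unfold tmk
  refine PT.map (PT.range hK hK') ?_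
  refine PT.map (PT.range (by fun_prop) (by fun_prop)) ?_
  refine PT.map (PT.range (by fun_prop) (by fun_prop)) ?_
  exact PT.map (PT.range (by fun_prop) (by fun_prop)) hf

@[fun_prop]
theorem PT_fm {l : α → List Ent} (hl : PT ∅ l) : PT ∅ (fun a => fm (l a)) := by
  unfold fm
  refine PT.fst (PT.optGetD (PT.find? hl ?_) (PT.const _))
  fun_prop

/-! ### The cheapest chain -/

/-- The step of `bestRow`, with a clamped range. -/
def bestStep (W : List (List (List ℕ))) (p big i : ℕ) (t : List ℕ) : List ℕ :=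
  (List.range (p + 1)).map fun r' =>
    min big (minD ((List.range (min r' p + 1)).map fun r =>
      t.getD r 0 + ((W.getD (i + 1) []).getD r []).getD r' 0)
      (t.getD 0 0 + ((W.getD (i + 1) []).getD 0 []).getD r' 0))

theorem bestRow_eq_rec (W : List (List (List ℕ))) (p big i : ℕ) :
    bestRow W p big i =
      Nat.rec (motive := fun _ => List ℕ) (bestRow W p big 0) (bestStep W p big) i := by
  induction i with
  | zero => rfl
  | succ i ih =>
    rw [bestRow]
    show _ = bestStep W p big i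
      (Nat.rec (motive := fun _ => List ℕ) (bestRow W p big 0) (bestStep W p big) i)
    rw [← ih]
    unfold bestStep
    refine List.map_congr_left fun r' hr' => ?_
    have := List.mem_range.mp hr'
    rw [min_eq_left (by omega : r' ≤ p)]

theorem esize_mapRange_le (n : ℕ) (f : ℕ → β) (B : ℕ) (h : ∀ i < n, esize (f i) ≤ B) :
    esize ((List.range n).map f) ≤ n * (2 * B + 1) := by
  refine (esize_list_le (B := B) ?_).trans ?_
  · intro x hx
    obtain ⟨i, hi, rfl⟩ := List.mem_map.mp hx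
    exact h i (List.mem_range.mp hi)
  · simp

theorem esize_bestRow_le (W : List (List (List ℕ))) (p big i : ℕ) :
    esize (bestRow W p big i) ≤ (p + 1) * (2 * esize big + 1) := by
  cases i with
  | zero =>
    rw [bestRow]
    exact esize_mapRange_le _ _ _ fun i _ => esize_nat_mono (min_le_left _ _)
  | succ i =>
    rw [bestRow]
    exact esize_mapRange_le _ _ _ fun i _ => esize_nat_mono (min_le_left _ _)

theorem PT_bestStep {W : α → List (List (List ℕ))} {p big i : α → ℕ} {t : α → List ℕ}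
    (hW : PT ∅ W) (hp : PT ∅ p) (hp' : PBd p) (hbig : PT ∅ big) (hi : PT ∅ i) (ht : PT ∅ t) :
    PT ∅ (fun a => bestStep (W a) (p a) (big a) (i a) (t a)) := by
  unfold bestStep
  refine PT.map (PT.range (by fun_prop) (by fun_prop)) ?_
  refine PT.min (by fun_prop) ?_
  refine H155.PT_minD ?_ (by fun_prop)
  refine PT.map (PT.range ?_ ?_) (by fun_prop)
  · fun_prop
  · refine PBd.add (PBd_min_right ?_) (PBd.const 1)
    fun_prop

theorem PT_bestRow {W : α → List (List (List ℕ))} {p big i : α → ℕ}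
    (hW : PT ∅ W) (hp : PT ∅ p) (hp' : PBd p) (hbig : PT ∅ big) (hi : PT ∅ i) (hi' : PBd i) :
    PT ∅ (fun a => bestRow (W a) (p a) (big a) (i a)) := by
  have h0 : PT ∅ (fun a => bestRow (W a) (p a) (big a) 0) := by
    have : (fun a => bestRow (W a) (p a) (big a) 0) = fun a => (List.range (p a + 1)).map fun r' =>
        min (big a) ((((W a).getD 0 []).getD 0 []).getD r' 0) := by
      funext a; rw [bestRow]
    rw [this]
    refine PT.map (PT.range (by fun_prop) (by fun_prop)) ?_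
    fun_prop
  have h1 : PT ∅ (fun a => Nat.rec (motive := fun _ => List ℕ) (bestRow (W a) (p a) (big a) 0)
      (bestStep (W a) (p a) (big a)) (i a)) := by
    refine PT.natRec (step := fun a i t => bestStep (W a) (p a) (big a) i t) hi hi' h0 ?_
      (b := fun a => (p a + 1) * (2 * esize (big a) + 1)) (by fun_prop) fun a j _ => ?_
    · exact PT_bestStep (by fun_prop) (by fun_prop) (by fun_prop) (by fun_prop) (by fun_prop)
        (by fun_prop)
    · show esize (Nat.rec (motive := fun _ => List ℕ) (bestRow (W a) (p a) (big a) 0)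
        (bestStep (W a) (p a) (big a)) j) ≤ _
      rw [← bestRow_eq_rec]
      exact esize_bestRow_le _ _ _ _
  exact h1.congr fun a => (bestRow_eq_rec _ _ _ _).symm

theorem PT_bestL {W : α → List (List (List ℕ))} {M p big : α → ℕ}
    (hW : PT ∅ W) (hM : PT ∅ M) (hM' : PBd M) (hp : PT ∅ p) (hp' : PBd p) (hbig : PT ∅ big) :
    PT ∅ (fun a => bestL (W a) (M a) (p a) (big a)) := by
  unfold bestL
  exact PT.getD (PT_bestRow hW hp hp' hbig (by fun_prop) (by fun_prop)) hp (PT.const 0)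

/-! ### Parameters -/

section params

variable {F : α → List ℕ}

@[fun_prop] theorem PT_pM (hF : PT ∅ F) : PT ∅ (fun a => pM (F a)) := by unfold pM; fun_prop
@[fun_prop] theorem PT_pn (hF : PT ∅ F) : PT ∅ (fun a => pn (F a)) := by unfold pn; fun_prop
@[fun_prop] theorem PT_pm (hF : PT ∅ F) : PT ∅ (fun a => pm (F a)) := by unfold pm; fun_prop
@[fun_prop] theorem PT_pw (hF : PT ∅ F) : PT ∅ (fun a => pw (F a)) := by unfold pw; fun_prop
@[fun_prop] theorem PT_pg (hF : PT ∅ F) : PT ∅ (fun a => pg (F a)) := by unfold pg; fun_prop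
@[fun_prop] theorem PT_pJ (hF : PT ∅ F) : PT ∅ (fun a => pJ (F a)) := by unfold pJ; fun_prop
@[fun_prop] theorem PT_pN (hF : PT ∅ F) : PT ∅ (fun a => pN (F a)) := by unfold pN; fun_prop
@[fun_prop] theorem PT_pA (hF : PT ∅ F) : PT ∅ (fun a => pA (F a)) := by unfold pA; fun_prop
@[fun_prop] theorem PT_pD (hF : PT ∅ F) : PT ∅ (fun a => pD (F a)) := by unfold pD; fun_prop
@[fun_prop] theorem PT_pY (hF : PT ∅ F) : PT ∅ (fun a => pY (F a)) := by unfold pY; fun_prop
@[fun_prop] theorem PT_pT (hF : PT ∅ F) : PT ∅ (fun a => pT (F a)) := by unfold pT; fun_prop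
@[fun_prop] theorem PT_pS (hF : PT ∅ F) : PT ∅ (fun a => pS (F a)) := by unfold pS; fun_prop

@[fun_prop] theorem PBd_pM (hF : PT ∅ F) : PBd (fun a => pM (F a)) :=
  PBd_min_right (by fun_prop)
@[fun_prop] theorem PBd_pn (hF : PT ∅ F) : PBd (fun a => pn (F a)) :=
  PBd_min_right (by fun_prop)
@[fun_prop] theorem PBd_pw (hF : PT ∅ F) : PBd (fun a => pw (F a)) :=
  PBd_min_right (by fun_prop)
@[fun_prop] theorem PBd_pN (hF : PT ∅ F) : PBd (fun a => pN (F a)) :=
  PBd_min_right (by fun_prop)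
@[fun_prop] theorem PBd_pT (hF : PT ∅ F) : PBd (fun a => pT (F a)) :=
  PBd_min_right (by fun_prop)
@[fun_prop] theorem PBd_pK (hF : PT ∅ F) : PBd (fun a => pK (F a)) :=
  PBd_min_right (by fun_prop)
@[fun_prop] theorem PBd_pY0 (hF : PT ∅ F) : PBd (fun a => pY0 (F a)) :=
  PBd_min_right (by fun_prop)

@[fun_prop] theorem PT_pK (hF : PT ∅ F) : PT ∅ (fun a => pK (F a)) := by
  unfold pK
  exact PT.min (PT.pow (by fun_prop) (by fun_prop) (by fun_prop)) (by fun_prop)

@[fun_prop] theorem PT_pY0 (hF : PT ∅ F) : PT ∅ (fun a => pY0 (F a)) := by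
  unfold pY0
  fun_prop

@[fun_prop] theorem PT_pB (hF : PT ∅ F) : PT ∅ (fun a => pB (F a)) := by
  unfold pB
  fun_prop

@[fun_prop] theorem PBd_pB (hF : PT ∅ F) : PBd (fun a => pB (F a)) := by
  unfold pB
  fun_prop

@[fun_prop] theorem PT_pMj {j : α → ℕ} (hF : PT ∅ F) (hj : PT ∅ j) :
    PT ∅ (fun a => pMj (F a) (j a)) := by
  unfold pMj
  exact PT.pow (by fun_prop) (by fun_prop) (PBd_min_right (by fun_prop))

@[fun_prop] theorem PT_pbig (hF : PT ∅ F) : PT ∅ (fun a => pbig (F a)) := by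
  unfold pbig
  fun_prop

@[fun_prop] theorem PT_pFB (hF : PT ∅ F) : PT ∅ (fun a => pFB (F a)) := by
  unfold pFB
  fun_prop

@[fun_prop] theorem PT_xiF {j σ : α → ℕ} (hF : PT ∅ F) (hj : PT ∅ j) (hσ : PT ∅ σ) :
    PT ∅ (fun a => xiF (F a) (j a) (σ a)) := by
  unfold xiF
  fun_prop

@[fun_prop] theorem PT_coinF {j s u v b q : α → ℕ} (hF : PT ∅ F) (hj : PT ∅ j) (hs : PT ∅ s)
    (hu : PT ∅ u) (hv : PT ∅ v) (hb : PT ∅ b) (hq : PT ∅ q) :
    PT ∅ (fun a => coinF (F a) (j a) (s a) (u a) (v a) (b a) (q a)) := by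
  unfold coinF
  fun_prop

@[fun_prop] theorem PT_edgF {tab : α → Tbl} {j σ k u v : α → ℕ} (hF : PT ∅ F) (ht : PT ∅ tab)
    (hj : PT ∅ j) (hσ : PT ∅ σ) (hk : PT ∅ k) (hu : PT ∅ u) (hv : PT ∅ v) :
    PT ∅ (fun a => edgF (F a) (tab a) (j a) (σ a) (k a) (u a) (v a)) := by
  unfold edgF
  fun_prop

theorem PT_histF {tab : α → Tbl} {j s a' p k : α → ℕ} (hF : PT ∅ F) (ht : PT ∅ tab)
    (hj : PT ∅ j) (hs : PT ∅ s) (ha : PT ∅ a') (hp : PT ∅ p) (hp' : PBd p) (hk : PT ∅ k)
    (hk' : PBd k) :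
    PT ∅ (fun a => histF (F a) (tab a) (j a) (s a) (a' a) (p a) (k a)) := by
  unfold histF
  refine PT.map (PT.range (by fun_prop) (by fun_prop)) ?_
  refine PT.map (PT.range (by fun_prop) (by fun_prop)) ?_
  refine PT.map (PT.range (by fun_prop) (by fun_prop)) ?_
  refine PT.map (PT.range (by fun_prop) (by fun_prop)) ?_
  fun_prop

end params

theorem PT_valH {H : α → List (List (List (List Ent)))} (hH : PT ∅ H) :
    PT ∅ (fun a => valH (H a)) := by
  unfold valH
  refine PT.map hH ?_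
  refine PT.map (by fun_prop) ?_
  refine PT.map (by fun_prop) ?_
  refine PT.map (by fun_prop) ?_
  fun_prop

/-! ### Lanes -/

theorem PT_fixL {M p : α → ℕ} {l : α → List ℕ} (hM : PT ∅ M) (hM' : PBd M) (hp : PT ∅ p)
    (hl : PT ∅ l) : PT ∅ (fun a => fixL (M a) (p a) (l a)) := by
  unfold fixL
  refine PT.ite (p := fun a => okL (M a) (p a) (l a) = true) ?_ hl ?_
  · have h : PT ∅ (fun a => okL (M a) (p a) (l a)) := by
      unfold okL
      refine PT.and (by fun_prop) (PT.and (by fun_prop) ?_)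
      refine PT.all (PT.range hM hM') ?_
      fun_prop
    exact h.congr fun a => by simp
  · unfold dfl
    exact PT.cons (PT.const 0) (PT.replicate hM hM' hp)

/-- Polynomial time of the lane solver, in all arguments; the number of picks, the number of rows,
the width and the number of rounds are bounded by a polynomial. -/
def PlPT (pl : ℕ → ℕ → ℕ → ℕ → ℕ → ℕ → ℕ → List (List (List (List ℕ))) → ℕ → List ℕ) : Prop :=
  ∀ (α : Type) [Enc α] (T S M p C q k t : α → ℕ) (H : α → List (List (List (List ℕ)))),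
    PT ∅ T → PBd T → PT ∅ S → PT ∅ M → PBd M → PT ∅ p → PBd p → PT ∅ C → PT ∅ q → PT ∅ k →
    PBd k → PT ∅ t → PT ∅ H →
    PT ∅ (fun a => pl (T a) (S a) (M a) (p a) (C a) (q a) (k a) (H a) (t a))

section

variable {pl : ℕ → ℕ → ℕ → ℕ → ℕ → ℕ → ℕ → List (List (List (List ℕ))) → ℕ → List ℕ}
variable {F : α → List ℕ} {tab : α → Tbl} {j s u d p b q k a' : α → ℕ}
  {HV : α → List (List (List (List ℕ)))}

theorem PT_pathF (hpl : PlPT pl) (hF : PT ∅ F) (hj : PT ∅ j) (hs : PT ∅ s) (hu : PT ∅ u)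
    (hd : PT ∅ d) (hp : PT ∅ p) (hp' : PBd p) (hb : PT ∅ b) (hb' : PBd b) (hH : PT ∅ HV)
    (hq : PT ∅ q) :
    PT ∅ (fun a => pathF pl (F a) (j a) (s a) (u a) (d a) (p a) (b a) (HV a) (q a)) := by
  unfold pathF
  refine PT_fixL (by fun_prop) (by fun_prop) hp ?_
  exact hpl _ _ _ _ _ _ _ _ _ _ (by fun_prop) (by fun_prop) (by fun_prop) (by fun_prop)
    (by fun_prop) hp hp' (by fun_prop) (by fun_prop) hb hb' (by fun_prop) hH

theorem PT_laneE {path : α → List ℕ} (hF : PT ∅ F) (ht : PT ∅ tab) (hj : PT ∅ j) (hs : PT ∅ s)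
    (ha : PT ∅ a') (hk : PT ∅ k) (hp : PT ∅ path) :
    PT ∅ (fun a => laneE (F a) (tab a) (j a) (s a) (a' a) (k a) (path a)) := by
  unfold laneE
  refine PT.map (PT.range (by fun_prop) (by fun_prop)) ?_
  fun_prop

theorem PT_lanesF (hpl : PlPT pl) (hF : PT ∅ F) (ht : PT ∅ tab) (hj : PT ∅ j) (hs : PT ∅ s)
    (hu : PT ∅ u) (hd : PT ∅ d) (hp : PT ∅ p) (hp' : PBd p) (hb : PT ∅ b) (hb' : PBd b)
    (hH : PT ∅ HV) :
    PT ∅ (fun a => lanesF pl (F a) (tab a) (j a) (s a) (u a) (d a) (p a) (b a) (HV a)) := by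
  unfold lanesF
  refine PT.map (PT.range (by fun_prop) (by fun_prop)) ?_
  refine PT_laneE (by fun_prop) (by fun_prop) (by fun_prop) (by fun_prop) (by fun_prop)
    (by fun_prop) ?_
  exact PT_pathF hpl (by fun_prop) (by fun_prop) (by fun_prop) (by fun_prop) (by fun_prop)
    (by fun_prop) (by fun_prop) (by fun_prop) (by fun_prop) (by fun_prop) (by fun_prop)

theorem PT_entS2 (hpl : PlPT pl) (hF : PT ∅ F) (ht : PT ∅ tab) (hj : PT ∅ j) (hs : PT ∅ s)
    (hu : PT ∅ u) (hd : PT ∅ d) (hp : PT ∅ p) (hp' : PBd p) (hb : PT ∅ b) (hb' : PBd b)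
    (hH : PT ∅ HV) :
    PT ∅ (fun a => entS2 pl (F a) (tab a) (j a) (s a) (u a) (d a) (p a) (b a) (HV a)) := by
  have h1 : PT ∅ (fun a => lanesF pl (F a) (tab a) (j a) (s a) (u a) (d a) (p a) (b a) (HV a)) :=
    PT_lanesF hpl hF ht hj hs hu hd hp hp' hb hb' hH
  have h2 : PT ∅ (fun a => bestL ((HV a).getD (b a) []) (pM (F a)) (p a) (pbig (F a))) :=
    PT_bestL (by fun_prop) (by fun_prop) (by fun_prop) hp hp' (by fun_prop)
  unfold entS2
  refine PT.ite (p := fun a => b a = 0) (by fun_prop) (by fun_prop) ?_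
  refine PT.ite (p := fun a => fm (lanesF pl (F a) (tab a) (j a) (s a) (u a) (d a) (p a) (b a)
    (HV a)).flatten ≠ 0) (by fun_prop) (by fun_prop) ?_
  refine PT.pair (by fun_prop) (H155.PT_minD ?_ h2)
  refine PT.map h1 ?_
  refine PT.sum ?_
  fun_prop

theorem PT_entS (hpl : PlPT pl) (hF : PT ∅ F) (ht : PT ∅ tab) (hj : PT ∅ j) (hs : PT ∅ s)
    (hu : PT ∅ u) (hd : PT ∅ d) (hb : PT ∅ b) :
    PT ∅ (fun a => entS pl (F a) (tab a) (j a) (s a) (u a) (d a) (b a)) := by
  have hp : PT ∅ (fun a => min (d a) (pw (F a)) * pM (F a)) := by fun_prop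
  have hp' : PBd (fun a => min (d a) (pw (F a)) * pM (F a)) :=
    PBd.mul (PBd_min_right (by fun_prop)) (by fun_prop)
  have hk : PT ∅ (fun a => min (b a) (pB (F a))) := by fun_prop
  have hk' : PBd (fun a => min (b a) (pB (F a))) := PBd_min_right (by fun_prop)
  have h1 : PT ∅ (fun a => histF (F a) (tab a) (j a) (s a) (u a * pM (F a))
      (min (d a) (pw (F a)) * pM (F a)) (min (b a) (pB (F a)))) :=
    PT_histF hF ht hj hs (by fun_prop) hp hp' hk hk'
  unfold entS
  refine PT.ite (p := fun a => fm (histF (F a) (tab a) (j a) (s a) (u a * pM (F a))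
      (min (d a) (pw (F a)) * pM (F a)) (min (b a) (pB (F a)))).flatten.flatten.flatten ≠ 0)
    (by fun_prop) (by fun_prop) ?_
  exact PT_entS2 hpl hF ht hj hs hu hd hp hp' hk hk' (PT_valH h1)

theorem PT_levS (hpl : PlPT pl) (hF : PT ∅ F) (ht : PT ∅ tab) (hj : PT ∅ j) :
    PT ∅ (fun a => levS pl (F a) (j a) (tab a)) := by
  unfold levS
  refine PT_tmk (by fun_prop) (by fun_prop) (by fun_prop) (by fun_prop) (by fun_prop)
    (by fun_prop) (by fun_prop) (by fun_prop) ?_
  exact PT_entS hpl (by fun_prop) (by fun_prop) (by fun_prop) (by fun_prop) (by fun_prop)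
    (by fun_prop) (by fun_prop)

end

/-! ### Level `0` -/

theorem PT_lookE {T : α → List (ℕ × ℕ)} {q : α → ℕ} (hT : PT ∅ T) (hq : PT ∅ q) :
    PT ∅ (fun a => lookE (T a) (q a)) := by
  unfold lookE
  refine PT.optGetD ?_ (by fun_prop)
  refine H155.PT_optMap (PT.find? hT ?_) (by fun_prop)
  fun_prop

theorem PT_lev0 {vs : List ℕ → ℕ → ℕ → ℕ → ℕ}
    (hvs : PT ∅ (fun a : List ℕ × ℕ × ℕ × ℕ => vs a.1 a.2.1 a.2.2.1 a.2.2.2))
    {F : α → List ℕ} {T : α → List (ℕ × ℕ)} (hF : PT ∅ F) (hT : PT ∅ T) :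
    PT ∅ (fun a => lev0 vs (F a) (T a)) := by
  unfold lev0
  refine PT_tmk (by fun_prop) (by fun_prop) (by fun_prop) (by fun_prop) (by fun_prop)
    (by fun_prop) (by fun_prop) (by fun_prop) ?_
  refine PT.ite (p := fun p : ((((α × ℕ) × ℕ) × ℕ) × ℕ) => 2 ≤ p.2) (by fun_prop) ?_ ?_
  · refine PT_lookE (by fun_prop) ?_
    unfold cellCode
    fun_prop
  · refine PT.pair (PT.const 0) ?_
    exact hvs.comp (f := fun p : ((((α × ℕ) × ℕ) × ℕ) × ℕ) =>
      (F p.1.1.1.1, p.1.1.1.2, p.1.1.2, p.1.1.2 + p.1.2)) (by fun_prop)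

/-! ### The size of a table -/

theorem esize_tmk_le (K Y w B : ℕ) (f : ℕ → ℕ → ℕ → ℕ → Ent) (E : ℕ)
    (h : ∀ s u d b, esize (f s u d b) ≤ E) :
    esize (tmk K Y w B f) ≤ K * (2 * ((Y + 1) * (2 * ((w + 1) * (2 * ((B + 1) * (2 * E + 1)) + 1))
      + 1)) + 1) := by
  unfold tmk
  refine esize_mapRange_le _ _ _ fun s _ => ?_
  refine esize_mapRange_le _ _ _ fun u _ => ?_
  refine esize_mapRange_le _ _ _ fun d _ => ?_
  exact esize_mapRange_le _ _ _ fun b _ => h s u d b

theorem bestL_le_big (W : List (List (List ℕ))) (M p big : ℕ) : bestL W M p big ≤ big := by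
  unfold bestL
  have h : ∀ l : List ℕ, (∀ x ∈ l, x ≤ big) → l.getD p 0 ≤ big := by
    intro l hl
    rw [List.getD_eq_getElem?_getD]
    rcases h : l[p]? with _ | x
    · simp
    · exact hl x (List.mem_of_getElem? h)
  apply h
  intro x hx
  generalize M - 1 = i at hx
  cases i with
  | zero =>
    rw [bestRow] at hx
    obtain ⟨i, -, rfl⟩ := List.mem_map.mp hx
    exact min_le_left _ _
  | succ i =>
    rw [bestRow] at hx
    obtain ⟨i, -, rfl⟩ := List.mem_map.mp hx
    exact min_le_left _ _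

section

variable {pl : ℕ → ℕ → ℕ → ℕ → ℕ → ℕ → ℕ → List (List (List (List ℕ))) → ℕ → List ℕ}

theorem esize_entS_le (F : List ℕ) (tab : Tbl) (j s u d b : ℕ) :
    esize (entS pl F tab j s u d b) ≤ 2 * esize (pFB F) + esize (pbig F) + 1 := by
  have h0 : esize (0 : ℕ) = 0 := by rw [esize_nat]; rfl
  have h1 : ∀ x : ℕ, esize ((min x (pFB F), 0) : Ent) ≤ 2 * esize (pFB F) + esize (pbig F) + 1 := by
    intro x
    rw [esize_pair, h0]
    have := esize_nat_mono (min_le_right x (pFB F))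
    omega
  have h2 : ∀ x : ℕ, x ≤ pbig F → esize ((0, x) : Ent) ≤ 2 * esize (pFB F) + esize (pbig F) + 1 := by
    intro x hx
    rw [esize_pair, h0]
    have := esize_nat_mono hx
    omega
  unfold entS
  split_ifs
  · exact h1 _
  · unfold entS2
    split_ifs
    · exact h2 _ (bestL_le_big _ _ _ _)
    · exact h1 _
    · exact h2 _ ((minD_le_default _ _).trans (bestL_le_big _ _ _ _))

theorem tabs_eq_rec (vs : List ℕ → ℕ → ℕ → ℕ → ℕ) (F : List ℕ) (T : List (ℕ × ℕ)) (j : ℕ) :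
    tabs pl vs F T j =
      Nat.rec (motive := fun _ => Tbl) (lev0 vs F T) (fun j tab => levS pl F j tab) j := by
  induction j with
  | zero => rfl
  | succ j ih =>
    show levS pl F j (tabs pl vs F T j) = levS pl F j _
    rw [ih]

/-- Bound for the size of the tables of level at least `1`. -/
def szT (F : List ℕ) : ℕ :=
  pK F * (2 * ((pY0 F + 1) * (2 * ((pw F + 1) * (2 * ((pB F + 1) *
    (2 * (2 * esize (pFB F) + esize (pbig F) + 1) + 1)) + 1)) + 1)) + 1)

theorem esize_levS_le (F : List ℕ) (j : ℕ) (tab : Tbl) : esize (levS pl F j tab) ≤ szT F :=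
  esize_tmk_le _ _ _ _ _ _ fun _ _ _ _ => esize_entS_le _ _ _ _ _ _ _

variable {vs : List ℕ → ℕ → ℕ → ℕ → ℕ}

theorem PT_tabs (hpl : PlPT pl)
    (hvs : PT ∅ (fun a : List ℕ × ℕ × ℕ × ℕ => vs a.1 a.2.1 a.2.2.1 a.2.2.2))
    {F : α → List ℕ} {T : α → List (ℕ × ℕ)} {j : α → ℕ} (hF : PT ∅ F) (hT : PT ∅ T)
    (hj : PT ∅ j) (hj' : PBd j) : PT ∅ (fun a => tabs pl vs (F a) (T a) (j a)) := by
  have h0 : PT ∅ (fun a => lev0 vs (F a) (T a)) := PT_lev0 hvs hF hT
  have hB : PBd (fun a => esize (lev0 vs (F a) (T a)) + szT (F a)) := by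
    unfold szT
    have := h0.pbd
    fun_prop
  have h1 : PT ∅ (fun a => Nat.rec (motive := fun _ => Tbl) (lev0 vs (F a) (T a))
      (fun j tab => levS pl (F a) j tab) (j a)) := by
    refine PT.natRec (step := fun a j tab => levS pl (F a) j tab) hj hj' h0 ?_ hB fun a j _ => ?_
    · exact PT_levS hpl (by fun_prop) (by fun_prop) (by fun_prop)
    · cases j with
      | zero => exact Nat.le_add_right _ _
      | succ j => exact (esize_levS_le (pl := pl) (F a) j _).trans (Nat.le_add_left _ _)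
  exact h1.congr fun a => (tabs_eq_rec _ _ _ _).symm

theorem PT_rootE (hpl : PlPT pl)
    (hvs : PT ∅ (fun a : List ℕ × ℕ × ℕ × ℕ => vs a.1 a.2.1 a.2.2.1 a.2.2.2)) :
    PT ∅ (rootE pl vs) := by
  have h : PT ∅ (fun a : St => tabs pl vs a.1 a.2 (pn a.1)) :=
    PT_tabs hpl hvs PT.fst' PT.snd' (by fun_prop) (by fun_prop)
  unfold rootE
  exact PT_tget h (PT.const 0) (PT.const 0) (by fun_prop) (by fun_prop)

/-- The next query is computable in polynomial time. -/
theorem PT_askS (hpl : PlPT pl)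
    (hvs : PT ∅ (fun a : List ℕ × ℕ × ℕ × ℕ => vs a.1 a.2.1 a.2.2.1 a.2.2.2)) :
    PT ∅ (askS pl vs) := by
  have := PT_rootE hpl hvs
  unfold askS
  exact PT.sub this.fst (PT.const 1)

/-- The update is computable in polynomial time. -/
theorem PT_updS (hpl : PlPT pl)
    (hvs : PT ∅ (fun a : List ℕ × ℕ × ℕ × ℕ => vs a.1 a.2.1 a.2.2.1 a.2.2.2)) :
    PT ∅ (updS pl vs) := by
  have := PT_askS hpl hvs
  have hr := PT_rootE hpl hvs
  unfold updS
  refine PT.ite (p := fun x : ℕ × St => (rootE pl vs x.2).1 = 0) ?_ PT.snd'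
    (PT.pair (by fun_prop) (PT.cons (PT.pair (this.comp PT.snd') PT.fst') (by fun_prop)))
  exact PT.eqNat (hr.comp PT.snd').fst (PT.const 0)

/-- The output is computable in polynomial time. -/
theorem PT_outS (hpl : PlPT pl)
    (hvs : PT ∅ (fun a : List ℕ × ℕ × ℕ × ℕ => vs a.1 a.2.1 a.2.2.1 a.2.2.2)) :
    PT ∅ (outS pl vs) := by
  have := PT_rootE hpl hvs
  unfold outS
  refine PT.ite (p := fun a : St => (rootE pl vs a).1 = 0) ?_ this.snd (by fun_prop)
  exact PT.eqNat this.fst (PT.const 0)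

end

/-- The start is computable in polynomial time. -/
theorem PT_startS : PT ∅ startS := by
  unfold startS
  fun_prop

end Vale.Agent.P315.OT
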