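import Vale.Agent.P315.OT.Strat
import Vale.Agent.P315.RAM.Oracle

/-!
P315, one-scale track, OT-7: the size of the states of the strategy.
-/

set_option autoImplicit false

namespace Vale.Agent.P315.OT

open Vale.Agent.Lib.PolyTime (esize esize_pair esize_nat esize_nat_mono esize_nat_le esize_list_le
  esize_list_nil)
open Vale.Agent.P315.RAM (oround absorb)
open Vale.Agent.P315.H155 (minD minD_le_default)

theorem tget_tmk_cases (K Y w B : ℕ) (f : ℕ → ℕ → ℕ → ℕ → Ent) (s u d b : ℕ) :
    tget (tmk K Y w B f) s u d b = f s u d b ∨ tget (tmk K Y w B f) s u d b = (0, 0) := by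
  have hout : ∀ {β : Type} (n : ℕ) (g : ℕ → β) (i : ℕ) (x : β), n ≤ i →
      ((List.range n).map g).getD i x = x := by
    intro β n g i x h
    exact List.getD_eq_default _ _ (by simpa using h)
  by_cases hs : s < K
  · by_cases hu : u ≤ Y
    · by_cases hd : d ≤ w
      · by_cases hb : b ≤ B
        · exact Or.inl (tget_tmk f hs hu hd hb)
        · right
          unfold tget tmk
          rw [getD_map_range _ _ _ hs, getD_map_range _ _ _ (by omega),
            getD_map_range _ _ _ (by omega), hout _ _ _ _ (by omega)]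
      · right
        unfold tget tmk
        rw [getD_map_range _ _ _ hs, getD_map_range _ _ _ (by omega), hout _ _ _ _ (by omega)]
        rfl
    · right
      unfold tget tmk
      rw [getD_map_range _ _ _ hs, hout _ _ _ _ (by omega)]
      rfl
  · right
    unfold tget tmk
    rw [hout _ _ _ _ (by omega)]
    rfl

section

variable {pl : ℕ → ℕ → ℕ → ℕ → ℕ → ℕ → ℕ → List (List (List (List ℕ))) → ℕ → List ℕ}
variable {vs : List ℕ → ℕ → ℕ → ℕ → ℕ}

theorem bestL_le (W : List (List (List ℕ))) (M p big : ℕ) : bestL W M p big ≤ big := by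
  unfold bestL
  have h : ∀ l : List ℕ, (∀ x ∈ l, x ≤ big) → l.getD p 0 ≤ big := by
    intro l hl
    rw [List.getD_eq_getElem?_getD]
    rcases h : l[p]? with _ | x
    · simp
    · exact hl x (List.mem_of_getElem? h)
  apply h
  intro x hx
  generalize M - 1 = i at hx
  cases i with
  | zero =>
    rw [bestRow] at hx
    obtain ⟨i, -, rfl⟩ := List.mem_map.mp hx
    exact min_le_left _ _
  | succ i =>
    rw [bestRow] at hx
    obtain ⟨i, -, rfl⟩ := List.mem_map.mp hx
    exact min_le_left _ _

theorem entS_fst_le (F : List ℕ) (tab : Tbl) (j s u d b : ℕ) :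
    (entS pl F tab j s u d b).1 ≤ pFB F := by
  unfold entS
  split_ifs
  · exact min_le_right _ _
  · unfold entS2
    split_ifs
    · exact Nat.zero_le _
    · exact min_le_right _ _
    · exact Nat.zero_le _

theorem entS_snd_le (F : List ℕ) (tab : Tbl) (j s u d b : ℕ) :
    (entS pl F tab j s u d b).2 ≤ pbig F := by
  unfold entS
  split_ifs
  · exact Nat.zero_le _
  · unfold entS2
    split_ifs
    · exact bestL_le _ _ _ _
    · exact Nat.zero_le _
    · exact (minD_le_default _ _).trans (bestL_le _ _ _ _)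

theorem lookE_cases (T : List (ℕ × ℕ)) (q : ℕ) :
    lookE T q = (q + 1, 0) ∨ ∃ e ∈ T, e.1 = q ∧ lookE T q = (0, e.2) := by
  unfold lookE
  rcases h : T.find? (fun e => decide (e.1 = q)) with _ | e
  · left; rw [h]; rfl
  · right
    rw [h]
    have h2 := List.find?_some h
    have h3 := List.mem_of_find?_eq_some h
    exact ⟨e, h3, by simpa using h2, rfl⟩

theorem rootE_fst_le (F : List ℕ) (T : List (ℕ × ℕ)) :
    (rootE pl vs (F, T)).1 ≤ pFB F + pY F + 1 := by
  unfold rootE
  show (tget (tabs pl vs F T (pn F)) 0 0 (pY F) (pN F)).1 ≤ _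
  rcases hn : pn F with _ | j
  · have e1 : tabs pl vs F T 0 = lev0 vs F T := rfl
    rw [e1]
    unfold lev0
    rcases tget_tmk_cases (pK F) (pY0 F) (pw F) (pB F) (fun s u d b =>
      if 2 ≤ b then lookE T (cellCode (pD F) s u (u + d)) else (0, vs F s u (u + d)))
      0 0 (pY F) (pN F) with h | h
    · rw [h]
      split_ifs
      · rcases lookE_cases T (cellCode (pD F) 0 0 (0 + pY F)) with h2 | ⟨e, -, -, h2⟩
        · rw [h2]
          show cellCode (pD F) 0 0 (0 + pY F) + 1 ≤ _
          unfold cellCode
          simp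
        · rw [h2]; exact Nat.zero_le _
      · exact Nat.zero_le _
    · rw [h]; exact Nat.zero_le _
  · have e1 : tabs pl vs F T (j + 1) = levS pl F j (tabs pl vs F T j) := rfl
    rw [e1]
    unfold levS
    rcases tget_tmk_cases (pK F) (pY0 F) (pw F) (pB F)
      (fun s u d b => entS pl F (tabs pl vs F T j) j s u d b) 0 0 (pY F) (pN F) with h | h
    · rw [h]
      have := entS_fst_le (pl := pl) F (tabs pl vs F T j) j 0 0 (pY F) (pN F)
      omega
    · rw [h]; exact Nat.zero_le _

theorem rootE_snd_le {V : ℕ} (F : List ℕ) (T : List (ℕ × ℕ)) (hT : ∀ e ∈ T, e.2 ≤ V) :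
    (rootE pl vs (F, T)).2 ≤ pbig F + V + vs F 0 0 (pY F) := by
  unfold rootE
  show (tget (tabs pl vs F T (pn F)) 0 0 (pY F) (pN F)).2 ≤ _
  rcases hn : pn F with _ | j
  · have e1 : tabs pl vs F T 0 = lev0 vs F T := rfl
    rw [e1]
    unfold lev0
    rcases tget_tmk_cases (pK F) (pY0 F) (pw F) (pB F) (fun s u d b =>
      if 2 ≤ b then lookE T (cellCode (pD F) s u (u + d)) else (0, vs F s u (u + d)))
      0 0 (pY F) (pN F) with h | h
    · rw [h]
      split_ifs
      · rcases lookE_cases T (cellCode (pD F) 0 0 (0 + pY F)) with h2 | ⟨e, he, -, h2⟩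
        · rw [h2]; exact Nat.zero_le _
        · rw [h2]
          have := hT e he
          show e.2 ≤ _
          omega
      · show vs F 0 0 (0 + pY F) ≤ _
        rw [Nat.zero_add]
        omega
    · rw [h]; exact Nat.zero_le _
  · have e1 : tabs pl vs F T (j + 1) = levS pl F j (tabs pl vs F T j) := rfl
    rw [e1]
    unfold levS
    rcases tget_tmk_cases (pK F) (pY0 F) (pw F) (pB F)
      (fun s u d b => entS pl F (tabs pl vs F T j) j s u d b) 0 0 (pY F) (pN F) with h | h
    · rw [h]
      have := entS_snd_le (pl := pl) F (tabs pl vs F T j) j 0 0 (pY F) (pN F)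
      show (entS pl F (tabs pl vs F T j) j 0 0 (pY F) (pN F)).2 ≤ _
      omega
    · rw [h]; exact Nat.zero_le _

/-- Every query is small. -/
theorem askS_le (a : St) : askS pl vs a ≤ pFB a.1 + pY a.1 := by
  unfold askS
  have := rootE_fst_le (pl := pl) (vs := vs) a.1 a.2
  have e : (a.1, a.2) = a := rfl
  rw [e] at this
  omega

/-- The states after absorbing at most `t` numbers below `V`. -/
structure StOk (F : List ℕ) (V t : ℕ) (a : St) : Prop where
  feed : a.1 = F
  len : a.2.length ≤ t
  code : ∀ e ∈ a.2, e.1 ≤ pFB F + pY F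
  val : ∀ e ∈ a.2, e.2 < V

theorem StOk.start (F : List ℕ) (V : ℕ) : StOk F V 0 (startS F) :=
  ⟨rfl, le_rfl, fun _ h => absurd h List.not_mem_nil, fun _ h => absurd h List.not_mem_nil⟩

theorem StOk.mono {F : List ℕ} {V t t' : ℕ} {a : St} (h : StOk F V t a) (ht : t ≤ t') :
    StOk F V t' a := ⟨h.feed, h.len.trans ht, h.code, h.val⟩

theorem StOk.upd {F : List ℕ} {V t x : ℕ} {a : St} (h : StOk F V t a) (hx : x < V) :
    StOk F V (t + 1) (updS pl vs (x, a)) := by
  unfold updS
  split_ifs
  · exact h.mono (Nat.le_succ _)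
  · refine ⟨h.feed, ?_, ?_, ?_⟩
    · show (a.2.length + 1) ≤ t + 1
      exact Nat.succ_le_succ h.len
    · intro e he
      rcases List.mem_cons.1 he with rfl | he
      · have := askS_le (pl := pl) (vs := vs) a
        rw [h.feed] at this
        exact this
      · exact h.code e he
    · intro e he
      rcases List.mem_cons.1 he with rfl | he
      · exact hx
      · exact h.val e he

theorem StOk.absorb {F : List ℕ} {V : ℕ} (l : List ℕ) :
    ∀ {t : ℕ} {a : St}, StOk F V t a → (∀ x ∈ l, x < V) →
      StOk F V (t + l.length) (absorb (updS pl vs) l a) := by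
  induction l with
  | nil => intro t a h _; exact h
  | cons x l ih =>
    intro t a h hx
    have h1 : StOk F V (t + 1) (updS pl vs (x, a)) := h.upd (hx x List.mem_cons_self)
    have h2 := ih h1 (fun y hy => hx y (List.mem_cons_of_mem _ hy))
    have e : t + 1 + l.length = t + (x :: l).length := by
      rw [List.length_cons]; omega
    rw [e] at h2
    exact h2

/-- The states of the loop, when the answers to the questions asked are lists of at most one
number below `V`. -/
theorem StOk.loop {F : List ℕ} {V Q : ℕ} {ans : ℕ → List ℕ}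
    (hans : ∀ t < Q, (ans (askS pl vs ((oround (askS pl vs) (updS pl vs) ans)^[t]
      (startS F)))).length ≤ 1 ∧ ∀ x ∈ ans (askS pl vs ((oround (askS pl vs) (updS pl vs) ans)^[t]
      (startS F))), x < V) :
    ∀ t ≤ Q, StOk F V t ((oround (askS pl vs) (updS pl vs) ans)^[t] (startS F)) := by
  intro t
  induction t with
  | zero => intro _; exact StOk.start F V
  | succ t ih =>
    intro ht
    rw [Function.iterate_succ_apply']
    obtain ⟨h1, h2⟩ := hans t (by omega)
    exact ((ih (by omega)).absorb _ h2).mono (by omega)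

theorem StOk.take {F : List ℕ} {V t j : ℕ} {a : St} {l : List ℕ} (h : StOk F V t a)
    (hl : l.length ≤ 1) (hx : ∀ x ∈ l, x < V) :
    StOk F V (t + 1) (RAM.absorb (updS pl vs) (l.take j) a) := by
  refine (h.absorb (l.take j) fun x hx' => hx x (List.mem_of_mem_take hx')).mono ?_
  have := List.length_take_le j l
  have h2 : (l.take j).length ≤ l.length := by
    rw [List.length_take]; exact min_le_right _ _
  omega

/-- The size of a state. -/
theorem StOk.esize_le {F : List ℕ} {V t m : ℕ} {a : St} (h : StOk F V t a) (hV : V ≤ 2 ^ m) :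
    esize a ≤ 2 * esize F + t * (2 * (2 * esize (pFB F + pY F) + m + 1) + 1) + 1 := by
  have e0 : a = (a.1, a.2) := rfl
  rw [e0, esize_pair, h.feed]
  have h1 : esize a.2 ≤ a.2.length * (2 * (2 * esize (pFB F + pY F) + m + 1) + 1) := by
    refine esize_list_le fun e he => ?_
    have e1 : e = (e.1, e.2) := rfl
    rw [e1, esize_pair]
    have h2 := esize_nat_mono (h.code e he)
    have h3 : esize e.2 ≤ m := esize_nat_le (lt_of_lt_of_le (h.val e he) hV)
    omega
  have h2 := h1.trans (Nat.mul_le_mul_right _ h.len)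
  omega

/-- The output is bounded. -/
theorem StOk.out_le {F : List ℕ} {V t : ℕ} {a : St} (h : StOk F V t a) :
    outS pl vs a ≤ pbig F + V + vs F 0 0 (pY F) + F.getD 0 0 + F.getD 1 0 := by
  have h1 := rootE_snd_le (pl := pl) (vs := vs) (V := V) a.1 a.2 fun e he => (h.val e he).le
  have e : (a.1, a.2) = a := rfl
  rw [e, h.feed] at h1
  unfold outS
  rw [h.feed]
  split_ifs <;> omega

end

end Vale.Agent.P315.OT
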