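import Vale.Agent.P315.OT.StratPT
import Vale.Agent.P315.OT.StratUse
import Vale.Agent.P315.OT.PickerPT

/-!
P315, one-scale track (helper722), OT-7: polynomial time of the visible costs, of the prefix of the
feed, and of the strategy with the standard picker.
-/

set_option autoImplicit false

namespace Vale.Agent.P315.OT

open Vale.Agent.Lib.PolyTime

variable {α : Type} [Enc α]

@[fun_prop]
theorem PT_visF {F : α → List ℕ} {i u v : α → ℕ} (hF : PT ∅ F) (hi : PT ∅ i) (hu : PT ∅ u)
    (hv : PT ∅ v) : PT ∅ (fun a => visF (F a) (i a) (u a) (v a)) := by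
  unfold visF
  fun_prop

theorem PT_visF' : PT ∅ (fun a : List ℕ × ℕ × ℕ × ℕ => visF a.1 a.2.1 a.2.2.1 a.2.2.2) := by
  fun_prop

/-- The prefix of the feed is computable in polynomial time as soon as the parameters are. -/
theorem PT_preF {lx ly D Y Tn Sn : α → ℕ} {Q : α → Prm} (hlx : PT ∅ lx) (hly : PT ∅ ly)
    (hM : PT ∅ (fun a => (Q a).M)) (hn : PT ∅ (fun a => (Q a).n)) (hm : PT ∅ (fun a => (Q a).m))
    (hw : PT ∅ (fun a => (Q a).w)) (hg : PT ∅ (fun a => (Q a).g0)) (hJ : PT ∅ (fun a => (Q a).J))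
    (hN : PT ∅ (fun a => (Q a).N)) (hA : PT ∅ (fun a => (Q a).A)) (hD : PT ∅ D) (hY : PT ∅ Y)
    (hT : PT ∅ Tn) (hS : PT ∅ Sn) :
    PT ∅ (fun a => preF (lx a) (ly a) (Q a) (D a) (Y a) (Tn a) (Sn a)) := by
  unfold preF
  fun_prop

/-- The standard picker is computable in polynomial time. -/
theorem plPT_pkL : PlPT (fun T S => pkL S T) := by
  intro α _ T S M p C q k t H hT hT' hS hM hM' hp hp' hC hq hk hk' ht hH
  exact PT_pkL hS hT hT' hM hM' hp hp' hC hq hk hk' hH ht

/-- The strategy of the one-scale track is computable in polynomial time. -/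
theorem PT_askO : PT ∅ (askS (fun T S => pkL S T) visF) := PT_askS plPT_pkL PT_visF'

theorem PT_updO : PT ∅ (updS (fun T S => pkL S T) visF) := PT_updS plPT_pkL PT_visF'

theorem PT_outO : PT ∅ (outS (fun T S => pkL S T) visF) := PT_outS plPT_pkL PT_visF'

end Vale.Agent.P315.OT
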