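import Vale.Agent.P315.OT.NumOk
import Vale.Agent.P315.OT.SizesPar
import Vale.Agent.P315.OT.Solve2
import Vale.Agent.P315.OT.StratNum
import Vale.Agent.P315.OT.StratHyp
import Vale.Agent.P315.OT.VisPT
import Vale.Agent.P315.OT.Cost
import Vale.Agent.P315.H167.ParPT
import Vale.Agent.P315.OT.Star
import Vale.Agent.P315.OT.H71.Atoms
import Vale.Agent.P315.OT.Value
import Vale.Agent.P315.OT.TimeFin

/-! P315, one-scale track, OT-10: the assembly (helper722). -/

set_option autoImplicit false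

namespace Vale.Agent.P315.OT.Sh

open Vale.Agent.P315 Vale.Agent.P315.OT Vale.Agent.P315.H738 Vale.Agent.P315.H731
open Vale.Agent.Lib.PolyTime
open Vale.Agent.P315.H873 (feedP)
open Vale.Agent.P315.RAM (oround absorb)
open Vale.Agent.P315.H140 (bl)

def zN (a : List ℕ) : ℕ := max (a.getD 0 0) (a.getD 1 0)
def zn (g : ℕ) (a : List ℕ) : ℕ := lvl g 4 (zN a)
def zQ (e g : ℕ) (a : List ℕ) : Prm := OT.Num.prm e (zN a) (zn g a)
def zD (e g : ℕ) (a : List ℕ) : ℕ := OT.Num.pP e (zN a) (zn g a)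
def zR (e g : ℕ) (a : List ℕ) : ℕ := zD e g a ^ 2 + zD e g a ^ 6
def zT (a : List ℕ) : ℕ := 2 ^ (44 * ll (zN a))
def zS (a : List ℕ) : ℕ := 2 ^ (52 * ll (zN a))
def zE (e : ℕ) (a : List ℕ) : ℕ := zT a * OT.Num.pJ1 e (zN a)
def zY (e g : ℕ) (a : List ℕ) : ℕ :=
  a.getD 1 0 / (OT.Num.pK (zN a) (zn g a) * OT.Num.pg e (zN a) (zn g a)) + 1
def zpre (e g : ℕ) (a : List ℕ) : List ℕ :=
  preF (a.getD 0 0) (a.getD 1 0) (zQ e g a) (zD e g a) (zY e g a) (zT a) (zS a)
def zg (e g : ℕ) (a : List ℕ) : ℕ := OT.Num.pg e (zN a) (zn g a)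
def zl (e g : ℕ) (a : List ℕ) : ℕ := OT.Num.pm e (zN a) * zg e g a
def zRq (e g : ℕ) (a : List ℕ) : ℕ := OT.Num.pQ e (zN a) (zn g a)
def zK (g : ℕ) (a : List ℕ) : ℕ := OT.Num.pK (zN a) (zn g a)
def zw (e : ℕ) (a : List ℕ) : ℕ := OT.Num.pw e (zN a)
def zSz (e g : ℕ) (a : List ℕ) : ℕ :=
  otS (esize (zpre e g a)) (zR e g a) (zE e a) (zRq e g a) (zK g a) (zD e g a)
    (zl e g a + zw e a * zg e g a + 1)

theorem PT_zN : PT ∅ zN := by unfold zN; fun_prop
theorem PT_zn (g : ℕ) : PT ∅ (zn g) := OT.Num.PT_lvl g 4 PT_zN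
theorem PBd_zn (g : ℕ) : PBd (zn g) := OT.Num.PBd_lvl' g 4 PT_zN
theorem PT_zK (g : ℕ) : PT ∅ (zK g) := OT.Num.PT_pK PT_zN (PT_zn g) (PBd_zn g)
theorem PT_zg (e g : ℕ) : PT ∅ (zg e g) := OT.Num.PT_pg e PT_zN (PT_zn g) (PBd_zn g)
theorem PT_zl (e g : ℕ) : PT ∅ (zl e g) := PT.mul (OT.Num.PT_pm e PT_zN) (PT_zg e g)
theorem PT_zD (e g : ℕ) : PT ∅ (zD e g) := OT.Num.PT_pP e PT_zN (PT_zn g) (PBd_zn g)
theorem PT_zRq (e g : ℕ) : PT ∅ (zRq e g) := OT.Num.PT_pQ e PT_zN (PT_zn g) (PBd_zn g)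
theorem PT_zT : PT ∅ zT := OT.Num.PT_two_pow_ll PT_zN 44
theorem PT_zS : PT ∅ zS := OT.Num.PT_two_pow_ll PT_zN 52
theorem PT_zE (e : ℕ) : PT ∅ (zE e) := PT.mul PT_zT (OT.Num.PT_pJ1 e PT_zN)
theorem PT_zR (e g : ℕ) : PT ∅ (zR e g) :=
  PT.add (PT.powConst (PT_zD e g) 2) (PT.powConst (PT_zD e g) 6)
theorem PT_zY (e g : ℕ) : PT ∅ (zY e g) := by
  refine PT.add (PT.div ?_ (PT.mul (PT_zK g) (PT_zg e g))) (PT.const 1)
  fun_prop
theorem PT_zpre (e g : ℕ) : PT ∅ (zpre e g) := by
  refine PT_preF (by fun_prop) (by fun_prop) (OT.Num.PT_bra 4 PT_zN) (PT_zn g)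
    (OT.Num.PT_pm e PT_zN) (OT.Num.PT_pw e PT_zN) (PT_zg e g) (OT.Num.PT_pJ e PT_zN)
    (OT.Num.PT_pN e PT_zN (PT_zn g)) (OT.Num.PT_pA e PT_zN) (PT_zD e g) (PT_zY e g) PT_zT PT_zS

/-- The guarantee. -/
def goodA (ε : ℝ) (x y : List ℕ) (D : ℕ) : Prop :=
  ED x y ≤ D ∧ (D : ℝ) ≤ ED x y + ε * ((max x.length y.length : ℕ) : ℝ)

theorem stmtVal : StmtValue := stmtValue stmtCur stmtStar stmtAtoms

section prob

variable {e g : ℕ} {x y : List ℕ}

/-- Two thirds of the seeds are good. -/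
theorem prob_ok (he : 1 ≤ e) (h : OT.Num.Reg2 e g (max x.length y.length)) {ε : ℝ}
    (hε : 7 / (e : ℝ) ≤ ε) (hN1 : 1 ≤ max x.length y.length) :
    2 * Nat.card (Fin (zR e g [x.length, y.length]) → Fin (zE e [x.length, y.length])) ≤
      3 * Nat.card {c : Fin (zR e g [x.length, y.length]) → Fin (zE e [x.length, y.length]) //
        goodA ε x y (outS (fun T S => pkL S T) visF
          (otRun startS (askS (fun T S => pkL S T) visF) (updS (fun T S => pkL S T) visF) x y
            (zl e g [x.length, y.length]) (zg e g [x.length, y.length])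
            (zD e g [x.length, y.length]) (zRq e g [x.length, y.length])
            (feedP (zpre e g [x.length, y.length]) c)))} := by
  have hrun := OT.Num.prm_run (g := g) (N := max x.length y.length) he h.reg
    (y := y) (le_max_right _ _)
  set N := max x.length y.length with hN
  have e1 : (N : ℕ) = max x.length y.length := hN
  have hRd : (OT.Num.prm e N (lvl g 4 N)).Rd = OT.Num.pRd e N (lvl g 4 N) := rfl
  have hE : 0 < zE e [x.length, y.length] := by
    unfold zE zT OT.Num.pJ1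
    positivity
  have hV := OT.Num.value_num (g := g) (N := N) he h.reg (Lg := 14 * ll N) le_rfl
    (OT.Num.err_le h)
  have hx : x.length ≤ (OT.Num.prm e N (lvl g 4 N)).len (OT.Num.prm e N (lvl g 4 N)).n := by
    show x.length ≤ (OT.Num.prm e N (lvl g 4 N)).len (lvl g 4 N)
    rw [OT.Num.prm_len_n]
    exact (le_max_left x.length y.length).trans (OT.Num.len_ge he).le
  have hy : y.length ≤ (OT.Num.prm e N (lvl g 4 N)).len (OT.Num.prm e N (lvl g 4 N)).n := by
    show y.length ≤ (OT.Num.prm e N (lvl g 4 N)).len (lvl g 4 N)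
    rw [OT.Num.prm_len_n]
    exact (le_max_right x.length y.length).trans (OT.Num.len_ge he).le
  have hlev := h.reg.lev1
  have key := root_seeds stmtVal (Q := OT.Num.prm e N (lvl g 4 N))
    (Cd := stdCode (OT.Num.pP e N (lvl g 4 N)))
    (P := stdPicker (2 ^ (52 * ll N)) (2 ^ (44 * ll N))) (x := x) (y := y)
    (R := zR e g [x.length, y.length]) (E := zE e [x.length, y.length])
    (Pb := OT.Num.pP e N (lvl g 4 N)) (Lg := 14 * ll N) (e3 := 8 / (bra 4 N : ℕ))
    (OT.Num.prm_ok he (by omega)) (k := 16 * e) (by omega) le_rfl hx hy hE ?_ ?_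
    (OT.Num.picker_ok h _) (stdCode_ok _) (OT.Num.b1 _ _ _) (OT.Num.b2 _ _ _)
    (OT.Num.b3 _ _ _ (OT.Num.prm_Y_le he (le_max_right _ _))) (OT.Num.b4 _ _ _)
    (OT.Num.two_pN_le _ _ _) (OT.Num.lam_nonneg e N) (fun c => outS (fun T S => pkL S T) visF
          (otRun startS (askS (fun T S => pkL S T) visF) (updS (fun T S => pkL S T) visF) x y
            (zl e g [x.length, y.length]) (zg e g [x.length, y.length])
            (zD e g [x.length, y.length]) (zRq e g [x.length, y.length])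
            (feedP (zpre e g [x.length, y.length]) c))) (zRq e g [x.length, y.length])
    (fun c => run_ok hrun c _) (ε := ε) ?_ ?_ ?_ ?_
  · exact key
  · show OT.Num.pJ e N + 1 ∣ _
    rw [OT.Num.pJ_add]
    exact Dvd.intro_left _ rfl
  · exact Dvd.intro _ rfl
  · exact OT.Num.hval_num he h.reg hV hε
  · exact OT.Num.heps_num he h.reg hN1 hε
  · exact Nat.succ_pos _
  · refine le_trans ?_ (OT.Num.six_le_pQ e N (lvl g 4 N))
    have := OT.Num.area_num he h.reg
    exact mul_le_mul_of_nonneg_left this (by norm_num)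

end prob

/-- Numerical conditions. -/
theorem hyp_ok {e g cc : ℕ} (he : 1 ≤ e) {x y : List ℕ} {ε : ℝ} (hε : 7 / (e : ℝ) ≤ ε)
    (hN1 : 1 ≤ max x.length y.length)
    (hs : SizesOk e g cc x.length y.length) (h : OT.Num.Reg2 e g (max x.length y.length)) :
    OTHyp2 startS (askS (fun T S => pkL S T) visF) (updS (fun T S => pkL S T) visF)
      (outS (fun T S => pkL S T) visF) (goodA ε) cc cc x y (zpre e g [x.length, y.length])
      (zl e g [x.length, y.length]) (zg e g [x.length, y.length]) (zD e g [x.length, y.length])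
      (zRq e g [x.length, y.length]) (zE e [x.length, y.length]) (zR e g [x.length, y.length])
      (zK g [x.length, y.length]) (zw e [x.length, y.length]) (zSz e g [x.length, y.length]) := by
  have hrun := OT.Num.prm_run (g := g) (N := max x.length y.length) he h.reg
    (y := y) (le_max_right _ _)
  have hv := fun (c : Fin (zR e g [x.length, y.length]) → Fin (zE e [x.length, y.length])) t =>
    run_valid (x := x) (y := y) (Sn := zS [x.length, y.length]) hrun c t
  have hY : (OT.Num.prm e (max x.length y.length) (lvl g 4 (max x.length y.length))).Y y ≤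
      max x.length y.length + 1 := by
    unfold Prm.Y
    have h1 := Nat.div_le_self y.length ((OT.Num.prm e (max x.length y.length)
      (lvl g 4 (max x.length y.length))).M ^ (OT.Num.prm e (max x.length y.length)
      (lvl g 4 (max x.length y.length))).n * (OT.Num.prm e (max x.length y.length)
      (lvl g 4 (max x.length y.length))).g0)
    have h2 := le_max_right x.length y.length
    omega
  have hM : 1 ≤ (OT.Num.prm e (max x.length y.length) (lvl g 4 (max x.length y.length))).M := by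
    have := OT.Num.bra_ge (max x.length y.length)
    show 1 ≤ bra 4 (max x.length y.length)
    omega
  refine
    { e_pow := ?_
      l_le := hs.l_le
      g_le := hs.g_le
      D_le := hs.D_le
      Q_le := hs.Q_le
      e_le := hs.e_le
      N_le := hs.N_le
      KD_le := hs.KD_le
      Kl_le := hs.Kl_le
      lw_le := hs.lw_le
      S_le := hs.S_le _ hY
      pre_le := hs.pre_le _ hY
      valid := fun c t _ => hv c t
      size := fun c t ht j hj => otHyp_size hM hrun.D_gt (fun t _ => hv c t) t ht j hj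
      sizeQ := fun c => otHyp_sizeQ hM hrun.D_gt (fun t _ => hv c t)
      out_le := fun c => (otHyp_out hM (fun t _ => hv c t)).trans hs.out_le
      prob := prob_ok he h hε hN1 }
  refine ⟨44 * ll (zN [x.length, y.length]) +
    (Nat.log 2 (16384 * e ^ 2 * ll (zN [x.length, y.length])) + 1), ?_⟩
  exact (pow_add 2 _ _).symm

/-- The cost, with the constant `c` first. -/
theorem time_ok {e : ℕ} (he : 1 ≤ e) (k : ℕ) : ∃ g : ℕ, 2 ≤ g ∧ ∃ c : ℝ, 0 < c ∧
    ∀ k1 cc : ℕ, ∃ (C0 : ℝ) (n0 : ℕ), ∀ x y : List ℕ, n0 ≤ max x.length y.length →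
        (otTime k k1 (cc * bl (x.length + y.length)) (zR e g [x.length, y.length])
          (esize (zpre e g [x.length, y.length])) (zSz e g [x.length, y.length])
          (zRq e g [x.length, y.length])
          (zl e g [x.length, y.length]) (zw e [x.length, y.length] * zg e g [x.length, y.length])
          (x.length + y.length) : ℝ) ≤ C0 * OT.Num.bd c (max x.length y.length) := by
  refine ⟨2 * OT.Num.costA k 8, by unfold OT.Num.costA; omega, ?_⟩
  obtain ⟨c, hc, -, h⟩ := OT.Num.htime_num he k (2 * OT.Num.costA k 8) le_rfl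
  refine ⟨c, hc, fun k1 cc => ?_⟩
  obtain ⟨C0, n0, -, h1⟩ := h cc k1
  refine ⟨C0, n0, fun x y hn => ?_⟩
  refine h1 (max x.length y.length) x.length y.length
    (zY e (2 * OT.Num.costA k 8) [x.length, y.length]) hn (le_max_left _ _) (le_max_right _ _) ?_
  have h2 := Nat.div_le_self y.length (OT.Num.pK (zN [x.length, y.length])
    (zn (2 * OT.Num.costA k 8) [x.length, y.length]) *
    OT.Num.pg e (zN [x.length, y.length]) (zn (2 * OT.Num.costA k 8) [x.length, y.length]))
  have h3 := le_max_right x.length y.length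
  show y.length / _ + 1 ≤ _
  omega

/-- **The theorem of the one-scale track.** -/
theorem final : ∀ ε : ℝ, 0 < ε → ∃ (c : ℝ), 0 < c ∧ ∃ (C : ℝ) (kk : ℕ) (P : Prog),
    Top.Solves P (goodA ε) (fun n => C * OT.Num.bd c n) kk := by
  intro ε hε
  obtain ⟨e, he1⟩ := exists_nat_ge (7 / ε)
  have he0 : 1 ≤ e := by
    have h1 : 0 < 7 / ε := by positivity
    have : (0 : ℝ) < e := lt_of_lt_of_le h1 he1
    exact_mod_cast this
  have hε' : 7 / (e : ℝ) ≤ ε := by
    have h1 : (0 : ℝ) < e := by exact_mod_cast he0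
    rw [div_le_iff₀ h1]
    rw [div_le_iff₀ hε] at he1
    linarith
  obtain ⟨k, hk⟩ := exists_solves2 PT_startS PT_askO PT_updO PT_outO
  obtain ⟨g, hg, c, hc, htime⟩ := time_ok he0 k
  obtain ⟨cc, hcc, hsz⟩ := sizes_ok he0 (show 1 ≤ g by omega)
  obtain ⟨N0, hN0⟩ := OT.Num.ev_reg2 e g he0 hg
  refine ⟨c, hc, ?_⟩
  refine hk (zpre e g) (zl e g) (zg e g) (zD e g) (zRq e g) (zE e) (zR e g) (PT_zpre e g)
    (PT_zl e g) (PT_zg e g) (PT_zD e g) (PT_zRq e g) (PT_zE e) (PT_zR e g) (zK g) (zw e) (zSz e g)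
    cc cc (max N0 1) (goodA ε) (OT.Num.bd c) hcc ?_ ?_ ?_ ?_
  · intro n
    unfold OT.Num.bd
    positivity
  · intro x y
    refine ⟨le_rfl, ?_⟩
    have : 0 ≤ ε * ((max x.length y.length : ℕ) : ℝ) := by positivity
    linarith
  · intro x y hn
    exact hyp_ok he0 hε' (le_of_max_le_right hn) (hsz _ _) (hN0 _ (le_of_max_le_left hn))
  · intro k1
    exact htime k1 cc

end Vale.Agent.P315.OT.Sh
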